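import Crest.Agent.R113.DefsL

/-!
# R113 — a sequence of clock speeds with the code property
-/

set_option autoImplicit false

namespace Crest.Agent.R113

open MeasureTheory Filter

open scoped unitInterval

private theorem code_Icc {a b : ℝ} (hab : a ≤ b) :
    (volume : Measure I).real {u : I | (u : ℝ) ∈ Set.Icc a b} ≤ b - a := by
  have h : (volume : Measure I) {u : I | (u : ℝ) ∈ Set.Icc a b} ≤ ENNReal.ofReal (b - a) := by
    rw [unitInterval.volume_apply, ← Real.volume_Icc]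
    refine measure_mono ?_
    rintro _ ⟨u, hu, rfl⟩
    exact hu
  exact ENNReal.toReal_le_of_le_ofReal (by linarith) h

/-- the set of `u` with `α + β u` close to an integer -/
private def codeB (α β ε : ℝ) : Set I := {u | ∃ m : ℤ, |α + β * u - m| ≤ ε}

private theorem code_meas (α β ε : ℝ) : MeasurableSet (codeB α β ε) := by
  unfold codeB
  rw [Set.ofPred_exists]
  exact MeasurableSet.iUnion fun m => measurableSet_le (by fun_prop) measurable_const

private theorem code_one {α β ε : ℝ} (hβ : 1 ≤ β) (hε0 : 0 ≤ ε) (hε : ε < 1) :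
    (volume : Measure I).real (codeB α β ε) ≤ 8 * ε := by
  have hβ0 : 0 < β := by linarith
  have hsub : codeB α β ε ⊆ ⋃ j ∈ Finset.range (⌈β⌉₊ + 2),
      {u : I | (u : ℝ) ∈ Set.Icc ((⌊α⌋ + j - α - ε) / β) ((⌊α⌋ + j - α + ε) / β)} := by
    rintro u ⟨m, hm⟩
    obtain ⟨h1, h2⟩ := abs_le.1 hm
    have hu0 : 0 ≤ β * u := mul_nonneg hβ0.le u.2.1
    have hu1 : β * u ≤ β := mul_le_of_le_one_right hβ0.le u.2.2
    have hf1 := Int.floor_le α
    have hf2 := Int.lt_floor_add_one α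
    have hc := Nat.le_ceil β
    have h3 : ⌊α⌋ - 1 < m := by
      have : ((⌊α⌋ - 1 : ℤ) : ℝ) < m := by push_cast; linarith
      exact_mod_cast this
    have h4 : m < ⌊α⌋ + (⌈β⌉₊ + 2 : ℕ) := by
      have : (m : ℝ) < ((⌊α⌋ + (⌈β⌉₊ + 2 : ℕ) : ℤ) : ℝ) := by push_cast; linarith
      exact_mod_cast this
    obtain ⟨j, hj⟩ : ∃ j : ℕ, m = ⌊α⌋ + j := ⟨(m - ⌊α⌋).toNat, by omega⟩
    simp only [Set.mem_iUnion, Finset.mem_range, Set.mem_ofPred_eq, Set.mem_Icc]
    have hj' : (m : ℝ) = ⌊α⌋ + j := by exact_mod_cast hj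
    refine ⟨j, by omega, ?_, ?_⟩
    · rw [div_le_iff₀ hβ0]; linarith
    · rw [le_div_iff₀ hβ0]; linarith
  refine (measureReal_mono hsub (measure_ne_top _ _)).trans ((measureReal_biUnion_finset_le _ _).trans ?_)
  refine (Finset.sum_le_card_nsmul _ _ (2 * ε / β) fun j _ => ?_).trans ?_
  · refine (code_Icc (div_le_div_of_nonneg_right (by linarith) hβ0.le)).trans (le_of_eq ?_)
    ring
  · rw [Finset.card_range, nsmul_eq_mul, ← mul_div_assoc, div_le_iff₀ hβ0]
    have h1 : ((⌈β⌉₊ + 2 : ℕ) : ℝ) ≤ 4 * β := by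
      have := Nat.ceil_lt_add_one hβ0.le
      push_cast
      linarith
    nlinarith

/-- the random speeds -/
private noncomputable def codeT (ω : ℕ → I) (i : ℕ) : ℝ := (5 / 4 + (ω i : ℝ) / 2) / 100 ^ i

private noncomputable abbrev codeP : Measure (ℕ → I) :=
  Measure.infinitePi fun _ : ℕ => (volume : Measure I)

/-- the cylinder of `ω` for which `x * t i` is `5κ`-close to an integer for all `i ∈ S` -/
private def codeC (x : ℝ) (S : Finset ℕ) : Set (ℕ → I) :=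
  Set.pi S fun i => codeB (x * (5 / 4) / 100 ^ i) (x / 2 / 100 ^ i) (5 / 100 ^ 8)

private theorem code_cyl {x : ℝ} {S : Finset ℕ} {r : ℕ} (hx : ∀ i ∈ S, 2 * 100 ^ i ≤ x)
    (hS : r ≤ 2 * S.card) : codeP.real (codeC x S) ≤ (7 / 100 ^ 4) ^ r := by
  rw [measureReal_def, codeC, Measure.infinitePi_pi _ fun i _ => code_meas _ _ _,
    ENNReal.toReal_prod]
  calc _ ≤ ∏ _i ∈ S, ((7 / 100 ^ 4 : ℝ)) ^ 2 := by
        refine Finset.prod_le_prod (fun i _ => ENNReal.toReal_nonneg) fun i hi => ?_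
        refine (code_one ?_ (by norm_num) (by norm_num)).trans (by norm_num)
        rw [le_div_iff₀ (by positivity)]
        linarith [hx i hi]
    _ = (7 / 100 ^ 4 : ℝ) ^ (2 * S.card) := by rw [Finset.prod_const, ← pow_mul]
    _ ≤ _ := pow_le_pow_of_le_one (by norm_num) (by norm_num) hS

open Classical in
/-- failure of the code property at base level `k` and window length `r` -/
private def codeBad (k r : ℕ) : Set (ℕ → I) :=
  {ω | ∃ d : ℤ, (100 : ℤ) ^ (k + 2 * r) ≤ |d| ∧ |d| ≤ 100 ^ (k + 4 * r) ∧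
    2 * ((Finset.Ico (k + r) (k + 2 * r)).filter
      (fun i => ∀ m : ℤ, 4 / 100 ^ 8 < |(d : ℝ) * codeT ω i - (m : ℝ)|)).card < r}

private theorem codeT_bd (ω : ℕ → I) (i : ℕ) :
    5 / 4 / 100 ^ i ≤ codeT ω i ∧ codeT ω i ≤ 7 / 4 / 100 ^ i :=
  ⟨div_le_div_of_nonneg_right (by linarith [(ω i).2.1]) (by positivity),
    div_le_div_of_nonneg_right (by linarith [(ω i).2.2]) (by positivity)⟩

private theorem code_bad {k r : ℕ} (hr : 1 ≤ r) :
    codeP.real (codeBad k r) ≤ 3 * 100 ^ 8 * (1 / 2) ^ r := by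
  classical
  set Δ : ℝ := 100 ^ (k + r) / 100 ^ 8 / 2 with hΔ
  have hΔ0 : 0 < Δ := by positivity
  set W := Finset.Ico (k + r) (k + 2 * r) with hW
  have hWc : W.card = r := by rw [hW, Nat.card_Ico]; omega
  set N := (Finset.range (3 * 100 ^ (3 * r + 8))).filter
    (fun n : ℕ => (100 : ℝ) ^ (k + 2 * r) / 2 ≤ n * Δ) with hN
  have hsub : codeBad k r ⊆ ⋃ n ∈ N, ⋃ S ∈ W.powerset.filter (fun S => r ≤ 2 * S.card),
      codeC (n * Δ) S := by
    rintro ω ⟨d, hd1, hd2, hd3⟩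
    have hD1 : (100 : ℝ) ^ (k + 2 * r) ≤ |(d : ℝ)| := by exact_mod_cast hd1
    have hD2 : |(d : ℝ)| ≤ (100 : ℝ) ^ (k + 4 * r) := by exact_mod_cast hd2
    set D := |(d : ℝ)| with hD
    have hD0 : 0 ≤ D / Δ := div_nonneg (abs_nonneg _) hΔ0.le
    have hn1 : (⌊D / Δ⌋₊ : ℝ) * Δ ≤ D := (le_div_iff₀ hΔ0).1 (Nat.floor_le hD0)
    have hn2 : D < (⌊D / Δ⌋₊ + 1) * Δ := (div_lt_iff₀ hΔ0).1 (Nat.lt_floor_add_one _)
    have hΔ1 : Δ ≤ 100 ^ (k + 2 * r) / 2 := by
      refine div_le_div_of_nonneg_right ((div_le_self (by positivity) (by norm_num)).trans ?_)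
        (by norm_num)
      exact pow_le_pow_right₀ (by norm_num) (by omega)
    simp only [Set.mem_iUnion]
    refine ⟨⌊D / Δ⌋₊, Finset.mem_filter.2 ⟨Finset.mem_range.2 ?_, by linarith⟩,
      W.filter (fun i => ¬ ∀ m : ℤ, 4 / 100 ^ 8 < |(d : ℝ) * codeT ω i - (m : ℝ)|),
      Finset.mem_filter.2 ⟨Finset.mem_powerset.2 (Finset.filter_subset _ _), ?_⟩, ?_⟩
    · rw [Nat.floor_lt hD0, div_lt_iff₀ hΔ0]
      refine hD2.trans_lt ?_
      have h1 : (100 : ℝ) ^ (k + 4 * r) * 100 ^ 8 = 100 ^ (3 * r + 8) * 100 ^ (k + r) := by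
        rw [← pow_add, ← pow_add]; congr 1; omega
      have h2 : (0 : ℝ) < 100 ^ (k + 4 * r) := by positivity
      have h3 : ((3 * 100 ^ (3 * r + 8) : ℕ) : ℝ) * Δ = 3 / 2 * 100 ^ (k + 4 * r) := by
        rw [hΔ]
        push_cast
        linarith
      rw [h3]
      linarith
    · have := Finset.card_filter_add_card_filter_not (s := W)
        (fun i => ∀ m : ℤ, 4 / 100 ^ 8 < |(d : ℝ) * codeT ω i - (m : ℝ)|)
      rw [← hW] at hd3
      omega
    · intro i hi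
      obtain ⟨hiW, hi⟩ := Finset.mem_filter.1 (Finset.mem_coe.1 hi)
      push Not at hi
      obtain ⟨m, hm⟩ := hi
      obtain ⟨m', hm'⟩ : ∃ m' : ℤ, |D * codeT ω i - m'| ≤ 4 / 100 ^ 8 := by
        rcases abs_choice (d : ℝ) with h | h
        · exact ⟨m, by rwa [hD, h]⟩
        · refine ⟨-m, ?_⟩
          rw [hD, h, ← abs_neg]
          refine le_trans (le_of_eq ?_) hm
          congr 1
          push_cast
          ring
      refine ⟨m', ?_⟩
      have h1 : (⌊D / Δ⌋₊ : ℝ) * Δ * (5 / 4) / 100 ^ i + (⌊D / Δ⌋₊ : ℝ) * Δ / 2 / 100 ^ i * ω i - m' =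
          (D * codeT ω i - m') - (D - (⌊D / Δ⌋₊ : ℝ) * Δ) * codeT ω i := by
        rw [codeT]; ring
      have ht := codeT_bd ω i
      have ht0 : 0 ≤ codeT ω i := le_trans (by positivity) ht.1
      have h2 : (D - (⌊D / Δ⌋₊ : ℝ) * Δ) * codeT ω i ≤ 1 / 100 ^ 8 := by
        have h3 : (7 / 4 / 100 ^ i : ℝ) ≤ 2 / 100 ^ (k + r) :=
          div_le_div₀ (by norm_num) (by norm_num) (by positivity)
            (pow_le_pow_right₀ (by norm_num) (Finset.mem_Ico.1 hiW).1)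
        refine (mul_le_mul (show _ ≤ Δ by linarith) (ht.2.trans h3) ht0 hΔ0.le).trans
          (le_of_eq ?_)
        rw [hΔ]
        field_simp
      have h4 : 0 ≤ (D - (⌊D / Δ⌋₊ : ℝ) * Δ) * codeT ω i := mul_nonneg (by linarith) ht0
      rw [h1]
      obtain ⟨h5, h6⟩ := abs_le.1 hm'
      exact abs_le.2 ⟨by linarith, by linarith⟩
  refine (measureReal_mono hsub (measure_ne_top _ _)).trans ((measureReal_biUnion_finset_le _ _).trans ?_)
  refine (Finset.sum_le_card_nsmul _ _ (2 ^ r * (7 / 100 ^ 4) ^ r) fun n hn => ?_).trans ?_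
  · refine (measureReal_biUnion_finset_le _ _).trans
      ((Finset.sum_le_card_nsmul _ _ ((7 / 100 ^ 4) ^ r) fun S hS => ?_).trans ?_)
    · obtain ⟨hS1, hS2⟩ := Finset.mem_filter.1 hS
      refine code_cyl (fun i hi => le_trans ?_ (Finset.mem_filter.1 hn).2) hS2
      have h1 := (Finset.mem_Ico.1 (Finset.mem_powerset.1 hS1 hi)).2
      have h2 : (100 : ℝ) ^ (i + 1) ≤ 100 ^ (k + 2 * r) := pow_le_pow_right₀ (by norm_num) h1
      have h3 : (0 : ℝ) < 100 ^ i := by positivity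
      rw [pow_succ] at h2
      linarith
    · rw [nsmul_eq_mul]
      refine mul_le_mul_of_nonneg_right ?_ (by positivity)
      have := Finset.card_filter_le W.powerset (fun S => r ≤ 2 * S.card)
      rw [Finset.card_powerset, hWc] at this
      exact_mod_cast this
  · rw [nsmul_eq_mul]
    have h1 : (N.card : ℝ) ≤ 3 * 100 ^ (3 * r + 8) := by
      have := Finset.card_filter_le (Finset.range (3 * 100 ^ (3 * r + 8)))
        (fun n : ℕ => (100 : ℝ) ^ (k + 2 * r) / 2 ≤ n * Δ)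
      rw [Finset.card_range, ← hN] at this
      exact_mod_cast this
    refine (mul_le_mul_of_nonneg_right h1 (by positivity)).trans ?_
    calc (3 : ℝ) * 100 ^ (3 * r + 8) * (2 ^ r * (7 / 100 ^ 4) ^ r)
        = 3 * 100 ^ 8 * (100 ^ 3 * (2 * (7 / 100 ^ 4))) ^ r := by
          rw [pow_add, pow_mul, mul_pow, mul_pow]; ring
      _ ≤ _ := mul_le_mul_of_nonneg_left
          (pow_le_pow_left₀ (by norm_num) (by norm_num) r) (by norm_num)

private theorem code_k (k : ℕ) :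
    codeP {ω | ¬ CodeAt (codeT ω) (4 / 100 ^ 8) 60 k} ≤ 2⁻¹ := by
  have hsub : {ω | ¬ CodeAt (codeT ω) (4 / 100 ^ 8) 60 k} ⊆ ⋃ s : ℕ, codeBad k (2 ^ (s + 60)) := by
    intro ω hω
    simp only [Set.mem_ofPred_eq, CodeAt] at hω
    push Not at hω
    obtain ⟨s, hs, d, hd1, hd2, hd3⟩ := hω
    obtain ⟨s, rfl⟩ : ∃ s', s = s' + 60 := ⟨s - 60, by omega⟩
    refine Set.mem_iUnion.2 ⟨s, d, ?_, ?_, ?_⟩
    · rwa [← pow_succ']
    · rwa [show 4 * 2 ^ (s + 60) = 2 ^ (s + 60 + 2) by ring]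
    · rwa [← pow_succ']
  refine (measure_mono hsub).trans ((measure_iUnion_le _).trans ?_)
  have h1 : ∀ s : ℕ, codeP (codeBad k (2 ^ (s + 60))) ≤ ENNReal.ofReal (1 / 2 / 2 / 2 ^ s) := by
    intro s
    rw [← ofReal_measureReal]
    refine ENNReal.ofReal_le_ofReal ((code_bad Nat.one_le_two_pow).trans ?_)
    have h2 : ((1 / 2 : ℝ)) ^ (2 ^ (s + 60)) ≤ (1 / 2) ^ (s + 60) :=
      pow_le_pow_of_le_one (by norm_num) (by norm_num) Nat.lt_two_pow_self.le
    refine (mul_le_mul_of_nonneg_left h2 (by norm_num)).trans ?_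
    calc (3 : ℝ) * 100 ^ 8 * (1 / 2) ^ (s + 60) = 3 * 100 ^ 8 * (1 / 2) ^ 60 / 2 ^ s := by
          rw [pow_add, one_div_pow (n := s)]; ring
      _ ≤ _ := div_le_div_of_nonneg_right (by norm_num) (by positivity)
  refine (ENNReal.tsum_le_tsum h1).trans (le_of_eq ?_)
  rw [← ENNReal.ofReal_tsum_of_nonneg (fun _ => by positivity) (summable_geometric_two' _),
    tsum_geometric_two', one_div, ENNReal.ofReal_inv_of_pos (by norm_num), ENNReal.ofReal_ofNat]

/-- Random choice.  Let `t i` be independent and uniform in `[5/4, 7/4] / 100 ^ i`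
(`Measure.infinitePi`, cylinders via `Measure.infinitePi_pi`), `κ = 100^(-8)`.  Fix `k, s`, put
`r = 2 ^ s`, `a = k + r`.  For real `d ≥ 100 ^ (a + r) / 2` and `i < a + r`, `d * t i` is uniform on an
interval of length `≥ 25`, so `P (dist (d * t i, ℤ) ≤ 5 κ) ≤ 11 κ`.  Use a net of
`[100^(a+r), 100^(a+3r)]` of mesh `Δ = κ 100 ^ a / 2` (moving `d` by `Δ` moves `d * t i` by `≤ κ` for
`i ≥ a`), of size `≤ 3 * 100^(3r+8)`.  If `CodeAt t (4κ)` fails at `s` for `d` (wlog `d > 0`), more than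
`r / 2` of the levels in the window are `5κ`-bad for the net point; union bound over subsets:
probability `≤ 3 * 100^(3r+8) * 2^r * (11 κ)^(r/2) ≤ 3 * 100^8 * (7/100)^r`.  Sum over `s ≥ s0`: `≤ 1/2`.
So each `k` is good with probability `≥ 1/2`, hence (continuity from above of the measure of
`⋃_{k ≥ n} Good k`) with probability `≥ 1/2` infinitely many `k` are good.
(Any other proof, e.g. a greedy choice with a potential function, is fine.) -/
theorem exists_code : ∃ (t : ℕ → ℝ) (s0 : ℕ),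
    (∀ i, 5 / 4 / 100 ^ i ≤ t i ∧ t i ≤ 7 / 4 / 100 ^ i) ∧
    ∃ᶠ k in atTop, CodeAt t (4 / 100 ^ 8) s0 k := by
  have key : ∃ ω : ℕ → I, ∃ᶠ k in atTop, CodeAt (codeT ω) (4 / 100 ^ 8) 60 k := by
    by_contra hcon
    push Not at hcon
    set E : ℕ → Set (ℕ → I) := fun n => {ω | ∀ k, n ≤ k → ¬ CodeAt (codeT ω) (4 / 100 ^ 8) 60 k}
      with hE
    have hmono : Monotone E := fun n n' h ω hω k hk => hω k (h.trans hk)
    have huniv : ⋃ n, E n = Set.univ := by
      refine Set.eq_univ_of_forall fun ω => Set.mem_iUnion.2 ?_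
      exact eventually_atTop.1 (hcon ω)
    have h1 : codeP (⋃ n, E n) ≤ 2⁻¹ := by
      rw [hmono.measure_iUnion]
      refine iSup_le fun n => le_trans (measure_mono fun ω hω => ?_) (code_k n)
      exact hω n le_rfl
    rw [huniv, measure_univ] at h1
    norm_num at h1
  obtain ⟨ω, hω⟩ := key
  exact ⟨codeT ω, 60, codeT_bd ω, hω⟩

/-- `|d| ≤ 100 ^ (k + 4 * 2 ^ s) ≤ 100 ^ (4 i)` for `i ≥ k + 2 ^ s`. -/
theorem CodeAt.perturb {t θ : ℕ → ℝ} {s0 k : ℕ} (h : CodeAt t (4 / 100 ^ 8) s0 k)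
    (hθ : ∀ i, |θ i - t i| ≤ 1 / 100 ^ (4 * i + 8)) : CodeAt θ (3 / 100 ^ 8) s0 k := by
  classical
  intro s hs d hd1 hd2
  refine (h s hs d hd1 hd2).trans (Nat.mul_le_mul_left _ (Finset.card_le_card fun i hi => ?_))
  obtain ⟨hi1, hi2⟩ := Finset.mem_filter.1 hi
  refine Finset.mem_filter.2 ⟨hi1, fun m => ?_⟩
  have h1 : |(d : ℝ)| ≤ 100 ^ (4 * i) := by
    have h2 : |(d : ℝ)| ≤ 100 ^ (k + 2 ^ (s + 2)) := by exact_mod_cast hd2
    refine h2.trans (pow_le_pow_right₀ (by norm_num) ?_)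
    have := (Finset.mem_Ico.1 hi1).1
    rw [pow_add]
    omega
  have h3 : |(d : ℝ) * (θ i - t i)| ≤ 1 / 100 ^ 8 := by
    rw [abs_mul]
    refine (mul_le_mul h1 (hθ i) (abs_nonneg _) (by positivity)).trans (le_of_eq ?_)
    rw [pow_add]
    field_simp
  have h4 := hi2 m
  have h5 : |(d : ℝ) * t i - m| ≤ |(d : ℝ) * θ i - m| + |(d : ℝ) * (θ i - t i)| := by
    refine le_trans (le_of_eq ?_) (abs_sub _ _)
    congr 1
    ring
  linarith

end Crest.Agent.R113
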