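import Crest.Agent.R113.DefsL

/-!
# R113 — decorrelation from highly periodic sets, and tools for the recursive choice of the clocks
-/

set_option autoImplicit false

namespace Crest.Agent.R113

open MeasureTheory Filter Topology

theorem decor_cont {S : Set UnitAddCircle} (hS : MeasurableSet S) {ε : ENNReal} (hε : 0 < ε) :
    ∃ δ : ℝ, 0 < δ ∧ ∀ r : ℝ, |r| < δ →
      (volume : Measure UnitAddCircle)
        (symmDiff ((fun x => x + (r : UnitAddCircle)) ⁻¹' S) S) ≤ ε := by
  let F : C(ℝ × UnitAddCircle, UnitAddCircle) :=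
    ⟨fun z => z.2 + (z.1 : UnitAddCircle),
      continuous_snd.add ((AddCircle.continuous_mk' 1).comp continuous_fst)⟩
  have h := tendsto_measure_symmDiff_preimage_nhds_zero (μ := volume) (ν := volume)
    (l := 𝓝 (0 : ℝ)) (f := fun r => F.curry r) (g := F.curry 0) (s := S)
    (F.curry.continuous.tendsto 0)
    (Eventually.of_forall fun r => measurePreserving_add_right volume (r : UnitAddCircle))
    (measurePreserving_add_right volume ((0 : ℝ) : UnitAddCircle)) hS.nullMeasurableSet (measure_ne_top _ _)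
  rw [ENNReal.tendsto_nhds_zero] at h
  obtain ⟨δ, hδ, h⟩ := Metric.eventually_nhds_iff.1 (h ε hε)
  refine ⟨δ, hδ, fun r hr => ?_⟩
  have h1 := h (y := r) (by simpa [Real.dist_eq] using hr)
  have h2 : (F.curry 0) ⁻¹' S = S := by
    ext x
    simp [F]
  rw [h2] at h1
  exact h1

theorem decor_per {B : Set UnitAddCircle} {c : UnitAddCircle} (hB : ∀ x, x + c ∈ B ↔ x ∈ B)
    (k : ℤ) (x : UnitAddCircle) : x + k • c ∈ B ↔ x ∈ B := by
  induction k using Int.induction_on generalizing x with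
  | zero => simp
  | succ k ih => rw [add_smul, one_smul, ← add_assoc, hB, ih]
  | pred k ih => rw [← hB, sub_smul, one_smul, add_assoc, sub_add_cancel, ih]

/-- Continuity of translation in `L¹` (`MeasureTheory.tendsto_measure_symmDiff_preimage_nhds_zero`)
gives `δ` with `μ ((S - t) ∆ S) ≤ ε` for `‖t‖ ≤ δ`.  If `B` is `1/q`-periodic with `1/q ≤ δ`, then
`F t := μ ((S - t) ∩ B)` is `1/q`-periodic and `|F t - F t'| ≤ ε` when `‖t - t'‖ ≤ δ`, so
`|F t - F 0| ≤ ε` for all `t` (every `t` is within `1/q` of a multiple of `1/q`); by Fubini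
`∫ F = μ S * μ B`. -/
theorem decor {S : Set UnitAddCircle} (hS : MeasurableSet S) {ε : ℝ} (hε : 0 < ε) :
    ∃ N : ℕ, ∀ q : ℕ, N ≤ q → 0 < q → ∀ B : Set UnitAddCircle, MeasurableSet B →
      (∀ x, x + ((1 / (q : ℝ) : ℝ) : UnitAddCircle) ∈ B ↔ x ∈ B) →
      |(volume : Measure UnitAddCircle).real (S ∩ B) -
        (volume : Measure UnitAddCircle).real S * (volume : Measure UnitAddCircle).real B| ≤ ε := by
  obtain ⟨δ, hδ, h⟩ := decor_cont hS (ENNReal.ofReal_pos.2 hε)
  obtain ⟨N, hN⟩ := exists_nat_gt (1 / δ)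
  refine ⟨N, fun q hq hq0 B hB hper => ?_⟩
  have hq' : (0 : ℝ) < q := by exact_mod_cast hq0
  have hqδ : 1 / (q : ℝ) < δ := by
    rw [div_lt_iff₀ hδ] at hN
    rw [div_lt_iff₀ hq']
    have : (N : ℝ) ≤ q := by exact_mod_cast hq
    nlinarith
  set μ : Measure UnitAddCircle := volume with hμ
  let A : UnitAddCircle → Set UnitAddCircle := fun t => B ∩ (fun x => x + t) ⁻¹' S
  have hA : ∀ t, MeasurableSet (A t) := fun t => hB.inter (measurable_add_const t hS)
  have key : ∀ t, μ (A t) ≤ μ (S ∩ B) + ENNReal.ofReal ε ∧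
      μ (S ∩ B) ≤ μ (A t) + ENNReal.ofReal ε := by
    intro t
    obtain ⟨r, rfl⟩ := QuotientAddGroup.mk_surjective t
    set r' : ℝ := Int.fract (q * r) / q with hr'
    have hr0 : 0 ≤ r' := div_nonneg (Int.fract_nonneg _) hq'.le
    have hr1 : r' < δ :=
      lt_of_le_of_lt (div_le_div_of_nonneg_right (Int.fract_lt_one _).le hq'.le) hqδ
    have hr : (r : UnitAddCircle) =
        ⌊q * r⌋ • ((1 / (q : ℝ) : ℝ) : UnitAddCircle) + (r' : UnitAddCircle) := by
      rw [← AddCircle.coe_zsmul, ← AddCircle.coe_add]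
      congr 1
      rw [hr', zsmul_eq_mul, mul_one_div, ← add_div, Int.floor_add_fract,
        mul_div_cancel_left₀ _ hq'.ne']
    have e1 : A (r : UnitAddCircle) =
        (fun x => x + ⌊q * r⌋ • ((1 / (q : ℝ) : ℝ) : UnitAddCircle)) ⁻¹' A (r' : UnitAddCircle) := by
      ext x
      simp only [A, Set.mem_inter_iff, Set.mem_preimage, decor_per hper, add_assoc, ← hr]
    have e2 : μ (A (r : UnitAddCircle)) = μ (A (r' : UnitAddCircle)) := by
      rw [e1, measure_preimage_add_right]
    have h1 := h r' (by rwa [abs_of_nonneg hr0])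
    rw [e2]
    constructor
    · refine le_trans (measure_mono fun x hx => ?_) ((measure_union_le _ _).trans (by gcongr))
      by_cases hx' : x ∈ S
      · exact Or.inl ⟨hx', hx.1⟩
      · exact Or.inr (Or.inl ⟨hx.2, hx'⟩)
    · refine le_trans (measure_mono fun x hx => ?_) ((measure_union_le _ _).trans (by gcongr))
      by_cases hx' : x + (r' : UnitAddCircle) ∈ S
      · exact Or.inl ⟨hx.2, hx'⟩
      · exact Or.inr (Or.inr ⟨hx.1, hx'⟩)
  have fub : ∫⁻ t, μ (A t) ∂μ = μ S * μ B := by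
    have hm : MeasurableSet ((fun z : UnitAddCircle × UnitAddCircle => (z.1, z.1 + z.2)) ⁻¹'
        (B ×ˢ S)) := (measurable_fst.prodMk measurable_add) (hB.prod hS)
    have h1 := (measurePreserving_prod_add μ μ).measure_preimage (hB.prod hS).nullMeasurableSet
    rw [Measure.prod_apply_symm hm, Measure.prod_prod, mul_comm] at h1
    exact h1
  have u1 : μ S * μ B ≤ μ (S ∩ B) + ENNReal.ofReal ε := by
    rw [← fub]
    refine (lintegral_mono fun t => (key t).1).trans ?_
    rw [lintegral_const, measure_univ, mul_one]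
  have u2 : μ (S ∩ B) ≤ μ S * μ B + ENNReal.ofReal ε := by
    rw [← fub]
    calc μ (S ∩ B) = ∫⁻ _, μ (S ∩ B) ∂μ := by rw [lintegral_const, measure_univ, mul_one]
      _ ≤ ∫⁻ t, (μ (A t) + ENNReal.ofReal ε) ∂μ := lintegral_mono fun t => (key t).2
      _ = _ := by
        rw [lintegral_add_right _ measurable_const, lintegral_const, measure_univ, mul_one]
  have f1 : μ S * μ B ≠ ⊤ := ENNReal.mul_ne_top (measure_ne_top _ _) (measure_ne_top _ _)
  have f2 : μ (S ∩ B) ≠ ⊤ := measure_ne_top _ _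
  have v1 := ENNReal.toReal_mono (ENNReal.add_ne_top.2 ⟨f2, ENNReal.ofReal_ne_top⟩) u1
  have v2 := ENNReal.toReal_mono (ENNReal.add_ne_top.2 ⟨f1, ENNReal.ofReal_ne_top⟩) u2
  rw [ENNReal.toReal_add f2 ENNReal.ofReal_ne_top, ENNReal.toReal_ofReal hε.le,
    ENNReal.toReal_mul] at v1
  rw [ENNReal.toReal_add f1 ENNReal.ofReal_ne_top, ENNReal.toReal_ofReal hε.le,
    ENNReal.toReal_mul] at v2
  simp only [Measure.real]
  exact abs_le.2 ⟨by linarith, by linarith⟩

/-- dependent choice with access to all previous values -/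
theorem exists_seq_dep {α : Type*} [Inhabited α] (P : ℕ → (ℕ → α) → α → Prop)
    (hloc : ∀ j s s', (∀ i, i < j → s i = s' i) → ∀ a, P j s a → P j s' a)
    (hex : ∀ j s, ∃ a, P j s a) : ∃ s : ℕ → α, ∀ j, P j s (s j) := by
  classical
  choose c hc using hex
  let T : ℕ → ℕ → α := fun n =>
    Nat.rec (fun _ => default) (fun j s => Function.update s j (c j s)) n
  have hT : ∀ n, T (n + 1) = Function.update (T n) n (c n (T n)) := fun _ => rfl
  have hst : ∀ i n, i < n → T n i = T (i + 1) i := by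
    intro i n hn
    induction n with
    | zero => omega
    | succ n ih =>
      rcases Nat.lt_succ_iff_lt_or_eq.1 hn with h | h
      · rw [hT n, Function.update_of_ne h.ne, ih h]
      · rw [h]
  refine ⟨fun i => T (i + 1) i, fun j => ?_⟩
  have : T (j + 1) j = c j (T j) := by rw [hT, Function.update_self]
  simp only [this]
  exact hloc j (T j) _ (fun i hi => hst i j hi) _ (hc j (T j))

/-- the multiples `n * (Q θ)`, `n ≥ N`, are dense mod 1 (`Q θ` is irrational) -/
theorem exists_mult {θ : ℝ} (hθ : Irrational θ) {Q : ℕ} (hQ : 0 < Q) (N : ℕ) (t : ℝ) {ε : ℝ}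
    (hε : 0 < ε) : ∃ q : ℕ, N ≤ q ∧ 0 < q ∧ Q ∣ q ∧ ∃ m : ℤ, |(q : ℝ) * θ - m - t| ≤ ε := by
  have hirr : Irrational ((Q : ℝ) * θ / 1) := by
    rw [div_one]
    exact hθ.natCast_mul hQ.ne'
  have hd := AddCircle.denseRange_zsmul_coe_iff.2 hirr
  have hc := ((mapClusterPt_atTop_nsmul_tfae ((t : ℝ) : UnitAddCircle)
    (((Q : ℝ) * θ : ℝ) : UnitAddCircle)).out 0 3).2 (hd _)
  have hf := (mapClusterPt_iff_frequently.1 hc) _ (Metric.closedBall_mem_nhds _ hε)
  obtain ⟨n, hn, hnN⟩ := (hf.and_eventually (eventually_ge_atTop (N + 1))).exists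
  refine ⟨Q * n, by nlinarith, Nat.mul_pos hQ (by omega), dvd_mul_right _ _,
    round ((n : ℝ) * (Q * θ) - t), ?_⟩
  rw [Metric.mem_closedBall, dist_eq_norm, ← AddCircle.coe_nsmul, ← AddCircle.coe_sub,
    UnitAddCircle.norm_eq, nsmul_eq_mul] at hn
  convert hn using 2
  push_cast
  ring

theorem ergodic_rot {θ : ℝ} (hθ : Irrational θ) : Ergodic ((rot θ).σ 1) volume := by
  have h : (rot θ).σ 1 = fun x => x + ((θ : ℝ) : UnitAddCircle) := by
    funext x
    rw [rot_σ, Int.cast_one, one_mul]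
  rw [h, AddCircle.ergodic_add_right, ← AddCircle.denseRange_zsmul_iff,
    AddCircle.denseRange_zsmul_coe_iff, div_one]
  exact hθ

end Crest.Agent.R113
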