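import Crest.Agent.R113.Clock
import Crest.Agent.R113.Decor
import Crest.Agent.R113.Code

/-!
# R113 — clocks on the circle
-/

set_option autoImplicit false

namespace Crest.Agent.R113

open MeasureTheory Filter Topology

lemma circle_cov_perturb {X : Type*} [MeasurableSpace X] {μ : Measure X} [IsProbabilityMeasure μ]
    {A S B B' : Set X} (hA : MeasurableSet A) (hS : MeasurableSet S) (hB : MeasurableSet B)
    (hB' : MeasurableSet B') {e₁ e₂ e₃ : ℝ} (h₁ : μ.real (symmDiff A S) ≤ e₁)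
    (h₂ : μ.real (symmDiff B B') ≤ e₂) (h₃ : |μ.real (S ∩ B') - μ.real S * μ.real B'| ≤ e₃) :
    |μ.real (A ∩ B) - μ.real A * μ.real B| ≤ 2 * e₁ + 2 * e₂ + e₃ := by
  have a1 := abs_measureReal_sub_le_measureReal_symmDiff (μ := μ) hA.nullMeasurableSet
    hS.nullMeasurableSet
  have a2 := abs_measureReal_sub_le_measureReal_symmDiff (μ := μ) hB.nullMeasurableSet
    hB'.nullMeasurableSet
  have a3 := abs_measureReal_sub_le_measureReal_symmDiff (μ := μ) (hA.inter hB).nullMeasurableSet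
    (hS.inter hB').nullMeasurableSet
  have a4 : μ.real (symmDiff (A ∩ B) (S ∩ B')) ≤ μ.real (symmDiff A S) + μ.real (symmDiff B B') := by
    refine le_trans (measureReal_mono ?_) (measureReal_union_le _ _)
    intro x hx
    simp only [Set.mem_symmDiff, Set.mem_union, Set.mem_inter_iff] at hx ⊢
    tauto
  have b1 : |μ.real A * μ.real B - μ.real S * μ.real B'| ≤
      |μ.real A - μ.real S| + |μ.real B - μ.real B'| := by
    have e : μ.real A * μ.real B - μ.real S * μ.real B' =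
        (μ.real A - μ.real S) * μ.real B + μ.real S * (μ.real B - μ.real B') := by ring
    rw [e]
    refine (abs_add_le _ _).trans (add_le_add ?_ ?_)
    · rw [abs_mul, abs_of_nonneg (measureReal_nonneg (μ := μ) (s := B))]
      exact mul_le_of_le_one_right (abs_nonneg _) measureReal_le_one
    · rw [abs_mul, abs_of_nonneg (measureReal_nonneg (μ := μ) (s := S))]
      exact mul_le_of_le_one_left (abs_nonneg _) measureReal_le_one
  rw [abs_le] at *
  constructor <;> linarith [a1.1, a1.2, a2.1, a2.2, a3.1, a3.2, h₃.1, h₃.2, b1.1, b1.2,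
    abs_le.2 a1, abs_le.2 a2]

/-- drops of the levels in `[i, j)` -/
def circleLow {X : Type*} (D : ℕ → Set X) (i j : ℕ) : Set X := {x | ∃ l, i ≤ l ∧ l < j ∧ x ∈ D l}

lemma measurableSet_circleLow {X : Type*} [MeasurableSpace X] {D : ℕ → Set X}
    (hD : ∀ l, MeasurableSet (D l)) (i j : ℕ) : MeasurableSet (circleLow D i j) := by
  have : circleLow D i j = ⋃ l ∈ Set.Ico i j, D l := by
    ext x; simp [circleLow, and_assoc]
  rw [this]
  exact MeasurableSet.biUnion (Set.to_countable _) fun l _ => hD l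

lemma circle_exists_seq {θ : ℝ} (hθ : Irrational θ) (t : ℕ → ℝ) (I : ℕ → Set UnitAddCircle)
    (hI : ∀ l, MeasurableSet (I l)) : ∃ (q : ℕ → ℕ) (η : ℕ → ℝ), (∀ j, 0 < q j) ∧
      (∀ i j, i ≤ j → q i ∣ q j) ∧ (∀ j, ∃ m : ℤ, (q j : ℝ) * θ = η j + m) ∧
      (∀ j, |η j - t j| ≤ 1 / 100 ^ (4 * j + 8)) ∧
      ∀ i j, i < j → ∀ a b : ℤ, |a| ≤ 2 * 100 ^ i → |b| ≤ 2 * 100 ^ i →
        ∀ B : Set UnitAddCircle, MeasurableSet B →
          (∀ x, x + ((1 / (q j : ℝ) : ℝ) : UnitAddCircle) ∈ B ↔ x ∈ B) →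
          |(volume : Measure UnitAddCircle).real ((rot θ).hit
              (circleLow (fun l => (rot θ).delay (wrap (q l) (η l)) (I l)) i j) a b ∩ B) -
            (volume : Measure UnitAddCircle).real ((rot θ).hit
              (circleLow (fun l => (rot θ).delay (wrap (q l) (η l)) (I l)) i j) a b) *
              (volume : Measure UnitAddCircle).real B| ≤ 1 / 2 ^ j := by
  set Sx : (ℕ → ℕ × ℝ) → ℕ → ℕ → ℤ → ℤ → Set UnitAddCircle := fun s i j a b =>
    (rot θ).hit (circleLow (fun l => (rot θ).delay (wrap (s l).1 (s l).2) (I l)) i j) a b with hSx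
  have hSm : ∀ s i j a b, MeasurableSet (Sx s i j a b) := fun s i j a b =>
    (rot θ).measurableSet_hit (measurableSet_circleLow
      (fun l => (rot θ).measurableSet_delay (measurableSet_wrap _ _) (hI l)) i j) a b
  obtain ⟨s, hs⟩ := exists_seq_dep (α := ℕ × ℝ) (fun j s z => 0 < z.1 ∧
      (∀ i, i < j → 0 < (s i).1 → (s i).1 ∣ z.1) ∧ (∃ m : ℤ, (z.1 : ℝ) * θ = z.2 + m) ∧
      |z.2 - t j| ≤ 1 / 100 ^ (4 * j + 8) ∧
      ∀ i, i < j → ∀ a b : ℤ, |a| ≤ 2 * 100 ^ i → |b| ≤ 2 * 100 ^ i →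
        ∀ B : Set UnitAddCircle, MeasurableSet B →
          (∀ x, x + ((1 / (z.1 : ℝ) : ℝ) : UnitAddCircle) ∈ B ↔ x ∈ B) →
          |(volume : Measure UnitAddCircle).real (Sx s i j a b ∩ B) -
            (volume : Measure UnitAddCircle).real (Sx s i j a b) *
              (volume : Measure UnitAddCircle).real B| ≤ 1 / 2 ^ j)
    (by
      rintro j s s' h z ⟨h1, h2, h3, h4, h5⟩
      refine ⟨h1, fun i hi => h i hi ▸ h2 i hi, h3, h4, fun i hi a b ha hb B hB hper => ?_⟩
      have : Sx s' i j a b = Sx s i j a b := by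
        simp only [hSx]
        congr 1
        ext x
        exact exists_congr fun l => and_congr_right fun _ => and_congr_right fun hl => by
          simp only [h l hl]
      rw [this]
      exact h5 i hi a b ha hb B hB hper)
    (by
      intro j s
      choose N hN using fun (z : ℕ × ℤ × ℤ) =>
        decor (hSm s z.1 j z.2.1 z.2.2) (show (0 : ℝ) < 1 / 2 ^ j by positivity)
      set F : Finset (ℕ × ℤ × ℤ) := Finset.range j ×ˢ
        (Finset.Icc (-(2 * 100 ^ j)) (2 * 100 ^ j) ×ˢ Finset.Icc (-(2 * 100 ^ j)) (2 * 100 ^ j))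
        with hF
      obtain ⟨q, hq1, hq2, hq3, m, hm⟩ := exists_mult hθ
        (Q := ∏ i ∈ Finset.range j, max 1 (s i).1)
        (Finset.prod_pos fun i _ => lt_of_lt_of_le one_pos (le_max_left _ _)) (F.sup N) (t j)
        (show (0 : ℝ) < 1 / 100 ^ (4 * j + 8) by positivity)
      refine ⟨(q, q * θ - m), hq2, fun i hi hpos => ?_, ⟨m, by simp⟩, hm,
        fun i hi a b ha hb B hB hper => ?_⟩
      · refine dvd_trans ?_ hq3
        have := Finset.dvd_prod_of_mem (fun i => max 1 (s i).1) (Finset.mem_range.2 hi)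
        rwa [max_eq_right hpos] at this
      · have hp : (2 * 100 ^ i : ℤ) ≤ 2 * 100 ^ j := by gcongr; norm_num
        have hmem : (i, a, b) ∈ F := by
          simp only [hF, Finset.mem_product, Finset.mem_range, Finset.mem_Icc]
          exact ⟨hi, abs_le.1 (ha.trans hp), abs_le.1 (hb.trans hp)⟩
        exact hN (i, a, b) q ((Finset.le_sup hmem).trans hq1) hq2 B hB hper)
  refine ⟨fun j => (s j).1, fun j => (s j).2, fun j => (hs j).1, fun i j hij => ?_,
    fun j => (hs j).2.2.1, fun j => (hs j).2.2.2.1, fun i j hij => (hs j).2.2.2.2 i hij⟩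
  rcases hij.eq_or_lt with rfl | h
  · exact dvd_rfl
  · exact (hs j).2.1 i h (hs i).1

/-- Take `t, s0` from `exists_code`, `δ` from `exists_radii`, `I l = ball 0 (δ l)`.  With
`exists_seq_dep` (on `ℕ × ℝ`) choose `(q j, η j)` with: `0 < q j`; `q i ∣ q j` for `i < j` (whenever
`0 < q i`; use `Q = ∏_{i<j} max 1 (q i)`); `q j * θ = η j + m`; `|η j - t j| ≤ 1 / 100^(4j+8)`
(`exists_mult`); and `q j ≥ N` for the `N` of `decor` with `ε = 1 / 2 ^ j` for each of the finitely many
sets `S = hit {x | ∃ l, i ≤ l ∧ l < j ∧ x ∈ D l} a b`, `i < j`, `|a|, |b| ≤ 2 * 100 ^ i`, where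
`D l = delay (wrap (q l) (η l)) (I l)`.  Then `1 / 100 ^ i ≤ η i ≤ 2 / 100 ^ i`;
`gap`: `wrap_gap` with `n = 100 ^ i` then `delay_fwd` (`100 ^ i - 1 + 2 ^ i < 2 * 100 ^ i`);
`phase`: `delay_back`, `wrap_phase`, `(2 ^ i + 1) * 2 / 100 ^ i ≤ 1 / 100 ^ 8` for `i ≥ 10`;
`code`: `CodeAt.perturb`;
`cov` with `K = 40` (`i = j` is trivial): for `i < j` replace `A = hit (upper D i) a b` by `S`
(`A ∆ S ⊆ hit (upper D j) a b`, measure `≤ 4 * 100 ^ i * 3 / 100 ^ j`) and `B = hit (upper D j) a' b'` by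
`B' = hit (upper Wr j) a' b'` (`measure_symmDiff_hit_delay`), which is `1 / q j`-periodic
(`wrap_periodic`); total error `≤ 24 / 100^(j-i) + 10 / 50^j + 1 / 2^j`. -/
theorem exists_clocks {θ : ℝ} (hθ : Irrational θ) : ∃ (Cl : Clocks (rot θ)) (δ : ℕ → ℝ),
    Tendsto δ atTop (𝓝 0) ∧ ∀ i, Cl.D i ⊆ Metric.ball 0 (δ i) := by
  obtain ⟨t, s0, ht, hcode⟩ := exists_code
  obtain ⟨δ, -, hδ, hR⟩ := exists_radii hθ
  obtain ⟨q, η, hq, hdvd, hm, hη, hdec⟩ := circle_exists_seq hθ t (fun l => Metric.ball 0 (δ l))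
    (fun _ => measurableSet_ball)
  set D : ℕ → Set UnitAddCircle :=
    fun l => (rot θ).delay (wrap (q l) (η l)) (Metric.ball 0 (δ l)) with hD
  have hηb : ∀ i, 1 / 100 ^ i ≤ η i ∧ η i ≤ 2 / 100 ^ i := fun i => by
    have e1 : (1 : ℝ) / 100 ^ (4 * i + 8) ≤ 1 / 4 / 100 ^ i := by
      rw [div_div]
      refine one_div_le_one_div_of_le (by positivity) ?_
      calc (4 : ℝ) * 100 ^ i ≤ 100 ^ 1 * 100 ^ i := by gcongr; norm_num
        _ = 100 ^ (1 + i) := by ring
        _ ≤ _ := pow_le_pow_right₀ (by norm_num) (by omega)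
    have e2 := abs_le.1 ((hη i).trans e1)
    have e3 := ht i
    have e4 : ∀ c : ℝ, c / 100 ^ i = c * (1 / 100 ^ i) := fun c => by ring
    rw [e4 (1 / 4)] at e2
    rw [e4 (5 / 4), e4 (7 / 4)] at e3
    rw [e4 2]
    constructor <;> linarith [e2.1, e2.2, e3.1, e3.2]
  have hη0 : ∀ i, 0 ≤ η i := fun i => le_trans (by positivity) (hηb i).1
  have hWm : ∀ l, MeasurableSet (wrap (q l) (η l)) := fun l => measurableSet_wrap _ _
  have hWμ : ∀ l, (volume : Measure UnitAddCircle).real (wrap (q l) (η l)) ≤ 2 / 100 ^ l :=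
    fun l => (measure_wrap_le (hq l) (hη0 l)).trans (hηb l).2
  have hDm : ∀ l, MeasurableSet (D l) := fun l =>
    (rot θ).measurableSet_delay (hWm l) measurableSet_ball
  have hDμ : ∀ l, (volume : Measure UnitAddCircle).real (D l) ≤ 2 / 100 ^ l := fun l =>
    ((rot θ).measure_delay_le (hWm l) measurableSet_ball).trans (hWμ l)
  refine ⟨⟨D, η, 40, s0, hDm, hDμ, ?_, hη0, fun i => (hηb i).2, ?_,
    hcode.mono fun k h => h.perturb hη, ?_⟩, δ, hδ, fun i x hx => hx.1⟩
  · intro i x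
    obtain ⟨m, hm⟩ := hm i
    obtain ⟨j₁, h1, hx1⟩ := wrap_gap hm (n := 100 ^ i) (by
      have := (hηb i).1
      rw [div_le_iff₀ (by positivity)] at this
      push_cast
      linarith) x
    obtain ⟨j₂, h2, hx2⟩ := (rot θ).delay_fwd (hR i) hx1
    refine ⟨j₂ + j₁, ?_, ?_⟩
    · have : 2 ^ i ≤ 100 ^ i := Nat.pow_le_pow_left (by norm_num) i
      omega
    · rw [Nat.cast_add, (rot θ).add]
      exact hx2
  · intro i hi x e hx hy
    obtain ⟨m, hm⟩ := hm i
    obtain ⟨j, hj, hxj⟩ := (rot θ).delay_back (hR i) hx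
    obtain ⟨j', hj', hyj⟩ := (rot θ).delay_back (hR i) hy
    obtain ⟨m', hm'⟩ := wrap_phase hm (hη0 i) hj hj' hxj hyj
    refine ⟨m', hm'.trans ?_⟩
    obtain ⟨k, rfl⟩ := Nat.exists_eq_add_of_le hi
    refine (mul_le_mul_of_nonneg_left (hηb _).2 (by positivity)).trans ?_
    rw [← mul_div_assoc, div_le_div_iff₀ (by positivity) (by positivity)]
    have e1 : (2 : ℝ) ^ k ≤ 100 ^ k := pow_le_pow_left₀ (by norm_num) (by norm_num) k
    have e2 : (1 : ℝ) ≤ 100 ^ k := one_le_pow₀ (by norm_num)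
    push_cast
    rw [pow_add, pow_add]
    nlinarith
  · intro i j hij a b a' b' ha hb ha' hb'
    have hUm : ∀ k, MeasurableSet (upper D k) := measurableSet_upper hDm
    rcases hij.eq_or_lt with rfl | hlt
    · rw [Nat.sub_self, pow_zero, div_one, abs_le]
      have a1 := measureReal_nonneg (μ := (volume : Measure UnitAddCircle))
        (s := (rot θ).hit (upper D i) a b ∩ (rot θ).hit (upper D i) a' b')
      have a2 := measureReal_le_one (μ := (volume : Measure UnitAddCircle))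
        (s := (rot θ).hit (upper D i) a b ∩ (rot θ).hit (upper D i) a' b')
      have a3 := mul_nonneg (measureReal_nonneg (μ := (volume : Measure UnitAddCircle))
        (s := (rot θ).hit (upper D i) a b)) (measureReal_nonneg
        (μ := (volume : Measure UnitAddCircle)) (s := (rot θ).hit (upper D i) a' b'))
      have a4 := mul_le_one₀ (measureReal_le_one (μ := (volume : Measure UnitAddCircle))
        (s := (rot θ).hit (upper D i) a b)) (measureReal_nonneg
        (μ := (volume : Measure UnitAddCircle)) (s := (rot θ).hit (upper D i) a' b'))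
        measureReal_le_one
      constructor <;> linarith
    have h₁ : (volume : Measure UnitAddCircle).real (symmDiff ((rot θ).hit (upper D i) a b)
        ((rot θ).hit (circleLow D i j) a b)) ≤ 4 * 100 ^ i * (3 / 100 ^ j) := by
      refine le_trans (measureReal_mono (s₂ := (rot θ).hit (upper D j) a b) ?_) ?_
      · rintro x (⟨⟨s, h1, h2, l, hl, hx⟩, h'⟩ | ⟨⟨s, h1, h2, l, hl, -, hx⟩, h'⟩)
        · exact ⟨s, h1, h2, l, not_lt.1 fun hlj => h' ⟨s, h1, h2, l, hl, hlj, hx⟩, hx⟩
        · exact absurd ⟨s, h1, h2, l, hl, hx⟩ h'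
      · refine ((rot θ).measure_hit_le (hUm j) (4 * 100 ^ i) (by positivity) ?_).trans ?_
        · have e1 : (b : ℝ) ≤ 2 * 100 ^ i := by exact_mod_cast (abs_le.1 hb).2
          have e2 : -(2 * 100 ^ i : ℝ) ≤ a := by exact_mod_cast (abs_le.1 ha).1
          linarith
        · exact mul_le_mul_of_nonneg_left (measure_upper_le hDμ j) (by positivity)
    have h₂ := (rot θ).measure_symmDiff_hit_delay hWm hWμ hR j a' b'
    have hB' : MeasurableSet ((rot θ).hit (upper (fun l => wrap (q l) (η l)) j) a' b') :=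
      (rot θ).measurableSet_hit (measurableSet_upper hWm j) a' b'
    have h₃ := hdec i j hlt a b ha hb _ hB' (fun x => by
      refine exists_congr fun s => and_congr_right fun _ => and_congr_right fun _ =>
        exists_congr fun l => and_congr_right fun hl => ?_
      rw [rot_σ, rot_σ, add_right_comm]
      exact wrap_periodic (hq j) (hdvd j l hl) _ _)
    refine (circle_cov_perturb ((rot θ).measurableSet_hit (hUm i) a b)
      ((rot θ).measurableSet_hit (measurableSet_circleLow hDm i j) a b)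
      ((rot θ).measurableSet_hit (hUm j) a' b') hB' h₁ h₂ h₃).trans ?_
    obtain ⟨k, rfl⟩ := Nat.exists_eq_add_of_le hij
    rw [Nat.add_sub_cancel_left]
    have e1 : (4 : ℝ) * 100 ^ i * (3 / 100 ^ (i + k)) = 12 * (1 / 100 ^ k) := by
      rw [pow_add]; field_simp; norm_num
    have e2 : (1 : ℝ) / 100 ^ k ≤ 1 / 2 ^ k :=
      one_div_le_one_div_of_le (by positivity) (pow_le_pow_left₀ (by norm_num) (by norm_num) k)
    have e3 : (1 : ℝ) / 2 ^ (i + k) ≤ 1 / 2 ^ k :=
      one_div_le_one_div_of_le (by positivity) (pow_le_pow_right₀ (by norm_num) (by omega))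
    have e4 : (1 : ℝ) / 50 ^ (i + k) ≤ 1 / 2 ^ (i + k) :=
      one_div_le_one_div_of_le (by positivity) (pow_le_pow_left₀ (by norm_num) (by norm_num) _)
    have e5 : (5 : ℝ) / 50 ^ (i + k) = 5 * (1 / 50 ^ (i + k)) := by ring
    have e6 : (40 : ℝ) / 2 ^ k = 40 * (1 / 2 ^ k) := by ring
    have e7 : (0 : ℝ) ≤ 1 / 2 ^ k := by positivity
    rw [e1, e5, e6]
    linarith

end Crest.Agent.R113
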