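import Crest.Agent.R113.LevBasic

/-!
# R113 — delays and wrapping clocks
-/

set_option autoImplicit false
set_option linter.unusedSectionVars false

namespace Crest.Agent.R113

open MeasureTheory Filter Topology

section General

variable {X : Type*} [MeasurableSpace X] {μ : Measure X} [IsProbabilityMeasure μ]

theorem Act.measurableSet_delay (A : Act X μ) {Wr I : Set X} (hW : MeasurableSet Wr)
    (hI : MeasurableSet I) : MeasurableSet (A.delay Wr I) := by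
  have : A.delay Wr I = I ∩ ⋃ j : ℕ, (A.σ (-(j : ℤ)) ⁻¹' Wr ∩
      ⋂ l : ℕ, ⋂ (_ : 1 ≤ l), ⋂ (_ : l ≤ j), (A.σ (-(l : ℤ)) ⁻¹' I)ᶜ) := by
    ext x; simp [Act.delay]
  rw [this]
  exact hI.inter (MeasurableSet.iUnion fun j => (A.measurable _ hW).inter
    (MeasurableSet.iInter fun l => MeasurableSet.iInter fun _ => MeasurableSet.iInter fun _ =>
      (A.measurable _ hI).compl))

/-- `delay Wr I ⊆ ⋃ j, σ (-j) ⁻¹' (Wr ∩ {first visit to I at time j})`, and the sets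
`Wr ∩ {first visit to I at time j}` are pairwise disjoint subsets of `Wr`. -/
theorem Act.measure_delay_le (A : Act X μ) {Wr I : Set X} (hW : MeasurableSet Wr)
    (hI : MeasurableSet I) : μ.real (A.delay Wr I) ≤ μ.real Wr := by
  let B : ℕ → Set X := fun j => Wr ∩ (A.σ (j : ℤ) ⁻¹' I ∩
    ⋂ l : ℕ, ⋂ (_ : l < j), (A.σ (l : ℤ) ⁻¹' I)ᶜ)
  have hB : ∀ j, MeasurableSet (B j) := fun j => hW.inter ((A.measurable _ hI).inter
    (MeasurableSet.iInter fun l => MeasurableSet.iInter fun _ => (A.measurable _ hI).compl))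
  have hmem : ∀ j y, y ∈ B j ↔
      y ∈ Wr ∧ A.σ (j : ℤ) y ∈ I ∧ ∀ l : ℕ, l < j → A.σ (l : ℤ) y ∉ I := by
    intro j y; simp [B]
  have hdis : Pairwise (Function.onFun Disjoint B) := by
    intro i j hij
    rw [Function.onFun, Set.disjoint_left]
    intro y hi hj
    rw [hmem] at hi hj
    rcases lt_or_gt_of_ne hij with h | h
    · exact hj.2.2 i h hi.2.1
    · exact hi.2.2 j h hj.2.1
  have hsub : A.delay Wr I ⊆ ⋃ j : ℕ, A.σ (-(j : ℤ)) ⁻¹' B j := by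
    rintro x ⟨hx, j, h1, h2⟩
    refine Set.mem_iUnion.2 ⟨j, ?_⟩
    rw [Set.mem_preimage, hmem]
    refine ⟨h1, by rwa [← A.add, add_neg_cancel, A.zero], fun l hl => ?_⟩
    have := h2 (j - l) (by omega) (by omega)
    rw [← A.add]
    convert this using 3
    omega
  refine ENNReal.toReal_mono (measure_ne_top _ _) ?_
  calc μ (A.delay Wr I) ≤ ∑' j : ℕ, μ (A.σ (-(j : ℤ)) ⁻¹' B j) :=
        (measure_mono hsub).trans (measure_iUnion_le _)
    _ = ∑' j : ℕ, μ (B j) :=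
        tsum_congr fun j => (A.mp _).measure_preimage (hB j).nullMeasurableSet
    _ = μ (⋃ j, B j) := (measure_iUnion hdis hB).symm
    _ ≤ μ Wr := measure_mono (Set.iUnion_subset fun j => Set.inter_subset_left)

theorem Act.delay_back (A : Act X μ) {Wr I : Set X} {R : ℕ}
    (hR : ∀ x, ∃ j : ℕ, j ≤ R ∧ A.σ (j : ℤ) x ∈ I) {x : X} (hx : x ∈ A.delay Wr I) :
    ∃ j : ℕ, j ≤ R ∧ A.σ (-(j : ℤ)) x ∈ Wr := by
  obtain ⟨-, j, h1, h2⟩ := hx
  refine ⟨j, ?_, h1⟩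
  by_contra hj
  obtain ⟨k, hk, hkI⟩ := hR (A.σ (-((R + 1 : ℕ) : ℤ)) x)
  refine h2 (R + 1 - k) (by omega) (by omega) ?_
  rw [← A.add] at hkI
  convert hkI using 2
  omega

theorem Act.delay_fwd (A : Act X μ) {Wr I : Set X} {R : ℕ}
    (hR : ∀ x, ∃ j : ℕ, j ≤ R ∧ A.σ (j : ℤ) x ∈ I) {x : X} (hx : x ∈ Wr) :
    ∃ j : ℕ, j ≤ R ∧ A.σ (j : ℤ) x ∈ A.delay Wr I := by
  classical
  have hex : ∃ j : ℕ, A.σ (j : ℤ) x ∈ I := (hR x).imp fun _ h => h.2
  obtain ⟨k, hk, hkI⟩ := hR x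
  refine ⟨Nat.find hex, (Nat.find_min' hex hkI).trans hk, Nat.find_spec hex, Nat.find hex, ?_,
    fun l h1 h2 => ?_⟩
  · rwa [← A.add, neg_add_cancel, A.zero]
  · have := Nat.find_min hex (m := Nat.find hex - l) (by omega)
    rw [← A.add]
    convert this using 3
    omega

/-- Window events of the delayed sets are close to those of the undelayed ones: a point of the
symmetric difference lies in `hit (Wr l) (a - 2^l) a` or in `hit (Wr l) (b - 2^l) b` for some `l ≥ j`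
(`delay_back`, `delay_fwd`), and `∑_{l ≥ j} 2 * 2 ^ l * (2 / 100 ^ l) ≤ 5 / 50 ^ j`. -/
theorem Act.measure_symmDiff_hit_delay (A : Act X μ) {Wr I : ℕ → Set X}
    (hW : ∀ l, MeasurableSet (Wr l)) (hμ : ∀ l, μ.real (Wr l) ≤ 2 / 100 ^ l)
    (hR : ∀ l x, ∃ j : ℕ, j ≤ 2 ^ l ∧ A.σ (j : ℤ) x ∈ I l) (j : ℕ) (a b : ℤ) :
    μ.real (symmDiff (A.hit (upper (fun l => A.delay (Wr l) (I l)) j) a b)
      (A.hit (upper Wr j) a b)) ≤ 5 / 50 ^ j := by
  let C : ℕ → Set X := fun k =>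
    A.hit (Wr (j + k)) (a - 2 ^ (j + k)) a ∪ A.hit (Wr (j + k)) (b - 2 ^ (j + k)) b
  have hsub : symmDiff (A.hit (upper (fun l => A.delay (Wr l) (I l)) j) a b)
      (A.hit (upper Wr j) a b) ⊆ ⋃ k, C k := by
    rintro x (⟨⟨t, h1, h2, l, hl, h3⟩, h4⟩ | ⟨⟨t, h1, h2, l, hl, h3⟩, h4⟩)
    · obtain ⟨k, rfl⟩ := Nat.exists_eq_add_of_le hl
      obtain ⟨r, hr, h5⟩ := A.delay_back (hR (j + k)) h3
      rw [← A.add] at h5
      have hr' : (r : ℤ) ≤ 2 ^ (j + k) := by exact_mod_cast hr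
      refine Set.mem_iUnion.2 ⟨k, Or.inl ⟨-(r : ℤ) + t, by omega, ?_, h5⟩⟩
      by_contra h6
      exact h4 ⟨-(r : ℤ) + t, by omega, by omega, j + k, hl, h5⟩
    · obtain ⟨k, rfl⟩ := Nat.exists_eq_add_of_le hl
      obtain ⟨r, hr, h5⟩ := A.delay_fwd (hR (j + k)) h3
      rw [← A.add] at h5
      have hr' : (r : ℤ) ≤ 2 ^ (j + k) := by exact_mod_cast hr
      refine Set.mem_iUnion.2 ⟨k, Or.inr ⟨t, ?_, h2, h3⟩⟩
      by_contra h6
      exact h4 ⟨(r : ℤ) + t, by omega, by omega, j + k, hl, h5⟩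
  have hhit : ∀ (l : ℕ) (c : ℤ), μ.real (A.hit (Wr l) (c - 2 ^ l) c) ≤ 2 / 50 ^ l := by
    intro l c
    refine (A.measure_hit_le (hW l) (2 ^ l) (by positivity) (by push_cast; linarith)).trans ?_
    calc (2 : ℝ) ^ l * μ.real (Wr l) ≤ 2 ^ l * (2 / 100 ^ l) := by gcongr; exact hμ l
      _ = 2 / 50 ^ l := by
        rw [show (100 : ℝ) = 2 * 50 by norm_num, mul_pow]; field_simp
  have hC : ∀ k, μ (C k) ≤ ENNReal.ofReal (4 / 50 ^ j * (1 / 50) ^ k) := by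
    intro k
    rw [← ofReal_measureReal]
    refine ENNReal.ofReal_le_ofReal ((measureReal_union_le _ _).trans ?_)
    refine (add_le_add (hhit _ _) (hhit _ _)).trans (le_of_eq ?_)
    rw [pow_add, one_div, inv_pow]; field_simp; norm_num
  have hs : HasSum (fun k : ℕ => (4 / 50 ^ j * (1 / 50) ^ k : ℝ)) (4 / 50 ^ j * (1 - 1 / 50)⁻¹) :=
    (hasSum_geometric_of_lt_one (by norm_num) (by norm_num)).mul_left _
  refine ENNReal.toReal_le_of_le_ofReal (by positivity) ?_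
  calc μ _ ≤ ∑' k, μ (C k) := (measure_mono hsub).trans (measure_iUnion_le _)
    _ ≤ ∑' k : ℕ, ENNReal.ofReal (4 / 50 ^ j * (1 / 50) ^ k) := ENNReal.tsum_le_tsum hC
    _ = ENNReal.ofReal (4 / 50 ^ j * (1 - 1 / 50)⁻¹) := by
      rw [← ENNReal.ofReal_tsum_of_nonneg (fun k => by positivity) hs.summable, hs.tsum_eq]
    _ ≤ ENNReal.ofReal (5 / 50 ^ j) := by
      refine ENNReal.ofReal_le_ofReal ?_
      rw [div_mul_eq_mul_div]
      gcongr
      norm_num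

end General

theorem coe_int_eq_zero (k : ℤ) : (((k : ℝ)) : UnitAddCircle) = 0 :=
  (AddCircle.coe_eq_zero_iff _).2 ⟨k, by simp⟩

theorem nsmul_rot {θ η : ℝ} {q : ℕ} {m : ℤ} (h : (q : ℝ) * θ = η + m) (t : ℤ)
    (x : UnitAddCircle) :
    q • (rot θ).σ t x = q • x + (((t : ℝ) * η : ℝ) : UnitAddCircle) := by
  rw [rot_σ, smul_add, ← AddCircle.coe_nsmul, nsmul_eq_mul]
  have : (q : ℝ) * ((t : ℝ) * θ) = (t : ℝ) * η + ((t * m : ℤ) : ℝ) := by
    push_cast; linear_combination (t : ℝ) * h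
  rw [this, AddCircle.coe_add, coe_int_eq_zero, add_zero]

theorem exists_return {θ : ℝ} (hθ : Irrational θ) {ε : ℝ} (hε : 0 < ε) :
    ∃ R : ℕ, ∀ x : UnitAddCircle, ∃ j : ℕ, j ≤ R ∧ (rot θ).σ (j : ℤ) x ∈ Metric.ball 0 ε := by
  have hd : DenseRange (fun n : ℕ => n • ((θ : ℝ) : UnitAddCircle)) :=
    denseRange_zsmul_iff_nsmul.1 (AddCircle.denseRange_zsmul_coe_iff.2 (by simpa using hθ))
  have hcov : (Set.univ : Set UnitAddCircle) ⊆
      ⋃ j : ℕ, (rot θ).σ (j : ℤ) ⁻¹' Metric.ball 0 ε := by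
    intro x _
    obtain ⟨j, hj⟩ := hd.exists_dist_lt (-x) hε
    refine Set.mem_iUnion.2 ⟨j, ?_⟩
    rw [Set.mem_preimage, mem_ball_zero_iff, rot_σ]
    rw [dist_comm, dist_eq_norm, sub_neg_eq_add, add_comm, ← AddCircle.coe_nsmul,
      nsmul_eq_mul] at hj
    simpa using hj
  obtain ⟨t, ht⟩ := isCompact_univ.elim_finite_subcover _
    (fun j : ℕ => Metric.isOpen_ball.preimage
      (show Continuous ((rot θ).σ (j : ℤ)) from continuous_id.add continuous_const)) hcov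
  refine ⟨t.sup id, fun x => ?_⟩
  obtain ⟨j, hj, hx⟩ := Set.mem_iUnion₂.1 (ht (Set.mem_univ x))
  exact ⟨j, Finset.le_sup (f := id) hj, hx⟩

theorem measurableSet_wrap (q : ℕ) (η : ℝ) : MeasurableSet (wrap q η) := by
  have : wrap q η = (fun x : UnitAddCircle => q • x) ⁻¹'
      ⋃ n : ℕ, ((↑) : ℝ → UnitAddCircle) '' Set.Icc (-η) (-(1 / ((n : ℝ) + 1))) := by
    ext x
    simp only [wrap, Set.mem_ofPred_eq, Set.mem_preimage, Set.mem_iUnion, Set.mem_image,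
      Set.mem_Icc]
    constructor
    · rintro ⟨y, h1, h2, h3⟩
      obtain ⟨n, hn⟩ := exists_nat_one_div_lt (neg_pos.2 h2)
      exact ⟨n, y, ⟨h1, by linarith⟩, h3.symm⟩
    · rintro ⟨n, y, ⟨h1, h2⟩, h3⟩
      have : (0 : ℝ) < 1 / ((n : ℝ) + 1) := by positivity
      exact ⟨y, h1, by linarith, h3.symm⟩
  rw [this]
  refine (continuous_nsmul q).measurable (MeasurableSet.iUnion fun n => ?_)
  exact (isCompact_Icc.image (AddCircle.continuous_mk' 1)).isClosed.measurableSet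

/-- `x ↦ q • x` preserves the measure (`measurePreserving_zsmul`), and the image of `[-η, 0)` in the
circle has measure `≤ η`. -/
theorem measure_wrap_le {q : ℕ} (hq : 0 < q) {η : ℝ} (hη : 0 ≤ η) :
    (volume : Measure UnitAddCircle).real (wrap q η) ≤ η := by
  have hsub : wrap q η ⊆ (fun x : UnitAddCircle => (q : ℤ) • x) ⁻¹'
      Metric.closedBall (((-(η / 2) : ℝ)) : UnitAddCircle) (η / 2) := by
    rintro x ⟨y, h1, h2, h3⟩
    rw [Set.mem_preimage, natCast_zsmul, h3, mem_closedBall_iff_norm, ← AddCircle.coe_sub]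
    refine QuotientAddGroup.norm_mk_le_norm.trans ?_
    rw [Real.norm_eq_abs, abs_le]
    constructor <;> linarith
  refine ENNReal.toReal_le_of_le_ofReal hη ((measure_mono hsub).trans ?_)
  rw [(Measure.measurePreserving_zsmul (volume : Measure UnitAddCircle)
    (n := (q : ℤ)) (by exact_mod_cast hq.ne')).measure_preimage
      measurableSet_closedBall.nullMeasurableSet, AddCircle.volume_closedBall]
  exact ENNReal.ofReal_le_ofReal ((min_le_right _ _).trans (by linarith))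

theorem wrap_periodic {q q' : ℕ} (hq' : 0 < q') (h : q' ∣ q) (η : ℝ) (x : UnitAddCircle) :
    x + ((1 / (q' : ℝ) : ℝ) : UnitAddCircle) ∈ wrap q η ↔ x ∈ wrap q η := by
  obtain ⟨k, rfl⟩ := h
  have h0 : (q' * k) • ((1 / (q' : ℝ) : ℝ) : UnitAddCircle) = 0 := by
    rw [← AddCircle.coe_nsmul, nsmul_eq_mul]
    have : ((q' * k : ℕ) : ℝ) * (1 / (q' : ℝ)) = ((k : ℤ) : ℝ) := by
      have : (q' : ℝ) ≠ 0 := by exact_mod_cast hq'.ne'
      push_cast; field_simp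
    rw [this, coe_int_eq_zero]
  simp only [wrap, Set.mem_ofPred_eq, smul_add, h0, add_zero]

/-- take the representative `y ∈ [0,1)` of `q • x` and the least `j` with `1 ≤ y + (j+1) η`. -/
theorem wrap_gap {θ η : ℝ} {q : ℕ} {m : ℤ} (h : (q : ℝ) * θ = η + m) {n : ℕ}
    (hn : 1 ≤ (n : ℝ) * η) (x : UnitAddCircle) :
    ∃ j : ℕ, j < n ∧ (rot θ).σ (j : ℤ) x ∈ wrap q η := by
  classical
  obtain ⟨y, hy, hyx⟩ := AddCircle.eq_coe_Ico (q • x)
  have hn0 : n ≠ 0 := by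
    rintro rfl
    norm_num at hn
  have hpred : 1 ≤ y + (((n - 1 : ℕ) : ℝ) + 1) * η := by
    have : ((n - 1 : ℕ) : ℝ) + 1 = n := by
      exact_mod_cast Nat.sub_add_cancel (Nat.one_le_iff_ne_zero.2 hn0)
    rw [this]; linarith [hy.1]
  have hex : ∃ j : ℕ, 1 ≤ y + ((j : ℝ) + 1) * η := ⟨_, hpred⟩
  refine ⟨Nat.find hex, (Nat.find_min' hex hpred).trans_lt (by omega),
    y + (Nat.find hex : ℝ) * η - 1, by linarith [Nat.find_spec hex], ?_, ?_⟩
  · rcases Nat.eq_zero_or_pos (Nat.find hex) with h0 | h0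
    · rw [h0]; simpa using hy.2
    · have := Nat.find_min hex (m := Nat.find hex - 1) (by omega)
      have e : ((Nat.find hex - 1 : ℕ) : ℝ) + 1 = Nat.find hex := by
        exact_mod_cast Nat.sub_add_cancel h0
      rw [e] at this
      linarith
  · rw [nsmul_rot h, ← hyx, AddCircle.coe_sub, AddCircle.coe_add, AddCircle.coe_period, sub_zero]
    simp

theorem wrap_phase {θ η : ℝ} {q : ℕ} {m : ℤ} (h : (q : ℝ) * θ = η + m) (hη : 0 ≤ η) {R j j' : ℕ}
    (hj : j ≤ R) (hj' : j' ≤ R) {x : UnitAddCircle} {e : ℤ}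
    (hx : (rot θ).σ (-(j : ℤ)) x ∈ wrap q η)
    (hy : (rot θ).σ (-(j' : ℤ)) ((rot θ).σ e x) ∈ wrap q η) :
    ∃ m' : ℤ, |(e : ℝ) * η - (m' : ℝ)| ≤ ((R : ℝ) + 1) * η := by
  obtain ⟨y, h1, h2, h3⟩ := hx
  obtain ⟨y', h1', h2', h3'⟩ := hy
  rw [nsmul_rot h] at h3
  rw [nsmul_rot h, nsmul_rot h] at h3'
  have h4 : (((e : ℝ) * η - (y' - y + ((j' : ℝ) - j) * η) : ℝ) : UnitAddCircle) = 0 := by
    have e1 : (e : ℝ) * η - (y' - y + ((j' : ℝ) - j) * η) =
        ((e : ℝ) * η + ((-(j' : ℤ) : ℤ) : ℝ) * η - y') - (((-(j : ℤ) : ℤ) : ℝ) * η - y) := by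
      push_cast; ring
    rw [e1]
    simp only [AddCircle.coe_sub, AddCircle.coe_add, ← h3, ← h3']
    abel
  obtain ⟨m', hm'⟩ := (AddCircle.coe_eq_zero_iff _).1 h4
  refine ⟨m', ?_⟩
  rw [zsmul_eq_mul, mul_one] at hm'
  rw [hm', sub_sub_cancel]
  have hj1 : (j : ℝ) ≤ R := by exact_mod_cast hj
  have hj2 : (j' : ℝ) ≤ R := by exact_mod_cast hj'
  have hj3 : (0 : ℝ) ≤ j := Nat.cast_nonneg _
  have hj4 : (0 : ℝ) ≤ j' := Nat.cast_nonneg _
  rw [abs_le]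
  constructor <;> nlinarith

/-- For every `ε > 0` the return time to `ball 0 ε` is bounded (density of the forward orbit,
`AddCircle.denseRange_zsmul_iff`, `denseRange_zsmul_iff_nsmul`, and compactness), say by `R n` for
`ε = 1 / (n + 1)`, with `R 0 = 0` (`‖x‖ ≤ 1/2`).  Put `δ i = 1 / (n i + 1)` where
`n i = Nat.findGreatest (fun n => R n ≤ 2 ^ i) i`. -/
theorem exists_radii {θ : ℝ} (hθ : Irrational θ) : ∃ δ : ℕ → ℝ, (∀ i, 0 < δ i) ∧
    Tendsto δ atTop (𝓝 0) ∧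
    ∀ (i : ℕ) (x : UnitAddCircle), ∃ j : ℕ, j ≤ 2 ^ i ∧ (rot θ).σ (j : ℤ) x ∈ Metric.ball 0 (δ i) := by
  classical
  have hR : ∀ n : ℕ, ∃ R : ℕ, (n = 0 → R = 0) ∧ ∀ x : UnitAddCircle, ∃ j : ℕ, j ≤ R ∧
      (rot θ).σ (j : ℤ) x ∈ Metric.ball (0 : UnitAddCircle) (1 / ((n : ℝ) + 1)) := by
    intro n
    by_cases hn : n = 0
    · refine ⟨0, fun _ => rfl, fun x => ⟨0, le_rfl, ?_⟩⟩
      rw [mem_ball_zero_iff, hn]
      refine (AddCircle.norm_le_half_period 1 one_ne_zero).trans_lt ?_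
      norm_num
    · obtain ⟨R, hR⟩ := exists_return hθ (ε := 1 / ((n : ℝ) + 1)) (by positivity)
      exact ⟨R, fun h => absurd h hn, hR⟩
  choose R hR0 hR using hR
  let N : ℕ → ℕ := fun i => Nat.findGreatest (fun n => R n ≤ 2 ^ i) i
  refine ⟨fun i => 1 / ((N i : ℝ) + 1), fun i => by positivity, ?_, fun i x => ?_⟩
  · refine tendsto_one_div_add_atTop_nhds_zero_nat.comp (tendsto_atTop.2 fun M => ?_)
    filter_upwards [eventually_ge_atTop M, eventually_ge_atTop (R M)] with i h1 h2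
    exact Nat.le_findGreatest h1 (h2.trans Nat.lt_two_pow_self.le)
  · have : R (N i) ≤ 2 ^ i :=
      Nat.findGreatest_spec (P := fun n => R n ≤ 2 ^ i) (Nat.zero_le i)
        (by rw [hR0 0 rfl]; exact Nat.zero_le _)
    obtain ⟨j, hj, h⟩ := hR (N i) x
    exact ⟨j, hj.trans this, h⟩

end Crest.Agent.R113
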