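import Mathlib

/-!
# R113 — interface between the operator side and the design side of S0149

`Act X μ` is a measure preserving action of `ℤ`.  The crossed product lives on
`H = L²(X × ℤ, μ × count)`:  `(M φ g)(x,d) = φ(σ d x) g(x,d)`, `(U g)(x,d) = g(x,d-1)`, and it is the
commutant (`InN`) of the right operators `(R n g)(x,d) = g(σ n x, d-n)`, `(R ψ g)(x,d) = ψ x * g(x,d)`.
The weighted shift `T = U M_f` acts by `(T g)(x,d) = f(σ (d-1) x) g(x,d-1)` (`IsShift`).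

`Design A f` is the combinatorial/measure theoretic property of the weight `f` which kills all
non-trivial `T`-invariant projections of the crossed product (`main_op` in `OpMain.lean`).
DO NOT EDIT (owner helper82).
-/

set_option autoImplicit false

namespace Crest.Agent.R113

open MeasureTheory

/-- A measure preserving action of `ℤ`. -/
structure Act (X : Type*) [MeasurableSpace X] (μ : Measure X) where
  σ : ℤ → X → X
  mp : ∀ d, MeasurePreserving (σ d) μ μ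
  zero : ∀ x, σ 0 x = x
  add : ∀ a b x, σ (a + b) x = σ a (σ b x)

/-- the measure `μ × count` on `X × ℤ` -/
noncomputable abbrev pm {X : Type*} [MeasurableSpace X] (μ : Measure X) : Measure (X × ℤ) :=
  μ.prod Measure.count

/-- the Hilbert space `L²(X × ℤ)` -/
abbrev HS {X : Type*} [MeasurableSpace X] (μ : Measure X) : Type _ := Lp ℂ 2 (pm μ)

namespace Act

variable {X : Type*} [MeasurableSpace X] {μ : Measure X} (A : Act X μ)

theorem measurable (d : ℤ) : Measurable (A.σ d) := (A.mp d).measurable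

/-- product of the weights along `n` steps of the orbit -/
noncomputable def fprod (f : X → ℝ) (n : ℕ) (x : X) : ℝ :=
  ∏ j ∈ Finset.range n, f (A.σ (j : ℤ) x)

/-- the pairs `(x, σ d x)` separated by `S` -/
def sep (S : Set X) : Set (X × ℤ) := {z | ¬ (z.1 ∈ S ↔ A.σ z.2 z.1 ∈ S)}

/-- `p` commutes with the right regular operators, i.e. `p` lies in the crossed product. -/
def InN (p : HS μ →L[ℂ] HS μ) : Prop :=
  (∀ (n : ℤ) (R : HS μ →L[ℂ] HS μ),
    (∀ g : HS μ, (R g : X × ℤ → ℂ) =ᵐ[pm μ] fun z => (g : X × ℤ → ℂ) (A.σ n z.1, z.2 - n)) →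
      R * p = p * R) ∧
  (∀ ψ : X → ℂ, Measurable ψ → (∃ C : ℝ, ∀ x, ‖ψ x‖ ≤ C) → ∀ R : HS μ →L[ℂ] HS μ,
    (∀ g : HS μ, (R g : X × ℤ → ℂ) =ᵐ[pm μ] fun z => ψ z.1 * (g : X × ℤ → ℂ) z) →
      R * p = p * R)

/-- `T` is the weighted shift `U M_f`. -/
def IsShift (f : X → ℝ) (T : HS μ →L[ℂ] HS μ) : Prop :=
  ∀ g : HS μ, (T g : X × ℤ → ℂ) =ᵐ[pm μ]
    fun z => (f (A.σ (z.2 - 1) z.1) : ℂ) * (g : X × ℤ → ℂ) (z.1, z.2 - 1)

/-- The test inequality (it holds for `ν = |q Ω|² (μ × count)` and `u = ρ_q - τ(q)` for every tilt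
`q` of an invariant projection by a function bounded by `(γ - 1) / 4`). -/
def TestOK (f : X → ℝ) (γ : ℝ) (ν : Measure (X × ℤ)) (u : X → ℝ) : Prop :=
  ∀ (S Z : Set X) (n : ℕ) (t : ℝ), MeasurableSet S → MeasurableSet Z → 0 < t →
    (∀ x ∈ S, x ∉ Z → A.fprod f n x ≤ t * Real.exp (-γ)) →
    (∀ x, x ∉ S → x ∉ Z → t ≤ A.fprod f n x) →
    ν.real (A.sep S) ≤ 3 * (∫ x in S, (u x - u (A.σ (n : ℤ) x)) ∂μ) + 8 * μ.real Z

/-- The design property of the weight `f`: at arbitrarily large scales `P` there are walls `W`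
(gaps `≤ P`, density `≤ 6 / P`) of huge cost `c`, off the walls (and off a small set `E`) the cost is
the bounded function `low`, and the tests with cost gap `c / 2` detect all displacements `≥ δ P`. -/
def Design (f : X → ℝ) : Prop :=
  ∀ δ : ℝ, 0 < δ → ∃ C : ℝ, ∀ N : ℕ, ∃ (P : ℕ) (W E : Set X) (low : X → ℝ) (G c : ℝ),
    N ≤ P ∧ 0 < P ∧ MeasurableSet W ∧ MeasurableSet E ∧ Measurable low ∧ 0 ≤ G ∧
    (∀ x, 0 ≤ low x ∧ low x ≤ G) ∧
    (∀ x, ∃ j : ℕ, j < P ∧ A.σ (j : ℤ) x ∈ W) ∧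
    (P : ℝ) * μ.real W ≤ 6 ∧ (N : ℝ) * ((P : ℝ) * μ.real E) ≤ 1 ∧
    (N : ℝ) * ((P : ℝ) + G + 1) ^ 2 ≤ c ∧
    (∀ x, x ∉ E → x ∉ W → f x = Real.exp (-low x)) ∧
    (∀ x, x ∉ E → x ∈ W → f x ≤ Real.exp (-c)) ∧
    ∀ (ν : Measure (X × ℤ)) (u : X → ℝ), IsFiniteMeasure ν → Measurable u → (∀ x, |u x| ≤ 1) →
      (∀ Z : Set X, MeasurableSet Z → ν {z | z.1 ∈ Z} ≤ μ Z) → A.TestOK f (c / 2) ν u →
      ν.real {z | δ * (P : ℝ) ≤ |(z.2 : ℝ)|} ≤ δ + C * √(∫ x, u x ^ 2 ∂μ)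

end Act

end Crest.Agent.R113
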