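import Crest.Agent.R113.Defs

/-!
# R113 — the level structure (design side of S0149)

Level `i` has time scale `100 ^ i`.  `D i` is the set of points where a *drop* of level `i` occurs
(cost `≥ c i`), `upper D k` the drops of level `≥ k`, `A.hit D a b` the event that the orbit visits `D`
at a time in `[a, b)`.  `Clocks` collects the combinatorial/probabilistic properties of the drop sets,
`Costs` the relation with the weight `f`.  `design_of_levels` (LevMain.lean) derives `A.Design f`;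
`exists_clocks` (Circle.lean) and `exists_costs` (Weight.lean) build them on the circle.
DO NOT EDIT (owner helper82).
-/

set_option autoImplicit false

namespace Crest.Agent.R113

open MeasureTheory Filter

section General

variable {X : Type*} [MeasurableSpace X] {μ : Measure X}

/-- the orbit visits `D` at a time in `[a, b)` -/
def Act.hit (A : Act X μ) (D : Set X) (a b : ℤ) : Set X :=
  {x | ∃ t : ℤ, a ≤ t ∧ t < b ∧ A.σ t x ∈ D}

/-- the first visit to `I` after (or at) a visit to `Wr` -/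
def Act.delay (A : Act X μ) (Wr I : Set X) : Set X :=
  {x | x ∈ I ∧ ∃ j : ℕ, A.σ (-(j : ℤ)) x ∈ Wr ∧ ∀ l : ℕ, 1 ≤ l → l ≤ j → A.σ (-(l : ℤ)) x ∉ I}

/-- drops of level `≥ k` -/
def upper (D : ℕ → Set X) (k : ℕ) : Set X := {x | ∃ i, k ≤ i ∧ x ∈ D i}

open Classical in
/-- The code property at base level `k`: a displacement `d` of size between `100 ^ (k + 2 ^ (s+1))`
and `100 ^ (k + 2 ^ (s+2))` moves at least half of the clocks of the window
`[k + 2 ^ s, k + 2 ^ (s+1))` by more than `κ` (mod 1). -/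
def CodeAt (θ : ℕ → ℝ) (κ : ℝ) (s0 k : ℕ) : Prop :=
  ∀ s : ℕ, s0 ≤ s → ∀ d : ℤ, (100 : ℤ) ^ (k + 2 ^ (s + 1)) ≤ |d| → |d| ≤ 100 ^ (k + 2 ^ (s + 2)) →
    2 ^ s ≤ 2 * ((Finset.Ico (k + 2 ^ s) (k + 2 ^ (s + 1))).filter
      (fun i => ∀ m : ℤ, κ < |(d : ℝ) * θ i - (m : ℝ)|)).card

/-- The drop sets and their clocks. -/
structure Clocks (A : Act X μ) where
  D : ℕ → Set X
  θ : ℕ → ℝ
  K : ℝ
  s0 : ℕ
  mD : ∀ i, MeasurableSet (D i)
  μD : ∀ i, μ.real (D i) ≤ 2 / 100 ^ i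
  gap : ∀ i x, ∃ j : ℕ, j < 2 * 100 ^ i ∧ A.σ (j : ℤ) x ∈ D i
  θ_nonneg : ∀ i, 0 ≤ θ i
  θ_le : ∀ i, θ i ≤ 2 / 100 ^ i
  phase : ∀ i, 10 ≤ i → ∀ (x : X) (e : ℤ), x ∈ D i → A.σ e x ∈ D i →
    ∃ m : ℤ, |(e : ℝ) * θ i - (m : ℝ)| ≤ 1 / 100 ^ 8
  code : ∃ᶠ k in atTop, CodeAt θ (3 / 100 ^ 8) s0 k
  cov : ∀ i j : ℕ, i ≤ j → ∀ a b a' b' : ℤ, |a| ≤ 2 * 100 ^ i → |b| ≤ 2 * 100 ^ i →
    |a'| ≤ 2 * 100 ^ j → |b'| ≤ 2 * 100 ^ j →
    |μ.real (A.hit (upper D i) a b ∩ A.hit (upper D j) a' b') -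
      μ.real (A.hit (upper D i) a b) * μ.real (A.hit (upper D j) a' b')| ≤ K / 2 ^ (j - i)

/-- The costs: off the small set `E k`, the weight is `exp (-low k)` (with `low k ≤ G k`) away from
the drops of level `≥ k`, and at most `exp (-c k)` on them. -/
structure Costs (μ : Measure X) (D : ℕ → Set X) (f : X → ℝ) where
  E : ℕ → Set X
  low : ℕ → X → ℝ
  G : ℕ → ℝ
  c : ℕ → ℝ
  mE : ∀ k, MeasurableSet (E k)
  mlow : ∀ k, Measurable (low k)
  μE : ∀ k, μ.real (E k) ≤ 1 / 100 ^ (10 * k)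
  G_nonneg : ∀ k, 0 ≤ G k
  low_bd : ∀ k x, 0 ≤ low k x ∧ low k x ≤ G k
  c_mono : Monotone c
  c_ge : ∀ k : ℕ, (k : ℝ) * (100 ^ k + G k) ^ 2 ≤ c k
  f01 : ∀ x, 0 ≤ f x ∧ f x ≤ 1
  f_low : ∀ k x, x ∉ E k → x ∉ upper D k → f x = Real.exp (-low k x)
  f_high : ∀ k x, x ∉ E k → x ∈ upper D k → f x ≤ Real.exp (-c k)

end General

instance isProbabilityMeasure_unitAddCircle :
    IsProbabilityMeasure (volume : Measure UnitAddCircle) := ⟨UnitAddCircle.measure_univ⟩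

/-- the rotation by `θ` on the circle `ℝ / ℤ` -/
noncomputable def rot (θ : ℝ) : Act UnitAddCircle volume where
  σ d x := x + (((d : ℝ) * θ : ℝ) : UnitAddCircle)
  mp _ := measurePreserving_add_right _ _
  zero x := by simp
  add a b x := by
    rw [Int.cast_add, add_mul, AddCircle.coe_add]; abel

theorem rot_σ (θ : ℝ) (d : ℤ) (x : UnitAddCircle) :
    (rot θ).σ d x = x + (((d : ℝ) * θ : ℝ) : UnitAddCircle) := rfl

/-- the clock `q • x` is about to wrap around (it moves by `η` mod 1 at each step) -/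
def wrap (q : ℕ) (η : ℝ) : Set UnitAddCircle :=
  {x | ∃ y : ℝ, -η ≤ y ∧ y < 0 ∧ q • x = (y : UnitAddCircle)}

end Crest.Agent.R113
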