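import Crest.Agent.R113.FKShift

/-!
# R113 — S0151: the product of rotations
-/

set_option autoImplicit false

namespace Crest.Agent.R113

open MeasureTheory Crest.AnalysisR.ProductShift

theorem cube_mp_fract (a : ℝ) :
    MeasurePreserving (fun x : ℝ => Int.fract (x + a)) unitLebesgue unitLebesgue := by
  have hm : Measurable fun x : ℝ => Int.fract (x + a) := (measurable_id.add_const a).fract
  refine ⟨hm, ?_⟩
  ext s hs
  set b := Int.fract a with hb
  have hb0 : 0 ≤ b := Int.fract_nonneg a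
  have hb1 : b < 1 := Int.fract_lt_one a
  have hfr : ∀ x : ℝ, Int.fract (x + a) = Int.fract (x + b) := by
    intro x
    rw [hb, ← Int.self_sub_floor a, ← add_sub_assoc, Int.fract_sub_intCast]
  have h1 : ∀ x : ℝ, 0 ≤ x + b → x + b < 1 → Int.fract (x + a) = x + b := fun x h h' => by
    rw [hfr, Int.fract_eq_self.2 ⟨h, h'⟩]
  have h2 : ∀ x : ℝ, 0 ≤ x + (b - 1) → x + (b - 1) < 1 → Int.fract (x + a) = x + (b - 1) := by
    intro x h h'
    rw [hfr, ← Int.fract_sub_one, add_sub_assoc, Int.fract_eq_self.2 ⟨h, h'⟩]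
  have hset : (fun x : ℝ => Int.fract (x + a)) ⁻¹' s ∩ Set.Ico 0 1 =
      (fun x => x + b) ⁻¹' (s ∩ Set.Ico b 1) ∪ (fun x => x + (b - 1)) ⁻¹' (s ∩ Set.Ico 0 b) := by
    ext x
    simp only [Set.mem_inter_iff, Set.mem_preimage, Set.mem_Ico, Set.mem_union]
    constructor
    · rintro ⟨hx, h0, h1'⟩
      by_cases h : x + b < 1
      · rw [h1 x (by linarith) h] at hx
        exact Or.inl ⟨hx, by linarith, h⟩
      · rw [h2 x (by linarith) (by linarith)] at hx
        exact Or.inr ⟨hx, by linarith, by linarith⟩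
    · rintro (⟨hx, h0, h1'⟩ | ⟨hx, h0, h1'⟩)
      · rw [h1 x (by linarith) h1']
        exact ⟨hx, by linarith, by linarith⟩
      · rw [h2 x h0 (by linarith)]
        exact ⟨hx, by linarith, by linarith⟩
  rw [Measure.map_apply hm hs, unitLebesgue, Measure.restrict_apply (hm hs),
    Measure.restrict_apply hs, hset, measure_union, measure_preimage_add_right,
    measure_preimage_add_right, ← measure_union]
  · congr 1
    rw [← Set.inter_union_distrib_left, Set.union_comm, Set.Ico_union_Ico_eq_Ico hb0 hb1.le]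
  · exact Set.disjoint_left.2 fun x hx hx' => absurd hx'.2.2 (not_lt.2 hx.2.1)
  · exact hs.inter measurableSet_Ico
  · refine Set.disjoint_left.2 fun x hx hx' => ?_
    have h3 : x + b < 1 := hx.2.2
    have h4 : 0 ≤ x + (b - 1) := hx'.2.1
    linarith
  · exact (measurable_id.add_const _) (hs.inter measurableSet_Ico)

/-- the unit cube -/
def cubeQ : Set (ℕ → ℝ) := {x | ∀ i, x i ∈ Set.Ico (0 : ℝ) 1}

theorem cube_measurableSet : MeasurableSet cubeQ := by
  have : cubeQ = ⋂ i, (fun x : ℕ → ℝ => x i) ⁻¹' Set.Ico (0 : ℝ) 1 := by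
    ext x
    simp [cubeQ]
  rw [this]
  exact MeasurableSet.iInter fun i => measurable_pi_apply i measurableSet_Ico

theorem cube_mp_eval (i : ℕ) :
    MeasurePreserving (fun x : ℕ → ℝ => x i) cubeMeasure unitLebesgue :=
  measurePreserving_eval_infinitePi (fun _ : ℕ => unitLebesgue) i

theorem cube_ae : ∀ᵐ x ∂cubeMeasure, x ∈ cubeQ := by
  refine ae_all_iff.2 fun i => ?_
  have h : ∀ᵐ y ∂unitLebesgue, y ∈ Set.Ico (0 : ℝ) 1 := ae_restrict_mem measurableSet_Ico
  exact (cube_mp_eval i).quasiMeasurePreserving.ae h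

theorem cube_orbit_mem (θ : ℕ → ℝ) (d : ℤ) (x : ℕ → ℝ) : orbitPoint θ d x ∈ cubeQ :=
  fun _ => ⟨Int.fract_nonneg _, Int.fract_lt_one _⟩

theorem cube_mp_orbit (θ : ℕ → ℝ) (d : ℤ) :
    MeasurePreserving (orbitPoint θ d) cubeMeasure cubeMeasure := by
  have hm : ∀ i, Measurable fun y : ℝ => Int.fract (y + (d : ℝ) * θ i) :=
    fun i => (cube_mp_fract _).measurable
  refine ⟨measurable_pi_lambda _ fun i => (hm i).comp (measurable_pi_apply i), ?_⟩
  have h := Measure.infinitePi_map_pi (fun _ : ℕ => unitLebesgue)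
    (f := fun i (y : ℝ) => Int.fract (y + (d : ℝ) * θ i)) hm
  refine h.trans ?_
  unfold cubeMeasure
  congr 1
  funext i
  exact (cube_mp_fract _).map_eq

theorem cube_fract_add (y a : ℝ) : Int.fract (Int.fract y + a) = Int.fract (y + a) := by
  rw [← Int.self_sub_floor y, sub_add_eq_add_sub, Int.fract_sub_intCast]

open Classical in
/-- The product rotation as an action of `ℤ`. -/
noncomputable def cubeAct (θ : ℕ → ℝ) : Act (ℕ → ℝ) cubeMeasure where
  σ d x := if x ∈ cubeQ then orbitPoint θ d x else x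
  mp d := by
    refine (cube_mp_orbit θ d).congr
      (Measurable.ite cube_measurableSet (cube_mp_orbit θ d).measurable measurable_id) ?_
    filter_upwards [cube_ae] with x hx
    rw [if_pos hx]
  zero x := by
    split_ifs with hx
    · funext i
      simp only [orbitPoint, Int.cast_zero, zero_mul, add_zero]
      exact Int.fract_eq_self.2 (hx i)
    · rfl
  add a b x := by
    by_cases hx : x ∈ cubeQ
    · rw [if_pos hx, if_pos hx, if_pos (cube_orbit_mem θ b x)]
      funext i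
      simp only [orbitPoint]
      rw [cube_fract_add]
      congr 1
      push_cast
      ring
    · rw [if_neg hx, if_neg hx, if_neg hx]

theorem cubeAct_σ (θ : ℕ → ℝ) (d : ℤ) {x : ℕ → ℝ} (hx : x ∈ cubeQ) :
    (cubeAct θ).σ d x = orbitPoint θ d x := if_pos hx

theorem cube_measurable_term (θ c : ℕ → ℝ) (i : ℕ) :
    Measurable fun y : ℝ => ENNReal.ofReal (c i * (⌊y + θ i⌋ : ℝ)) :=
  ((measurable_from_top.comp (measurable_id.add_const (θ i)).floor).const_mul
    (c i)).ennreal_ofReal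

theorem cube_measurable_dropCost (θ c : ℕ → ℝ) : Measurable (dropCost θ c) :=
  Measurable.tsum fun i => (cube_measurable_term θ c i).comp (measurable_pi_apply i)

theorem cube_measurable_weight (θ c : ℕ → ℝ) : Measurable (weight θ c) :=
  Measurable.ite (cube_measurable_dropCost θ c (measurableSet_singleton ⊤)) measurable_const
    (cube_measurable_dropCost θ c).ennreal_toReal.neg.exp

theorem cube_weight_mem (θ c : ℕ → ℝ) (x : ℕ → ℝ) : 0 ≤ weight θ c x ∧ weight θ c x ≤ 1 := by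
  unfold weight
  split_ifs
  · exact ⟨le_rfl, zero_le_one⟩
  · exact ⟨(Real.exp_pos _).le, Real.exp_le_one_iff.2 (neg_nonpos.2 ENNReal.toReal_nonneg)⟩

theorem cube_weight_le (θ c : ℕ → ℝ) (x : ℕ → ℝ) (I : ℕ) :
    weight θ c x ≤ Real.exp (-∑ i ∈ Finset.range I, c i * (⌊x i + θ i⌋ : ℝ)) := by
  unfold weight
  split_ifs with h
  · exact (Real.exp_pos _).le
  · rw [Real.exp_le_exp, neg_le_neg_iff]
    have h1 : ∑ i ∈ Finset.range I, ENNReal.ofReal (c i * (⌊x i + θ i⌋ : ℝ)) ≤ dropCost θ c x :=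
      ENNReal.sum_le_tsum _
    refine le_trans ?_ (ENNReal.toReal_mono h h1)
    rw [ENNReal.toReal_sum fun _ _ => ENNReal.ofReal_ne_top]
    refine Finset.sum_le_sum fun i _ => ?_
    rw [ENNReal.toReal_ofReal']
    exact le_max_left _ _

theorem cube_sum_floor (y a : ℝ) (n : ℕ) :
    ∑ j ∈ Finset.range n, ⌊Int.fract (y + (j : ℝ) * a) + a⌋ = ⌊y + n * a⌋ - ⌊y⌋ := by
  induction n with
  | zero => simp
  | succ n ih =>
    rw [Finset.sum_range_succ, ih, ← Int.self_sub_floor (y + (n : ℝ) * a),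
      sub_add_eq_add_sub (y + (n : ℝ) * a), Int.floor_sub_intCast]
    push_cast
    rw [show y + ((n : ℝ) + 1) * a = y + n * a + a by ring]
    ring

theorem cube_fprod_le (θ c : ℕ → ℝ) (hc : ∀ i, 0 ≤ c i) (I n : ℕ) {x : ℕ → ℝ} (hx : x ∈ cubeQ) :
    (cubeAct θ).fprod (weight θ c) n x ≤
      Real.exp (∑ i ∈ Finset.range I, c i) * Real.exp (-∑ i ∈ Finset.range I, c i * θ i) ^ n := by
  unfold Act.fprod
  refine (Finset.prod_le_prod (fun j _ => (cube_weight_mem θ c _).1)
    fun j _ => cube_weight_le θ c _ I).trans ?_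
  rw [← Real.exp_sum, ← Real.exp_nat_mul, ← Real.exp_add, Real.exp_le_exp, Finset.sum_neg_distrib,
    Finset.sum_comm, mul_neg, Finset.mul_sum, ← sub_eq_add_neg, ← Finset.sum_sub_distrib,
    ← Finset.sum_neg_distrib]
  refine Finset.sum_le_sum fun i _ => ?_
  rw [← Finset.mul_sum]
  have h1 : ∑ j ∈ Finset.range n, (⌊(cubeAct θ).σ (j : ℤ) x i + θ i⌋ : ℝ) =
      (⌊x i + n * θ i⌋ : ℝ) := by
    have h2 := congrArg (fun k : ℤ => (k : ℝ)) (cube_sum_floor (x i) (θ i) n)
    have h3 : ⌊x i⌋ = 0 := Int.floor_eq_zero_iff.2 (hx i)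
    simp only [h3, sub_zero, Int.cast_sum] at h2
    rw [← h2]
    refine Finset.sum_congr rfl fun j _ => ?_
    rw [cubeAct_σ θ _ hx]
    simp only [orbitPoint, Int.cast_natCast]
  rw [h1]
  have h4 := Int.lt_floor_add_one (x i + n * θ i)
  have h5 := (hx i).1
  have h6 : n * θ i - 1 ≤ (⌊x i + n * θ i⌋ : ℝ) := by linarith
  have h7 := mul_le_mul_of_nonneg_left h6 (hc i)
  nlinarith

theorem cube_lintegral_term (θ c : ℕ → ℝ) (hθ : ∀ i, 0 < θ i ∧ θ i < 1) (hc : ∀ i, 0 ≤ c i)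
    (i : ℕ) : ∫⁻ x, ENNReal.ofReal (c i * (⌊x i + θ i⌋ : ℝ)) ∂cubeMeasure ≤
      ENNReal.ofReal (c i * θ i) := by
  rw [(cube_mp_eval i).lintegral_comp (cube_measurable_term θ c i)]
  calc ∫⁻ y, ENNReal.ofReal (c i * (⌊y + θ i⌋ : ℝ)) ∂unitLebesgue
      ≤ ∫⁻ y, (Set.Ico (1 - θ i) 1).indicator (fun _ => ENNReal.ofReal (c i)) y ∂unitLebesgue := by
        refine lintegral_mono_ae ?_
        filter_upwards [ae_restrict_mem (μ := volume) (measurableSet_Ico (a := (0 : ℝ)) (b := 1))]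
          with y hy
        by_cases h : y + θ i < 1
        · have : ⌊y + θ i⌋ = 0 := Int.floor_eq_zero_iff.2 ⟨by linarith [hy.1, (hθ i).1], h⟩
          simp [this]
        · have : ⌊y + θ i⌋ = 1 := Int.floor_eq_iff.2
            ⟨by push_cast; linarith, by push_cast; linarith [hy.2, (hθ i).2]⟩
          rw [this, Set.indicator_of_mem (show y ∈ Set.Ico (1 - θ i) 1 from ⟨by linarith, hy.2⟩)]
          simp
    _ ≤ ∫⁻ y, (Set.Ico (1 - θ i) 1).indicator (fun _ => ENNReal.ofReal (c i)) y :=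
        lintegral_mono' Measure.restrict_le_self le_rfl
    _ = ENNReal.ofReal (c i * θ i) := by
        rw [lintegral_indicator_const measurableSet_Ico, Real.volume_Ico,
          ← ENNReal.ofReal_mul (hc i)]
        congr 1
        ring

theorem cube_unbounded (θ c : ℕ → ℝ) (hθ : ∀ i, 0 < θ i ∧ θ i < 1) (hc : ∀ i, 0 ≤ c i)
    (hlog : ∫⁻ x, ENNReal.ofReal (- Real.log (weight θ c x)) ∂cubeMeasure = ⊤) (B : ℝ) :
    ∃ I : ℕ, B ≤ ∑ i ∈ Finset.range I, c i * θ i := by
  by_contra hne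
  push Not at hne
  have h1 : ∀ x, ENNReal.ofReal (- Real.log (weight θ c x)) ≤ dropCost θ c x := by
    intro x
    unfold weight
    split_ifs with h
    · rw [h]
      exact le_top
    · rw [Real.log_exp, neg_neg, ENNReal.ofReal_toReal h]
  have h2 : ∫⁻ x, dropCost θ c x ∂cubeMeasure ≤ ENNReal.ofReal B := by
    unfold dropCost
    rw [lintegral_tsum (f := fun i (x : ℕ → ℝ) => ENNReal.ofReal (c i * (⌊x i + θ i⌋ : ℝ))) fun i =>
      ((cube_measurable_term θ c i).comp (measurable_pi_apply i)).aemeasurable]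
    refine (ENNReal.tsum_le_tsum (cube_lintegral_term θ c hθ hc)).trans ?_
    refine ENNReal.tsum_le_of_sum_range_le fun I => ?_
    rw [← ENNReal.ofReal_sum_of_nonneg fun i _ => mul_nonneg (hc i) (hθ i).1.le]
    exact ENNReal.ofReal_le_ofReal (hne I).le
  have h3 := (lintegral_mono h1).trans h2
  rw [hlog] at h3
  exact ENNReal.ofReal_ne_top (top_le_iff.1 h3)

theorem cube_vacuum : vacuumVector = Om cubeMeasure := by
  unfold vacuumVector Om
  congr 1
  ext z
  simp

/-- Let `Q = {x | ∀ i, x i ∈ Set.Ico 0 1}` (full measure).  `σ d x = if x ∈ Q then orbitPoint θ d x else x`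
is an `Act (ℕ → ℝ) cubeMeasure` (`x ↦ Int.fract (x + a)` preserves `unitLebesgue`; product:
`measurePreserving_infinitePi`-style lemma or uniqueness `Measure.eq_infinitePi` on cylinders;
`fract (fract y + a) = fract (y + a)`).  `weight θ c` is measurable with values in `[0,1]`.
`IsWeightedShift` gives `IsShift` (`ae_pm_iff`; `pairMeasure = pm cubeMeasure` by `rfl`) and
`vacuumVector = Om cubeMeasure`.  Quasinilpotence: for `y ∈ [0,1)`,
`∑_{j<n} ⌊fract (y + j a) + a⌋ = ⌊y + n a⌋ ≥ n a - 1` (induction: `⌊fract u + a⌋ + ⌊u⌋ = ⌊u + a⌋`), and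
`weight x ≤ exp (-∑_{i<I} c i * ⌊x i + θ i⌋)` on `Q`, so
`fprod n x ≤ exp (∑_{i<I} c i) * exp (-∑_{i<I} c i * θ i) ^ n`.  And `∑_{i<I} c i * θ i` is unbounded:
`⊤ = ∫⁻ ofReal (-log weight) ≤ ∫⁻ dropCost = ∑' i, ofReal (c i * θ i)` (`lintegral_tsum`; on `Q`,
`⌊x i + θ i⌋` is the indicator of `x i ∈ [1 - θ i, 1)`).  Conclude with `Act.vectorDet_shift`. -/
theorem s0151 (θ c : ℕ → ℝ) (hθ : ∀ i, 0 < θ i ∧ θ i < 1) (hc : ∀ i, 0 ≤ c i)
    (hpos : ∀ᵐ x ∂cubeMeasure, 0 < weight θ c x)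
    (hlog : ∫⁻ x, ENNReal.ofReal (- Real.log (weight θ c x)) ∂cubeMeasure = ⊤)
    (T : pairSpace →L[ℂ] pairSpace) (hT : IsWeightedShift θ c T) (z : ℂ) :
    vectorDet vacuumVector (T - z • (1 : pairSpace →L[ℂ] pairSpace)) = ‖z‖ := by
  rw [cube_vacuum]
  refine (cubeAct θ).vectorDet_shift (cube_measurable_weight θ c) (cube_weight_mem θ c) hpos hlog
    (fun ε hε => ?_) (T := T) (fun g => ?_) z
  · obtain ⟨I, hI⟩ := cube_unbounded θ c hθ hc hlog (-Real.log ε)
    refine ⟨Real.exp (∑ i ∈ Finset.range I, c i), fun n => ?_⟩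
    filter_upwards [cube_ae] with x hx
    refine (cube_fprod_le θ c hc I n hx).trans ?_
    refine mul_le_mul_of_nonneg_left (pow_le_pow_left₀ (Real.exp_pos _).le ?_ n) (Real.exp_pos _).le
    rw [← Real.exp_log hε, Real.exp_le_exp]
    linarith
  · have hQ : ∀ᵐ z ∂(pm cubeMeasure), z.1 ∈ cubeQ := ae_pm_iff.2 fun _ => cube_ae
    have h := hT g
    filter_upwards [h, hQ] with z hz hz'
    rw [cubeAct_σ θ _ hz']
    exact hz

end Crest.Agent.R113
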