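import Crest.Agent.R113.OpAlg
import Crest.Prelude.Def_ProductShift

/-!
# R113 — Fuglede–Kadison determinant of `T - z` for a quasinilpotent `T` (`z ≠ 0`)
-/

set_option autoImplicit false

namespace Crest.Agent.R113

open scoped InnerProductSpace
open Crest.AnalysisR.ProductShift

variable {H : Type*} [NormedAddCommGroup H] [InnerProductSpace ℂ H] [CompleteSpace H]

/-- the trace as a real continuous linear functional -/
noncomputable def TrAlg.τL (B : TrAlg H) : (H →L[ℂ] H) →L[ℝ] ℝ :=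
  Complex.reCLM.comp
    (((innerSL ℂ B.Ω).comp (ContinuousLinearMap.apply ℂ H B.Ω)).restrictScalars ℝ)

theorem TrAlg.τL_apply (B : TrAlg H) (a : H →L[ℂ] H) : B.τL a = B.τ a := rfl

theorem TrAlg.abs_τ_le (B : TrAlg H) (hΩ : ‖B.Ω‖ = 1) (a : H →L[ℂ] H) : |B.τ a| ≤ ‖a‖ := by
  refine (RCLike.abs_re_le_norm _).trans ((norm_inner_le_norm _ _).trans ?_)
  have := a.le_opNorm B.Ω
  rw [hΩ] at this ⊢
  linarith

theorem TrAlg.τ_algebraMap (B : TrAlg H) (hΩ : ‖B.Ω‖ = 1) (r : ℝ) :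
    B.τ (algebraMap ℝ (H →L[ℂ] H) r) = r := by
  rw [Algebra.algebraMap_eq_smul_one, ← B.τL_apply, map_smul, B.τL_apply]
  have := B.τ_star_mul_self 1
  simp only [star_one, mul_one, one_apply_eq_self, hΩ] at this
  simp [this]

theorem fk_spec_bound {A R : H →L[ℂ] H} (hRA : R * A = 1) {C D : ℝ} (hC : 0 < C) (hR : ‖R‖ ≤ C)
    (hA : ‖A‖ ≤ D) : ∀ x ∈ spectrum ℝ (star A * A), (C ^ 2)⁻¹ ≤ x ∧ x ≤ D ^ 2 := by
  have hsa : IsSelfAdjoint (star A * A) := IsSelfAdjoint.star_mul_self A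
  have h0 : 0 ≤ star A * A := star_mul_self_nonneg A
  have h1 : algebraMap ℝ (H →L[ℂ] H) (C ^ 2)⁻¹ ≤ star A * A := by
    have h2 := CStarAlgebra.star_left_conjugate_le_norm_smul (a := A) (b := star R * R)
      (IsSelfAdjoint.star_mul_self R)
    have e : star A * (star R * R) * A = 1 := by
      rw [← mul_assoc, ← star_mul, hRA, star_one, one_mul, hRA]
    rw [e] at h2
    have h3 : ‖star R * R‖ ≤ C ^ 2 := by
      rw [CStarRing.norm_star_mul_self, sq]; gcongr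
    have h4 : (1 : H →L[ℂ] H) ≤ (C ^ 2) • (star A * A) :=
      h2.trans (smul_le_smul_of_nonneg_right h3 h0)
    have h5 := smul_le_smul_of_nonneg_left h4 (show (0 : ℝ) ≤ (C ^ 2)⁻¹ by positivity)
    rwa [smul_smul, inv_mul_cancel₀ (by positivity), one_smul,
      ← Algebra.algebraMap_eq_smul_one] at h5
  have h6 : star A * A ≤ algebraMap ℝ (H →L[ℂ] H) (D ^ 2) := by
    rw [← CStarAlgebra.norm_le_iff_le_algebraMap _ (by positivity) h0,
      CStarRing.norm_star_mul_self, sq]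
    gcongr
    exact (norm_nonneg _).trans hA
  intro x hx
  exact ⟨(algebraMap_le_iff_le_spectrum hsa).1 h1 x hx,
    (le_algebraMap_iff_spectrum_le hsa).1 h6 x hx⟩

theorem fk_one_sub_smul {P : H →L[ℂ] H} (hP : IsSelfAdjoint P) (c : ℝ) :
    cfc (fun x : ℝ => 1 - c * x) P = 1 - c • P := by
  rw [cfc_sub .., cfc_const_one ℝ P, cfc_const_mul_id c P]

theorem fk_norm_le {P : H →L[ℂ] H} (hP : IsSelfAdjoint P) {c ρ : ℝ} (hρ0 : 0 ≤ ρ)
    (hs : ∀ x ∈ spectrum ℝ P, |1 - c * x| ≤ ρ) : ‖1 - c • P‖ ≤ ρ := by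
  rw [← fk_one_sub_smul hP]
  exact norm_cfc_le hρ0 hs

theorem fk_log_approx {P : H →L[ℂ] H} (hP : IsSelfAdjoint P) {c ρ : ℝ} (hc : 0 < c) (hρ0 : 0 ≤ ρ)
    (hρ : ρ < 1) (hs : ∀ x ∈ spectrum ℝ P, |1 - c * x| ≤ ρ) (N : ℕ) :
    ‖∑ n ∈ Finset.range N, ((n : ℝ) + 1)⁻¹ • (1 - c • P) ^ (n + 1)
      + (cfc Real.log P + algebraMap ℝ _ (Real.log c))‖ ≤ ρ ^ (N + 1) / (1 - ρ) := by
  have hpos : ∀ x ∈ spectrum ℝ P, 0 < x := fun x hx => by
    have := (abs_le.1 (hs x hx)).2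
    by_contra h
    nlinarith [mul_nonneg hc.le (neg_nonneg.2 (not_lt.1 h))]
  have hlog : ContinuousOn Real.log (spectrum ℝ P) :=
    Real.continuousOn_log.mono fun x hx => (hpos x hx).ne'
  have e1 : ∑ n ∈ Finset.range N, ((n : ℝ) + 1)⁻¹ • (1 - c • P) ^ (n + 1)
      = cfc (fun x : ℝ => ∑ n ∈ Finset.range N, ((n : ℝ) + 1)⁻¹ * (1 - c * x) ^ (n + 1)) P := by
    rw [show (fun x : ℝ => ∑ n ∈ Finset.range N, ((n : ℝ) + 1)⁻¹ * (1 - c * x) ^ (n + 1))
      = ∑ n ∈ Finset.range N, fun x : ℝ => ((n : ℝ) + 1)⁻¹ * (1 - c * x) ^ (n + 1) by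
        ext x; simp, cfc_sum _ _ _ (fun _ _ => by fun_prop)]
    refine Finset.sum_congr rfl fun n _ => ?_
    rw [cfc_const_mul .., cfc_pow .., fk_one_sub_smul hP]
  rw [e1, ← cfc_const (Real.log c) P, ← cfc_add .., ← cfc_add ..]
  refine norm_cfc_le (by have := sub_pos.2 hρ; positivity) fun x hx => ?_
  have h1 := Real.abs_log_sub_add_sum_range_le ((hs x hx).trans_lt hρ) N
  rw [sub_sub_cancel, Real.log_mul hc.ne' (hpos x hx).ne'] at h1
  rw [Real.norm_eq_abs, add_comm (Real.log x)]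
  simp only [← div_eq_inv_mul]
  refine h1.trans ?_
  have := hs x hx
  gcongr

/-- `τ (log (A s)* (A s))` is constant along a path with `τ ((A s)⁻¹ A') = 0`. -/
theorem TrAlg.τ_log_path (B : TrAlg H) (hΩ : ‖B.Ω‖ = 1) {T Z : H →L[ℂ] H} (hT : T ∈ B.M)
    (hZ : Z ∈ B.M) {C : ℝ} (hC : 0 < C)
    (hR : ∀ s ∈ Set.Icc (0 : ℝ) 1, ∃ R : H →L[ℂ] H, R * (s • T + Z) = 1 ∧ (s • T + Z) * R = 1 ∧
      ‖R‖ ≤ C ∧ B.τ (R * T) = 0) :
    B.τ (cfc Real.log (star (T + Z) * (T + Z))) = B.τ (cfc Real.log (star Z * Z)) := by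
  set A : ℝ → (H →L[ℂ] H) := fun s => s • T + Z with hA
  set P : ℝ → (H →L[ℂ] H) := fun s => star (A s) * A s with hP
  set D : ℝ := ‖T‖ + ‖Z‖ + C⁻¹ with hD
  have hD0 : 0 < D := by positivity
  have hAD : ∀ s ∈ Set.Icc (0 : ℝ) 1, ‖A s‖ ≤ D := fun s hs => by
    refine (norm_add_le _ _).trans ?_
    rw [norm_smul, Real.norm_of_nonneg hs.1]
    have : 0 < C⁻¹ := by positivity
    nlinarith [norm_nonneg T, hs.1, hs.2]
  have hAM : ∀ s, A s ∈ B.M := fun s =>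
    add_mem (by rw [← Complex.coe_smul]; exact B.M.smul_mem hT _) hZ
  set c : ℝ := (D ^ 2)⁻¹ with hc
  have hc0 : 0 < c := by positivity
  set ρ : ℝ := 1 - c * (C ^ 2)⁻¹ with hρ
  have hρ1 : ρ < 1 := by
    have : 0 < c * (C ^ 2)⁻¹ := by positivity
    linarith
  have hρ0 : 0 ≤ ρ := by
    have h1 : (C ^ 2)⁻¹ ≤ D ^ 2 := by
      rw [← inv_pow]; gcongr
      linarith [norm_nonneg T, norm_nonneg Z]
    have h2 := mul_le_mul_of_nonneg_left h1 hc0.le
    rw [hc, inv_mul_cancel₀ (by positivity)] at h2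
    linarith
  have hsp : ∀ s ∈ Set.Icc (0 : ℝ) 1, ∀ x ∈ spectrum ℝ (P s), |1 - c * x| ≤ ρ := by
    intro s hs x hx
    obtain ⟨R, h1, -, h3, -⟩ := hR s hs
    obtain ⟨h4, h5⟩ := fk_spec_bound h1 hC h3 (hAD s hs) x hx
    have h6 := mul_le_mul_of_nonneg_left h5 hc0.le
    rw [hc, inv_mul_cancel₀ (by positivity), ← hc] at h6
    have h7 := mul_le_mul_of_nonneg_left h4 hc0.le
    rw [abs_of_nonneg (by linarith)]
    linarith
  have hsa : ∀ s, IsSelfAdjoint (P s) := fun s => IsSelfAdjoint.star_mul_self _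
  set Y : ℝ → (H →L[ℂ] H) := fun s => 1 - c • P s with hY
  set Y' : ℝ → (H →L[ℂ] H) := fun s => -(c • (star T * A s + star (A s) * T)) with hY'
  have smulM : ∀ (r : ℝ) {a : H →L[ℂ] H}, a ∈ B.M → r • a ∈ B.M := fun r a ha => by
    rw [← Complex.coe_smul]; exact B.M.smul_mem ha _
  have hYM : ∀ s, Y s ∈ B.M := fun s =>
    sub_mem (one_mem _) (smulM _ (mul_mem (star_mem (hAM s)) (hAM s)))
  have hY'M : ∀ s, Y' s ∈ B.M := fun s =>
    neg_mem (smulM _ (add_mem (mul_mem (star_mem hT) (hAM s)) (mul_mem (star_mem (hAM s)) hT)))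
  have hder : ∀ s, HasDerivAt Y (Y' s) s := fun s => by
    have h1 : HasDerivAt A T s := by
      have := ((hasDerivAt_id s).smul_const T).add_const Z
      rwa [one_smul] at this
    have h2 : HasDerivAt (fun s => star (A s)) (star T) s := by
      have : (fun s => star (A s)) = fun s : ℝ => s • star T + star Z := by
        ext1 s; simp [hA]
      rw [this]
      simpa using ((hasDerivAt_id s).smul_const (star T)).add_const (star Z)
    exact ((h2.mul h1).const_smul c).const_sub 1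
  set g : ℕ → ℝ → ℝ := fun N s =>
    B.τL (∑ n ∈ Finset.range N, ((n : ℝ) + 1)⁻¹ • Y s ^ (n + 1)) with hg
  have hgd : ∀ N s, HasDerivAt (g N) (B.τ ((∑ n ∈ Finset.range N, Y s ^ n) * Y' s)) s := by
    intro N s
    have h1 := B.τL.hasFDerivAt.comp_hasDerivAt s (HasDerivAt.fun_sum (u := Finset.range N)
      fun n _ => ((hder s).fun_pow' (n + 1)).fun_const_smul ((n : ℝ) + 1)⁻¹)
    refine h1.congr_deriv (Eq.symm ?_)
    rw [Finset.sum_mul, ← B.τL_apply, map_sum, map_sum]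
    refine Finset.sum_congr rfl fun n _ => ?_
    rw [map_smul, map_sum, Finset.sum_congr rfl (g := fun _ => B.τL (Y s ^ n * Y' s))]
    · simp only [Finset.sum_const, Finset.card_range, nsmul_eq_mul, smul_eq_mul, Nat.cast_add,
        Nat.cast_one]
      rw [← mul_assoc, inv_mul_cancel₀ (by positivity), one_mul]
    · intro i hi
      rw [B.τL_apply, B.τL_apply, B.τ_comm (mul_mem (pow_mem (hYM s) _) (hY'M s))
        (pow_mem (hYM s) _), ← mul_assoc, ← pow_add]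
      congr 3
      have := Finset.mem_range.1 hi
      simp only [Nat.pred_succ]
      omega
  have hgb : ∀ N, ∀ s ∈ Set.Icc (0 : ℝ) 1,
      |B.τ ((∑ n ∈ Finset.range N, Y s ^ n) * Y' s)| ≤ 2 * C ^ 2 * D * ‖T‖ * ρ ^ N := by
    intro N s hs
    obtain ⟨R, h1, h2, h3, h4⟩ := hR s hs
    have hRM : R ∈ B.M := B.inv_mem _ (hAM s) R h2 h1
    change R * A s = 1 at h1
    change A s * R = 1 at h2
    have hAs := hAD s hs
    have e1 : R * star R * P s = 1 := by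
      rw [hP]
      simp only
      rw [mul_assoc, ← mul_assoc (star R), ← star_mul, h2, star_one, one_mul, h1]
    have e2 : c • ∑ n ∈ Finset.range N, Y s ^ n = R * star R * (1 - Y s ^ N) := by
      rw [← mul_neg_geom_sum, hY]
      simp only [sub_sub_cancel]
      rw [← mul_assoc, mul_smul_comm, e1, smul_mul_assoc, one_mul]
    set W := star T * A s + star (A s) * T with hW
    have e3 : (∑ n ∈ Finset.range N, Y s ^ n) * Y' s
        = R * star R * Y s ^ N * W - R * star R * W := by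
      rw [hY']
      simp only
      rw [mul_neg, mul_smul_comm, ← smul_mul_assoc, e2, ← hW]
      noncomm_ring
    have e4 : B.τ (R * star R * W) = 0 := by
      rw [hW, mul_add, B.τ_add]
      have f1 : R * star R * (star (A s) * T) = R * T := by
        rw [mul_assoc, ← mul_assoc (star R), ← star_mul, h2, star_one, one_mul]
      have f2 : B.τ (R * star R * (star T * A s)) = B.τ (R * T) := by
        rw [← mul_assoc, B.τ_comm (mul_mem (mul_mem hRM (star_mem hRM)) (star_mem hT)) (hAM s),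
          ← mul_assoc, ← mul_assoc, h2, one_mul, ← star_mul, B.τ_star, B.τ_comm hT hRM]
      rw [f1, f2, h4, add_zero]
    rw [e3, B.τ_sub, e4, sub_zero]
    refine (B.abs_τ_le hΩ _).trans ?_
    have n1 : ‖W‖ ≤ 2 * D * ‖T‖ := by
      refine (norm_add_le _ _).trans ?_
      have a1 := norm_mul_le (star T) (A s)
      have a2 := norm_mul_le (star (A s)) T
      rw [_root_.norm_star] at a1 a2
      nlinarith [norm_nonneg T]
    have n2 : ‖Y s ^ N‖ ≤ ρ ^ N := by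
      have n3 : ‖Y s‖ ≤ ρ := fk_norm_le (hsa s) hρ0 (hsp s hs)
      rcases N with _ | N
      · rw [pow_zero, pow_zero]; exact ContinuousLinearMap.norm_id_le
      · exact (norm_pow_le' _ N.succ_pos).trans (by gcongr)
    have n4 : ‖R * star R‖ ≤ C ^ 2 := by
      rw [CStarRing.norm_self_mul_star, sq]; gcongr
    calc ‖R * star R * Y s ^ N * W‖ ≤ ‖R * star R‖ * ‖Y s ^ N‖ * ‖W‖ :=
          (norm_mul_le _ _).trans (by gcongr; exact norm_mul_le _ _)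
      _ ≤ C ^ 2 * ρ ^ N * (2 * D * ‖T‖) := by gcongr
      _ = _ := by ring
  have happ : ∀ N, ∀ s ∈ Set.Icc (0 : ℝ) 1,
      |g N s + (B.τ (cfc Real.log (P s)) + Real.log c)| ≤ ρ ^ (N + 1) / (1 - ρ) := by
    intro N s hs
    have := (B.abs_τ_le hΩ _).trans (fk_log_approx (hsa s) hc0 hρ0 hρ1 (hsp s hs) N)
    rwa [B.τ_add, B.τ_add, B.τ_algebraMap hΩ] at this
  have hfin : ∀ N, |B.τ (cfc Real.log (P 1)) - B.τ (cfc Real.log (P 0))|
      ≤ (2 * C ^ 2 * D * ‖T‖ + 2 * ρ / (1 - ρ)) * ρ ^ N := by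
    intro N
    have h1 := norm_image_sub_le_of_norm_deriv_le_segment_01'
      (fun s _ => (hgd N s).hasDerivWithinAt)
      (fun s hs => hgb N s (Set.Ico_subset_Icc_self hs))
    rw [Real.norm_eq_abs] at h1
    have h2 := happ N 1 (by simp)
    have h3 := happ N 0 (by simp)
    have e : (2 * C ^ 2 * D * ‖T‖ + 2 * ρ / (1 - ρ)) * ρ ^ N
        = 2 * C ^ 2 * D * ‖T‖ * ρ ^ N + ρ ^ (N + 1) / (1 - ρ) + ρ ^ (N + 1) / (1 - ρ) := by ring
    rw [e]
    rw [abs_le] at h1 h2 h3 ⊢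
    constructor <;> linarith [h1.1, h1.2, h2.1, h2.2, h3.1, h3.2]
  have hlim := (tendsto_pow_atTop_nhds_zero_of_lt_one hρ0 hρ1).const_mul
    (2 * C ^ 2 * D * ‖T‖ + 2 * ρ / (1 - ρ))
  rw [mul_zero] at hlim
  have h := abs_nonpos_iff.1 (ge_of_tendsto' hlim hfin)
  simpa [hP, hA, sub_eq_zero] using h

theorem fk_inv {T : H →L[ℂ] H}
    (hq : ∀ ε : ℝ, 0 < ε → ∃ C : ℝ, ∀ n : ℕ, ‖T ^ n‖ ≤ C * ε ^ n) {Ω : H}
    (h0 : ∀ n : ℕ, 1 ≤ n → ⟪Ω, (T ^ n) Ω⟫_ℂ = 0) {z : ℂ} (hz : z ≠ 0) :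
    ∃ C : ℝ, 0 < C ∧ ∀ s ∈ Set.Icc (0 : ℝ) 1, ∃ R : H →L[ℂ] H,
      R * (s • T + -(z • 1)) = 1 ∧ (s • T + -(z • 1)) * R = 1 ∧ ‖R‖ ≤ C ∧ ⟪Ω, (R * T) Ω⟫_ℂ = 0 := by
  have hz' : 0 < ‖z‖ := norm_pos_iff.2 hz
  obtain ⟨C, hC⟩ := hq (‖z‖ / 2) (by positivity)
  have hC0 : 0 ≤ C := by simpa using (norm_nonneg _).trans (hC 0)
  refine ⟨‖z‖⁻¹ * (C * 2) + 1, by positivity, fun s hs => ?_⟩
  set x : H →L[ℂ] H := ((s : ℂ) / z) • T with hx
  have hb : ∀ n, ‖x ^ n‖ ≤ C * (1 / 2) ^ n := fun n => by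
    rw [hx, smul_pow, norm_smul, norm_pow, norm_div, Complex.norm_real,
      Real.norm_of_nonneg hs.1]
    calc (s / ‖z‖) ^ n * ‖T ^ n‖ ≤ (1 / ‖z‖) ^ n * (C * (‖z‖ / 2) ^ n) := by
          gcongr
          · exact div_nonneg hs.1 hz'.le
          · exact hs.2
          · exact hC n
      _ = C * (1 / ‖z‖ * (‖z‖ / 2)) ^ n := by rw [mul_pow]; ring
      _ = _ := by congr 2; field_simp
  have hg := hasSum_geometric_two.mul_left C
  have hsum : Summable (x ^ ·) := Summable.of_norm_bounded hg.summable hb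
  have e : s • T + -(z • (1 : H →L[ℂ] H)) = (-z) • (1 - x) := by
    rw [hx, smul_sub, smul_smul, ← Complex.coe_smul, show -z * ((s : ℂ) / z) = -s by field_simp]
    simp [add_comm]
  refine ⟨(-z)⁻¹ • ∑' n, x ^ n, ?_, ?_, ?_, ?_⟩
  · rw [e, smul_mul_smul_comm, hsum.tsum_pow_mul_one_sub, inv_mul_cancel₀ (neg_ne_zero.2 hz),
      one_smul]
  · rw [e, smul_mul_smul_comm, hsum.one_sub_mul_tsum_pow, mul_inv_cancel₀ (neg_ne_zero.2 hz),
      one_smul]
  · rw [norm_smul, norm_inv, norm_neg]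
    have := tsum_of_norm_bounded hg hb
    calc ‖z‖⁻¹ * ‖∑' n, x ^ n‖ ≤ ‖z‖⁻¹ * (C * 2) := by gcongr
      _ ≤ _ := by linarith
  · let L : (H →L[ℂ] H) →L[ℂ] ℂ := (innerSL ℂ Ω).comp (ContinuousLinearMap.apply ℂ H (T Ω))
    have h1 : ⟪Ω, (((-z)⁻¹ • ∑' n, x ^ n) * T) Ω⟫_ℂ = (-z)⁻¹ • L (∑' n, x ^ n) := by
      rw [← map_smul]; rfl
    rw [h1, L.map_tsum hsum]
    have h2 : ∀ n, L (x ^ n) = 0 := fun n => by
      rw [hx, smul_pow, map_smul]
      have : L (T ^ n) = ⟪Ω, (T ^ (n + 1)) Ω⟫_ℂ := by rw [pow_succ]; rfl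
      rw [this, h0 _ (by omega), smul_zero]
    simp [h2]

/-- Put `A s = s • T - z` (`s` real), `B s = star (A s) * A s`, `τ = B.τ`.
`A s` is invertible with inverse `-∑ (s ^ n / z ^ (n+1)) • T ^ n ∈ M`, of norm `≤ C₀` for `|s| ≤ 2`, so
`m ≤ B s ≤ M₀` with `0 < m`, and `Y s = 1 - B s / M₀` has `0 ≤ Y s ≤ ρ < 1`.
`cfc Real.log (B s) = log M₀ - ∑ (Y s) ^ (n+1) / (n+1)` (uniform convergence on the spectrum,
`Real.hasSum_pow_div_log_of_abs_lt_one`, `norm_cfc_le`).  By the trace property the derivative of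
`τ ((Y s) ^ (n+1))` is `(n+1) τ ((Y s) ^ n * Y' s)`, so (`hasDerivAt_tsum_of_isPreconnected`)
`φ s = τ (log (B s))` has derivative `τ ((B s)⁻¹ B' s) = 2 Re τ ((A s)⁻¹ T) = 0` by `h0`.  Hence
`φ 1 = φ 0 = log ‖z‖ ^ 2`.  Finally `log x ≤ log (x + ε) ≤ log x + ε / m` on the spectrum of `B 1`
(`cfc_le_cfc`-type monotonicity, `cfc Real.log (B + ε) = cfc (fun x => log (x + ε)) B`), so the infimum
over `ε > 0` is `exp (φ 1 / 2) = ‖z‖`. -/
theorem TrAlg.vectorDet_sub_smul (B : TrAlg H) (hcl : IsClosed (B.M : Set (H →L[ℂ] H)))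
    (hΩ : ‖B.Ω‖ = 1) {T : H →L[ℂ] H} (hT : T ∈ B.M)
    (hq : ∀ ε : ℝ, 0 < ε → ∃ C : ℝ, ∀ n : ℕ, ‖T ^ n‖ ≤ C * ε ^ n)
    (h0 : ∀ n : ℕ, 1 ≤ n → ⟪B.Ω, (T ^ n) B.Ω⟫_ℂ = 0) {z : ℂ} (hz : z ≠ 0) :
    vectorDet B.Ω (T - z • (1 : H →L[ℂ] H)) = ‖z‖ := by
  obtain ⟨C, hC, hR⟩ := fk_inv hq h0 hz
  have hz' : 0 < ‖z‖ := norm_pos_iff.2 hz
  have h1 := B.τ_log_path hΩ hT (neg_mem (B.M.smul_mem (one_mem _) z)) hC fun s hs => by
    obtain ⟨R, a1, a2, a3, a4⟩ := hR s hs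
    exact ⟨R, a1, a2, a3, by simp only [TrAlg.τ, a4, map_zero]⟩
  have e0 : star (-(z • (1 : H →L[ℂ] H))) * -(z • (1 : H →L[ℂ] H))
      = algebraMap ℝ (H →L[ℂ] H) (‖z‖ ^ 2) := by
    rw [star_neg, neg_mul_neg, star_smul, star_one, smul_mul_smul_comm, mul_one,
      Algebra.algebraMap_eq_smul_one, ← Complex.coe_smul, Complex.star_def, Complex.conj_mul']
    simp
  rw [e0, cfc_algebraMap, B.τ_algebraMap hΩ, ← sub_eq_add_neg] at h1
  obtain ⟨R, a1, -, a3, -⟩ := hR 1 (by simp)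
  rw [one_smul, ← sub_eq_add_neg] at a1
  set A := T - z • (1 : H →L[ℂ] H) with hA
  have hsp := fun x hx => (fk_spec_bound a1 hC a3 le_rfl x hx).1
  set P := star A * A with hP
  have hsa : IsSelfAdjoint P := IsSelfAdjoint.star_mul_self _
  have hm : 0 < (C ^ 2)⁻¹ := by positivity
  have key : ∀ ε : ℝ, 0 < ε →
      Real.log (‖z‖ ^ 2) ≤ B.τ (cfc Real.log (P + (ε : ℂ) • (1 : H →L[ℂ] H))) ∧
      B.τ (cfc Real.log (P + (ε : ℂ) • (1 : H →L[ℂ] H))) ≤ Real.log (‖z‖ ^ 2) + ε * C ^ 2 := by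
    intro ε hε
    have c1 : ContinuousOn Real.log (spectrum ℝ P) :=
      Real.continuousOn_log.mono fun x hx => (hm.trans_le (hsp x hx)).ne'
    have c2 : ContinuousOn Real.log ((fun x : ℝ => x + ε) '' spectrum ℝ P) :=
      Real.continuousOn_log.mono (by
        rintro _ ⟨x, hx, rfl⟩
        exact (add_pos (hm.trans_le (hsp x hx)) hε).ne')
    have c3 : ContinuousOn (fun x : ℝ => Real.log (x + ε)) (spectrum ℝ P) :=
      c2.comp (by fun_prop) (Set.mapsTo_image _ _)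
    have e1 : cfc Real.log (P + (ε : ℂ) • (1 : H →L[ℂ] H))
        = cfc (fun x : ℝ => Real.log (x + ε)) P := by
      rw [cfc_comp' Real.log (fun x : ℝ => x + ε) P c2, cfc_add_const ε (fun x : ℝ => x) P,
        cfc_id' ℝ P, Algebra.algebraMap_eq_smul_one, Complex.coe_smul]
    rw [e1, ← h1]
    constructor
    · refine B.τ_mono (cfc_mono (fun x hx => ?_) c1 c3)
      exact Real.log_le_log (hm.trans_le (hsp x hx)) (by linarith)
    · rw [← B.τ_algebraMap hΩ (ε * C ^ 2), ← B.τ_add, ← cfc_add_const _ _ P c1]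
      refine B.τ_mono (cfc_mono (fun x hx => ?_) c3 (c1.add continuousOn_const))
      have hx0 := hm.trans_le (hsp x hx)
      have f1 := Real.log_le_sub_one_of_pos (div_pos (add_pos hx0 hε) hx0)
      rw [Real.log_div (add_pos hx0 hε).ne' hx0.ne'] at f1
      have f2 : (x + ε) / x - 1 = ε * x⁻¹ := by field_simp; ring
      have f3 : x⁻¹ ≤ C ^ 2 := inv_le_of_inv_le₀ (by positivity) (hsp x hx)
      nlinarith
  have e2 : Real.exp (Real.log (‖z‖ ^ 2) / 2) = ‖z‖ := by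
    rw [Real.log_pow, show ((2 : ℕ) : ℝ) * Real.log ‖z‖ / 2 = Real.log ‖z‖ by push_cast; ring,
      Real.exp_log hz']
  have : Nonempty {r : ℝ // 0 < r} := ⟨⟨1, one_pos⟩⟩
  change ⨅ ε : {r : ℝ // 0 < r},
    Real.exp (B.τ (cfc Real.log (P + ((ε : ℝ) : ℂ) • (1 : H →L[ℂ] H))) / 2) = ‖z‖
  refine le_antisymm ?_ (le_ciInf fun ε => ?_)
  · have hc : Continuous fun ε : ℝ => Real.exp ((Real.log (‖z‖ ^ 2) + ε * C ^ 2) / 2) := by
      fun_prop
    have hl := (hc.tendsto 0).mono_left (nhdsWithin_le_nhds (s := Set.Ioi 0))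
    rw [zero_mul, add_zero, e2] at hl
    refine ge_of_tendsto hl (eventually_nhdsWithin_of_forall fun ε hε => ?_)
    refine (ciInf_le ⟨0, ?_⟩ ⟨ε, hε⟩).trans ?_
    · rintro _ ⟨ε, rfl⟩; exact (Real.exp_pos _).le
    · have := (key ε hε).2
      exact Real.exp_le_exp.2 (by linarith)
  · rw [← e2]
    have := (key ε ε.2).1
    exact Real.exp_le_exp.2 (by linarith)

end Crest.Agent.R113
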