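import Crest.Agent.R113.OpSys

/-!
# R113 — continuous functional calculus of multiplication operators; transport of `cfc`
-/

set_option autoImplicit false

namespace Crest.Agent.R113

open MeasureTheory
open scoped ComplexConjugate

variable {Y : Type*} [MeasurableSpace Y] {m : Measure Y}

theorem BM.continuousMap_comp {K : Type*} [TopologicalSpace K] [CompactSpace K] [MeasurableSpace K]
    [BorelSpace K] (h : C(K, ℂ)) {κ : Y → K} (hκ : Measurable κ) : BM fun z => h (κ z) :=
  ⟨h.continuous.measurable.comp hκ, ‖h‖, fun _ => h.norm_coe_le_norm _⟩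

theorem BM.continuous_comp {F : Y → ℂ} (hF : BM F) {g : ℂ → ℂ} (hg : Continuous g) :
    BM fun z => g (F z) := by
  obtain ⟨h1, C, hC⟩ := hF
  obtain ⟨D, hD⟩ := (isCompact_closedBall (0 : ℂ) C).exists_bound_of_continuousOn hg.continuousOn
  exact ⟨hg.measurable.comp h1, D, fun z => hD _ (by simpa using hC z)⟩

/-- `h ↦ mulOp (h ∘ κ)` as a star algebra homomorphism -/
noncomputable def mulHom {K : Type*} [TopologicalSpace K] [CompactSpace K] [MeasurableSpace K]
    [BorelSpace K] (m : Measure Y) {κ : Y → K} (hκ : Measurable κ) :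
    C(K, ℂ) →⋆ₐ[ℂ] (Lp ℂ 2 m →L[ℂ] Lp ℂ 2 m) where
  toFun h := mulOp m fun z => h (κ z)
  map_one' := mulOp_one
  map_mul' h h' := (mulOp_mul (BM.continuousMap_comp h hκ) (BM.continuousMap_comp h' hκ)).symm
  map_zero' := by simpa using mulOp_const (m := m) 0
  map_add' h h' := (mulOp_add (BM.continuousMap_comp h hκ) (BM.continuousMap_comp h' hκ)).symm
  commutes' c := by
    simpa [Algebra.algebraMap_eq_smul_one] using mulOp_const (m := m) c
  map_star' h := (star_mulOp (BM.continuousMap_comp h hκ)).symm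

theorem cfc_continuousMap {K : Type*} [TopologicalSpace K] [CompactSpace K] (a : C(K, ℂ))
    {g : ℂ → ℂ} (hg : Continuous g) (x : K) : (cfc g a : C(K, ℂ)) x = g (a x) := by
  have := StarAlgHom.map_cfc (R := ℂ) (ContinuousMap.evalStarAlgHom ℂ ℂ x) g a hg.continuousOn
    (continuous_eval_const x) inferInstance inferInstance
  rw [ContinuousMap.evalStarAlgHom_apply, ContinuousMap.evalStarAlgHom_apply] at this
  rw [this]
  simpa using cfc_algebraMap (R := ℂ) (A := ℂ) (a x) g

theorem isStarNormal_mulOp {F : Y → ℂ} (hF : BM F) : IsStarNormal (mulOp m F) :=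
  ⟨by rw [star_mulOp hF]; exact mulOp_comm hF.cj hF⟩

theorem cfc_mulOp {F : Y → ℂ} (hF : BM F) {g : ℂ → ℂ} (hg : Continuous g) :
    cfc g (mulOp m F) = mulOp m fun z => g (F z) := by
  have hn := isStarNormal_mulOp (m := m) hF
  obtain ⟨h1, C, hC⟩ := hF
  let K := Metric.closedBall (0 : ℂ) C
  let κ : Y → K := fun z => ⟨F z, by simpa [K] using hC z⟩
  have hκ : Measurable κ := h1.subtype_mk
  let a : C(K, ℂ) := ⟨Subtype.val, continuous_subtype_val⟩
  have hc : Continuous (mulHom m hκ) :=
    AddMonoidHomClass.continuous_of_bound (mulHom m hκ) 1 fun h => by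
      rw [one_mul]
      exact norm_mulOp_le (BM.continuousMap_comp h hκ)
        (Filter.Eventually.of_forall fun _ => h.norm_coe_le_norm _) (norm_nonneg _)
  have e : mulHom m hκ a = mulOp m F := rfl
  have := StarAlgHom.map_cfc (R := ℂ) (mulHom m hκ) g a hg.continuousOn hc inferInstance
    (by rw [e]; exact hn)
  rw [e] at this
  rw [← this]
  change mulOp m (fun z => (cfc g a : C(K, ℂ)) (κ z)) = _
  simp only [cfc_continuousMap a hg]
  rfl

theorem Act.cfc_Lf {X : Type*} [MeasurableSpace X] {μ : Measure X} [IsProbabilityMeasure μ]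
    (A : Act X μ) {φ : X → ℂ} (hφ : BM φ) {g : ℂ → ℂ} (hg : Continuous g) :
    cfc g (A.Lf φ) = A.Lf fun x => g (φ x) :=
  cfc_mulOp (A.bmL hφ) hg

end Crest.Agent.R113
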