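import Crest.Agent.R113.FKDet
import Crest.Agent.R113.OpCfc

/-!
# R113 — the determinant of a quasinilpotent weighted shift in a crossed product
-/

set_option autoImplicit false

namespace Crest.Agent.R113

open MeasureTheory Crest.AnalysisR.ProductShift

variable {X : Type*} [MeasurableSpace X] {μ : Measure X} [IsProbabilityMeasure μ]

open scoped InnerProductSpace

omit [IsProbabilityMeasure μ] in
theorem Act.fks_bm_fprod (A : Act X μ) {f : X → ℝ} (hf : BM f) (n : ℕ) : BM (A.fprod f n) :=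
  BM.prod _ fun j _ => hf.comp (A.measurable j)

theorem Act.fks_pow (A : Act X μ) {f : X → ℝ} (hf : BM f) (n : ℕ) :
    (Ush μ 1 * A.Lf fun x => (f x : ℂ)) ^ n = Ush μ n * A.Lf fun x => (A.fprod f n x : ℂ) := by
  induction n with
  | zero => simp [Ush_zero, Act.fprod, A.Lf_one]
  | succ n ih =>
    rw [pow_succ', ih, mul_assoc, ← mul_assoc (A.Lf _), A.Lf_Ush hf.ofReal, mul_assoc, ← mul_assoc,
      Ush_add, A.Lf_mul (hf.ofReal.comp (A.measurable n)) (A.fks_bm_fprod hf n).ofReal]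
    simp only [Act.fprod, Finset.prod_range_succ]
    push_cast
    simp only [add_comm (1 : ℤ), mul_comm]

theorem Act.fks_inner_Ush (A : Act X μ) {φ : X → ℂ} (h : BM φ) {n : ℤ} (hn : n ≠ 0) :
    ⟪Om μ, (Ush μ n * A.Lf φ) (Om μ)⟫_ℂ = 0 := by
  rw [inner_Om]
  refine integral_eq_zero_of_ae ?_
  filter_upwards [ae_pm_iff.1 (compOp_ae (Act.mpU (μ := μ) n) (A.Lf φ (Om μ))) 0,
    ae_pm_iff.1 (mulOp_ae (A.bmL h) (Om μ)) (0 - n), ae_pm_iff.1 (Om_ae (μ := μ)) (0 - n)]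
    with x h1 h2 h3
  rw [mul_apply_eq_comp, Ush, h1, Act.Lf, h2, h3]
  simp [hn]

theorem Act.fks_inner_Lf (A : Act X μ) {φ : X → ℂ} (h : BM φ) :
    ⟪Om μ, A.Lf φ (Om μ)⟫_ℂ = ∫ x, φ x ∂μ := by
  rw [inner_Om]
  refine integral_congr_ae ?_
  filter_upwards [ae_pm_iff.1 (mulOp_ae (A.bmL h) (Om μ)) 0, ae_pm_iff.1 (Om_ae (μ := μ)) 0]
    with x h2 h3
  rw [Act.Lf, h2, h3]
  simp [A.zero]

theorem fks_bm_log {f : X → ℝ} (hf : Measurable f) (h01 : ∀ x, 0 ≤ f x ∧ f x ≤ 1) {ε : ℝ}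
    (hε : 0 < ε) : BM fun x => Real.log (f x * f x + ε) := by
  refine BM.of_abs_le ((hf.mul hf).add_const ε).log
    (C := max |Real.log ε| |Real.log (1 + ε)|) fun x => ?_
  have h0 := mul_self_nonneg (f x)
  have h1 : f x * f x ≤ 1 := by nlinarith [h01 x]
  exact abs_le_max_abs_abs (Real.log_le_log hε (by linarith))
    (Real.log_le_log (by linarith) (by linarith))

theorem fks_vectorDet {H : Type*} [NormedAddCommGroup H] [InnerProductSpace ℂ H] [CompleteSpace H]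
    (ξ : H) (a : H →L[ℂ] H) : vectorDet ξ a = ⨅ ε : {r : ℝ // 0 < r},
      Real.exp (RCLike.re ⟪ξ, cfc (fun z : ℂ => (Real.log (max z.re ε) : ℂ))
        (star a * a + ((ε : ℝ) : ℂ) • (1 : H →L[ℂ] H)) ξ⟫_ℂ / 2) := by
  refine iInf_congr fun ε => ?_
  have hle : algebraMap ℝ _ (ε : ℝ) ≤ star a * a + ((ε : ℝ) : ℂ) • (1 : H →L[ℂ] H) := by
    rw [Complex.coe_smul, ← Algebra.algebraMap_eq_smul_one]
    exact le_add_of_nonneg_left (star_mul_self_nonneg a)
  have hsa : IsSelfAdjoint (star a * a + ((ε : ℝ) : ℂ) • (1 : H →L[ℂ] H)) :=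
    IsSelfAdjoint.of_nonneg ((algebraMap_nonneg _ ε.2.le).trans hle)
  have hsp := (algebraMap_le_iff_le_spectrum hsa).1 hle
  rw [cfc_congr (g := fun t : ℝ => Real.log (max t ε)) fun t ht => by
    simp only [max_eq_left (hsp t ht)], cfc_real_eq_complex _ hsa]

theorem Act.fks_cfc (A : Act X μ) {f : X → ℝ} (hf : BM f) {ε : ℝ} (hε : 0 < ε) :
    cfc (fun z : ℂ => (Real.log (max z.re ε) : ℂ)) (A.Lf fun x => ((f x * f x + ε : ℝ) : ℂ)) =
      A.Lf fun x => (Real.log (f x * f x + ε) : ℂ) := by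
  have hb : BM fun x => f x * f x + ε := (hf.mul hf).add (BM.const ε)
  rw [A.cfc_Lf hb.ofReal]
  · congr 1
    funext x
    rw [Complex.ofReal_re, max_eq_left (le_add_of_nonneg_left (mul_self_nonneg _))]
  · exact Complex.continuous_ofReal.comp ((Complex.continuous_re.max continuous_const).log
      fun z => (lt_max_of_lt_right hε).ne')

theorem fks_int {f : X → ℝ} (hf : Measurable f)
    (h01 : ∀ x, 0 ≤ f x ∧ f x ≤ 1) (hpos : ∀ᵐ x ∂μ, 0 < f x)
    (hlog : ∫⁻ x, ENNReal.ofReal (-Real.log (f x)) ∂μ = ⊤) (K : ℝ) :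
    ∃ ε : ℝ, 0 < ε ∧ ∫ x, Real.log (f x * f x + ε) ∂μ ≤ -K := by
  have hlim : Filter.Tendsto
      (fun n : ℕ => ∫⁻ x, ENNReal.ofReal (-Real.log (f x * f x + 1 / (n + 1))) ∂μ) Filter.atTop
      (nhds (∫⁻ x, ENNReal.ofReal (-Real.log (f x * f x)) ∂μ)) := by
    refine lintegral_tendsto_of_tendsto_of_monotone
      (fun n => ((hf.mul hf).add_const _).log.neg.ennreal_ofReal.aemeasurable)
      (Filter.Eventually.of_forall fun x a b hab => ?_) ?_
    · refine ENNReal.ofReal_le_ofReal (neg_le_neg (Real.log_le_log ?_ ?_))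
      · have := mul_self_nonneg (f x)
        positivity
      · gcongr
    · filter_upwards [hpos] with x hx
      refine ENNReal.tendsto_ofReal (Filter.Tendsto.neg (Filter.Tendsto.log ?_ (mul_pos hx hx).ne'))
      simpa using tendsto_one_div_add_atTop_nhds_zero_nat.const_add (f x * f x)
  have htop : ∫⁻ x, ENNReal.ofReal (-Real.log (f x * f x)) ∂μ = ⊤ := by
    refine top_le_iff.1 (hlog ▸ lintegral_mono_ae ?_)
    filter_upwards [hpos] with x hx
    refine ENNReal.ofReal_le_ofReal ?_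
    rw [Real.log_mul hx.ne' hx.ne']
    linarith [Real.log_nonpos hx.le (h01 x).2]
  rw [htop] at hlim
  obtain ⟨n, hn⟩ := (hlim.eventually (lt_mem_nhds
    (ENNReal.ofReal_lt_top (r := |K| + Real.log 2)))).exists
  have hε : (0 : ℝ) < 1 / (n + 1) := by positivity
  have hε1 : (1 : ℝ) / (n + 1) ≤ 1 := by
    rw [div_le_one (by positivity)]; linarith [Nat.cast_nonneg (α := ℝ) n]
  refine ⟨_, hε, ?_⟩
  have hi := (fks_bm_log hf h01 hε).integrable μ
  have hi' : Integrable (fun x => max (-Real.log (f x * f x + 1 / (n + 1))) 0) μ := hi.neg.pos_part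
  have h2 : 0 ≤ Real.log 2 := Real.log_nonneg (by norm_num)
  have e : ∀ t : ℝ, ENNReal.ofReal t = ENNReal.ofReal (max t 0) := fun t => by
    rw [ENNReal.ofReal_max, ENNReal.ofReal_zero, max_eq_left (zero_le)]
  rw [lintegral_congr fun x => e _] at hn
  rw [← ofReal_integral_eq_lintegral_ofReal hi' (Filter.Eventually.of_forall fun x =>
    le_max_right _ _), ENNReal.ofReal_lt_ofReal_iff_of_nonneg (by positivity)] at hn
  have h3 : ∫ x, Real.log (f x * f x + 1 / (n + 1)) ∂μ ≤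
      ∫ x, (Real.log 2 - max (-Real.log (f x * f x + 1 / (n + 1))) 0) ∂μ := by
    refine integral_mono hi ((integrable_const _).sub hi') fun x => ?_
    have h0 := mul_self_nonneg (f x)
    have h1 : f x * f x ≤ 1 := by nlinarith [h01 x]
    have h4 : Real.log (f x * f x + 1 / (n + 1)) ≤ Real.log 2 :=
      Real.log_le_log (by positivity) (by linarith)
    rcases le_total (-Real.log (f x * f x + 1 / (n + 1))) 0 with h | h
    · simp only [max_eq_right h]; linarith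
    · simp only [max_eq_left h]; linarith
  rw [integral_sub (integrable_const _) hi', integral_const] at h3
  simp only [probReal_univ, one_smul] at h3
  linarith [le_abs_self K]

/-- `T = Ush μ 1 * A.Lf f` (`eq_of_isShift`), `T ^ n = Ush μ n * A.Lf (A.fprod f n)` (induction with
`Lf_Ush`, `Ush_add`, `Lf_mul`), so `‖T ^ n‖ ≤ |C| ε ^ n` (`norm_mulOp_le`, `ae_pm_iff`) and
`⟪Om, T ^ n Om⟫ = 0` for `n ≥ 1` (`inner_Om`, `Om_ae`).  For `z ≠ 0` use `TrAlg.vectorDet_sub_smul` with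
`A.trAlg` (`A.M` is a centralizer, hence closed).  For `z = 0`: `star T * T + ε = A.Lf (f ^ 2 + ε)`, its
spectrum lies in `[ε, ∞)`, so `cfc Real.log` of it is `A.Lf (log (f ^ 2 + ε))` (`cfc_real_eq_complex`,
`cfc_congr` with the continuous function `z ↦ log (max z.re ε)`, `Act.cfc_Lf`), and
`⟪Om, A.Lf h Om⟫ = ∫ h`.  As `ε ↓ 0`, `∫ log (f ^ 2 + ε) → -∞` by monotone convergence
(`∫⁻ ofReal (-log (f ^ 2 + ε)) ↑ ∫⁻ ofReal (-2 log f) = ⊤` because `f > 0` a.e., and
`log (f ^ 2 + ε) ≤ log 2` for `ε ≤ 1`), so the infimum is `0`. -/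
theorem Act.vectorDet_shift (A : Act X μ) {f : X → ℝ} (hf : Measurable f)
    (h01 : ∀ x, 0 ≤ f x ∧ f x ≤ 1) (hpos : ∀ᵐ x ∂μ, 0 < f x)
    (hlog : ∫⁻ x, ENNReal.ofReal (-Real.log (f x)) ∂μ = ⊤)
    (hq : ∀ ε : ℝ, 0 < ε → ∃ C : ℝ, ∀ n : ℕ, ∀ᵐ x ∂μ, A.fprod f n x ≤ C * ε ^ n)
    {T : HS μ →L[ℂ] HS μ} (hT : A.IsShift f T) (z : ℂ) :
    vectorDet (Om μ) (T - z • (1 : HS μ →L[ℂ] HS μ)) = ‖z‖ := by
  have hb : BM f := BM.of_abs_le hf (C := 1) fun x => abs_le.2 ⟨by linarith [h01 x], (h01 x).2⟩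
  obtain rfl := A.eq_of_isShift hb hT
  by_cases hz : z = 0
  · subst hz
    rw [zero_smul, sub_zero, norm_zero, fks_vectorDet]
    have key : ∀ ε : ℝ, 0 < ε → RCLike.re ⟪Om μ, cfc (fun z : ℂ => (Real.log (max z.re ε) : ℂ))
        (star (Ush μ 1 * A.Lf fun x => (f x : ℂ)) * (Ush μ 1 * A.Lf fun x => (f x : ℂ)) +
          (ε : ℂ) • (1 : HS μ →L[ℂ] HS μ)) (Om μ)⟫_ℂ = ∫ x, Real.log (f x * f x + ε) ∂μ := by
      intro ε hε
      rw [star_mul, star_Ush, mul_assoc, ← mul_assoc (Ush μ (-1)), Ush_add, neg_add_cancel, Ush_zero,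
        one_mul, A.star_Lf_real hb, A.Lf_mul hb.ofReal hb.ofReal, ← A.Lf_const,
        A.Lf_add (hb.ofReal.mul hb.ofReal) (BM.const _)]
      simp only [← Complex.ofReal_mul, ← Complex.ofReal_add]
      rw [A.fks_cfc hb hε, A.fks_inner_Lf (fks_bm_log hf h01 hε).ofReal, integral_complex_ofReal]
      simp
    refine le_antisymm (le_of_forall_pos_le_add fun δ hδ => ?_)
      (Real.iInf_nonneg fun _ => (Real.exp_pos _).le)
    obtain ⟨ε, hε, h⟩ := fks_int hf h01 hpos hlog (-(2 * Real.log δ))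
    refine ciInf_le_of_le ⟨0, by rintro _ ⟨ε, rfl⟩; exact (Real.exp_pos _).le⟩ ⟨ε, hε⟩ ?_
    rw [key ε hε, zero_add, ← Real.le_log_iff_exp_le hδ]
    linarith
  · refine A.trAlg.vectorDet_sub_smul ?_ norm_Om (mul_mem (A.Ush_mem 1) (A.Lf_mem hb.ofReal))
      (fun ε hε => ?_) (fun n hn => ?_) hz
    · have : (A.trAlg.M : Set (HS μ →L[ℂ] HS μ)) = ⋂ s ∈ A.gens, {a | s * a = a * s} := by
        ext a
        simp only [Set.mem_iInter, Set.mem_ofPred_eq]
        exact A.mem_M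
      rw [this]
      exact isClosed_biInter fun s _ => isClosed_eq (by fun_prop) (by fun_prop)
    · obtain ⟨C, hC⟩ := hq ε hε
      refine ⟨|C|, fun n => ?_⟩
      rw [A.fks_pow hb]
      have h1 : ‖Ush μ n‖ ≤ 1 := ContinuousLinearMap.opNorm_le_bound _ zero_le_one fun ξ => by
        rw [one_mul]; exact (norm_compOp_apply _ ξ).le
      have h2 : ‖A.Lf fun x => (A.fprod f n x : ℂ)‖ ≤ |C| * ε ^ n := by
        refine norm_mulOp_le (A.bmL (A.fks_bm_fprod hb n).ofReal) (ae_pm_iff.2 fun d => ?_)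
          (by positivity)
        filter_upwards [(A.mp d).quasiMeasurePreserving.ae (hC n)] with x hx
        rw [Complex.norm_real, Real.norm_eq_abs,
          abs_of_nonneg (a := A.fprod f n (A.σ d x)) (Finset.prod_nonneg fun j _ => (h01 _).1)]
        exact hx.trans (mul_le_mul_of_nonneg_right (le_abs_self C) (by positivity))
      exact (norm_mul_le _ _).trans ((mul_le_of_le_one_left (norm_nonneg _) h1).trans h2)
    · rw [A.fks_pow hb]
      exact A.fks_inner_Ush (A.fks_bm_fprod hb n).ofReal (by omega)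

end Crest.Agent.R113
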