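import Crest.Agent.R113.FibDefs

/-!
# R113 — clocks: elementary estimates and the 2-adic family
-/

set_option autoImplicit false

namespace Crest.Agent.R113

open MeasureTheory Crest.AnalysisR.TwoAdic Filter Topology
open scoped InnerProductSpace

attribute [local instance] Crest.AnalysisR.TwoAdic.borelTwoAdic
  Crest.AnalysisR.TwoAdic.borelSpace_twoAdic

theorem ph_mono : Monotone ph := by
  intro a b hab
  unfold ph
  rcases le_total 0 a with ha | ha
  · rw [abs_of_nonneg ha, abs_of_nonneg (ha.trans hab)]; nlinarith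
  · rcases le_total 0 b with hb | hb
    · rw [abs_of_nonpos ha, abs_of_nonneg hb]; nlinarith
    · rw [abs_of_nonpos ha, abs_of_nonpos hb]; nlinarith

theorem Clk.mono {u : ℤ → ℝ} (hu : Clk u) (j : ℤ) (n : ℕ) :
    (n : ℝ) ≤ u (j + n) - u j ∧ u (j + n) - u j ≤ 2 * n := by
  induction n with
  | zero => simp
  | succ n ih =>
    have h := hu.2 (j + n)
    have e : j + ((n + 1 : ℕ) : ℤ) = j + n + 1 := by push_cast; ring
    rw [e]
    push_cast
    constructor <;> linarith [ih.1, ih.2, h.1, h.2]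

/-- the reflected clock -/
theorem Clk.neg {u : ℤ → ℝ} (hu : Clk u) : Clk (fun j => -u (-j)) := by
  refine ⟨by simp [hu.1], fun j => ?_⟩
  have h := hu.2 (-(j + 1))
  have e : -(j + 1) + 1 = -j := by ring
  rw [e] at h
  constructor <;> linarith [h.1, h.2]

/-- For `0 ≤ j`: `(t + n)² - t² ≥ n²`; for `j + n ≤ 0` symmetric; for `j < 0 < j + n`:
`a² + m² ≥ ⌊(n+1)²/4⌋` when `a + m = n`, `a, m ≥ 1`. -/
theorem Clk.ph_sub_ge {u : ℤ → ℝ} (hu : Clk u) (j : ℤ) {n : ℕ} (hn : 1 ≤ n) :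
    10 * (((n + 1) ^ 2 / 4 : ℕ) : ℝ) ≤ ph (u (j + n)) - ph (u j) := by
  have key : ∀ a m : ℕ, a + m = n →
      (((n + 1) ^ 2 / 4 : ℕ) : ℝ) ≤ (a : ℝ) ^ 2 + (m : ℝ) ^ 2 := by
    intro a m h
    have h1 : (n + 1) ^ 2 / 4 < a ^ 2 + m ^ 2 + 1 := by
      rw [Nat.div_lt_iff_lt_mul (by norm_num), ← h]
      zify
      nlinarith [sq_nonneg ((a : ℤ) - m), sq_nonneg (2 * (a : ℤ) - 1), sq_nonneg (2 * (m : ℤ) - 1)]
    exact_mod_cast Nat.lt_succ_iff.1 h1
  have hn0 : (0 : ℝ) ≤ n := Nat.cast_nonneg n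
  have hd := (hu.mono j n).1
  unfold ph
  rcases le_or_gt 0 j with hj | hj
  · obtain ⟨a, rfl⟩ := Int.eq_ofNat_of_zero_le hj
    have h0 := (hu.mono 0 a).1
    rw [zero_add, hu.1, sub_zero] at h0
    have hA : 0 ≤ u a := (Nat.cast_nonneg a).trans h0
    have hk := key 0 n (zero_add n)
    rw [abs_of_nonneg hA, abs_of_nonneg (by linarith)]
    push_cast at hk ⊢
    nlinarith
  · rcases le_or_gt (j + n) 0 with hjn | hjn
    · obtain ⟨b, hb⟩ := Int.eq_ofNat_of_zero_le (show 0 ≤ -(j + n) by omega)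
      have h0 := (hu.mono (j + n) b).1
      rw [show j + n + (b : ℤ) = 0 by omega, hu.1] at h0
      have hB : u (j + n) ≤ 0 := by linarith [(Nat.cast_nonneg b : (0 : ℝ) ≤ b)]
      have hk := key 0 n (zero_add n)
      rw [abs_of_nonpos hB, abs_of_nonpos (by linarith : u j ≤ 0)]
      push_cast at hk ⊢
      nlinarith
    · obtain ⟨a, ha⟩ := Int.eq_ofNat_of_zero_le (show 0 ≤ -j by omega)
      obtain ⟨m, hm⟩ := Int.eq_ofNat_of_zero_le hjn.le
      have h1 := (hu.mono j a).1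
      rw [show j + (a : ℤ) = 0 by omega, hu.1] at h1
      have h2 := (hu.mono 0 m).1
      rw [zero_add, hu.1, sub_zero, ← hm] at h2
      have ha0 : (0 : ℝ) ≤ a := Nat.cast_nonneg a
      have hm0 : (0 : ℝ) ≤ m := Nat.cast_nonneg m
      have hk := key a m (by omega)
      rw [abs_of_nonneg (by linarith : 0 ≤ u (j + n)), abs_of_nonpos (by linarith : u j ≤ 0)]
      nlinarith

namespace FibClkAux

/-- `x` modulo `2 ^ K` -/
noncomputable def aa (K : ℕ) (x : ℤ_[2]) : ℕ := (PadicInt.toZModPow K x).val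

/-- the `K`-th binary digit -/
noncomputable def ee (K : ℕ) (x : ℤ_[2]) : ℕ := aa (K + 1) x / 2 ^ K

theorem aa_lt (K : ℕ) (x : ℤ_[2]) : aa K x < 2 ^ K := ZMod.val_lt _

theorem aa_mod {K L : ℕ} (h : K ≤ L) (x : ℤ_[2]) : aa L x % 2 ^ K = aa K x := by
  unfold aa
  rw [← PadicInt.cast_toZModPow K L h x, ZMod.cast_eq_val, ZMod.val_natCast]

theorem aa_succ (K : ℕ) (x : ℤ_[2]) : aa (K + 1) x = aa K x + 2 ^ K * ee K x := by
  rw [← aa_mod (Nat.le_succ K) x, ee, Nat.mod_add_div]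

theorem ee_le (K : ℕ) (x : ℤ_[2]) : ee K x ≤ 1 := by
  have := aa_lt (K + 1) x
  unfold ee
  rw [← Nat.lt_succ_iff, Nat.div_lt_iff_lt_mul (by positivity)]
  rw [pow_succ] at this
  omega

theorem aa_add_one (K : ℕ) (x : ℤ_[2]) : aa K (x + 1) = (aa K x + 1) % 2 ^ K := by
  unfold aa
  rw [map_add, map_one, ZMod.val_add, ZMod.val_one_eq_one_mod, Nat.add_mod_mod]

theorem exists_aa {x : ℤ_[2]} (hx : x ≠ -1) :
    ∃ K₀, ∀ K, K₀ ≤ K → aa K (x + 1) = aa K x + 1 := by
  have h1 : x + 1 ≠ 0 := fun h => hx (eq_neg_of_add_eq_zero_left h)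
  have h2 : ∃ K₀, aa K₀ (x + 1) ≠ 0 := by
    by_contra hc
    push Not at hc
    refine h1 (PadicInt.ext_of_toZModPow.1 fun n => ?_)
    rw [map_zero]
    exact (ZMod.val_eq_zero _).1 (hc n)
  obtain ⟨K₀, hK₀⟩ := h2
  refine ⟨K₀, fun K hK => ?_⟩
  have h3 : aa K (x + 1) ≠ 0 := fun h => hK₀ (by rw [← aa_mod hK, h, Nat.zero_mod])
  rw [aa_add_one] at h3 ⊢
  have h4 := aa_lt K x
  rcases Nat.lt_or_ge (aa K x + 1) (2 ^ K) with h | h
  · exact Nat.mod_eq_of_lt h
  · have : aa K x + 1 = 2 ^ K := by omega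
    rw [this, Nat.mod_self] at h3
    exact absurd rfl h3

theorem aa_locallyConstant (K : ℕ) : IsLocallyConstant (aa K) := by
  rw [IsLocallyConstant.iff_eventually_eq]
  intro x
  have hpos : (0 : ℝ) < ((2 : ℕ) : ℝ) ^ (-(K : ℤ)) := by positivity
  filter_upwards [Metric.closedBall_mem_nhds x hpos] with y hy
  rw [Metric.mem_closedBall, dist_eq_norm, PadicInt.norm_le_pow_iff_mem_span_pow,
    ← PadicInt.ker_toZModPow, RingHom.mem_ker, map_sub, sub_eq_zero] at hy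
  unfold aa
  rw [hy]

/-- the sum of the digit increments -/
noncomputable def ss (j : ℕ) (x : ℤ_[2]) : ℕ := ∑ i ∈ Finset.Ico 2 j, ee (Nat.log 2 i - 1) x

theorem ss_pow (K : ℕ) (x : ℤ_[2]) : ss (2 ^ (K + 1)) x = 2 * aa K x := by
  induction K with
  | zero =>
    have := aa_lt 0 x
    simp only [ss, zero_add, pow_one, Finset.Ico_self, Finset.sum_empty]
    omega
  | succ K ih =>
    have h1 : 2 ≤ 2 ^ (K + 1) := Nat.le_self_pow (by omega) 2
    have h2 : 2 ^ (K + 1) ≤ 2 ^ (K + 1 + 1) := Nat.pow_le_pow_right (by norm_num) (by omega)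
    unfold ss at ih ⊢
    rw [← Finset.sum_Ico_consecutive _ h1 h2, ih, aa_succ,
      Finset.sum_congr rfl (g := fun _ => ee K x) fun i hi => by
        rw [Finset.mem_Ico] at hi
        rw [Nat.log_eq_of_pow_le_of_lt_pow hi.1 hi.2, Nat.add_sub_cancel]]
    rw [Finset.sum_const, Nat.card_Ico, smul_eq_mul,
      show 2 ^ (K + 1 + 1) - 2 ^ (K + 1) = 2 ^ (K + 1) by rw [pow_succ 2 (K + 1)]; omega]
    ring

theorem ss_succ (j : ℕ) (x : ℤ_[2]) : ss j x ≤ ss (j + 1) x ∧ ss (j + 1) x ≤ ss j x + 1 := by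
  unfold ss
  rcases Nat.lt_or_ge j 2 with h | h
  · rw [Finset.Ico_eq_empty (by omega), Finset.Ico_eq_empty (by omega)]
    simp
  · rw [Finset.sum_Ico_succ_top h]
    have := ee_le (Nat.log 2 j - 1) x
    omega

theorem exists_ss {x : ℤ_[2]} (hx : x ≠ -1) : ∃ J, ∀ j, J ≤ j → ss j (x + 1) = ss j x + 2 := by
  obtain ⟨K₀, hK₀⟩ := exists_aa hx
  have he : ∀ K, K₀ ≤ K → ee K (x + 1) = ee K x := by
    intro K hK
    have h1 := aa_succ K (x + 1)
    rw [hK₀ K hK, hK₀ (K + 1) (by omega), aa_succ K x] at h1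
    exact (Nat.eq_of_mul_eq_mul_left (by positivity) (show 2 ^ K * ee K x = _ by omega)).symm
  refine ⟨2 ^ (K₀ + 1), fun j hj => ?_⟩
  have h1 : 2 ≤ 2 ^ (K₀ + 1) := Nat.le_self_pow (by omega) 2
  have h2 := ss_pow K₀ x
  have h3 := ss_pow K₀ (x + 1)
  unfold ss at h2 h3 ⊢
  rw [← Finset.sum_Ico_consecutive _ h1 hj, ← Finset.sum_Ico_consecutive _ h1 hj, h2, h3,
    hK₀ K₀ le_rfl, Finset.sum_congr rfl (g := fun i => ee (Nat.log 2 i - 1) x) fun i hi => by
      rw [Finset.mem_Ico] at hi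
      have := Nat.le_log_of_pow_le (by norm_num) hi.1
      exact he _ (by omega)]
  ring

/-- the one-sided clock -/
noncomputable def tt (j : ℕ) (x : ℤ_[2]) : ℝ := j + ss j x

theorem tt_zero (x : ℤ_[2]) : tt 0 x = 0 := by simp [tt, ss]

theorem tt_one (x : ℤ_[2]) : tt 1 x = 1 := by simp [tt, ss]

theorem tt_succ (j : ℕ) (x : ℤ_[2]) :
    1 ≤ tt (j + 1) x - tt j x ∧ tt (j + 1) x - tt j x ≤ 2 := by
  obtain ⟨h1, h2⟩ := ss_succ j x
  have h1' : (ss j x : ℝ) ≤ ss (j + 1) x := by exact_mod_cast h1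
  have h2' : (ss (j + 1) x : ℝ) ≤ ss j x + 1 := by exact_mod_cast h2
  unfold tt
  push_cast
  constructor <;> linarith

theorem exists_tt {x : ℤ_[2]} (hx : x ≠ -1) : ∃ J, ∀ j, J ≤ j → tt (j + 1) x ≤ tt j (x + 1) := by
  obtain ⟨J, hJ⟩ := exists_ss hx
  refine ⟨J, fun j hj => ?_⟩
  have h1 := (tt_succ j x).2
  have h2 : tt j (x + 1) = tt j x + 2 := by
    unfold tt
    rw [hJ j hj]
    push_cast
    ring
  linarith

theorem tt_continuous (j : ℕ) : Continuous (tt j) := by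
  unfold tt ss
  simp only [Nat.cast_sum]
  refine continuous_const.add (continuous_finsetSum _ fun i _ => ?_)
  exact ((aa_locallyConstant (Nat.log 2 i - 1 + 1)).comp
    fun n => ((n / 2 ^ (Nat.log 2 i - 1) : ℕ) : ℝ)).continuous

end FibClkAux

/-- Let `e k x ∈ {0,1}` be the `k`-th binary digit of `x` (`a K x = (PadicInt.toZModPow K x).val` or
`PadicInt.appr`, `a (K+1) x = a K x + 2 ^ K * e K x`; these are locally constant, hence measurable).
For `j : ℕ` put `t j x = j + ∑_{2 ≤ i < j} e (Nat.log 2 i - 1) x`, so `t (2^(K+1)) x = 2^(K+1) + 2 a K x`.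
If `x ≠ -1` then for large `K`, `a K x ≠ 2 ^ K - 1`, so `a K (x+1) = a K x + 1` and `e K (x+1) = e K x`;
hence `t j (x+1) = t j x + 2` and `t j x ≤ t (j-1) x + 2 = t (j-1) (x+1)` for large `j`.
Put `u j x = t j x` for `j ≥ 0` and `u (-m) x = -t m (-1 - x)`.  For `j = -m` the claim is
`t (m+1) y ≤ t m (y+1)` with `y = -2 - x ≠ -1`. -/
theorem exists_clk : ∃ u : ℤ → ℤ_[2] → ℝ, (∀ j, Measurable (u j)) ∧ (∀ x, Clk fun j => u j x) ∧
    (∀ x, u 1 x = 1) ∧
    ∀ x, x ≠ -1 → ∃ J : ℕ, ∀ j : ℤ, (J : ℤ) ≤ |j| → u j x ≤ u (j - 1) (x + 1) := by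
  refine ⟨fun j x => FibClkAux.tt j.toNat x - FibClkAux.tt (-j).toNat (-1 - x), fun j => ?_,
    fun x => ⟨by simp [FibClkAux.tt_zero], fun j => ?_⟩, fun x => ?_, fun x hx => ?_⟩
  · exact ((FibClkAux.tt_continuous _).sub
      ((FibClkAux.tt_continuous _).comp (continuous_const.sub continuous_id))).measurable
  · beta_reduce
    rcases le_or_gt 0 j with hj | hj
    · obtain ⟨n, rfl⟩ := Int.eq_ofNat_of_zero_le hj
      have := FibClkAux.tt_succ n x
      rw [show ((n : ℤ) + 1).toNat = n + 1 by omega, show (-((n : ℤ) + 1)).toNat = 0 by omega,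
        show ((n : ℤ)).toNat = n by omega, show (-(n : ℤ)).toNat = 0 by omega]
      constructor <;> linarith [this.1, this.2]
    · obtain ⟨n, hn⟩ := Int.eq_ofNat_of_zero_le (show 0 ≤ -(j + 1) by omega)
      have := FibClkAux.tt_succ n (-1 - x)
      rw [show (j + 1).toNat = 0 by omega, show (-(j + 1)).toNat = n by omega,
        show j.toNat = 0 by omega, show (-j).toNat = n + 1 by omega]
      constructor <;> linarith [this.1, this.2]
  · show FibClkAux.tt 1 x - FibClkAux.tt 0 (-1 - x) = 1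
    rw [FibClkAux.tt_one, FibClkAux.tt_zero, sub_zero]
  · have hy : -1 - (x + 1) ≠ -1 := fun h => hx (by linear_combination -h)
    obtain ⟨J₁, h₁⟩ := FibClkAux.exists_tt hx
    obtain ⟨J₂, h₂⟩ := FibClkAux.exists_tt hy
    refine ⟨J₁ + J₂ + 1, fun j hj => ?_⟩
    push_cast at hj
    beta_reduce
    rcases le_or_gt 0 j with h0 | h0
    · rw [abs_of_nonneg h0] at hj
      obtain ⟨n, hn⟩ := Int.eq_ofNat_of_zero_le (show 0 ≤ j - 1 by omega)
      have := h₁ n (by omega)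
      rw [show j.toNat = n + 1 by omega, show (-j).toNat = 0 by omega,
        show (j - 1).toNat = n by omega, show (-(j - 1)).toNat = 0 by omega,
        FibClkAux.tt_zero, FibClkAux.tt_zero]
      linarith
    · rw [abs_of_neg h0] at hj
      obtain ⟨n, hn⟩ := Int.eq_ofNat_of_zero_le (show 0 ≤ -j by omega)
      have := h₂ n (by omega)
      rw [show -1 - (x + 1) + 1 = -1 - x by ring] at this
      rw [show j.toNat = 0 by omega, show (-j).toNat = n by omega,
        show (j - 1).toNat = 0 by omega, show (-(j - 1)).toNat = n + 1 by omega,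
        FibClkAux.tt_zero, FibClkAux.tt_zero]
      linarith

end Crest.Agent.R113
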