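import Crest.Prelude.Def_TwoAdicShift

/-!
# R113 — S0150 / S0148: definitions

A *clock* is `u : ℤ → ℝ` with `u 0 = 0` and increments in `[1, 2]`; `φ j = ph (u j) = 10 u_j |u_j|`; the
fibre shift has weights `beta u j = exp (-(φ (j+1) - φ j))`.
DO NOT EDIT (owner helper82).
-/

set_option autoImplicit false

namespace Crest.Agent.R113

open MeasureTheory Crest.AnalysisR.TwoAdic

attribute [local instance] Crest.AnalysisR.TwoAdic.borelTwoAdic
  Crest.AnalysisR.TwoAdic.borelSpace_twoAdic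

/-- `10 u |u|` -/
noncomputable def ph (u : ℝ) : ℝ := 10 * (u * |u|)

/-- a clock: `u 0 = 0`, increments in `[1, 2]` -/
def Clk (u : ℤ → ℝ) : Prop := u 0 = 0 ∧ ∀ j, 1 ≤ u (j + 1) - u j ∧ u (j + 1) - u j ≤ 2

/-- the weights of the fibre shift -/
noncomputable def beta (u : ℤ → ℝ) (j : ℤ) : ℝ := Real.exp (-(ph (u (j + 1)) - ph (u j)))

/-- `T` is the weighted shift `δ j ↦ w j • δ (j + k)` on `ℓ²(ℤ)` -/
def IsWsh (w : ℤ → ℝ) (k : ℤ) (T : seqHilbert →L[ℂ] seqHilbert) : Prop :=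
  ∀ (f : seqHilbert) (j : ℤ), (T f : ℤ → ℂ) j = (w (j - k) : ℂ) * (f : ℤ → ℂ) (j - k)

/-- `T` acts on `L²(ℤ₂; ℓ²(ℤ))` by `(T f)(x + a) = Tx x (f x)` -/
def IsField (Tx : ℤ_[2] → (seqHilbert →L[ℂ] seqHilbert)) (a : ℤ_[2])
    (T : fibreSpace →L[ℂ] fibreSpace) : Prop :=
  ∀ f : fibreSpace, ∀ᵐ x ∂haarTwoAdic,
    (T f : ℤ_[2] → seqHilbert) (x + a) = Tx x ((f : ℤ_[2] → seqHilbert) x)

instance isProbabilityMeasure_haarTwoAdic : IsProbabilityMeasure haarTwoAdic :=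
  ⟨by
    have := Measure.addHaarMeasure_self (G := ℤ_[2]) (K₀ := ⊤)
    simpa [haarTwoAdic] using this⟩

instance isAddHaarMeasure_haarTwoAdic : haarTwoAdic.IsAddHaarMeasure := by
  unfold haarTwoAdic; infer_instance

end Crest.Agent.R113
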