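import Crest.Agent.R113.FibOps

/-!
# R113 — fields of operators over `ℤ₂`, and transitivity
-/

set_option autoImplicit false

namespace Crest.Agent.R113

open MeasureTheory Crest.AnalysisR.TwoAdic Filter Topology
open scoped InnerProductSpace

attribute [local instance] Crest.AnalysisR.TwoAdic.borelTwoAdic
  Crest.AnalysisR.TwoAdic.borelSpace_twoAdic

theorem ff_ae_add {p : ℤ_[2] → Prop} (h : ∀ᵐ x ∂haarTwoAdic, p x) (a : ℤ_[2]) :
    ∀ᵐ x ∂haarTwoAdic, p (x + a) :=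
  (measurePreserving_add_right haarTwoAdic a).quasiMeasurePreserving.ae h

theorem ff_ae_of_add {p : ℤ_[2] → Prop} {a : ℤ_[2]} (h : ∀ᵐ x ∂haarTwoAdic, p (x + a)) :
    ∀ᵐ x ∂haarTwoAdic, p x := by
  simpa only [neg_add_cancel_right] using ff_ae_add h (-a)

theorem ff_cont_eval (j : ℤ) : Continuous fun v : seqHilbert => (v : ℤ → ℂ) j :=
  (lp.evalCLM ℂ (fun _ : ℤ => ℂ) 2 j).continuous

theorem ff_exists_field {Tx : ℤ_[2] → (seqHilbert →L[ℂ] seqHilbert)} {C : ℝ}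
    (hC : ∀ x, ‖Tx x‖ ≤ C)
    (hm : ∀ f : ℤ_[2] → seqHilbert, AEStronglyMeasurable f haarTwoAdic →
      AEStronglyMeasurable (fun x => Tx x (f x)) haarTwoAdic) (a : ℤ_[2]) :
    ∃ T : fibreSpace →L[ℂ] fibreSpace, IsField Tx a T := by
  have hle : ∀ (x : ℤ_[2]) (v : seqHilbert), ‖Tx x v‖ ≤ C * ‖v‖ := fun x v =>
    (Tx x).le_of_opNorm_le (hC x) v
  have hmem : ∀ f : fibreSpace,
      MemLp (fun x => Tx x ((f : ℤ_[2] → seqHilbert) x)) 2 haarTwoAdic := fun f =>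
    (Lp.memLp f).of_le_mul (hm _ (Lp.aestronglyMeasurable f))
      (Eventually.of_forall fun x => hle x _)
  let L : fibreSpace →ₗ[ℂ] fibreSpace :=
    { toFun := fun f => (hmem f).toLp _
      map_add' := fun f g => by
        refine Lp.ext ?_
        filter_upwards [(hmem (f + g)).coeFn_toLp, (hmem f).coeFn_toLp, (hmem g).coeFn_toLp,
          Lp.coeFn_add f g, Lp.coeFn_add ((hmem f).toLp _) ((hmem g).toLp _)] with x h1 h2 h3 h4 h5
        rw [h1, h5, h4, Pi.add_apply, Pi.add_apply, h2, h3, map_add]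
      map_smul' := fun c f => by
        refine Lp.ext ?_
        filter_upwards [(hmem (c • f)).coeFn_toLp, (hmem f).coeFn_toLp,
          Lp.coeFn_smul c f, Lp.coeFn_smul c ((hmem f).toLp _)] with x h1 h2 h4 h5
        rw [h1, RingHom.id_apply, h5, h4, Pi.smul_apply, Pi.smul_apply, h2, map_smul] }
  let T₀ : fibreSpace →L[ℂ] fibreSpace := L.mkContinuous C fun f => by
    refine Lp.norm_le_mul_norm_of_ae_le_mul ?_
    filter_upwards [(hmem f).coeFn_toLp] with x h1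
    change ‖((hmem f).toLp _ : ℤ_[2] → seqHilbert) x‖ ≤ _
    rw [h1]
    exact hle x _
  have hp := measurePreserving_add_right haarTwoAdic (-a)
  refine ⟨(Lp.compMeasurePreservingₗᵢ ℂ _ hp).toContinuousLinearMap ∘L T₀, fun f => ?_⟩
  filter_upwards [ff_ae_add (Lp.coeFn_compMeasurePreserving (T₀ f) hp) a, (hmem f).coeFn_toLp]
    with x h1 h2
  refine h1.trans ?_
  simp only [Function.comp, add_neg_cancel_right]
  exact h2

/-- `x ↦ Tx x (f x)` is a.e. strongly measurable as the pointwise limit of the finite sums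
`∑_{j ∈ s} (w j x * f x j) • basisVec (j + k)` (`lp.hasSum_single`,
`aestronglyMeasurable_of_tendsto_ae`), of norm `≤ ‖f x‖`; compose with the measure preserving map
`x ↦ x - a` and use `LinearMap.mkContinuous`. -/
theorem exists_field {w : ℤ → ℤ_[2] → ℝ} (hm : ∀ j, Measurable (w j)) (hw : ∀ j x, |w j x| ≤ 1)
    {k : ℤ} {Tx : ℤ_[2] → (seqHilbert →L[ℂ] seqHilbert)} (hT : ∀ x, IsWsh (fun j => w j x) k (Tx x))
    (a : ℤ_[2]) : ∃ T : fibreSpace →L[ℂ] fibreSpace, IsField Tx a T := by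
  refine ff_exists_field (C := 1) (fun x => (hT x).norm_le fun j => hw j x) (fun f hf => ?_) a
  refine aestronglyMeasurable_of_tendsto_ae (atTop : Filter (Finset ℤ))
    (f := fun s x => ∑ j ∈ s, ((w (j - k) x : ℂ) * (f x : ℤ → ℂ) (j - k)) • basisVec j)
    (fun s => ?_) (Eventually.of_forall fun x => ?_)
  · refine Finset.aestronglyMeasurable_fun_sum s fun j _ => AEStronglyMeasurable.smul_const ?_ _
    exact (Complex.continuous_ofReal.measurable.comp (hm _)).aestronglyMeasurable.mul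
      ((ff_cont_eval _).comp_aestronglyMeasurable hf)
  · have := lp.hasSum_single (p := 2) (by norm_num) (Tx x (f x))
    refine Tendsto.congr (fun s => Finset.sum_congr rfl fun j _ => ?_) this
    beta_reduce
    rw [basisVec, ← lp.single_smul, smul_eq_mul, mul_one]
    exact congrArg _ (hT x (f x) j)

/-- the bounded scalar multipliers -/
theorem exists_mult_field {g : ℤ_[2] → ℂ} (hg : Measurable g) {C : ℝ} (hC : ∀ x, ‖g x‖ ≤ C) :
    ∃ T : fibreSpace →L[ℂ] fibreSpace, IsField (fun x => g x • 1) 0 T := by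
  refine ff_exists_field (C := C) (fun x => ?_) (fun f hf => ?_) 0
  swap
  · have := (hg.aestronglyMeasurable (μ := haarTwoAdic)).smul hf
    refine this.congr (Eventually.of_forall fun x => ?_)
    simp
  refine (norm_smul_le (g x) (1 : seqHilbert →L[ℂ] seqHilbert)).trans ?_
  calc ‖g x‖ * ‖(1 : seqHilbert →L[ℂ] seqHilbert)‖ ≤ ‖g x‖ * 1 :=
        mul_le_mul_of_nonneg_left ContinuousLinearMap.norm_id_le (norm_nonneg _)
    _ ≤ C := by rw [mul_one]; exact hC x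

theorem IsField.norm_le {Tx : ℤ_[2] → (seqHilbert →L[ℂ] seqHilbert)} {a : ℤ_[2]}
    {T : fibreSpace →L[ℂ] fibreSpace} (h : IsField Tx a T) {C : ℝ} (hC : ∀ x, ‖Tx x‖ ≤ C) :
    ‖T‖ ≤ C := by
  refine T.opNorm_le_bound ((norm_nonneg _).trans (hC 0)) fun f => ?_
  have hp := measurePreserving_add_right haarTwoAdic a
  rw [← Lp.norm_compMeasurePreserving (T f) hp]
  refine Lp.norm_le_mul_norm_of_ae_le_mul ?_
  filter_upwards [Lp.coeFn_compMeasurePreserving (T f) hp, h f] with x h1 h2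
  rw [h1, Function.comp, h2]
  exact (Tx x).le_of_opNorm_le (hC x) _

theorem IsField.mul {Tx Tx' : ℤ_[2] → (seqHilbert →L[ℂ] seqHilbert)} {a a' : ℤ_[2]}
    {T T' : fibreSpace →L[ℂ] fibreSpace} (h : IsField Tx a T) (h' : IsField Tx' a' T') :
    IsField (fun x => Tx (x + a') * Tx' x) (a' + a) (T * T') := by
  intro f
  filter_upwards [ff_ae_add (h (T' f)) a', h' f] with x h1 h2
  rw [← add_assoc, mul_apply_eq_comp, mul_apply_eq_comp, h1, h2]

theorem IsField.ext {Tx Tx' : ℤ_[2] → (seqHilbert →L[ℂ] seqHilbert)} {a : ℤ_[2]}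
    {T T' : fibreSpace →L[ℂ] fibreSpace} (h : IsField Tx a T) (h' : IsField Tx' a T')
    (hT : ∀ x, Tx x = Tx' x) : T = T' := by
  refine ContinuousLinearMap.ext fun f => Lp.ext (ff_ae_of_add (a := a) ?_)
  filter_upwards [h f, h' f] with x h1 h2
  rw [h1, h2, hT]

theorem IsField.pow {Tx : ℤ_[2] → (seqHilbert →L[ℂ] seqHilbert)}
    {T : fibreSpace →L[ℂ] fibreSpace} (h : IsField Tx 0 T) (n : ℕ) :
    IsField (fun x => Tx x ^ n) 0 (T ^ n) := by
  induction n with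
  | zero => exact fun f => Eventually.of_forall fun x => by simp
  | succ n ih => simpa only [add_zero, pow_succ'] using h.mul ih

/-- test on the constant field `v` (`Lp.const` or `MemLp.toLp`) -/
theorem IsField.le_norm {Tx : ℤ_[2] → (seqHilbert →L[ℂ] seqHilbert)}
    {T : fibreSpace →L[ℂ] fibreSpace} (h : IsField Tx 0 T) {v : seqHilbert} (hv : ‖v‖ = 1) {c : ℝ}
    (hc : ∀ x, ‖Tx x v‖ = c) : c ≤ ‖T‖ := by
  have h1 : ‖Lp.const 2 haarTwoAdic v‖ = 1 := by
    rw [Lp.norm_const _ _ _ (by norm_num), hv]; simp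
  have h2 : ‖Lp.const 2 haarTwoAdic c‖ = ‖c‖ := by
    rw [Lp.norm_const _ _ _ (by norm_num)]; simp
  have h3 : ‖Lp.const 2 haarTwoAdic c‖ ≤ ‖T (Lp.const 2 haarTwoAdic v)‖ := by
    refine Lp.norm_le_norm_of_ae_le ?_
    filter_upwards [h (Lp.const 2 haarTwoAdic v), Lp.coeFn_const 2 haarTwoAdic v,
      Lp.coeFn_const 2 haarTwoAdic c] with x e1 e2 e3
    rw [add_zero] at e1
    rw [e1, e2, e3, Function.const_apply, Function.const_apply, hc, Real.norm_eq_abs,
      abs_of_nonneg (hc x ▸ norm_nonneg _)]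
  have h4 := T.le_opNorm (Lp.const 2 haarTwoAdic v)
  rw [h1, mul_one] at h4
  rw [h2] at h3
  exact (le_abs_self c).trans (h3.trans h4)

theorem ff_singleton (x : ℤ_[2]) : haarTwoAdic {x} = 0 := by
  have : (𝓝[≠] (0 : ℤ_[2])).NeBot := by
    have h1 : Tendsto (fun n : ℕ => (2 : ℤ_[2]) ^ n) atTop (𝓝 0) :=
      tendsto_pow_atTop_nhds_zero_of_norm_lt_one (by
        have := PadicInt.norm_p (p := 2)
        rw [Nat.cast_ofNat] at this
        rw [this]; norm_num)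
    have h2 : Tendsto (fun n : ℕ => (2 : ℤ_[2]) ^ n) atTop (𝓝[≠] 0) :=
      tendsto_nhdsWithin_iff.2 ⟨h1, Eventually.of_forall fun n => pow_ne_zero n two_ne_zero⟩
    exact h2.neBot
  exact measure_singleton x

theorem ff_ergodic : Ergodic (fun x : ℤ_[2] => 1 + x) haarTwoAdic :=
  ergodic_add_left_of_denseRange_nsmul (by
    simpa only [nsmul_one] using PadicInt.denseRange_natCast (p := 2)) _

theorem ff_exists_coord {f : fibreSpace} (hf : f ≠ 0) :
    ∃ j : ℤ, ¬ ∀ᵐ x ∂haarTwoAdic, ((f : ℤ_[2] → seqHilbert) x : ℤ → ℂ) j = 0 := by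
  by_contra h
  push Not at h
  refine hf (Lp.ext ?_)
  filter_upwards [ae_all_iff.2 h, Lp.coeFn_zero seqHilbert 2 haarTwoAdic] with x h1 h2
  rw [h2]
  exact lp.ext (funext h1)

/-- **Transitivity.**  Let `W ≠ ⊥, ⊤`, `0 ≠ f ∈ W`, `0 ≠ g ∈ Wᗮ`.  For `f' ∈ W` and all `n`, testing with
indicator multipliers gives `⟪g x, Sx x ^ n (f' x)⟫ = 0` a.e. (`L2.inner_def`,
`Integrable.ae_eq_zero_of_forall_setIntegral_eq_zero`), so a.e. `supp (g x) < supp (f' x)`
(`IsWsh.sep_of_orth`).  Choose `j, k` with `A = {x | f x j ≠ 0}`, `B = {x | g x k ≠ 0}` of positive measure.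
For `f' = V ^ m f`: a.e. `x ∈ A` has `f' (x + m) (j - m) ≠ 0` (`b > 0` off the null set `{-1}`), so a.e.
`x ∈ A` with `x + m ∈ B` forces `k < j - m`.  But `x ↦ x + 1` is ergodic
(`ergodic_add_right_of_denseRange_nsmul`-type lemma in `Dynamics/Ergodic/Action/OfMinimal`,
`PadicInt.denseRange_natCast`), so `⋃_{m ≥ m₀} {x | x + m ∈ B}` is conull
(`Ergodic.ae_empty_or_univ_of_preimage_ae_le`); take `m₀ ≥ j - k`. -/
theorem transitive {u b : ℤ → ℤ_[2] → ℝ} (hu : ∀ x, Clk fun j => u j x)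
    (hb : ∀ x, x ≠ -1 → ∀ j, 0 < b j x)
    {Sx Vx : ℤ_[2] → (seqHilbert →L[ℂ] seqHilbert)}
    (hSx : ∀ x, IsWsh (beta fun j => u j x) 1 (Sx x)) (hVx : ∀ x, IsWsh (fun j => b j x) (-1) (Vx x))
    {S V : fibreSpace →L[ℂ] fibreSpace} (hS : IsField Sx 0 S) (hV : IsField Vx 1 V)
    (W : Submodule ℂ fibreSpace) (hW : IsClosed (W : Set fibreSpace))
    (hWS : ∀ f ∈ W, S f ∈ W) (hWV : ∀ f ∈ W, V f ∈ W)
    (hWM : ∀ g : ℤ_[2] → ℂ, Measurable g → (∃ C : ℝ, ∀ x, ‖g x‖ ≤ C) →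
      ∀ f ∈ W, ∀ f' : fibreSpace,
        (∀ᵐ x ∂haarTwoAdic, (f' : ℤ_[2] → seqHilbert) x = g x • (f : ℤ_[2] → seqHilbert) x) →
          f' ∈ W) : W = ⊥ ∨ W = ⊤ := by
  by_contra hcon
  push Not at hcon
  obtain ⟨f, hfW, hf0⟩ := Submodule.exists_mem_ne_zero_of_ne_bot hcon.1
  have : CompleteSpace W := hW.completeSpace_coe
  obtain ⟨g, hgW, hg0⟩ := Submodule.exists_mem_ne_zero_of_ne_bot
    (mt Submodule.orthogonal_eq_bot_iff.1 hcon.2)
  -- pointwise orthogonality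
  have step1 : ∀ f' ∈ W, ∀ᵐ x ∂haarTwoAdic,
      ⟪(g : ℤ_[2] → seqHilbert) x, (f' : ℤ_[2] → seqHilbert) x⟫_ℂ = 0 := fun f' hf' => by
    refine (L2.integrable_inner (𝕜 := ℂ) g f').ae_eq_zero_of_forall_setIntegral_eq_zero
      fun s hs _ => ?_
    have hm : Measurable (s.indicator fun _ => (1 : ℂ)) := measurable_const.indicator hs
    have hbd : ∀ x, ‖s.indicator (fun _ => (1 : ℂ)) x‖ ≤ 1 := fun x => by
      by_cases hx : x ∈ s <;> simp [hx]
    obtain ⟨T, hT⟩ := exists_mult_field hm hbd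
    have hT' : ∀ᵐ x ∂haarTwoAdic, (T f' : ℤ_[2] → seqHilbert) x =
        s.indicator (fun _ => (1 : ℂ)) x • (f' : ℤ_[2] → seqHilbert) x := by
      filter_upwards [hT f'] with x hx
      simpa using hx
    have h0 := Submodule.inner_left_of_mem_orthogonal (hWM _ hm ⟨1, hbd⟩ f' hf' _ hT') hgW
    rw [L2.inner_def] at h0
    rw [← h0, ← integral_indicator hs]
    refine integral_congr_ae ?_
    filter_upwards [hT'] with x hx
    rw [hx]
    by_cases hxs : x ∈ s <;> simp [hxs]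
  have hSn : ∀ (n : ℕ), ∀ f' ∈ W, (S ^ n) f' ∈ W := fun n => by
    induction n with
    | zero => exact fun f' hf' => hf'
    | succ n ih => exact fun f' hf' => by rw [pow_succ']; exact hWS _ (ih f' hf')
  have hVn : ∀ (n : ℕ), (V ^ n) f ∈ W := fun n => by
    induction n with
    | zero => exact hfW
    | succ n ih => rw [pow_succ']; exact hWV _ ih
  have step2 : ∀ f' ∈ W, ∀ᵐ x ∂haarTwoAdic, ∀ a b : ℤ,
      ((f' : ℤ_[2] → seqHilbert) x : ℤ → ℂ) a ≠ 0 →
      ((g : ℤ_[2] → seqHilbert) x : ℤ → ℂ) b ≠ 0 → b < a := fun f' hf' => by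
    filter_upwards [ae_all_iff.2 fun n : ℕ => step1 _ (hSn n f' hf'),
      ae_all_iff.2 fun n : ℕ => hS.pow n f'] with x h1 h2 a b ha hb
    refine (hSx x).sep_of_orth (hu x) (fun n => ?_) ha hb
    rw [← h2 n, add_zero]
    exact h1 n
  obtain ⟨j, hj⟩ := ff_exists_coord hf0
  obtain ⟨k, hk⟩ := ff_exists_coord hg0
  have hne : ∀ᵐ x ∂haarTwoAdic, x ≠ -1 := by
    rw [ae_iff]
    simpa using ff_singleton (-1)
  have step4 : ∀ m : ℕ, ∀ᵐ x ∂haarTwoAdic, ((f : ℤ_[2] → seqHilbert) x : ℤ → ℂ) j ≠ 0 →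
      (((V ^ m) f : ℤ_[2] → seqHilbert) (x + m) : ℤ → ℂ) (j - m) ≠ 0 := fun m => by
    induction m with
    | zero => exact Eventually.of_forall fun x hx => by simpa using hx
    | succ m ih =>
      filter_upwards [ih, ff_ae_add (hV ((V ^ m) f)) m, ff_ae_add hne m] with x h1 h2 h3 hx
      rw [pow_succ', mul_apply_eq_comp, Nat.cast_succ, ← add_assoc, h2, hVx,
        show j - ((m + 1 : ℕ) : ℤ) - -1 = j - m by push_cast; ring]
      exact mul_ne_zero (Complex.ofReal_ne_zero.2 (hb _ h3 _).ne') (h1 hx)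
  have step5 : ∀ᵐ x ∂haarTwoAdic, ∀ m : ℕ, ((f : ℤ_[2] → seqHilbert) x : ℤ → ℂ) j ≠ 0 →
      ((g : ℤ_[2] → seqHilbert) (x + m) : ℤ → ℂ) k ≠ 0 → k < j - m := by
    refine ae_all_iff.2 fun m => ?_
    filter_upwards [step4 m, ff_ae_add (step2 _ (hVn m)) m] with x h1 h2 hx hy
    exact h2 _ _ (h1 hx) hy
  have hgm : Measurable fun x => ((g : ℤ_[2] → seqHilbert) x : ℤ → ℂ) k :=
    ((ff_cont_eval k).comp_stronglyMeasurable (Lp.stronglyMeasurable g)).measurable
  set U : Set ℤ_[2] := ⋃ m : ℕ,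
    {x | ((g : ℤ_[2] → seqHilbert) (x + ((j - k).toNat + m : ℕ)) : ℤ → ℂ) k ≠ 0} with hU
  have hUm : MeasurableSet U := MeasurableSet.iUnion fun m =>
    (measurableSet_eq_fun (hgm.comp (measurable_add_const _)) measurable_const).compl
  have hUi : (fun x : ℤ_[2] => 1 + x) ⁻¹' U ⊆ U := by
    intro x hx
    obtain ⟨m, hm⟩ := Set.mem_iUnion.1 hx
    refine Set.mem_iUnion.2 ⟨m + 1, ?_⟩
    simp only [Set.mem_ofPred_eq] at hm ⊢
    have e : x + (((j - k).toNat + (m + 1) : ℕ) : ℤ_[2]) = 1 + x + ((j - k).toNat + m : ℕ) := by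
      push_cast
      ring
    rw [e]
    exact hm
  rcases ff_ergodic.ae_empty_or_univ_of_preimage_ae_le hUm.nullMeasurableSet
    hUi.eventuallyLE with h | h
  · refine hk (ff_ae_of_add (a := (((j - k).toNat + 0 : ℕ) : ℤ_[2])) ?_)
    filter_upwards [measure_eq_zero_iff_ae_notMem.1 (ae_eq_empty.1 h)] with x hx
    by_contra hx'
    exact hx (Set.mem_iUnion.2 ⟨0, hx'⟩)
  · refine hj ?_
    filter_upwards [step5, measure_eq_zero_iff_ae_notMem.1 (ae_eq_univ.1 h)] with x h1 h2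
    by_contra hx
    obtain ⟨m, hm⟩ := Set.mem_iUnion.1 (not_not.1 h2)
    have := h1 _ hx hm
    omega

theorem haarTwoAdic_singleton (x : ℤ_[2]) : haarTwoAdic {x} = 0 := ff_singleton x

end Crest.Agent.R113
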