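import Crest.Agent.R113.FibClk

/-!
# R113 — the Gelfond/Mahler measure step of the fibre Titchmarsh theorem
-/

set_option autoImplicit false

namespace Crest.Agent.R113

open MeasureTheory Crest.AnalysisR.TwoAdic Filter Topology
open scoped InnerProductSpace

attribute [local instance] Crest.AnalysisR.TwoAdic.borelTwoAdic
  Crest.AnalysisR.TwoAdic.borelSpace_twoAdic

open Polynomial Finset in
theorem gel_coeff (a : ℕ → ℂ) (D : ℕ) : ∃ P : ℂ[X], (∀ i, P.coeff i = if i < D then a i else 0) ∧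
    ∑ i ∈ range D, ‖a i‖ ≤ 2 ^ D * P.mahlerMeasure := by
  set P : ℂ[X] := ∑ i ∈ range D, monomial i (a i) with hP
  have hc : ∀ i, P.coeff i = if i < D then a i else 0 := fun i => by
    simp [hP, finsetSum_coeff, coeff_monomial]
  have hd : P.natDegree ≤ D := by
    rw [natDegree_le_iff_coeff_eq_zero]
    intro N hN
    rw [hc, if_neg (by omega)]
  refine ⟨P, hc, ?_⟩
  have h1 : ∑ i ∈ range D, (D.choose i : ℝ) ≤ 2 ^ D := by
    have := Nat.sum_range_choose D
    rw [Finset.sum_range_succ] at this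
    exact_mod_cast (by omega : ∑ i ∈ range D, D.choose i ≤ 2 ^ D)
  calc ∑ i ∈ range D, ‖a i‖ ≤ ∑ i ∈ range D, (D.choose i : ℝ) * P.mahlerMeasure := by
        refine sum_le_sum fun i hi => ?_
        have := norm_coeff_le_choose_mul_mahlerMeasure i P
        rw [hc, if_pos (mem_range.1 hi)] at this
        refine this.trans (mul_le_mul_of_nonneg_right ?_ P.mahlerMeasure_nonneg)
        exact_mod_cast Nat.choose_le_choose i hd
    _ ≤ 2 ^ D * P.mahlerMeasure := by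
        rw [← sum_mul]
        exact mul_le_mul_of_nonneg_right h1 P.mahlerMeasure_nonneg

open Polynomial Finset in
/-- Gelfond's inequality. -/
theorem gel_ineq (a b : ℕ → ℂ) (D : ℕ) (K : ℝ)
    (h : ∀ n < 2 * D, ‖∑ x ∈ antidiagonal n,
      (if x.1 < D then a x.1 else 0) * (if x.2 < D then b x.2 else 0)‖ ≤ K) :
    (∑ i ∈ range D, ‖a i‖) * (∑ i ∈ range D, ‖b i‖) ≤ 4 ^ D * (2 * D * K) := by
  obtain ⟨P, hP, hP'⟩ := gel_coeff a D
  obtain ⟨Q, hQ, hQ'⟩ := gel_coeff b D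
  have h1 : (P * Q).mahlerMeasure ≤ 2 * D * K := by
    refine (mahlerMeasure_le_sum_norm_coeff _).trans ?_
    have hsub : (P * Q).support ⊆ range (2 * D) := by
      intro n hn
      rw [mem_range]
      by_contra hcon
      apply mem_support_iff.1 hn
      rw [coeff_mul]
      refine sum_eq_zero fun x hx => ?_
      have := mem_antidiagonal.1 hx
      rw [hP, hQ]
      by_cases h1 : x.1 < D
      · rw [if_neg (show ¬ x.2 < D by omega), mul_zero]
      · rw [if_neg h1, zero_mul]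
    calc (P * Q).sum (fun _ a => ‖a‖) ≤ ∑ n ∈ range (2 * D), ‖(P * Q).coeff n‖ :=
          sum_le_sum_of_subset_of_nonneg hsub fun _ _ _ => norm_nonneg _
      _ ≤ ∑ n ∈ range (2 * D), K := sum_le_sum fun n hn => by
          rw [coeff_mul]
          simp only [hP, hQ]
          exact h n (mem_range.1 hn)
      _ = 2 * D * K := by simp
  calc _ ≤ (2 ^ D * P.mahlerMeasure) * (2 ^ D * Q.mahlerMeasure) :=
        mul_le_mul hP' hQ' (sum_nonneg fun _ _ => norm_nonneg _)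
          (mul_nonneg (by positivity) P.mahlerMeasure_nonneg)
    _ = 4 ^ D * (P * Q).mahlerMeasure := by
        rw [mahlerMeasure_mul, show (4 : ℝ) = 2 * 2 by norm_num, mul_pow]; ring
    _ ≤ _ := mul_le_mul_of_nonneg_left h1 (by positivity)

theorem gel_ph_neg (x : ℝ) : ph (-x) = -ph x := by simp [ph]

theorem gel_ph_of_nonneg {x : ℝ} (h : 0 ≤ x) : ph x = 10 * x ^ 2 := by
  rw [ph, abs_of_nonneg h]; ring

theorem gel_bounds {u : ℤ → ℝ} (hu : Clk u) {j : ℤ} (hj : 0 ≤ j) : (j : ℝ) ≤ u j ∧ u j ≤ 2 * j := by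
  obtain ⟨m, rfl⟩ := Int.eq_ofNat_of_zero_le hj
  have := hu.mono 0 m
  rw [zero_add, hu.1, sub_zero] at this
  simpa using this

theorem gel_far {u : ℤ → ℝ} (hu : Clk u) {D : ℕ} {k : ℤ} (hk : (D : ℤ) ≤ k) :
    -ph (u k) + 5 * D * k ≤ 0 := by
  have h0 : 0 ≤ k := le_trans (Int.natCast_nonneg D) hk
  have h1 := (gel_bounds hu h0).1
  have h2 : (0 : ℝ) ≤ k := by exact_mod_cast h0
  have h3 : (D : ℝ) ≤ k := by exact_mod_cast hk
  have h4 : (0 : ℝ) ≤ D := Nat.cast_nonneg D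
  rw [gel_ph_of_nonneg (h2.trans h1)]
  nlinarith

theorem gel_key {u : ℤ → ℝ} (hu : Clk u) (D n : ℕ) {j : ℤ} (hj : 1 ≤ j) :
    ph (u j) - ph (u (j + n)) + 5 * D * n ≤ 0 ∨ (j ≤ D ∧ ph (u j) - 5 * D * j ≤ 0) := by
  have h0 : 0 ≤ j := by omega
  obtain ⟨h1, h2⟩ := gel_bounds hu h0
  have h3 := (hu.mono j n).1
  have hj0 : (0 : ℝ) ≤ j := by exact_mod_cast h0
  have hn0 : (0 : ℝ) ≤ n := Nat.cast_nonneg n
  have hD0 : (0 : ℝ) ≤ D := Nat.cast_nonneg D
  have hu0 : 0 ≤ u j := hj0.trans h1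
  rw [gel_ph_of_nonneg hu0, gel_ph_of_nonneg (show 0 ≤ u (j + n) by linarith)]
  by_cases hc : (D : ℝ) ≤ 4 * u j
  · left
    have : (u j + n) ^ 2 ≤ u (j + n) ^ 2 := pow_le_pow_left₀ (by positivity) (by linarith) 2
    nlinarith
  · right
    refine ⟨?_, by nlinarith⟩
    have : (j : ℝ) ≤ D := by linarith
    exact_mod_cast this

theorem gel_tail {t : ℤ → ℂ} (ht : HasSum t 0) (I J : Finset ℤ) {w : ℤ → ℝ} {W K : ℝ}
    (hw : HasSum w W) (hw0 : ∀ j, 0 ≤ w j) (hK : 0 ≤ K)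
    (h : ∀ j ∉ I, ‖t j‖ ≤ w j ∨ (j ∈ J ∧ ‖t j‖ ≤ K)) :
    ‖∑ j ∈ I, t j‖ ≤ W + J.card * K := by
  classical
  have h1 : HasSum (fun j => if j ∈ I then t j else 0) (∑ j ∈ I, t j) := by
    have := hasSum_sum_of_ne_finset_zero (f := fun j => if j ∈ I then t j else 0) (s := I)
      (L := SummationFilter.unconditional ℤ) fun j hj => if_neg hj
    rwa [Finset.sum_congr rfl fun j hj => if_pos hj] at this
  have h2 : HasSum (fun j => if j ∈ J then K else 0) (J.card * K) := by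
    have := hasSum_sum_of_ne_finset_zero (f := fun j => if j ∈ J then K else 0) (s := J)
      (L := SummationFilter.unconditional ℤ) fun j hj => if_neg hj
    rwa [Finset.sum_congr rfl fun j hj => if_pos hj, Finset.sum_const, nsmul_eq_mul] at this
  have h3 := h1.sub ht
  rw [sub_zero] at h3
  refine h3.norm_le_of_bounded (hw.add h2) fun j => ?_
  have a1 : 0 ≤ (if j ∈ J then K else 0) := by split_ifs <;> simp [hK]
  by_cases hj : j ∈ I
  · rw [if_pos hj, sub_self, norm_zero]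
    exact add_nonneg (hw0 j) a1
  · rw [if_neg hj, zero_sub, norm_neg]
    rcases h j hj with h' | ⟨h', h''⟩
    · linarith
    · rw [if_pos h']; linarith [hw0 j]

theorem gel_norm (z : ℂ) (x : ℝ) : ‖z * (Real.exp x : ℂ)‖ = ‖z‖ * Real.exp x := by
  rw [norm_mul, Complex.norm_real, Real.norm_eq_abs, abs_of_pos (Real.exp_pos x)]

theorem gel_norm_le {z : ℂ} {x C : ℝ} (hz : ‖z‖ ≤ C) (hx : x ≤ 0) :
    ‖z * (Real.exp x : ℂ)‖ ≤ C := by
  rw [gel_norm]
  calc ‖z‖ * Real.exp x ≤ ‖z‖ * 1 :=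
        mul_le_mul_of_nonneg_left (Real.exp_le_one_iff.2 hx) (norm_nonneg _)
    _ ≤ C := by rwa [mul_one]

open Finset in
/-- The main inequality at scale `D`. -/
theorem gel_main {u : ℤ → ℝ} (hu : Clk u) {f g : ℤ → ℂ} {W C : ℝ}
    (hW : ∀ n : ℕ, HasSum (fun j : ℤ => (‖f j‖ ^ 2 + ‖g (j + n)‖ ^ 2) / 2) W)
    (hf : ∀ j, ‖f j‖ ≤ C) (hg : ∀ j, ‖g j‖ ≤ C)
    (h : ∀ n : ℕ, ∑' j : ℤ, f j * g (j + n) * (Real.exp (ph (u j) - ph (u (j + n))) : ℂ) = 0)
    (D : ℕ) {p q : ℝ}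
    (hp : p = ∑ i ∈ range D, ‖f (-i) * (Real.exp (ph (u (-i)) + 5 * D * i) : ℂ)‖)
    (hq : q = ∑ i ∈ range D, ‖g i * (Real.exp (-ph (u i) + 5 * D * i) : ℂ)‖) :
    p * q ≤ 4 ^ D * (2 * D * (W + 4 * D * (C * (p + q + C)))) := by
  have hC : 0 ≤ C := (norm_nonneg _).trans (hf 0)
  set α : ℤ → ℂ := fun j => f j * (Real.exp (ph (u j) - 5 * D * j) : ℂ) with hα
  set β : ℤ → ℂ := fun k => g k * (Real.exp (-ph (u k) + 5 * D * k) : ℂ) with hβ
  have hp' : p = ∑ i ∈ range D, ‖α (-(i : ℕ))‖ := by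
    rw [hp]
    refine sum_congr rfl fun i _ => ?_
    simp only [hα]
    congr 4
    push_cast; ring
  have hq' : q = ∑ i ∈ range D, ‖β (i : ℕ)‖ := by
    rw [hq]
    refine sum_congr rfl fun i _ => ?_
    simp only [hβ]
    congr 4
  have hp0 : 0 ≤ p := by rw [hp']; exact sum_nonneg fun _ _ => norm_nonneg _
  have hq0 : 0 ≤ q := by rw [hq']; exact sum_nonneg fun _ _ => norm_nonneg _
  have hαfar : ∀ j : ℤ, (D : ℤ) ≤ -j → ‖α j‖ ≤ C := fun j hj => gel_norm_le (hf j) (by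
    have := gel_far hu.neg hj
    simp only [neg_neg, gel_ph_neg] at this
    push_cast at this
    linarith)
  have hβfar : ∀ k : ℤ, (D : ℤ) ≤ k → ‖β k‖ ≤ C := fun k hk => gel_norm_le (hg k) (gel_far hu hk)
  have hαall : ∀ j : ℤ, j ≤ 0 → ‖α j‖ ≤ p + C := fun j hj => by
    by_cases hc : (D : ℤ) ≤ -j
    · linarith [hαfar j hc]
    · obtain ⟨i, hi⟩ := Int.eq_ofNat_of_zero_le (show 0 ≤ -j by omega)
      have : ‖α (-(i : ℕ))‖ ≤ p := by
        rw [hp']
        exact single_le_sum (f := fun i : ℕ => ‖α (-(i : ℕ))‖) (fun _ _ => norm_nonneg _)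
          (mem_range.2 (by omega))
      rw [← hi, neg_neg] at this
      linarith
  have hβall : ∀ k : ℤ, 0 ≤ k → ‖β k‖ ≤ q + C := fun k hk => by
    by_cases hc : (D : ℤ) ≤ k
    · linarith [hβfar k hc]
    · obtain ⟨i, rfl⟩ := Int.eq_ofNat_of_zero_le hk
      have : ‖β (i : ℕ)‖ ≤ q := by
        rw [hq']
        exact single_le_sum (f := fun i : ℕ => ‖β (i : ℕ)‖) (fun _ _ => norm_nonneg _)
          (mem_range.2 (by omega))
      linarith
  set K : ℝ := C * (p + q + C) with hK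
  have hK0 : 0 ≤ K := by positivity
  have hK1 : C * (q + C) ≤ K := mul_le_mul_of_nonneg_left (by linarith) hC
  have hK2 : (p + C) * C ≤ K := by
    rw [mul_comm]; exact mul_le_mul_of_nonneg_left (by linarith) hC
  have ht : ∀ (n : ℕ) (j : ℤ), α j * β (j + n) =
      f j * g (j + n) * (Real.exp (ph (u j) - ph (u (j + n)) + 5 * D * n) : ℂ) := fun n j => by
    simp only [hα, hβ]
    rw [mul_mul_mul_comm, ← Complex.ofReal_mul, ← Real.exp_add]
    congr 3
    push_cast; ring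
  have hamgm : ∀ (n : ℕ) (j : ℤ), ‖f j * g (j + n)‖ ≤ (‖f j‖ ^ 2 + ‖g (j + n)‖ ^ 2) / 2 :=
    fun n j => by
      rw [norm_mul]
      nlinarith [sq_nonneg (‖f j‖ - ‖g (j + n)‖)]
  have hsum : ∀ n : ℕ, HasSum (fun j : ℤ => α j * β (j + n)) 0 := fun n => by
    have s1 : Summable fun j : ℤ =>
        f j * g (j + n) * (Real.exp (ph (u j) - ph (u (j + n))) : ℂ) := by
      refine Summable.of_norm_bounded (hW n).summable fun j => gel_norm_le (hamgm n j) ?_
      have := (hu.mono j n).1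
      have h0 : (0 : ℝ) ≤ n := Nat.cast_nonneg n
      exact sub_nonpos.2 (ph_mono (by linarith))
    have s2 := (s1.hasSum.mul_right (Real.exp (5 * D * n) : ℂ))
    rw [h n, zero_mul] at s2
    refine s2.congr_fun fun j => ?_
    rw [ht, Real.exp_add]
    push_cast; ring
  have hc : ∀ n : ℕ, ‖∑ x ∈ antidiagonal n, α (-(x.1 : ℕ)) * β (x.2 : ℕ)‖ ≤ W + 2 * D * K := by
    intro n
    have e1 : ∑ x ∈ antidiagonal n, α (-(x.1 : ℕ)) * β (x.2 : ℕ) =
        ∑ j ∈ Finset.Icc (-(n : ℤ)) 0, α j * β (j + n) := by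
      refine sum_bij' (fun x _ => -(x.1 : ℤ)) (fun j _ => ((-j).toNat, (j + n).toNat)) ?_ ?_ ?_ ?_ ?_
      · intro x hx
        have := mem_antidiagonal.1 hx
        rw [Finset.mem_Icc]; omega
      · intro j hj
        rw [Finset.mem_Icc] at hj
        rw [HasAntidiagonal.mem_antidiagonal]; simp only; omega
      · intro x hx
        have := mem_antidiagonal.1 hx
        ext <;> simp only <;> omega
      · intro j hj
        rw [Finset.mem_Icc] at hj
        simp only; omega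
      · intro x hx
        have := mem_antidiagonal.1 hx
        congr 2; omega
    rw [e1]
    refine (gel_tail (hsum n) _ (Finset.Icc (1 : ℤ) D ∪ Finset.Icc (-(n : ℤ) - D) (-n - 1)) (hW n)
      (fun j => by positivity) hK0 fun j hj => ?_).trans ?_
    · rw [Finset.mem_Icc] at hj
      by_cases hj1 : 1 ≤ j
      · rcases gel_key hu D n hj1 with h1 | ⟨h1, h2⟩
        · left; rw [ht]; exact gel_norm_le (hamgm n j) h1
        · right
          refine ⟨mem_union_left _ (Finset.mem_Icc.2 ⟨hj1, h1⟩), ?_⟩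
          rw [norm_mul]
          exact (mul_le_mul (gel_norm_le (hf j) h2) (hβall _ (by omega)) (norm_nonneg _) hC).trans hK1
      · rcases gel_key hu.neg D n (j := -(j + n)) (by omega) with h1 | ⟨h1, h2⟩
        · left
          rw [ht]
          refine gel_norm_le (hamgm n j) ?_
          simp only [neg_neg, gel_ph_neg] at h1
          rw [show -(-(j + n) + n) = j by ring] at h1
          linarith
        · right
          refine ⟨mem_union_right _ (Finset.mem_Icc.2 ⟨by omega, by omega⟩), ?_⟩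
          rw [norm_mul]
          refine (mul_le_mul (hαall j (by omega)) (gel_norm_le (hg _) ?_) (norm_nonneg _)
            (by linarith)).trans hK2
          simp only [neg_neg, gel_ph_neg] at h2
          push_cast at h2 ⊢
          linarith
    · have : (Finset.Icc (1 : ℤ) D ∪ Finset.Icc (-(n : ℤ) - D) (-n - 1)).card ≤ 2 * D := by
        refine (card_union_le _ _).trans ?_
        rw [Int.card_Icc, Int.card_Icc]
        omega
      have h2 : ((Finset.Icc (1 : ℤ) D ∪ Finset.Icc (-(n : ℤ) - D) (-n - 1)).card : ℝ) ≤ 2 * D := by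
        exact_mod_cast this
      nlinarith
  rw [hp', hq']
  refine gel_ineq (fun i => α (-(i : ℕ))) (fun i => β (i : ℕ)) D _ fun n hn => ?_
  have e2 : ∑ x ∈ antidiagonal n, (if x.1 < D then α (-(x.1 : ℕ)) else 0) *
      (if x.2 < D then β (x.2 : ℕ) else 0) =
      ∑ x ∈ antidiagonal n, α (-(x.1 : ℕ)) * β (x.2 : ℕ) -
        ∑ x ∈ antidiagonal n, (if x.1 < D ∧ x.2 < D then 0 else α (-(x.1 : ℕ)) * β (x.2 : ℕ)) := by
    rw [← sum_sub_distrib]
    refine sum_congr rfl fun x _ => ?_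
    by_cases h1 : x.1 < D <;> by_cases h2 : x.2 < D <;> simp [h1, h2]
  have e3 : ‖∑ x ∈ antidiagonal n,
      (if x.1 < D ∧ x.2 < D then 0 else α (-(x.1 : ℕ)) * β (x.2 : ℕ))‖ ≤ 2 * D * K := by
    refine (norm_sum_le _ _).trans ((sum_le_card_nsmul _ _ K fun x _ => ?_).trans ?_)
    · split_ifs with h1
      · simpa using hK0
      · rw [norm_mul]
        by_cases h2 : x.1 < D
        · have h3 : ¬ x.2 < D := fun h => h1 ⟨h2, h⟩
          exact (mul_le_mul (hαall _ (by omega)) (hβfar _ (by omega)) (norm_nonneg _)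
            (by linarith)).trans hK2
        · exact (mul_le_mul (hαfar _ (by omega)) (hβall _ (by omega)) (norm_nonneg _) hC).trans hK1
    · rw [Nat.card_antidiagonal, nsmul_eq_mul]
      refine mul_le_mul_of_nonneg_right ?_ hK0
      exact_mod_cast (by omega : n + 1 ≤ 2 * D)
  rw [e2]
  refine (norm_sub_le _ _).trans ?_
  linarith [hc n]

/-- Put `φ j = ph (u j)`, `F j = f j * exp (φ j)`, `G k = g k * exp (-φ k)`, `A i = F (-i)`, `B k = G k`
(`i, k : ℕ`), `|A i| ≤ ‖f‖ exp (-10 i²)`, `|B k| ≤ ‖g‖ exp (-10 k²)`, and for a sequence `c` let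
`M r c = ∑ |c n| r ^ n` (`r ≥ 3`).  The hypothesis says that the Cauchy product is
`(A * B) n = -∑_{j>0} F j G (j+n) - ∑_{k<0} F (k-n) G k`.  In the first sum, for the `j > 0` with
`20 u j < log r` (at most `log r` of them) `|F j| ≤ ‖f‖ r ^ j` (as `u j ≤ 2 j`) and
`∑_n |G (j+n)| r ^ n ≤ r ^ (-j) M r B`; for the others
`|F j G (j+n)| r ^ n ≤ |f j| |g (j+n)| exp (-10 n²)` (as `φ (j+n) - φ j ≥ 10 n² + 20 n u j`), which sums
to `≤ C ‖f‖ ‖g‖`.  Same for the second sum (use the reflection `Clk.neg`).  So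
`M r (A*B) ≤ C log r (M r A + M r B + 1)`.  Truncate `A = P + A'`, `B = Q + B'` at degree
`D = ⌈log r / 5⌉`: `M r A', M r B' ≤ C` (`10 i² - i log r ≥ 5 i²` for `i ≥ D`), so
`M r (P Q) ≤ C log r (M r P + M r Q + 1)`.  Gelfond: `M r P * M r Q ≤ 2 ^ (2 D) M r (P Q)`
(`Polynomial.norm_coeff_le_choose_mul_mahlerMeasure`, `mahlerMeasure_mul`,
`mahlerMeasure_le_sum_norm_coeff` applied to `P.scaleRoots`/`P.comp (C r * X)`), and
`2 ^ (2 D) ≤ 4 r ^ (0.3)`.  But `M r P ≥ |A (-a)| r` and `M r Q ≥ |B b| r` for large `r`, so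
`min (M r P) (M r Q) ≤ C r ^ 0.3 log r` is absurd.  (Taking `r = exp (5 D)`, `D → ∞` natural, avoids
logarithms.) -/
theorem titch_gelfond {u : ℤ → ℝ} (hu : Clk u) {f g : ℤ → ℂ} (hf : Summable fun j => ‖f j‖ ^ 2)
    (hg : Summable fun j => ‖g j‖ ^ 2)
    (h : ∀ n : ℕ, ∑' j : ℤ, f j * g (j + n) * (Real.exp (ph (u j) - ph (u (j + n))) : ℂ) = 0)
    {a b : ℤ} (ha0 : a < 0) (hb0 : 0 < b) (ha : f a ≠ 0) (hb : g b ≠ 0) : False := by
  obtain ⟨α, hα⟩ := Int.eq_ofNat_of_zero_le (show 0 ≤ -a by omega)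
  obtain ⟨β, rfl⟩ := Int.eq_ofNat_of_zero_le hb0.le
  obtain rfl : a = -(α : ℤ) := by omega
  set Sf := ∑' j, ‖f j‖ ^ 2 with hSf
  set Sg := ∑' j, ‖g j‖ ^ 2 with hSg
  have hSf0 : 0 ≤ Sf := tsum_nonneg fun _ => sq_nonneg _
  have hSg0 : 0 ≤ Sg := tsum_nonneg fun _ => sq_nonneg _
  have hW : ∀ n : ℕ, HasSum (fun j : ℤ => (‖f j‖ ^ 2 + ‖g (j + n)‖ ^ 2) / 2) ((Sf + Sg) / 2) :=
    fun n => (hf.hasSum.add ((Equiv.addRight (n : ℤ)).hasSum_iff.2 hg.hasSum)).div_const 2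
  have hfC : ∀ j, ‖f j‖ ≤ 1 + Sf + Sg := fun j => by
    have := hf.le_tsum j fun _ _ => sq_nonneg _
    nlinarith [sq_nonneg (‖f j‖ - 1)]
  have hgC : ∀ j, ‖g j‖ ≤ 1 + Sf + Sg := fun j => by
    have := hg.le_tsum j fun _ _ => sq_nonneg _
    nlinarith [sq_nonneg (‖g j‖ - 1)]
  set C := 1 + Sf + Sg with hC
  set W := (Sf + Sg) / 2 with hWd
  have hC0 : 0 < C := by positivity
  have hW0 : 0 ≤ W := by positivity
  set μ := min (‖f (-α)‖ * Real.exp (ph (u (-α)))) (‖g β‖ * Real.exp (-ph (u β))) with hμ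
  have hμ0 : 0 < μ := lt_min (mul_pos (norm_pos_iff.2 ha) (Real.exp_pos _))
    (mul_pos (norm_pos_iff.2 hb) (Real.exp_pos _))
  set L := W + 4 * C + 4 * C ^ 2 with hL
  have hL0 : 0 ≤ L := by positivity
  obtain ⟨D, hD⟩ := exists_nat_gt (max (max (4 * L / μ) (1 / μ)) (α + β))
  have hD1 : 4 * L < μ * D := by
    have := ((le_max_left _ _).trans (le_max_left _ _)).trans_lt hD
    rwa [div_lt_iff₀ hμ0, mul_comm (D : ℝ)] at this
  have hD2 : 1 < μ * D := by
    have := ((le_max_right _ _).trans (le_max_left _ _)).trans_lt hD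
    rwa [div_lt_iff₀ hμ0, mul_comm (D : ℝ)] at this
  have hD3 : α + β < D := by exact_mod_cast (le_max_right _ _).trans_lt hD
  have hD4 : (1 : ℝ) ≤ D := by exact_mod_cast (by omega : 1 ≤ D)
  have main := gel_main hu hW hfC hgC h D rfl rfl
  set p := ∑ i ∈ Finset.range D, ‖f (-i) * (Real.exp (ph (u (-i)) + 5 * D * i) : ℂ)‖ with hp
  set q := ∑ i ∈ Finset.range D, ‖g i * (Real.exp (-ph (u i) + 5 * D * i) : ℂ)‖ with hq
  have hr : (4 : ℝ) ^ D * D ^ 3 ≤ Real.exp (5 * D) := by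
    have e1 : (2 : ℝ) ≤ Real.exp 1 := by linarith [Real.add_one_le_exp (1 : ℝ)]
    have e2 : (D : ℝ) ≤ 2 ^ D := by exact_mod_cast Nat.lt_two_pow_self.le
    calc (4 : ℝ) ^ D * D ^ 3 ≤ 4 ^ D * (2 ^ D) ^ 3 := by gcongr
      _ = 2 ^ (5 * D) := by
          rw [show (4 : ℝ) = 2 ^ 2 by norm_num, ← pow_mul, ← pow_mul, ← pow_add]; congr 1; ring
      _ ≤ Real.exp 1 ^ (5 * D) := by gcongr
      _ = Real.exp (5 * D) := by rw [← Real.exp_nat_mul]; push_cast; ring_nf
  have hexp : ∀ i : ℕ, 1 ≤ i → Real.exp (5 * D) ≤ Real.exp (5 * D * i) := fun i hi => by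
    have : (1 : ℝ) ≤ i := by exact_mod_cast hi
    exact Real.exp_le_exp.2 (by nlinarith)
  have hpl : μ * (4 ^ D * D ^ 3) ≤ p := by
    refine le_trans ?_ (Finset.single_le_sum
      (f := fun i : ℕ => ‖f (-i) * (Real.exp (ph (u (-i)) + 5 * D * i) : ℂ)‖)
      (fun _ _ => norm_nonneg _) (Finset.mem_range.2 (show α < D by omega)))
    rw [gel_norm, Real.exp_add, ← mul_assoc ‖_‖]
    exact mul_le_mul (min_le_left _ _) (hr.trans (hexp α (by omega))) (by positivity)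
      (by positivity)
  have hql : μ * (4 ^ D * D ^ 3) ≤ q := by
    refine le_trans ?_ (Finset.single_le_sum
      (f := fun i : ℕ => ‖g i * (Real.exp (-ph (u i) + 5 * D * i) : ℂ)‖)
      (fun _ _ => norm_nonneg _) (Finset.mem_range.2 (show β < D by omega)))
    rw [gel_norm, Real.exp_add, ← mul_assoc ‖_‖]
    exact mul_le_mul (min_le_right _ _) (hr.trans (hexp β (by omega))) (by positivity)
      (by positivity)
  set R := μ * (4 ^ D * D ^ 3) with hR
  have h4 : (1 : ℝ) ≤ 4 ^ D := one_le_pow₀ (by norm_num)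
  have hR1 : 1 ≤ R := by
    have : (D : ℝ) ≤ 4 ^ D * D ^ 3 := by
      calc (D : ℝ) = 1 * (D * 1) := by ring
        _ ≤ 4 ^ D * (D * D ^ 2) := by gcongr; exact one_le_pow₀ hD4
        _ = 4 ^ D * D ^ 3 := by ring
    nlinarith
  have hs : 1 ≤ p + q := by linarith
  have b1 : R * (p + q) ≤ 2 * (p * q) := by nlinarith
  have b2 : W + 4 * D * (C * (p + q + C)) ≤ D * L * (p + q) := by
    have c1 : W ≤ D * W * (p + q) := by
      calc W = 1 * W * 1 := by ring
        _ ≤ D * W * (p + q) := by gcongr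
    have c2 : D * C ^ 2 ≤ D * C ^ 2 * (p + q) := le_mul_of_one_le_right (by positivity) hs
    rw [hL]
    nlinarith
  have b3 : p * q ≤ 4 ^ D * (2 * D * (D * L * (p + q))) := main.trans (by gcongr)
  have b4 : 4 ^ D * D ^ 2 * (p + q) * (μ * D) ≤ 4 ^ D * D ^ 2 * (p + q) * (4 * L) := by
    calc 4 ^ D * D ^ 2 * (p + q) * (μ * D) = R * (p + q) := by rw [hR]; ring
      _ ≤ 2 * (4 ^ D * (2 * D * (D * L * (p + q)))) := by linarith
      _ = _ := by ring
  have := le_of_mul_le_mul_left b4 (by positivity)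
  linarith

end Crest.Agent.R113
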