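import Crest.Agent.R113.FibOps

/-!
# R113 — `fibreSpace` is a separable infinite dimensional Hilbert space
-/

set_option autoImplicit false

namespace Crest.Agent.R113

open MeasureTheory Crest.AnalysisR.TwoAdic Filter Topology
open scoped InnerProductSpace

attribute [local instance] Crest.AnalysisR.TwoAdic.borelTwoAdic
  Crest.AnalysisR.TwoAdic.borelSpace_twoAdic

theorem separable_seqHilbert : TopologicalSpace.SeparableSpace seqHilbert := by
  rw [← TopologicalSpace.isSeparable_univ_iff]
  let T : Finset ℤ → (ℤ → ℂ) → seqHilbert := fun s β =>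
    ∑ i ∈ s, lp.single (E := fun _ : ℤ => ℂ) 2 i (β i)
  have hT : ∀ s, Continuous (T s) := fun s =>
    continuous_finsetSum _ fun i _ =>
      (lp.isometry_single (E := fun _ : ℤ => ℂ) (p := 2) i).continuous.comp (continuous_apply i)
  have h1 : TopologicalSpace.IsSeparable (⋃ s, Set.range (T s)) :=
    TopologicalSpace.isSeparable_iUnion.2 fun s => TopologicalSpace.isSeparable_range (hT s)
  refine h1.closure.mono fun f _ => ?_
  have h2 := lp.hasSum_single (E := fun _ : ℤ => ℂ) (p := 2) (by norm_num) f
  exact mem_closure_of_tendsto h2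
    (Eventually.of_forall fun s => Set.mem_iUnion.2 ⟨s, ⟨fun i => f i, rfl⟩⟩)

theorem exists_iso_lp (W : Type*) [NormedAddCommGroup W] [InnerProductSpace ℂ W] [CompleteSpace W]
    [TopologicalSpace.SeparableSpace W] (hW : ¬ FiniteDimensional ℂ W) :
    Nonempty (W ≃ₗᵢ[ℂ] seqHilbert) := by
  obtain ⟨w, b, -⟩ := exists_hilbertBasis ℂ W
  have hbo : Orthonormal ℂ b := b.orthonormal
  have hc : Countable w := by
    refine Pairwise.countable_of_isOpen_disjoint (s := fun i : w => Metric.ball (b i) (1 / 2))
      ?_ (fun _ => Metric.isOpen_ball) (fun i => Metric.nonempty_ball.2 (by norm_num))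
    intro i j hij
    refine Metric.ball_disjoint_ball ?_
    have h1 : ‖b i - b j‖ ^ 2 = 2 := by
      rw [@norm_sub_sq ℂ, hbo.1 i, hbo.1 j, hbo.2 hij]; norm_num
    rw [dist_eq_norm]
    nlinarith [norm_nonneg (b i - b j)]
  have hi : Infinite w := by
    by_contra h
    rw [not_infinite_iff_finite] at h
    have := Fintype.ofFinite w
    exact hW (Module.Finite.of_basis b.toOrthonormalBasis.toBasis)
  obtain ⟨e⟩ : Nonempty (ℤ ≃ w) := nonempty_equiv_of_countable
  have h1 : Orthonormal ℂ (b ∘ e) := hbo.comp e e.injective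
  have h2 : ⊤ ≤ (Submodule.span ℂ (Set.range (b ∘ e))).topologicalClosure := by
    rw [e.surjective.range_comp, b.dense_span]
  exact ⟨(HilbertBasis.mk h1 h2).repr⟩

theorem not_finiteDimensional_seqHilbert : ¬ FiniteDimensional ℂ seqHilbert := fun _ => by
  have h : Orthonormal ℂ (fun i : ℤ => (lp.single 2 i (1 : ℂ) : seqHilbert)) := by
    rw [orthonormal_iff_ite]
    intro i j
    rw [lp.inner_single_left]
    by_cases h : i = j
    · subst h; simp
    · simp [h, lp.single_apply]
  exact Module.Finite.not_linearIndependent_of_infinite _ h.linearIndependent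

theorem separable_fibreSpace : TopologicalSpace.SeparableSpace fibreSpace := by
  have := separable_seqHilbert
  have : Fact ((2 : ENNReal) ≠ ⊤) := ⟨by simp⟩
  infer_instance

theorem not_finiteDimensional_fibreSpace : ¬ FiniteDimensional ℂ fibreSpace := fun _ => by
  refine not_finiteDimensional_seqHilbert
    (FiniteDimensional.of_injective (Lp.constₗ (E := seqHilbert) 2 haarTwoAdic ℂ) ?_)
  rw [injective_iff_map_eq_zero]
  intro c hc
  have h := Lp.norm_const (p := 2) (μ := haarTwoAdic) (c := c) (by simp)
  rw [show Lp.const 2 haarTwoAdic c = 0 from hc] at h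
  simpa using h.symm

/-- Two separable infinite dimensional complex Hilbert spaces are isomorphic: a Hilbert basis
(`exists_hilbertBasis`) is countable (`Orthonormal.countable`-type argument, see
`Crest/Agent/R91/Hilb.lean`, `exists_iso_L2`) and infinite; reindex by `ℕ` (`HilbertBasis.mk`).
`seqHilbert` is separable (finite rational combinations of `basisVec`), hence so is `fibreSpace`
(`MeasureTheory.Lp.SecondCountableTopology`), and the constant fields `basisVec j` are orthonormal. -/
theorem exists_iso_fibreSpace (H : Type*) [NormedAddCommGroup H] [InnerProductSpace ℂ H]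
    [CompleteSpace H] [TopologicalSpace.SeparableSpace H] (hH : ¬ FiniteDimensional ℂ H) :
    Nonempty (fibreSpace ≃ₗᵢ[ℂ] H) := by
  have := separable_fibreSpace
  obtain ⟨e1⟩ := exists_iso_lp fibreSpace not_finiteDimensional_fibreSpace
  obtain ⟨e2⟩ := exists_iso_lp H hH
  exact ⟨e1.trans e2.symm⟩

end Crest.Agent.R113
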