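import Crest.Agent.R113.FibField
import Crest.Agent.R113.FibIso

/-!
# R113 — assembly of S0150 and S0148
-/

set_option autoImplicit false

namespace Crest.Agent.R113

open MeasureTheory Crest.AnalysisR.TwoAdic Filter Topology

attribute [local instance] Crest.AnalysisR.TwoAdic.borelTwoAdic
  Crest.AnalysisR.TwoAdic.borelSpace_twoAdic

theorem measurable_ph : Measurable ph := by
  unfold ph; fun_prop

theorem Clk.beta_le {u : ℤ → ℝ} (hu : Clk u) (j : ℤ) : beta u j ≤ Real.exp (-10) := by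
  have := hu.ph_sub_ge j (n := 1) le_rfl
  norm_num at this
  unfold beta
  exact Real.exp_le_exp.2 (by linarith)

theorem beta_pos (u : ℤ → ℝ) (j : ℤ) : 0 < beta u j := Real.exp_pos _

theorem s0150 :
    ∃ (β b : ℤ → ℤ_[2] → ℝ) (Sfib Vfib : ℤ_[2] → (seqHilbert →L[ℂ] seqHilbert))
      (S V : fibreSpace →L[ℂ] fibreSpace),
      (∀ j, Measurable (β j)) ∧ (∀ j x, 0 < β j x) ∧
      (∀ x j, Sfib x (basisVec j) = (β j x : ℂ) • basisVec (j + 1)) ∧
      (∀ f : fibreSpace, ∀ᵐ x ∂haarTwoAdic, (S f : ℤ_[2] → seqHilbert) x = Sfib x ((f : ℤ_[2] → seqHilbert) x)) ∧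
      (∀ x, ∀ W : Submodule ℂ seqHilbert, IsClosed (W : Set seqHilbert) →
        ((∀ v ∈ W, Sfib x v ∈ W) ↔ (W = ⊥ ∨ W = ⊤ ∨ ∃ h : ℤ, W = tailSpace h))) ∧
      S ≠ 0 ∧ ‖S‖ = Real.exp (-10) ∧
      (∀ n : ℕ, 1 ≤ n → ‖S ^ n‖ ≤ Real.exp (-10 * (((n + 1) ^ 2 / 4 : ℕ) : ℝ))) ∧
      ‖V‖ ≤ 1 ∧ V * S = S * V ∧
      (∀ j, Measurable (b j)) ∧ (∀ j x, 0 ≤ b j x ∧ b j x ≤ 1) ∧
      (∀ x j, Vfib x (basisVec j) = (b j x : ℂ) • basisVec (j - 1)) ∧
      (∀ f : fibreSpace, ∀ᵐ x ∂haarTwoAdic,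
        (V f : ℤ_[2] → seqHilbert) (x + 1) = Vfib x ((f : ℤ_[2] → seqHilbert) x)) ∧
      (∃ N : Set ℤ_[2], haarTwoAdic N = 0 ∧ ∀ x, x ∉ N →
        (∀ j, 0 < b j x) ∧
        (∀ h : ℤ, closure (Vfib x '' (tailSpace h : Set seqHilbert)) = (tailSpace (h - 1) : Set seqHilbert)) ∧
        closure (Set.range (Vfib x)) = Set.univ) ∧
      (∀ W : Submodule ℂ fibreSpace, IsClosed (W : Set fibreSpace) →
        (∀ f ∈ W, S f ∈ W) → (∀ f ∈ W, V f ∈ W) →
        (∀ g : ℤ_[2] → ℂ, Measurable g → (∃ C : ℝ, ∀ x, ‖g x‖ ≤ C) →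
          ∀ f ∈ W, ∀ f' : fibreSpace,
            (∀ᵐ x ∂haarTwoAdic, (f' : ℤ_[2] → seqHilbert) x = g x • (f : ℤ_[2] → seqHilbert) x) → f' ∈ W) →
        W = ⊥ ∨ W = ⊤) := by
  obtain ⟨u, hum, huc, hu1, huJ⟩ := exists_clk
  -- the weights
  let β : ℤ → ℤ_[2] → ℝ := fun j x => beta (fun j => u j x) j
  let e : ℤ → ℤ_[2] → ℝ := fun j x => Real.exp (ph (u (j - 1) (x + 1)) - ph (u j x))
  let c : ℤ_[2] → ℝ := fun x => ⨅ j, e j x
  let b : ℤ → ℤ_[2] → ℝ := fun j x => c x / e j x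
  have hem : ∀ j, Measurable (e j) := fun j =>
    ((measurable_ph.comp ((hum _).comp (measurable_add_const 1))).sub
      (measurable_ph.comp (hum _))).exp
  have he0 : ∀ j x, 0 < e j x := fun j x => Real.exp_pos _
  have hbdd : ∀ x, BddBelow (Set.range fun j => e j x) := fun x =>
    ⟨0, by rintro _ ⟨j, rfl⟩; exact (he0 j x).le⟩
  have hc0 : ∀ x, 0 ≤ c x := fun x => le_ciInf fun j => (he0 j x).le
  have hce : ∀ j x, c x ≤ e j x := fun j x => ciInf_le (hbdd x) j
  have hcm : Measurable c := Measurable.iInf hem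
  have hβm : ∀ j, Measurable (β j) := fun j =>
    ((measurable_ph.comp (hum _)).sub (measurable_ph.comp (hum _))).neg.exp
  have hbm : ∀ j, Measurable (b j) := fun j => hcm.div (hem j)
  have hb01 : ∀ j x, 0 ≤ b j x ∧ b j x ≤ 1 := fun j x =>
    ⟨div_nonneg (hc0 x) (he0 j x).le, (div_le_one (he0 j x)).2 (hce j x)⟩
  have hβ1 : ∀ j x, |β j x| ≤ Real.exp (-10) := fun j x => by
    rw [abs_of_pos (beta_pos _ _)]; exact (huc x).beta_le j
  have hexp : Real.exp (-10) ≤ 1 := Real.exp_le_one_iff.2 (by norm_num)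
  have hb1 : ∀ j x, |b j x| ≤ 1 := fun j x => by
    rw [abs_of_nonneg (hb01 j x).1]; exact (hb01 j x).2
  have hcpos : ∀ x, x ≠ -1 → 0 < c x := by
    intro x hx
    obtain ⟨J, hJ⟩ := huJ x hx
    obtain ⟨j0, -, hj0⟩ := (Finset.Icc (-(J : ℤ)) J).exists_min_image (fun j => e j x)
      ⟨0, by simp⟩
    refine lt_of_lt_of_le (lt_min one_pos (he0 j0 x)) (le_ciInf fun j => ?_)
    by_cases hj : (J : ℤ) ≤ |j|
    · refine (min_le_left _ _).trans (Real.one_le_exp ?_)
      exact sub_nonneg.2 (ph_mono (hJ j hj))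
    · refine (min_le_right _ _).trans (hj0 j ?_)
      rw [Finset.mem_Icc]; exact abs_le.1 (not_le.1 hj).le
  have hbpos : ∀ x, x ≠ -1 → ∀ j, 0 < b j x := fun x hx j => div_pos (hcpos x hx) (he0 j x)
  choose Sx hSx using fun x => exists_wsh (w := fun j => β j x) (fun j => (hβ1 j x).trans hexp) 1
  choose Vx hVx using fun x => exists_wsh (w := fun j => b j x) (fun j => hb1 j x) (-1)
  obtain ⟨S, hS⟩ := exists_field hβm (fun j x => (hβ1 j x).trans hexp) hSx 0
  obtain ⟨V, hV⟩ := exists_field hbm hb1 hVx 1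
  have hSn : ‖S‖ = Real.exp (-10) := by
    refine le_antisymm (hS.norm_le fun x => (hSx x).norm_le fun j => hβ1 j x) ?_
    refine hS.le_norm (norm_basisVec 0) fun x => ?_
    rw [(hSx x).basisVec, norm_smul, norm_basisVec, mul_one, Complex.norm_real, Real.norm_eq_abs,
      abs_of_pos (beta_pos _ _)]
    have h0 : u 0 x = 0 := (huc x).1
    simp [beta, ph, hu1, h0]
  refine ⟨β, b, Sx, Vx, S, V, hβm, fun j x => beta_pos _ _, fun x j => (hSx x).basisVec j,
    fun f => by simpa only [add_zero] using hS f, fun x W hW => (hSx x).invariant_iff (huc x) W hW,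
    ?_, hSn, fun n hn => ?_, hV.norm_le fun x => (hVx x).norm_le fun j => hb1 j x, ?_, hbm, hb01,
    fun x j => by rw [(hVx x).basisVec, sub_eq_add_neg], hV,
    ⟨{-1}, haarTwoAdic_singleton _, fun x hx => ⟨hbpos x hx, fun h =>
      (hVx x).closure_image_tail (hbpos x hx) h, (hVx x).closure_range (hbpos x hx)⟩⟩,
    fun W hW h1 h2 h3 => transitive huc hbpos hSx hVx hS hV W hW h1 h2 h3⟩
  · intro h
    rw [h, norm_zero] at hSn
    exact (Real.exp_pos _).ne hSn
  · refine (hS.pow n).norm_le fun x => (IsWsh.pow_beta (hSx x) n).norm_le fun j => ?_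
    rw [abs_of_pos (Real.exp_pos _)]
    have := (huc x).ph_sub_ge j hn
    exact Real.exp_le_exp.2 (by linarith)
  · have h1 := hV.mul hS
    have h2 := hS.mul hV
    rw [zero_add] at h1
    rw [add_zero] at h2
    refine h1.ext h2 fun x => ?_
    have h3 := (hVx (x + 0)).mul (hSx x)
    have h4 := (hSx (x + 1)).mul (hVx x)
    rw [add_comm (1 : ℤ) (-1)] at h4
    refine h3.ext h4 fun j => ?_
    simp only [add_zero, b, β, e, beta, add_sub_cancel_right, ← sub_eq_add_neg, sub_add_cancel]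
    rw [div_mul_eq_mul_div, mul_div_assoc, ← Real.exp_sub, mul_div_assoc', mul_comm _ (c x),
      mul_div_assoc, ← Real.exp_sub]
    congr 2
    ring

theorem s0148 (H : Type*) [NormedAddCommGroup H] [InnerProductSpace ℂ H] [CompleteSpace H]
    [TopologicalSpace.SeparableSpace H] (hH : ¬ FiniteDimensional ℂ H) :
    ∃ T : H →L[ℂ] H, T ≠ 0 ∧
      Tendsto (fun n : ℕ => ‖T ^ n‖ ^ (1 / (n : ℝ))) atTop (𝓝 0) ∧
      ∀ V : Submodule ℂ H, IsClosed (V : Set H) →
        (∀ A : H →L[ℂ] H, A * T = T * A → ∀ v ∈ V, A v ∈ V) → V = ⊥ ∨ V = ⊤ := by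
  obtain ⟨e⟩ := exists_iso_fibreSpace H hH
  obtain ⟨β, b, Sx, Vx, S, V, -, -, -, hS, -, hS0, -, hSn, -, hVS, -, -, -, -, -, htr⟩ := s0150
  let Φ := e.conjStarAlgEquiv
  have hΦ : ∀ (A : fibreSpace →L[ℂ] fibreSpace) (f : fibreSpace), Φ A (e f) = e (A f) :=
    fun A f => by simp [Φ]
  have hΦn : ∀ A : fibreSpace →L[ℂ] fibreSpace, ‖Φ A‖ ≤ ‖A‖ := fun A =>
    ContinuousLinearMap.opNorm_le_bound _ (norm_nonneg _) fun y => by
      obtain ⟨f, rfl⟩ := e.surjective y
      rw [hΦ, e.norm_map, e.norm_map]; exact A.le_opNorm f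
  refine ⟨Φ S, fun h => hS0 (Φ.injective (h.trans (map_zero Φ).symm)), ?_, fun W hW hA => ?_⟩
  · have hlim : Tendsto (fun n : ℕ => Real.exp (-(n : ℝ))) atTop (𝓝 0) :=
      Real.tendsto_exp_neg_atTop_nhds_zero.comp tendsto_natCast_atTop_atTop
    refine squeeze_zero' (Eventually.of_forall fun n => by positivity) ?_ hlim
    filter_upwards [eventually_ge_atTop 1] with n hn
    have hn0 : (0 : ℝ) < n := by exact_mod_cast hn
    have h1 : ‖Φ S ^ n‖ ≤ Real.exp (-((n : ℝ) * n)) := by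
      rw [← map_pow]
      refine (hΦn _).trans ((hSn n hn).trans (Real.exp_le_exp.2 ?_))
      have h2 : n * n ≤ 10 * ((n + 1) ^ 2 / 4) := by
        have : (n + 1) ^ 2 < 4 * ((n + 1) ^ 2 / 4 + 1) := Nat.lt_mul_div_succ _ (by norm_num)
        nlinarith
      have h3 : ((n : ℝ) * n) ≤ 10 * (((n + 1) ^ 2 / 4 : ℕ) : ℝ) := by exact_mod_cast h2
      linarith
    calc ‖Φ S ^ n‖ ^ (1 / (n : ℝ)) ≤ Real.exp (-((n : ℝ) * n)) ^ (1 / (n : ℝ)) :=
          Real.rpow_le_rpow (norm_nonneg _) h1 (by positivity)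
      _ = Real.exp (-(n : ℝ)) := by
          rw [← Real.exp_mul]; congr 1; field_simp
  · let W' : Submodule ℂ fibreSpace := W.comap e.toLinearEquiv.toLinearMap
    have hmem : ∀ f, f ∈ W' ↔ e f ∈ W := fun f => Iff.rfl
    have hW' : IsClosed (W' : Set fibreSpace) := hW.preimage e.continuous
    have hcomm : ∀ A : fibreSpace →L[ℂ] fibreSpace, A * S = S * A → ∀ f ∈ W', A f ∈ W' := by
      intro A h f hf
      rw [hmem, ← hΦ]
      exact hA (Φ A) (by rw [← map_mul, ← map_mul, h]) _ hf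
    have hSF : IsField Sx 0 S := fun f => by simpa only [add_zero] using hS f
    rcases htr W' hW' (hcomm S rfl) (hcomm V hVS) (fun g hg ⟨C, hC⟩ f hf f' hf' => by
      obtain ⟨M, hM⟩ := exists_mult_field hg hC
      have h1 := hM.mul hSF
      have h2 := hSF.mul hM
      have hMS : M * S = S * M := h1.ext h2 fun x => by simp
      have : f' = M f := by
        refine Lp.ext ?_
        filter_upwards [hf', hM f] with x h3 h4
        rw [add_zero] at h4
        rw [h3, h4]; simp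
      rw [this]; exact hcomm M hMS f hf) with h | h
    · left
      rw [eq_bot_iff]
      intro y hy
      obtain ⟨f, rfl⟩ := e.surjective y
      have : f ∈ W' := hy
      rw [h, Submodule.mem_bot] at this
      simp [this]
    · right
      rw [eq_top_iff]
      intro y _
      obtain ⟨f, rfl⟩ := e.surjective y
      have : f ∈ W' := by rw [h]; trivial
      exact this

end Crest.Agent.R113
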