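import Crest.Agent.R113.FibTitch

/-!
# R113 — weighted shifts on `ℓ²(ℤ)`
-/

set_option autoImplicit false

namespace Crest.Agent.R113

open MeasureTheory Crest.AnalysisR.TwoAdic Filter Topology
open scoped InnerProductSpace

attribute [local instance] Crest.AnalysisR.TwoAdic.borelTwoAdic
  Crest.AnalysisR.TwoAdic.borelSpace_twoAdic

theorem fo_hasSum_sq (f : seqHilbert) : HasSum (fun j => ‖(f : ℤ → ℂ) j‖ ^ 2) (‖f‖ ^ 2) := by
  have := lp.hasSum_norm (p := 2) (by norm_num) f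
  simpa only [ENNReal.toReal_ofNat, Real.rpow_two] using this

theorem fo_hasSum_shift (f : seqHilbert) (k : ℤ) :
    HasSum (fun j => ‖(f : ℤ → ℂ) (j - k)‖ ^ 2) (‖f‖ ^ 2) :=
  (Equiv.subRight k).hasSum_iff.2 (fo_hasSum_sq f)

theorem fo_norm_le {f g : seqHilbert} {k : ℤ} {C : ℝ} (hC : 0 ≤ C)
    (h : ∀ j, ‖(g : ℤ → ℂ) j‖ ≤ C * ‖(f : ℤ → ℂ) (j - k)‖) : ‖g‖ ≤ C * ‖f‖ := by
  have h1 := hasSum_le (fun j => (pow_le_pow_left₀ (norm_nonneg _) (h j) 2).trans_eq (mul_pow _ _ _))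
    (fo_hasSum_sq g) ((fo_hasSum_shift f k).mul_left (C ^ 2))
  rw [← mul_pow] at h1
  exact (pow_le_pow_iff_left₀ (norm_nonneg _) (by positivity) two_ne_zero).1 h1

theorem fo_basisVec_apply (j i : ℤ) : (basisVec j : ℤ → ℂ) i = if i = j then 1 else 0 := by
  unfold basisVec
  rw [lp.single_apply, Pi.single_apply]

theorem fo_exists_ne {f : seqHilbert} (hf : f ≠ 0) : ∃ j, (f : ℤ → ℂ) j ≠ 0 := by
  by_contra h
  push Not at h
  exact hf (lp.ext (funext h))

theorem fo_mem_of_basis {W : Submodule ℂ seqHilbert} (hW : IsClosed (W : Set seqHilbert))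
    {f : seqHilbert} (h : ∀ j, (f : ℤ → ℂ) j ≠ 0 → basisVec j ∈ W) : f ∈ W := by
  refine hW.mem_of_tendsto (lp.hasSum_single (p := 2) (by norm_num) f)
    (Eventually.of_forall fun s => W.sum_mem fun j _ => ?_)
  by_cases hj : (f : ℤ → ℂ) j = 0
  · rw [hj, lp.single_zero]; exact W.zero_mem
  · have : lp.single 2 j ((f : ℤ → ℂ) j) = (f : ℤ → ℂ) j • basisVec j := by
      unfold basisVec
      rw [← lp.single_smul, smul_eq_mul, mul_one]
    rw [this]
    exact W.smul_mem _ (h j hj)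

theorem fo_isClosed_tail (h : ℤ) : IsClosed (tailSpace h : Set seqHilbert) :=
  Submodule.isClosed_topologicalClosure _

theorem exists_wsh {w : ℤ → ℝ} (hw : ∀ j, |w j| ≤ 1) (k : ℤ) :
    ∃ T : seqHilbert →L[ℂ] seqHilbert, IsWsh w k T := by
  have hb : ∀ (f : seqHilbert) (j : ℤ),
      ‖(w (j - k) : ℂ) * (f : ℤ → ℂ) (j - k)‖ ≤ 1 * ‖(f : ℤ → ℂ) (j - k)‖ := fun f j => by
    rw [norm_mul, Complex.norm_real, Real.norm_eq_abs]
    exact mul_le_mul_of_nonneg_right (hw _) (norm_nonneg _)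
  have hm : ∀ f : seqHilbert, Memℓp (fun j => (w (j - k) : ℂ) * (f : ℤ → ℂ) (j - k)) 2 := by
    intro f
    refine memℓp_gen ?_
    simp only [ENNReal.toReal_ofNat, Real.rpow_two]
    refine Summable.of_nonneg_of_le (fun _ => by positivity) (fun j => ?_)
      (fo_hasSum_shift f k).summable
    have := hb f j
    rw [one_mul] at this
    exact pow_le_pow_left₀ (norm_nonneg _) this 2
  let L : seqHilbert →ₗ[ℂ] seqHilbert :=
    { toFun := fun f => ⟨_, hm f⟩
      map_add' := fun f g => lp.ext (funext fun j => by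
        simp only [lp.coeFn_add, Pi.add_apply, mul_add])
      map_smul' := fun c f => lp.ext (funext fun j => by
        simp only [lp.coeFn_smul, Pi.smul_apply, smul_eq_mul, RingHom.id_apply]
        ring) }
  exact ⟨L.mkContinuous 1 fun f => fo_norm_le zero_le_one (hb f), fun f j => rfl⟩

theorem IsWsh.basisVec {w : ℤ → ℝ} {k : ℤ} {T : seqHilbert →L[ℂ] seqHilbert} (h : IsWsh w k T)
    (j : ℤ) : T (basisVec j) = (w j : ℂ) • basisVec (j + k) := by
  refine lp.ext (funext fun i => ?_)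
  rw [h, lp.coeFn_smul, Pi.smul_apply, fo_basisVec_apply, fo_basisVec_apply, smul_eq_mul]
  by_cases hi : i = j + k
  · subst hi
    simp
  · rw [if_neg hi, if_neg (by omega), mul_zero, mul_zero]

theorem norm_basisVec (j : ℤ) : ‖basisVec j‖ = 1 := by
  unfold basisVec
  rw [lp.norm_single (by norm_num), norm_one]

theorem IsWsh.norm_le {w : ℤ → ℝ} {k : ℤ} {T : seqHilbert →L[ℂ] seqHilbert} (h : IsWsh w k T)
    {C : ℝ} (hC : ∀ j, |w j| ≤ C) : ‖T‖ ≤ C := by
  have h0 : 0 ≤ C := (abs_nonneg _).trans (hC 0)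
  refine ContinuousLinearMap.opNorm_le_bound _ h0 fun f => fo_norm_le (k := k) h0 fun j => ?_
  rw [h, norm_mul, Complex.norm_real, Real.norm_eq_abs]
  exact mul_le_mul_of_nonneg_right (hC _) (norm_nonneg _)

theorem IsWsh.mul {w w' : ℤ → ℝ} {k k' : ℤ} {T T' : seqHilbert →L[ℂ] seqHilbert}
    (h : IsWsh w k T) (h' : IsWsh w' k' T') :
    IsWsh (fun j => w (j + k') * w' j) (k + k') (T * T') := by
  intro f j
  rw [mul_apply_eq_comp, h, h']
  beta_reduce
  rw [show j - (k + k') + k' = j - k by ring, show j - (k + k') = j - k - k' by ring]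
  push_cast
  ring

theorem IsWsh.ext {w w' : ℤ → ℝ} {k : ℤ} {T T' : seqHilbert →L[ℂ] seqHilbert}
    (h : IsWsh w k T) (h' : IsWsh w' k T') (hw : ∀ j, w j = w' j) : T = T' := by
  refine ContinuousLinearMap.ext fun f => lp.ext (funext fun j => ?_)
  rw [h, h', hw]

theorem IsWsh.pow_beta {u : ℤ → ℝ} {S : seqHilbert →L[ℂ] seqHilbert} (h : IsWsh (beta u) 1 S)
    (n : ℕ) : IsWsh (fun j => Real.exp (ph (u j) - ph (u (j + n)))) n (S ^ n) := by
  induction n with
  | zero => intro f j; simp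
  | succ n ih =>
    intro f j
    have := (ih.mul h) f j
    rw [pow_succ, this, Nat.cast_succ]
    simp only [beta]
    rw [← Real.exp_add, show j - (n + 1) + 1 + n = j - (n + 1) + (n + 1) by ring]
    congr 3
    ring

theorem mem_tailSpace_iff (h : ℤ) (f : seqHilbert) :
    f ∈ tailSpace h ↔ ∀ j, j < h → (f : ℤ → ℂ) j = 0 := by
  constructor
  · intro hf j hj
    let Z : Submodule ℂ seqHilbert :=
      { carrier := {f | (f : ℤ → ℂ) j = 0}
        add_mem' := fun {a b} ha hb => by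
          simp only [Set.mem_ofPred_eq] at ha hb ⊢
          rw [lp.coeFn_add, Pi.add_apply, ha, hb, add_zero]
        zero_mem' := rfl
        smul_mem' := fun c a ha => by
          simp only [Set.mem_ofPred_eq] at ha ⊢
          rw [lp.coeFn_smul, Pi.smul_apply, ha, smul_zero] }
    have hZ : IsClosed (Z : Set seqHilbert) :=
      isClosed_eq (lp.lipschitzWith_one_eval 2 j).continuous continuous_const
    have : tailSpace h ≤ Z := by
      refine Submodule.topologicalClosure_minimal _ (Submodule.span_le.2 ?_) hZ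
      rintro _ ⟨i, rfl⟩
      show (basisVec (i : ℤ) : ℤ → ℂ) j = 0
      rw [fo_basisVec_apply, if_neg (by have := i.2; omega)]
    exact this hf
  · intro hf
    refine fo_mem_of_basis (fo_isClosed_tail h) fun j hj => ?_
    have : h ≤ j := not_lt.1 fun hlt => hj (hf j hlt)
    exact Submodule.le_topologicalClosure _ (Submodule.subset_span ⟨⟨j, this⟩, rfl⟩)

/-- `⟪g, S ^ n f⟫ = ∑' j, f j * conj (g (j + n)) * exp (φ j - φ (j+n))` (`lp.inner_eq_tsum`, reindex);
apply `titchmarsh` to `f` and `conj g`. -/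
theorem IsWsh.sep_of_orth {u : ℤ → ℝ} (hu : Clk u) {S : seqHilbert →L[ℂ] seqHilbert}
    (h : IsWsh (beta u) 1 S) {f g : seqHilbert} (ho : ∀ n : ℕ, ⟪g, (S ^ n) f⟫_ℂ = 0) {a b : ℤ}
    (ha : (f : ℤ → ℂ) a ≠ 0) (hb : (g : ℤ → ℂ) b ≠ 0) : b < a := by
  refine titchmarsh hu (f := (f : ℤ → ℂ)) (g := fun j => (starRingEnd ℂ) ((g : ℤ → ℂ) j))
    (fo_hasSum_sq f).summable (by simpa using (fo_hasSum_sq g).summable) (fun n => ?_) ha
    (by simpa using hb)
  rw [← ho n, lp.inner_eq_tsum]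
  refine Eq.trans (tsum_congr fun j => ?_) ((Equiv.addRight (n : ℤ)).tsum_eq _)
  rw [h.pow_beta n]
  simp only [Equiv.coe_addRight, add_sub_cancel_right, RCLike.inner_apply]
  ring

/-- If `W ≠ ⊥, ⊤` is closed and invariant, pick `0 ≠ g₀ ∈ Wᗮ`; all supports of vectors of `W` lie
above a point of `supp g₀`, so `h = min ⋃ supp` exists, `W ≤ tailSpace h`, and every `g ∈ Wᗮ` vanishes
on `[h, ∞)`, so `tailSpace h ≤ Wᗮᗮ = W`. -/
theorem IsWsh.invariant_iff {u : ℤ → ℝ} (hu : Clk u) {S : seqHilbert →L[ℂ] seqHilbert}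
    (h : IsWsh (beta u) 1 S) (W : Submodule ℂ seqHilbert) (hW : IsClosed (W : Set seqHilbert)) :
    (∀ v ∈ W, S v ∈ W) ↔ (W = ⊥ ∨ W = ⊤ ∨ ∃ h : ℤ, W = tailSpace h) := by
  constructor
  · intro hS
    by_cases h0 : W = ⊥
    · exact Or.inl h0
    by_cases h1 : W = ⊤
    · exact Or.inr (Or.inl h1)
    refine Or.inr (Or.inr ?_)
    have : CompleteSpace W := hW.completeSpace_coe
    have hpow : ∀ (n : ℕ), ∀ v ∈ W, (S ^ n) v ∈ W := by
      intro n
      induction n with
      | zero => exact fun v hv => hv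
      | succ n ih => exact fun v hv => by rw [pow_succ]; exact ih _ (hS v hv)
    have key : ∀ f ∈ W, ∀ g ∈ Wᗮ, ∀ a b, (f : ℤ → ℂ) a ≠ 0 → (g : ℤ → ℂ) b ≠ 0 → b < a :=
      fun f hf g hg a b ha hb => h.sep_of_orth hu
        (fun n => Submodule.inner_left_of_mem_orthogonal (hpow n f hf) hg) ha hb
    obtain ⟨g₀, hg₀, hg₀'⟩ := (Submodule.ne_bot_iff _).1
      (fun e => h1 (Submodule.orthogonal_eq_bot_iff.1 e) : Wᗮ ≠ ⊥)
    obtain ⟨b, hb⟩ := fo_exists_ne hg₀'
    obtain ⟨f₀, hf₀, hf₀'⟩ := (Submodule.ne_bot_iff _).1 h0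
    obtain ⟨a, ha⟩ := fo_exists_ne hf₀'
    obtain ⟨m, ⟨f₁, hf₁, hm⟩, hmin⟩ := Int.exists_least_of_bdd
      (P := fun a => ∃ f ∈ W, (f : ℤ → ℂ) a ≠ 0)
      ⟨b, fun z ⟨f, hf, hz⟩ => (key f hf g₀ hg₀ z b hz hb).le⟩ ⟨a, f₀, hf₀, ha⟩
    refine ⟨m, le_antisymm (fun f hf => (mem_tailSpace_iff _ _).2 fun j hj => ?_) fun x hx => ?_⟩
    · by_contra hne
      exact absurd (hmin j ⟨f, hf, hne⟩) (not_le.2 hj)
    · rw [← W.orthogonal_orthogonal, Submodule.mem_orthogonal]
      intro g hg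
      rw [lp.inner_eq_tsum]
      refine Eq.trans (tsum_congr fun j => ?_) tsum_zero
      rcases lt_or_ge j m with hj | hj
      · rw [(mem_tailSpace_iff _ _).1 hx j hj, inner_zero_right]
      · have : (g : ℤ → ℂ) j = 0 := by
          by_contra hne
          exact absurd (key f₁ hf₁ g hg m j hm hne) (not_lt.2 hj)
        rw [this, inner_zero_left]
  · rintro (rfl | rfl | ⟨m, rfl⟩) v hv
    · rw [(Submodule.mem_bot ℂ).1 hv, map_zero]; exact Submodule.zero_mem _
    · exact Submodule.mem_top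
    · refine (mem_tailSpace_iff _ _).2 fun j hj => ?_
      rw [h, (mem_tailSpace_iff _ _).1 hv _ (by omega), mul_zero]

theorem IsWsh.basisVec_eq {b : ℤ → ℝ} {V : seqHilbert →L[ℂ] seqHilbert}
    (h : IsWsh b (-1) V) (hb : ∀ j, 0 < b j) (j : ℤ) :
    Crest.AnalysisR.TwoAdic.basisVec j =
      ((b (j + 1) : ℂ))⁻¹ • V (Crest.AnalysisR.TwoAdic.basisVec (j + 1)) := by
  rw [h.basisVec, smul_smul, inv_mul_cancel₀ (by exact_mod_cast (hb _).ne'), one_smul,
    add_neg_cancel_right]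

theorem IsWsh.closure_image_tail {b : ℤ → ℝ} {V : seqHilbert →L[ℂ] seqHilbert}
    (h : IsWsh b (-1) V) (hb : ∀ j, 0 < b j) (k : ℤ) :
    closure (V '' (tailSpace k : Set seqHilbert)) = (tailSpace (k - 1) : Set seqHilbert) := by
  refine Set.Subset.antisymm (closure_minimal ?_ (fo_isClosed_tail _)) fun f hf => ?_
  · rintro _ ⟨f, hf, rfl⟩
    refine (mem_tailSpace_iff _ _).2 fun j hj => ?_
    rw [h, (mem_tailSpace_iff _ _).1 hf _ (by omega), mul_zero]
  · have : f ∈ ((tailSpace k).map (V : seqHilbert →ₗ[ℂ] seqHilbert)).topologicalClosure := by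
      refine fo_mem_of_basis (Submodule.isClosed_topologicalClosure _) fun j hj => ?_
      have hj' : k - 1 ≤ j := not_lt.1 fun hlt => hj ((mem_tailSpace_iff _ _).1 hf j hlt)
      rw [h.basisVec_eq hb j]
      refine Submodule.le_topologicalClosure _ (Submodule.smul_mem _ _ ⟨_, ?_, rfl⟩)
      refine (mem_tailSpace_iff _ _).2 fun i hi => ?_
      rw [fo_basisVec_apply, if_neg (by omega)]
    exact this

theorem IsWsh.closure_range {b : ℤ → ℝ} {V : seqHilbert →L[ℂ] seqHilbert}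
    (h : IsWsh b (-1) V) (hb : ∀ j, 0 < b j) : closure (Set.range V) = Set.univ := by
  refine Set.eq_univ_of_forall fun f => ?_
  have : f ∈ (LinearMap.range (V : seqHilbert →ₗ[ℂ] seqHilbert)).topologicalClosure := by
    refine fo_mem_of_basis (Submodule.isClosed_topologicalClosure _) fun j _ => ?_
    rw [h.basisVec_eq hb j]
    exact Submodule.le_topologicalClosure _ (Submodule.smul_mem _ _ ⟨_, rfl⟩)
  exact this

end Crest.Agent.R113
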