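import Crest.Agent.R113.FibGel

/-!
# R113 — the fibre Titchmarsh theorem
-/

set_option autoImplicit false

namespace Crest.Agent.R113

open MeasureTheory Crest.AnalysisR.TwoAdic Filter Topology
open scoped InnerProductSpace

attribute [local instance] Crest.AnalysisR.TwoAdic.borelTwoAdic
  Crest.AnalysisR.TwoAdic.borelSpace_twoAdic

theorem ft_ph_nonneg {t : ℝ} (h : 0 ≤ t) : ph t = 10 * t ^ 2 := by
  rw [ph, abs_of_nonneg h, sq]

theorem ft_ph_neg (t : ℝ) : ph (-t) = -ph t := by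
  rw [ph, ph, abs_neg]; ring

theorem ft_real {A n i x y z : ℝ} (hA : 0 ≤ A) (hn : 10 * A ^ 2 + 25 * A + 2 ≤ n) (hi : 1 ≤ i)
    (hx : n - A ≤ x) (hx2 : x ≤ 2 * A + 2 * n) (hy2 : y ≤ 2 * A + 2 * i) (hz1 : x + i ≤ z)
    (hz2 : y + n ≤ z) : n ≤ ph z - ph x - ph y := by
  have hA2 : 0 ≤ A ^ 2 := sq_nonneg A
  have hx0 : 0 ≤ x := by linarith
  rw [ft_ph_nonneg hx0, ft_ph_nonneg (by linarith : 0 ≤ z)]
  have h1 : (x + i) ^ 2 ≤ z ^ 2 := pow_le_pow_left₀ (by linarith) hz1 2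
  rcases le_total y 0 with hy | hy
  · have h2 : ph y ≤ 0 := by
      rw [ph, abs_of_nonpos hy]; nlinarith [sq_nonneg y]
    nlinarith
  rw [ft_ph_nonneg hy]
  rcases le_total i (n / 2) with hin | hin
  · have h2 : y ^ 2 ≤ (2 * A + 2 * i) ^ 2 := pow_le_pow_left₀ hy hy2 2
    have h3 : i * (n - A) ≤ i * x := mul_le_mul_of_nonneg_left hx (by linarith)
    have h4 : 1 * (n / 2 - 10 * A) ≤ i * (n / 2 - 10 * A) :=
      mul_le_mul_of_nonneg_right hi (by linarith)
    have h5 : i * i ≤ i * (n / 2) := mul_le_mul_of_nonneg_left hin (by linarith)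
    nlinarith
  · have key : ∀ T t p : ℝ, 0 ≤ t → t ≤ T → n / 2 ≤ p → t ≤ 2 * A + 2 * p → T + p ≤ z →
        n ≤ 10 * z ^ 2 - 10 * T ^ 2 - 10 * t ^ 2 := by
      intro T t p ht htT hp htp hz
      have h2 : (T + p) ^ 2 ≤ z ^ 2 := pow_le_pow_left₀ (by linarith) hz 2
      have h3 : t * t ≤ t * (2 * A + 2 * p) := mul_le_mul_of_nonneg_left htp ht
      have h4 : p * t ≤ p * T := mul_le_mul_of_nonneg_left htT (by linarith)
      have h5 : A * t ≤ A * (2 * A + 2 * p) := mul_le_mul_of_nonneg_left htp hA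
      have h6 : p * (12 * A + 1) ≤ p * p := mul_le_mul_of_nonneg_left (by linarith) (by linarith)
      have h7 : A * A ≤ A * p := mul_le_mul_of_nonneg_left (by linarith) hA
      have h8 : 0 ≤ A * p := mul_nonneg hA (by linarith)
      nlinarith
    have hp : n / 2 ≤ min i n := le_min hin (by linarith)
    have hp1 := min_le_left i n
    have hp2 := min_le_right i n
    rcases le_total x y with hxy | hxy
    · have h2 : x ≤ 2 * A + 2 * min i n := by
        rcases min_choice i n with h | h <;> rw [h] <;> linarith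
      have := key y x _ hx0 hxy hp h2 (by linarith)
      linarith
    · have h2 : y ≤ 2 * A + 2 * min i n := by
        rcases min_choice i n with h | h <;> rw [h] <;> linarith
      exact key x y _ hy hxy hp h2 (by linarith)

/-- For `n ≥ n₀(a)` and all `i ≥ 1`: `φ (a+n+i) - φ (a+n) - φ (a+i) ≥ n`.  (If `a + i ≤ 0` use
`φ (a+i) ≤ 0` and `φ (a+n+i) - φ (a+n) ≥ 20 u (a+n)`.  Otherwise put `p = min i n`, `T = max`, `t = min` of
`u (a+n), u (a+i)`: `u (a+n+i) ≥ T + p`, `t ≤ 2 (|a| + p)`, `t ≤ T`; the difference is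
`≥ 10 (2 p T + p² - t²)`; if `p ≥ n / 2` use `t² ≤ 2 p T + 2 |a| t`, else `p = i < n/2`, `T ≥ n - |a|`,
`t² ≤ 4 (|a| + i)²`.) -/
theorem Clk.superadd {u : ℤ → ℝ} (hu : Clk u) (a : ℤ) : ∃ n₀ : ℕ, ∀ n : ℕ, n₀ ≤ n → ∀ i : ℕ, 1 ≤ i →
    (n : ℝ) ≤ ph (u (a + n + i)) - ph (u (a + n)) - ph (u (a + i)) := by
  obtain ⟨A, hA⟩ : ∃ A : ℕ, (A : ℤ) = |a| := ⟨a.natAbs, Int.natCast_natAbs a⟩
  refine ⟨10 * A ^ 2 + 25 * A + 2, fun n hn i hi => ?_⟩
  have hA0 : (0 : ℝ) ≤ A := Nat.cast_nonneg A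
  have hn' : 10 * (A : ℝ) ^ 2 + 25 * A + 2 ≤ n := by exact_mod_cast hn
  have hi' : (1 : ℝ) ≤ i := by exact_mod_cast hi
  have hua : u a ≤ 2 * A := by
    rcases le_total 0 a with h0 | h0
    · have := (hu.mono 0 A).2
      rw [hu.1, zero_add, hA, abs_of_nonneg h0] at this
      linarith
    · have := (hu.mono a A).1
      rw [hA, abs_of_nonpos h0, add_neg_cancel, hu.1] at this
      linarith
  have hx : (n : ℝ) - A ≤ u (a + n) := by
    have hAn : A ≤ n := by nlinarith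
    obtain ⟨m, hm⟩ : ∃ m : ℕ, (m : ℤ) = a + n :=
      ⟨(a + n).toNat, Int.toNat_of_nonneg (by have := neg_abs_le a; omega)⟩
    have h1 := (hu.mono 0 m).1
    rw [hu.1, zero_add, hm] at h1
    have h2 : (n : ℤ) - A ≤ m := by have := neg_abs_le a; omega
    have h3 : (n : ℝ) - A ≤ m := by exact_mod_cast h2
    linarith
  have hx2 := (hu.mono a n).2
  have hy2 := (hu.mono a i).2
  have hz1 := (hu.mono (a + n) i).1
  have hz2 := (hu.mono (a + i) n).1
  rw [add_right_comm] at hz2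
  exact ft_real hA0 hn' hi' hx (by linarith) (by linarith) (by linarith) (by linarith)

theorem ft_summable {u : ℤ → ℝ} (hu : Clk u) {f g : ℤ → ℂ} (hf : Summable fun j => ‖f j‖ ^ 2)
    (hg : Summable fun j => ‖g j‖ ^ 2) (n : ℕ) :
    Summable fun j : ℤ => f j * g (j + n) * (Real.exp (ph (u j) - ph (u (j + n))) : ℂ) := by
  have hg' : Summable fun j : ℤ => ‖g (j + n)‖ ^ 2 :=
    (Equiv.addRight (n : ℤ)).summable_iff.2 hg
  refine Summable.of_norm_bounded (hf.add hg') fun j => ?_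
  rw [norm_mul, norm_mul, Complex.norm_real, Real.norm_of_nonneg (Real.exp_pos _).le]
  have h1 : Real.exp (ph (u j) - ph (u (j + n))) ≤ 1 := by
    have h2 := (hu.mono j n).1
    have h3 : (0 : ℝ) ≤ n := Nat.cast_nonneg n
    exact Real.exp_le_one_iff.2 (sub_nonpos.2 (ph_mono (by linarith)))
  have h2 := mul_le_of_le_one_right (mul_nonneg (norm_nonneg (f j)) (norm_nonneg (g (j + n)))) h1
  nlinarith [sq_nonneg (‖f j‖ - ‖g (j + n)‖), mul_nonneg (norm_nonneg (f j)) (norm_nonneg (g (j + n)))]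

/-- Unilateral case.  Isolating the term `j = a`:
`|g (a+n)| ≤ C ∑_{i ≥ 1} |f (a+i)| |g (a+n+i)| exp (φ (a+i) + φ (a+n) - φ (a+n+i)) ≤ C e^{-n} ‖f‖ τ N` for
`n ≥ N ≥ n₀`, where `τ N` is the `ℓ²` norm of `g` on `[a+N, ∞)` (Cauchy-Schwarz); square and sum: `τ N ≤ τ N / 2` for large
`N`. -/
theorem titch_uni {u : ℤ → ℝ} (hu : Clk u) {f g : ℤ → ℂ} (hf : Summable fun j => ‖f j‖ ^ 2)
    (hg : Summable fun j => ‖g j‖ ^ 2)
    (h : ∀ n : ℕ, ∑' j : ℤ, f j * g (j + n) * (Real.exp (ph (u j) - ph (u (j + n))) : ℂ) = 0)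
    {a : ℤ} (ha : f a ≠ 0) (hlt : ∀ j, j < a → f j = 0) : ∃ N : ℤ, ∀ k, N ≤ k → g k = 0 := by
  obtain ⟨n₀, hn₀⟩ := hu.superadd a
  have hfa : 0 < ‖f a‖ := norm_pos_iff.2 ha
  set F : ℝ := ∑' j, ‖f j‖ ^ 2 with hF
  have hF0 : 0 ≤ F := tsum_nonneg fun j => by positivity
  set C : ℝ := Real.exp (-ph (u a)) / ‖f a‖ * ((F + 1) / 2) with hC
  have hC0 : 0 ≤ C := by positivity
  obtain ⟨N, hN1, hN2⟩ : ∃ N : ℕ, n₀ ≤ N ∧ C * Real.exp (-N) ≤ 1 / 2 := by
    obtain ⟨N, hN⟩ := exists_nat_ge (2 * C)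
    refine ⟨max n₀ N, le_max_left _ _, ?_⟩
    have h1 : (N : ℝ) ≤ (max n₀ N : ℕ) := by exact_mod_cast le_max_right _ _
    have h2 := Real.add_one_le_exp ((max n₀ N : ℕ) : ℝ)
    rw [Real.exp_neg, ← div_eq_mul_inv, div_le_iff₀ (Real.exp_pos _)]
    linarith
  have hinj : Function.Injective fun m : ℕ => a + N + m := fun m m' h => by simpa using h
  have hsum : Summable fun m : ℕ => ‖g (a + N + m)‖ ^ 2 := hg.comp_injective hinj
  set S : ℝ := ∑' m : ℕ, ‖g (a + N + m)‖ ^ 2 with hS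
  have hS0 : 0 ≤ S := tsum_nonneg fun j => by positivity
  obtain ⟨gt, hgd⟩ : ∃ gt : ℤ → ℝ, ∀ k, gt k = if a + N ≤ k then ‖g k‖ ^ 2 else 0 :=
    ⟨_, fun _ => rfl⟩
  have hgt0 : ∀ k, 0 ≤ gt k := fun k => by rw [hgd]; positivity
  have hgt : HasSum gt S := by
    refine (hinj.hasSum_iff fun k hk => ?_).1 ?_
    · rw [hgd]
      refine if_neg fun hle => hk ⟨(k - (a + N)).toNat, ?_⟩
      simp only
      rw [Int.toNat_of_nonneg (by omega)]
      ring
    · convert hsum.hasSum using 2 with m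
      rw [Function.comp, hgd]
      exact if_pos (by simp)
  have hzero : S = 0 := by
    by_contra hne
    have hSpos : 0 < S := lt_of_le_of_ne hS0 (Ne.symm hne)
    obtain ⟨τ, hτ0, hτ⟩ : ∃ τ : ℝ, 0 < τ ∧ τ * τ = S :=
      ⟨Real.sqrt S, Real.sqrt_pos.2 hSpos, Real.mul_self_sqrt hS0⟩
    have hb : ∀ n : ℕ, N ≤ n → ‖g (a + n)‖ ≤ C * Real.exp (-n) * τ := by
      intro n hn
      have hs := ft_summable hu hf hg n
      have h1 := h n
      rw [hs.tsum_eq_add_tsum_ite a] at h1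
      have hgt' : HasSum (fun j : ℤ => gt (j + n)) S :=
        (Equiv.addRight (n : ℤ)).hasSum_iff.2 hgt
      have h2 := (hf.hasSum.mul_left τ).add (hgt'.mul_left τ⁻¹)
      have h3 := tsum_of_norm_bounded
        (f := fun j => if j = a then 0 else
          f j * g (j + n) * (Real.exp (ph (u j) - ph (u (j + n))) : ℂ))
        (h2.mul_left (Real.exp (-ph (u (a + n)) - n) / 2)) fun j => by
          have hgj := hgt0 (j + n)
          rcases lt_trichotomy j a with hj | hj | hj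
          · rw [hlt j hj]
            simp only [zero_mul, ite_self, norm_zero]
            positivity
          · rw [if_pos hj, norm_zero]
            positivity
          · obtain ⟨i, rfl⟩ : ∃ i : ℕ, j = a + i := ⟨(j - a).toNat, by omega⟩
            have h4 := hn₀ n (hN1.trans hn) i (by omega)
            rw [add_right_comm] at h4
            rw [if_neg hj.ne', hgd, if_pos (by omega), norm_mul, norm_mul, Complex.norm_real,
              Real.norm_of_nonneg (Real.exp_pos _).le]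
            have h5 : Real.exp (ph (u (a + i)) - ph (u (a + i + n))) ≤
                Real.exp (-ph (u (a + n)) - n) := Real.exp_le_exp.2 (by linarith)
            have h6 : ‖f (a + i)‖ * ‖g (a + i + n)‖ ≤
                (τ * ‖f (a + i)‖ ^ 2 + τ⁻¹ * ‖g (a + i + n)‖ ^ 2) / 2 := by
              have h7 : 0 ≤ τ⁻¹ * (τ * ‖f (a + i)‖ - ‖g (a + i + n)‖) ^ 2 := by positivity
              have h8 : τ⁻¹ * (τ * ‖f (a + i)‖ - ‖g (a + i + n)‖) ^ 2 =
                  τ * ‖f (a + i)‖ ^ 2 + τ⁻¹ * ‖g (a + i + n)‖ ^ 2 -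
                    2 * (‖f (a + i)‖ * ‖g (a + i + n)‖) := by field_simp; ring
              linarith
            refine (mul_le_mul h6 h5 (Real.exp_pos _).le (by positivity)).trans (le_of_eq ?_)
            ring
      rw [← neg_eq_iff_add_eq_zero] at h1
      rw [← h1, norm_neg, norm_mul, norm_mul, Complex.norm_real,
        Real.norm_of_nonneg (Real.exp_pos _).le, ← hτ] at h3
      refine le_of_mul_le_mul_left (a := ‖f a‖ * Real.exp (ph (u a) - ph (u (a + n)))) ?_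
        (by positivity)
      refine le_trans (le_of_eq (by ring)) (h3.trans (le_of_eq ?_))
      rw [hC, Real.exp_sub, Real.exp_sub, Real.exp_neg, Real.exp_neg, Real.exp_neg]
      field_simp
      ring
    have h1 : S ≤ S / 4 * 2 := by
      refine hasSum_le (fun m => ?_) hsum.hasSum (hasSum_geometric_two.mul_left (S / 4))
      have h2 := hb (N + m) (Nat.le_add_right _ _)
      rw [Nat.cast_add, ← add_assoc, Nat.cast_add, neg_add, Real.exp_add, ← mul_assoc] at h2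
      have h3 : Real.exp (-(m : ℝ)) ≤ (1 / 2) ^ m := by
        rw [← mul_neg_one, Real.exp_nat_mul]
        refine pow_le_pow_left₀ (Real.exp_pos _).le ?_ m
        have := Real.add_one_le_exp 1
        rw [Real.exp_neg, inv_le_comm₀ (Real.exp_pos _) (by norm_num)]
        linarith
      have h4 : (1 / 2 : ℝ) ^ m ≤ 1 := pow_le_one₀ (by norm_num) (by norm_num)
      have h5 : ‖g (a + N + m)‖ ≤ 1 / 2 * (1 / 2) ^ m * τ := by
        refine h2.trans ?_
        gcongr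
      have h6 : (0 : ℝ) ≤ (1 / 2) ^ m := by positivity
      calc ‖g (a + N + m)‖ ^ 2 ≤ (1 / 2 * (1 / 2) ^ m * τ) ^ 2 :=
            pow_le_pow_left₀ (norm_nonneg _) h5 2
        _ = S / 4 * ((1 / 2) ^ m * (1 / 2) ^ m) := by rw [← hτ]; ring
        _ ≤ S / 4 * (1 / 2) ^ m := by
            refine mul_le_mul_of_nonneg_left ?_ (by positivity)
            exact mul_le_of_le_one_left h6 h4
    linarith
  refine ⟨a + N, fun k hk => ?_⟩
  have h1 := le_hasSum hgt k fun j _ => hgt0 j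
  rw [hgd, if_pos hk, hzero] at h1
  exact norm_eq_zero.1 (pow_eq_zero_iff two_ne_zero |>.1 (le_antisymm h1 (by positivity)))

theorem ft_uni2 {u : ℤ → ℝ} (hu : Clk u) {f g : ℤ → ℂ} (hf : Summable fun j => ‖f j‖ ^ 2)
    (hg : Summable fun j => ‖g j‖ ^ 2)
    (h : ∀ n : ℕ, ∑' j : ℤ, f j * g (j + n) * (Real.exp (ph (u j) - ph (u (j + n))) : ℂ) = 0)
    (hbd : ∃ c : ℤ, ∀ j, f j ≠ 0 → c ≤ j) {a b : ℤ} (ha : f a ≠ 0) (hb : g b ≠ 0) : b < a := by
  obtain ⟨a₀, ha1, ha2⟩ := Int.exists_least_of_bdd hbd ⟨a, ha⟩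
  have hlt : ∀ j, j < a₀ → f j = 0 := fun j hj => by
    by_contra hne
    exact absurd (ha2 j hne) (not_le.2 hj)
  obtain ⟨N, hN⟩ := titch_uni hu hf hg h ha1 hlt
  obtain ⟨b₀, hb1, hb2⟩ := Int.exists_greatest_of_bdd (P := fun k => g k ≠ 0)
    ⟨N, fun k hk => by
      by_contra hc
      exact hk (hN k (by omega))⟩ ⟨b, hb⟩
  by_contra hab
  have h1 := ha2 a ha
  have h2 := hb2 b hb
  obtain ⟨n, rfl⟩ : ∃ n : ℕ, b₀ = a₀ + n := ⟨(b₀ - a₀).toNat, by omega⟩
  have h3 := h n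
  rw [tsum_eq_single a₀] at h3
  · exact mul_ne_zero (mul_ne_zero ha1 hb1) (Complex.ofReal_ne_zero.2 (Real.exp_pos _).ne') h3
  · intro j hj
    rcases lt_or_gt_of_ne hj with h4 | h4
    · rw [hlt j h4, zero_mul, zero_mul]
    · have : g (j + n) = 0 := by
        by_contra hne
        have := hb2 _ hne
        omega
      rw [this, mul_zero, zero_mul]

/-- Suppose `a ≤ b`.  If `supp f` is bounded below with minimum `a₀ ≤ a`, then `supp g` is bounded above
(`titch_uni`) with maximum `b₀ ≥ b`, and for `n = b₀ - a₀` the sum has the single nonzero term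
`j = a₀`.  If `supp g` is bounded above apply this to the reflected data `f' j = g (-j)`,
`g' k = f (-k)`, `u' j = -u (-j)` (`Clk.neg`, `ph (-t) = -ph t`, reindex `j ↦ -j - n`).  Otherwise
`titch_gelfond` applies. -/
theorem titchmarsh {u : ℤ → ℝ} (hu : Clk u) {f g : ℤ → ℂ} (hf : Summable fun j => ‖f j‖ ^ 2)
    (hg : Summable fun j => ‖g j‖ ^ 2)
    (h : ∀ n : ℕ, ∑' j : ℤ, f j * g (j + n) * (Real.exp (ph (u j) - ph (u (j + n))) : ℂ) = 0)
    {a b : ℤ} (ha : f a ≠ 0) (hb : g b ≠ 0) : b < a := by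
  by_cases h1 : ∃ c : ℤ, ∀ j, f j ≠ 0 → c ≤ j
  · exact ft_uni2 hu hf hg h h1 ha hb
  by_cases h2 : ∃ c : ℤ, ∀ j, g j ≠ 0 → j ≤ c
  · obtain ⟨c, hc⟩ := h2
    have := ft_uni2 (f := fun j => g (-j)) (g := fun j => f (-j)) hu.neg
      ((Equiv.neg ℤ).summable_iff.2 hg) ((Equiv.neg ℤ).summable_iff.2 hf) (fun n => ?_)
      ⟨-c, fun j hj => by have := hc _ hj; omega⟩ (a := -b) (b := -a) (by simpa using hb)
      (by simpa using ha)
    · omega
    · rw [← h n, ← (Equiv.subLeft (-(n : ℤ))).tsum_eq]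
      refine tsum_congr fun j => ?_
      simp only [Equiv.subLeft_apply, ft_ph_neg]
      rw [show -(-(n : ℤ) - j) = j + n by ring, show -(-(n : ℤ) - j + n) = j by ring,
        mul_comm (g _)]
      congr 3
      ring
  push Not at h1 h2
  obtain ⟨a', ha1, ha2⟩ := h1 0
  obtain ⟨b', hb1, hb2⟩ := h2 0
  exact (titch_gelfond hu hf hg h ha2 hb2 ha1 hb1).elim

end Crest.Agent.R113
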