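import Crest.Agent.R113.DefsL

/-!
# R113 — basic facts on window events, and the level tests
-/

set_option autoImplicit false
set_option linter.unusedSectionVars false

namespace Crest.Agent.R113

open MeasureTheory Filter

variable {X : Type*} [MeasurableSpace X] {μ : Measure X} [IsProbabilityMeasure μ]

theorem measurableSet_upper {D : ℕ → Set X} (hD : ∀ i, MeasurableSet (D i)) (k : ℕ) :
    MeasurableSet (upper D k) := by
  have : upper D k = ⋃ i : ℕ, ⋃ _ : k ≤ i, D i := by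
    ext x; simp [upper]
  rw [this]
  exact MeasurableSet.iUnion fun i => MeasurableSet.iUnion fun _ => hD i

theorem Act.measurableSet_hit (A : Act X μ) {D : Set X} (hD : MeasurableSet D) (a b : ℤ) :
    MeasurableSet (A.hit D a b) := by
  have : A.hit D a b = ⋃ t : ℤ, ⋃ _ : a ≤ t ∧ t < b, A.σ t ⁻¹' D := by
    ext x; simp [Act.hit, and_assoc]
  rw [this]
  exact MeasurableSet.iUnion fun t => MeasurableSet.iUnion fun _ => A.measurable t hD

theorem Act.measurableSet_sep (A : Act X μ) {S : Set X} (hS : MeasurableSet S) :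
    MeasurableSet (A.sep S) := by
  have hm : Measurable fun z : X × ℤ => A.σ z.2 z.1 :=
    measurable_from_prod_countable_left fun d => A.measurable d
  have h1 : MeasurableSet {z : X × ℤ | z.1 ∈ S} := measurable_fst hS
  have h2 : MeasurableSet {z : X × ℤ | A.σ z.2 z.1 ∈ S} := hm hS
  have : A.sep S = ({z : X × ℤ | z.1 ∈ S} \ {z : X × ℤ | A.σ z.2 z.1 ∈ S}) ∪
      ({z : X × ℤ | A.σ z.2 z.1 ∈ S} \ {z : X × ℤ | z.1 ∈ S}) := by
    ext z
    simp only [Act.sep, Set.mem_ofPred_eq, Set.mem_union, Set.mem_sdiff]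
    tauto
  rw [this]
  exact (h1.diff h2).union (h2.diff h1)

/-- union bound: `hit D a (a+n)` is the union of the `n` sets `σ t ⁻¹' D`. -/
theorem Act.measure_hit_le (A : Act X μ) {D : Set X} (hD : MeasurableSet D) {a b : ℤ} (n : ℝ)
    (hn : 0 ≤ n) (hab : (b : ℝ) - a ≤ n) : μ.real (A.hit D a b) ≤ n * μ.real D := by
  have h1 : A.hit D a b = ⋃ t ∈ Finset.Ico a b, A.σ t ⁻¹' D := by
    ext x; simp [Act.hit, and_assoc]
  have h2 : ∀ t, μ.real (A.σ t ⁻¹' D) = μ.real D := fun t =>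
    (A.mp t).measureReal_preimage hD.nullMeasurableSet
  have h3 : ((Finset.Ico a b).card : ℝ) ≤ n := by
    rw [Int.card_Ico]
    rcases le_total (b - a) 0 with h | h
    · rw [Int.toNat_of_nonpos h]; simpa using hn
    · have : (((b - a).toNat : ℤ) : ℝ) = ((b - a : ℤ) : ℝ) := by rw [Int.toNat_of_nonneg h]
      push_cast at this
      rw [this]; exact hab
  rw [h1]
  calc μ.real (⋃ t ∈ Finset.Ico a b, A.σ t ⁻¹' D)
      ≤ ∑ t ∈ Finset.Ico a b, μ.real (A.σ t ⁻¹' D) := measureReal_biUnion_finset_le _ _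
    _ = (Finset.Ico a b).card * μ.real D := by simp [h2]
    _ ≤ n * μ.real D := mul_le_mul_of_nonneg_right h3 measureReal_nonneg

/-- geometric series: `∑_{i ≥ k} 2 / 100 ^ i ≤ 3 / 100 ^ k`. -/
theorem measure_upper_le {D : ℕ → Set X} (h : ∀ i, μ.real (D i) ≤ 2 / 100 ^ i) (k : ℕ) :
    μ.real (upper D k) ≤ 3 / 100 ^ k := by
  have h1 : upper D k = ⋃ j : ℕ, D (k + j) := by
    ext x
    simp only [upper, Set.mem_ofPred_eq, Set.mem_iUnion]
    constructor
    · rintro ⟨i, hi, hx⟩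
      exact ⟨i - k, by rwa [Nat.add_sub_cancel' hi]⟩
    · rintro ⟨j, hx⟩
      exact ⟨k + j, Nat.le_add_right _ _, hx⟩
  have hs : HasSum (fun j : ℕ => (2 / 100 ^ k : ℝ) * (1 / 100) ^ j)
      ((2 / 100 ^ k : ℝ) * (1 - 1 / 100)⁻¹) :=
    (hasSum_geometric_of_lt_one (by norm_num) (by norm_num)).mul_left _
  have h2 : ∀ j, μ (D (k + j)) ≤ ENNReal.ofReal ((2 / 100 ^ k : ℝ) * (1 / 100) ^ j) := by
    intro j
    have := h (k + j)
    rw [← ofReal_measureReal (measure_ne_top μ _)]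
    refine ENNReal.ofReal_le_ofReal (this.trans (le_of_eq ?_))
    rw [pow_add, one_div, inv_pow]
    field_simp
  have h3 : μ (upper D k) ≤ ENNReal.ofReal ((2 / 100 ^ k : ℝ) * (1 - 1 / 100)⁻¹) := by
    rw [h1]
    refine (measure_iUnion_le _).trans ((ENNReal.tsum_le_tsum h2).trans (le_of_eq ?_))
    rw [← ENNReal.ofReal_tsum_of_nonneg (fun j => by positivity) hs.summable, hs.tsum_eq]
  have h4 : μ.real (upper D k) ≤ (2 / 100 ^ k : ℝ) * (1 - 1 / 100)⁻¹ :=
    ENNReal.toReal_le_of_le_ofReal (by positivity) h3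
  refine h4.trans ?_
  have h5 : (0 : ℝ) < 1 / 100 ^ k := by positivity
  have h6 : (2 / 100 ^ k : ℝ) = 2 * (1 / 100 ^ k) := by ring
  have h7 : (3 / 100 ^ k : ℝ) = 3 * (1 / 100 ^ k) := by ring
  rw [h6, h7]
  norm_num
  simp only [one_div] at h5
  nlinarith

open Classical in
/-- first hitting time of `D` (junk value `0` if there is none) -/
noncomputable def Act.fh (A : Act X μ) (D : Set X) (x : X) : ℕ :=
  if h : ∃ j : ℕ, A.σ (j : ℤ) x ∈ D then Nat.find h else 0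

theorem Act.fh_spec (A : Act X μ) {D : Set X} {x : X} (h : ∃ j : ℕ, A.σ (j : ℤ) x ∈ D) :
    A.σ (A.fh D x : ℤ) x ∈ D := by
  classical
  unfold Act.fh
  rw [dif_pos h]
  exact Nat.find_spec h

theorem Act.fh_le (A : Act X μ) {D : Set X} {x : X} {j : ℕ} (h : A.σ (j : ℤ) x ∈ D) :
    A.fh D x ≤ j := by
  classical
  unfold Act.fh
  rw [dif_pos ⟨j, h⟩]
  exact Nat.find_min' _ h

theorem Act.mem_hit_iff_fh (A : Act X μ) {D : Set X} {x : X} (h : ∃ j : ℕ, A.σ (j : ℤ) x ∈ D)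
    (n : ℕ) : x ∈ A.hit D 0 n ↔ A.fh D x < n := by
  constructor
  · rintro ⟨t, h0, hn, ht⟩
    obtain ⟨j, rfl⟩ := Int.eq_ofNat_of_zero_le h0
    have := A.fh_le ht
    omega
  · intro hn
    exact ⟨A.fh D x, Int.natCast_nonneg _, by exact_mod_cast hn, A.fh_spec h⟩

/-- If the first hitting times from `x` and `σ d x` (both `< M`) differ by at least `g`, then one of
the tests `hit D 0 (m * g)`, `1 ≤ m`, `m * g < M`, separates the pair (take `m = max / g`). -/
theorem Act.exists_sep_of_fh (A : Act X μ) {D : Set X} {M : ℕ}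
    (hgap : ∀ x, ∃ j : ℕ, j < M ∧ A.σ (j : ℤ) x ∈ D) {g : ℕ} (hg : 0 < g) (x : X) (d : ℤ)
    (h : (g : ℤ) ≤ |(A.fh D x : ℤ) - (A.fh D (A.σ d x) : ℤ)|) :
    ∃ m : ℕ, 1 ≤ m ∧ m * g < M ∧ (x, d) ∈ A.sep (A.hit D 0 ((m * g : ℕ) : ℤ)) := by
  have hex : ∀ y, ∃ j : ℕ, A.σ (j : ℤ) y ∈ D := fun y => by
    obtain ⟨j, -, hj⟩ := hgap y
    exact ⟨j, hj⟩
  have hlt : ∀ y, A.fh D y < M := fun y => by
    obtain ⟨j, hjM, hj⟩ := hgap y
    exact (A.fh_le hj).trans_lt hjM
  have key : ∀ a b : ℕ, a < M → b + g ≤ a →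
      1 ≤ a / g ∧ a / g * g < M ∧ ¬ a < a / g * g ∧ b < a / g * g := by
    intro a b ha hab
    have h1 : a / g * g ≤ a := Nat.div_mul_le_self a g
    have h2 : a < a / g * g + g := Nat.lt_div_mul_add hg
    refine ⟨(Nat.le_div_iff_mul_le hg).2 (by omega), by omega, by omega, by omega⟩
  rcases le_abs.1 h with h' | h'
  · obtain ⟨k1, k2, k3, k4⟩ := key (A.fh D x) (A.fh D (A.σ d x)) (hlt _) (by omega)
    refine ⟨_, k1, k2, ?_⟩
    simp only [Act.sep, Set.mem_ofPred_eq]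
    rw [A.mem_hit_iff_fh (hex _), A.mem_hit_iff_fh (hex _)]
    tauto
  · obtain ⟨k1, k2, k3, k4⟩ := key (A.fh D (A.σ d x)) (A.fh D x) (hlt _) (by omega)
    refine ⟨_, k1, k2, ?_⟩
    simp only [Act.sep, Set.mem_ofPred_eq]
    rw [A.mem_hit_iff_fh (hex _), A.mem_hit_iff_fh (hex _)]
    tauto

/-- **Level tests.**  `S = hit (upper D i) 0 n`, `Z = hit (E i) 0 n`, `t = exp (-c i / 2)`:
on `S \ Z` one factor of `fprod` is `≤ exp (-c i)` and the others are in `[0,1]`; off `S ∪ Z` all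
factors are `≥ exp (-G i)` and `n * G i ≤ 2 * 100 ^ i * G i ≤ (100 ^ i + G i) ^ 2 / 2 ≤ c i / 2`.
`μ Z ≤ n / 100 ^ (10 i)`.  Finally `∫_S u ∘ σ n = ∫_{hit (-n) 0} u` because `σ n` preserves `μ` and
`S = σ n ⁻¹' hit (upper D i) (-n) 0`. -/
theorem Act.test_level (A : Act X μ) {D : ℕ → Set X} (hD : ∀ i, MeasurableSet (D i)) {f : X → ℝ}
    (Co : Costs μ D f) {γ : ℝ} {ν : Measure (X × ℤ)} {u : X → ℝ} (hu : Measurable u)
    (hu1 : ∀ x, |u x| ≤ 1) (hT : A.TestOK f γ ν u) {i : ℕ} (hi : 1 ≤ i) (hγ : γ ≤ Co.c i / 2)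
    {n : ℕ} (hn : n ≤ 2 * 100 ^ i) :
    ν.real (A.sep (A.hit (upper D i) 0 n)) ≤
      3 * ((∫ x in A.hit (upper D i) 0 n, u x ∂μ) - ∫ x in A.hit (upper D i) (-(n : ℤ)) 0, u x ∂μ)
        + 16 / 100 ^ (9 * i) := by
  have hU := measurableSet_upper hD i
  have hS := A.measurableSet_hit hU 0 n
  have hS' := A.measurableSet_hit hU (-(n : ℤ)) 0
  have hZ := A.measurableSet_hit (Co.mE i) 0 n
  have hnR : (n : ℝ) ≤ 2 * 100 ^ i := by exact_mod_cast hn
  have hG := Co.G_nonneg i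
  have hc : (n : ℝ) * Co.G i ≤ Co.c i / 2 := by
    have h1 := Co.c_ge i
    have h2 : (1 : ℝ) ≤ i := by exact_mod_cast hi
    have h3 : (100 ^ i + Co.G i) ^ 2 ≤ (i : ℝ) * (100 ^ i + Co.G i) ^ 2 :=
      le_mul_of_one_le_left (sq_nonneg _) h2
    have h4 : (n : ℝ) * Co.G i ≤ 2 * 100 ^ i * Co.G i := mul_le_mul_of_nonneg_right hnR hG
    nlinarith [sq_nonneg ((100 : ℝ) ^ i - Co.G i)]
  have hmain := hT (A.hit (upper D i) 0 n) (A.hit (Co.E i) 0 n) n (Real.exp (-(Co.c i / 2))) hS hZ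
    (Real.exp_pos _) (by
      rintro x ⟨t, h0, htn, ht⟩ hxZ
      obtain ⟨j, rfl⟩ := Int.eq_ofNat_of_zero_le h0
      have hj : j ∈ Finset.range n := Finset.mem_range.2 (by exact_mod_cast htn)
      have hE : A.σ (j : ℤ) x ∉ Co.E i := fun hE => hxZ ⟨j, h0, htn, hE⟩
      have h1 := Co.f_high i _ hE ht
      have h2 : A.fprod f n x ≤ f (A.σ (j : ℤ) x) := by
        unfold Act.fprod
        rw [← Finset.mul_prod_erase _ _ hj]
        exact mul_le_of_le_one_right (Co.f01 _).1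
          (Finset.prod_le_one (fun l _ => (Co.f01 _).1) fun l _ => (Co.f01 _).2)
      refine h2.trans (h1.trans ?_)
      rw [← Real.exp_add, Real.exp_le_exp]
      linarith) (by
      intro x hxS hxZ
      have h1 : ∀ j ∈ Finset.range n, Real.exp (-Co.G i) ≤ f (A.σ (j : ℤ) x) := by
        intro j hj
        have hjn : (j : ℤ) < n := by exact_mod_cast Finset.mem_range.1 hj
        have hE : A.σ (j : ℤ) x ∉ Co.E i := fun hE => hxZ ⟨j, Int.natCast_nonneg _, hjn, hE⟩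
        have hU' : A.σ (j : ℤ) x ∉ upper D i := fun hU' => hxS ⟨j, Int.natCast_nonneg _, hjn, hU'⟩
        rw [Co.f_low i _ hE hU', Real.exp_le_exp]
        linarith [(Co.low_bd i (A.σ (j : ℤ) x)).2]
      have h2 : ∏ _j ∈ Finset.range n, Real.exp (-Co.G i) ≤ A.fprod f n x :=
        Finset.prod_le_prod (fun _ _ => (Real.exp_pos _).le) h1
      refine le_trans ?_ h2
      rw [Finset.prod_const, Finset.card_range, ← Real.exp_nat_mul, Real.exp_le_exp]
      linarith)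
  have hZle : μ.real (A.hit (Co.E i) 0 n) ≤ 2 / 100 ^ (9 * i) := by
    have h1 := A.measure_hit_le (Co.mE i) (a := 0) (b := n) (2 * 100 ^ i) (by positivity)
      (by simpa using hnR)
    refine h1.trans ((mul_le_mul_of_nonneg_left (Co.μE i) (by positivity)).trans (le_of_eq ?_))
    have : (100 : ℝ) ^ (10 * i) = 100 ^ i * 100 ^ (9 * i) := by
      rw [← pow_add]; congr 1; ring
    rw [this]
    field_simp
  have hint : ∀ v : X → ℝ, Measurable v → (∀ x, |v x| ≤ 1) → Integrable v μ := fun v hv hv1 =>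
    Integrable.of_bound hv.aestronglyMeasurable 1 (Eventually.of_forall fun x => by
      simpa [Real.norm_eq_abs] using hv1 x)
  have hpre : A.σ (n : ℤ) ⁻¹' A.hit (upper D i) (-(n : ℤ)) 0 = A.hit (upper D i) 0 n := by
    ext x
    simp only [Act.hit, Set.mem_preimage, Set.mem_ofPred_eq]
    constructor
    · rintro ⟨t, h1, h2, h3⟩
      exact ⟨t + n, by omega, by omega, by rwa [A.add]⟩
    · rintro ⟨t, h1, h2, h3⟩
      refine ⟨t - n, by omega, by omega, ?_⟩
      rwa [← A.add, sub_add_cancel]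
  have hshift : ∫ x in A.hit (upper D i) 0 n, u (A.σ (n : ℤ) x) ∂μ =
      ∫ x in A.hit (upper D i) (-(n : ℤ)) 0, u x ∂μ := by
    have h1 := setIntegral_map (μ := μ) (g := A.σ (n : ℤ)) (f := u) hS'
      hu.aestronglyMeasurable (A.measurable _).aemeasurable
    rw [(A.mp _).map_eq, hpre] at h1
    exact h1.symm
  rw [integral_sub (hint u hu hu1).integrableOn
    (hint (fun x => u (A.σ (n : ℤ) x)) (hu.comp (A.measurable _)) fun x => hu1 _).integrableOn,
    hshift] at hmain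
  have h16 : (16 : ℝ) / 100 ^ (9 * i) = 8 * (2 / 100 ^ (9 * i)) := by ring
  rw [h16]
  linarith

end Crest.Agent.R113
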