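import Crest.Agent.R113.LevBasic

/-!
# R113 — far displacements are detected (Bessel inequality over a dyadic window of levels)
-/

set_option autoImplicit false

namespace Crest.Agent.R113

open MeasureTheory Filter

variable {X : Type*} [MeasurableSpace X] {μ : Measure X} [IsProbabilityMeasure μ]

theorem far_ind_int {Y : Type*} [MeasurableSpace Y] {μ : Measure Y} [IsFiniteMeasure μ]
    {B : Set Y} (hB : MeasurableSet B) : Integrable (B.indicator (fun _ => (1 : ℝ))) μ :=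
  (integrable_const _).indicator hB

theorem far_ind_val {Y : Type*} [MeasurableSpace Y] {μ : Measure Y}
    {B : Set Y} (hB : MeasurableSet B) : ∫ x, B.indicator (fun _ => (1 : ℝ)) x ∂μ = μ.real B := by
  rw [integral_indicator hB]; simp

theorem far_ind_mul {Y : Type*} (B B' : Set Y) (a b : ℝ) (x : Y) :
    (B.indicator (fun _ => (1 : ℝ)) x - a) * (B'.indicator (fun _ => (1 : ℝ)) x - b) =
      (B ∩ B').indicator (fun _ => (1 : ℝ)) x - B.indicator (fun _ => (1 : ℝ)) x * b -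
        a * B'.indicator (fun _ => (1 : ℝ)) x + a * b := by
  by_cases h : x ∈ B <;> by_cases h' : x ∈ B' <;> simp [h, h'] <;> ring

theorem far_geo (t : Finset ℕ) (φ : ℕ → ℕ) (hφ : Set.InjOn φ t) :
    ∑ j ∈ t, (1 / 2 : ℝ) ^ φ j ≤ 2 := by
  rw [← Finset.sum_image (f := fun n => (1 / 2 : ℝ) ^ n) hφ]
  exact sum_le_hasSum _ (fun _ _ => by positivity) hasSum_geometric_two

/-- Almost orthogonality: expand the square; `∑_{j ∈ s} 2 ^ (-|i - j|) ≤ 3`. -/
theorem integral_sq_sum_le (s : Finset ℕ) (B : ℕ → Set X) (hB : ∀ i, MeasurableSet (B i)) (K : ℝ)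
    (hcov : ∀ i ∈ s, ∀ j ∈ s, i ≤ j →
      |μ.real (B i ∩ B j) - μ.real (B i) * μ.real (B j)| ≤ K / 2 ^ (j - i)) :
    ∫ x, (∑ i ∈ s, ((B i).indicator (fun _ => (1 : ℝ)) x - μ.real (B i))) ^ 2 ∂μ
      ≤ 3 * K * s.card := by
  classical
  rcases s.eq_empty_or_nonempty with rfl | ⟨i0, hi0⟩
  · simp
  have hK : 0 ≤ K := by
    have := (abs_nonneg _).trans (hcov i0 hi0 i0 hi0 le_rfl)
    simpa using this
  have hint : ∀ i j, Integrable (fun x => ((B i).indicator (fun _ => (1 : ℝ)) x - μ.real (B i)) *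
      ((B j).indicator (fun _ => (1 : ℝ)) x - μ.real (B j))) μ := fun i j => by
    simp only [far_ind_mul]
    exact (((far_ind_int ((hB i).inter (hB j))).sub ((far_ind_int (hB i)).mul_const _)).sub
      ((far_ind_int (hB j)).const_mul _)).add (integrable_const _)
  have hval : ∀ i j, ∫ x, ((B i).indicator (fun _ => (1 : ℝ)) x - μ.real (B i)) *
      ((B j).indicator (fun _ => (1 : ℝ)) x - μ.real (B j)) ∂μ =
      μ.real (B i ∩ B j) - μ.real (B i) * μ.real (B j) := fun i j => by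
    simp only [far_ind_mul]
    rw [integral_add, integral_sub, integral_sub, integral_mul_const, integral_const_mul,
      far_ind_val ((hB i).inter (hB j)), far_ind_val (hB i), far_ind_val (hB j)]
    · simp
    · exact far_ind_int ((hB i).inter (hB j))
    · exact (far_ind_int (hB i)).mul_const _
    · exact (far_ind_int ((hB i).inter (hB j))).sub ((far_ind_int (hB i)).mul_const _)
    · exact (far_ind_int (hB j)).const_mul _
    · exact ((far_ind_int ((hB i).inter (hB j))).sub ((far_ind_int (hB i)).mul_const _)).sub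
        ((far_ind_int (hB j)).const_mul _)
    · exact integrable_const _
  simp only [sq, Finset.sum_mul_sum]
  rw [integral_finsetSum _ fun i _ => integrable_finsetSum _ fun j _ => hint i j]
  rw [mul_comm, ← nsmul_eq_mul]
  refine Finset.sum_le_card_nsmul _ _ _ fun i hi => ?_
  rw [integral_finsetSum _ fun j _ => hint i j]
  simp only [hval]
  rw [← Finset.sum_filter_add_sum_filter_not s (fun j => i ≤ j)]
  have h1 : ∑ j ∈ s.filter (fun j => i ≤ j), (μ.real (B i ∩ B j) - μ.real (B i) * μ.real (B j))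
      ≤ K * 2 := by
    refine le_trans (Finset.sum_le_sum (g := fun j => K * (1 / 2 : ℝ) ^ (j - i)) fun j hj => ?_) ?_
    · obtain ⟨hj1, hj2⟩ := Finset.mem_filter.1 hj
      refine (le_abs_self _).trans ((hcov i hi j hj1 hj2).trans_eq ?_)
      rw [one_div, inv_pow, div_eq_mul_inv]
    · rw [← Finset.mul_sum]
      refine mul_le_mul_of_nonneg_left (far_geo _ (fun j => j - i) ?_) hK
      intro a ha b hb hab
      have h1 := (Finset.mem_filter.1 (Finset.mem_coe.1 ha)).2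
      have h2 := (Finset.mem_filter.1 (Finset.mem_coe.1 hb)).2
      simp only at hab
      omega
  have h2 : ∑ j ∈ s.filter (fun j => ¬ i ≤ j),
      (μ.real (B i ∩ B j) - μ.real (B i) * μ.real (B j)) ≤ K / 2 * 2 := by
    refine le_trans (Finset.sum_le_sum (g := fun j => K / 2 * (1 / 2 : ℝ) ^ (i - j - 1))
      fun j hj => ?_) ?_
    · obtain ⟨hj1, hj2⟩ := Finset.mem_filter.1 hj
      have h3 := hcov j hj1 i hi (by omega)
      rw [Set.inter_comm, mul_comm] at h3
      refine (le_abs_self _).trans (h3.trans_eq ?_)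
      obtain ⟨n, hn⟩ : ∃ n, i - j = n + 1 := ⟨i - j - 1, by omega⟩
      rw [hn, Nat.add_sub_cancel, one_div, inv_pow, pow_succ]
      field_simp
    · rw [← Finset.mul_sum]
      refine mul_le_mul_of_nonneg_left (far_geo _ (fun j => i - j - 1) ?_) (by positivity)
      intro a ha b hb hab
      have h1 := (Finset.mem_filter.1 (Finset.mem_coe.1 ha)).2
      have h2 := (Finset.mem_filter.1 (Finset.mem_coe.1 hb)).2
      simp only at hab
      omega
  linarith

theorem far_l1_le (s : Finset ℕ) (B : ℕ → Set X) (hB : ∀ i, MeasurableSet (B i)) (K : ℝ)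
    (hK : 0 ≤ K) (hcov : ∀ i ∈ s, ∀ j ∈ s, i ≤ j →
      |μ.real (B i ∩ B j) - μ.real (B i) * μ.real (B j)| ≤ K / 2 ^ (j - i))
    {lam : ℝ} (hlam : 0 < lam) (hs : (s.card : ℝ) ≤ 2 * lam ^ 2) :
    ∫ x, |∑ i ∈ s, ((B i).indicator (fun _ => (1 : ℝ)) x - μ.real (B i))| ∂μ
      ≤ (3 * K + 1) * lam := by
  set H : X → ℝ := fun x => ∑ i ∈ s, ((B i).indicator (fun _ => (1 : ℝ)) x - μ.real (B i))
    with hH
  have h2' : ∀ i, MemLp (fun x => (B i).indicator (fun _ => (1 : ℝ)) x - μ.real (B i)) 2 μ :=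
    fun i => MemLp.sub (f := (B i).indicator (fun _ => (1 : ℝ))) (g := fun _ => μ.real (B i))
      ((memLp_const 1).indicator (hB i)) (memLp_const _)
  have h2 : MemLp H 2 μ := memLp_finsetSum s fun i _ => h2' i
  have hsq : Integrable (fun x => H x ^ 2) μ := h2.integrable_sq
  have hpt : ∀ x, |H x| ≤ (2 * lam)⁻¹ * H x ^ 2 + lam / 2 := fun x => by
    have h1 : 0 ≤ (|H x| - lam) ^ 2 := sq_nonneg _
    have h3 : (2 * lam)⁻¹ * H x ^ 2 + lam / 2 - |H x| = (2 * lam)⁻¹ * (|H x| - lam) ^ 2 := by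
      rw [← sq_abs (H x)]; field_simp; ring
    have h4 : 0 ≤ (2 * lam)⁻¹ * (|H x| - lam) ^ 2 := by positivity
    linarith
  have h5 := integral_mono (h2.integrable one_le_two).abs
    ((hsq.const_mul (2 * lam)⁻¹).add (integrable_const (lam / 2))) hpt
  simp only [Pi.add_apply] at h5
  rw [integral_add (hsq.const_mul _) (integrable_const _), integral_const_mul] at h5
  have h6 := integral_sq_sum_le s B hB K hcov
  have h7 : (2 * lam)⁻¹ * ∫ x, H x ^ 2 ∂μ ≤ 3 * K * lam := by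
    calc (2 * lam)⁻¹ * ∫ x, H x ^ 2 ∂μ ≤ (2 * lam)⁻¹ * (3 * K * (2 * lam ^ 2)) := by
          refine mul_le_mul_of_nonneg_left (h6.trans ?_) (by positivity)
          exact mul_le_mul_of_nonneg_left hs (by positivity)
      _ = 3 * K * lam := by field_simp
  simp only [integral_const, probReal_univ, smul_eq_mul, one_mul] at h5
  change ∫ x, |H x| ∂μ ≤ _
  linarith

theorem far_test_le (s : Finset ℕ) (B : ℕ → Set X) (hB : ∀ i, MeasurableSet (B i)) (K : ℝ)
    (hK : 0 ≤ K) (hcov : ∀ i ∈ s, ∀ j ∈ s, i ≤ j →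
      |μ.real (B i ∩ B j) - μ.real (B i) * μ.real (B j)| ≤ K / 2 ^ (j - i))
    {lam : ℝ} (hlam : 0 < lam) (hs : (s.card : ℝ) ≤ 2 * lam ^ 2) {u : X → ℝ} (hu : Measurable u)
    (hu1 : ∀ x, |u x| ≤ 1) :
    |∑ i ∈ s, ((∫ x in B i, u x ∂μ) - μ.real (B i) * ∫ x, u x ∂μ)| ≤ (3 * K + 1) * lam := by
  refine le_trans ?_ (far_l1_le s B hB K hK hcov hlam hs)
  have hui : Integrable u μ :=
    (integrable_const (1 : ℝ)).mono' hu.aestronglyMeasurable (Eventually.of_forall hu1)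
  have h0 : ∀ i x, ((B i).indicator (fun _ => (1 : ℝ)) x - μ.real (B i)) * u x =
      (B i).indicator u x - μ.real (B i) * u x := fun i x => by
    by_cases h : x ∈ B i <;> simp [h]
    ring
  have hi : ∀ i, Integrable
      (fun x => ((B i).indicator (fun _ => (1 : ℝ)) x - μ.real (B i)) * u x) μ := fun i => by
    simp only [h0]
    exact (hui.indicator (hB i)).sub (hui.const_mul _)
  have h1 : ∀ i ∈ s, (∫ x in B i, u x ∂μ) - μ.real (B i) * ∫ x, u x ∂μ =
      ∫ x, ((B i).indicator (fun _ => (1 : ℝ)) x - μ.real (B i)) * u x ∂μ := fun i _ => by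
    simp only [h0]
    rw [integral_sub (hui.indicator (hB i)) (hui.const_mul _), integral_const_mul,
      integral_indicator (hB i)]
  rw [Finset.sum_congr rfl h1, ← integral_finsetSum _ fun i _ => hi i]
  simp only [← Finset.sum_mul]
  have hH : Integrable
      (fun x => ∑ i ∈ s, ((B i).indicator (fun _ => (1 : ℝ)) x - μ.real (B i))) μ :=
    integrable_finsetSum _ fun i _ => (far_ind_int (hB i)).sub (integrable_const _)
  rw [← Real.norm_eq_abs]
  refine norm_integral_le_of_norm_le hH.abs (Eventually.of_forall fun x => ?_)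
  rw [Real.norm_eq_abs, abs_mul]
  exact mul_le_of_le_one_right (abs_nonneg _) (hu1 x)

omit [IsProbabilityMeasure μ] in
theorem far_hit_shift [IsProbabilityMeasure μ] (A : Act X μ) {D : Set X} (hD : MeasurableSet D)
    (n : ℤ) : μ.real (A.hit D 0 n) = μ.real (A.hit D (-n) 0) := by
  have h : A.hit D 0 n = A.σ n ⁻¹' A.hit D (-n) 0 := by
    ext x
    constructor
    · rintro ⟨t, h1, h2, h3⟩
      refine ⟨t - n, by omega, by omega, ?_⟩
      rwa [← A.add, sub_add_cancel]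
    · rintro ⟨t, h1, h2, h3⟩
      refine ⟨t + n, by omega, by omega, ?_⟩
      rwa [A.add]
  rw [h, measureReal_def, measureReal_def,
    (A.mp n).measure_preimage (A.measurableSet_hit hD _ _).nullMeasurableSet]

/-- Pointwise detection at one level.  Let `v j = fh (upper D j)`.  If `|v i x - v i y| < 100^(i-8)`,
`|v (i+1) x - v (i+1) y| < 100^(i-7)` (`y = σ d x`) and `v (i+1) x ≥ 3 * 100 ^ i`, then
`v (i+1) y > 2 * 100 ^ i > v i y` and `v (i+1) x > v i x` (by `gap`), so the first hits of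
`upper D i` from `x` and from `y` are in `D i`; `phase` with `e = v i y + d - v i x` gives
`‖d θ_i‖ ≤ 100^(-8) + 100^(i-8) θ_i ≤ 3 / 100 ^ 8`. -/
theorem Clocks.detect {A : Act X μ} (Cl : Clocks A) {i : ℕ} (hi : 10 ≤ i) (x : X) (d : ℤ)
    (hd : ∀ m : ℤ, 3 / 100 ^ 8 < |(d : ℝ) * Cl.θ i - (m : ℝ)|) :
    (∃ m : ℕ, 1 ≤ m ∧ m < 2 * 100 ^ 8 ∧
      (x, d) ∈ A.sep (A.hit (upper Cl.D i) 0 ((m * 100 ^ (i - 8) : ℕ) : ℤ))) ∨
    (∃ m : ℕ, 1 ≤ m ∧ m < 2 * 100 ^ 8 ∧
      (x, d) ∈ A.sep (A.hit (upper Cl.D (i + 1)) 0 ((m * 100 ^ (i + 1 - 8) : ℕ) : ℤ))) ∨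
    x ∈ A.hit (upper Cl.D (i + 1)) 0 (3 * 100 ^ i) := by
  by_contra hcon
  rw [not_or, not_or] at hcon
  obtain ⟨h1, h2, h3⟩ := hcon
  have hgap : ∀ j x, ∃ t : ℕ, t < 2 * 100 ^ j ∧ A.σ (t : ℤ) x ∈ upper Cl.D j := fun j x => by
    obtain ⟨t, ht, ht'⟩ := Cl.gap j x
    exact ⟨t, ht, j, le_rfl, ht'⟩
  have hex : ∀ j x, ∃ t : ℕ, A.σ (t : ℤ) x ∈ upper Cl.D j := fun j x =>
    let ⟨t, _, ht⟩ := hgap j x; ⟨t, ht⟩
  have hclose : ∀ j, 8 ≤ j → ¬ (∃ m : ℕ, 1 ≤ m ∧ m < 2 * 100 ^ 8 ∧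
      (x, d) ∈ A.sep (A.hit (upper Cl.D j) 0 ((m * 100 ^ (j - 8) : ℕ) : ℤ))) →
      |(A.fh (upper Cl.D j) x : ℤ) - (A.fh (upper Cl.D j) (A.σ d x) : ℤ)| < 100 ^ (j - 8) := by
    intro j hj hn
    by_contra hge
    obtain ⟨m, hm1, hm2, hm3⟩ := A.exists_sep_of_fh (hgap j) (g := 100 ^ (j - 8)) (by positivity)
      x d (by push_cast; exact not_lt.1 hge)
    refine hn ⟨m, hm1, ?_, hm3⟩
    have h4 : 2 * 100 ^ j = 2 * 100 ^ 8 * 100 ^ (j - 8) := by
      rw [mul_assoc, ← pow_add]; congr 2; omega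
    rw [h4] at hm2
    exact lt_of_mul_lt_mul_right hm2 (Nat.zero_le _)
  have c1 := hclose i (by omega) h1
  have c2 := hclose (i + 1) (by omega) h2
  have c3 : 3 * 100 ^ i ≤ A.fh (upper Cl.D (i + 1)) x := by
    by_contra hlt
    refine h3 ?_
    have := (A.mem_hit_iff_fh (hex (i + 1) x) (3 * 100 ^ i)).2 (not_le.1 hlt)
    push_cast at this
    exact this
  have hlt : ∀ y, A.fh (upper Cl.D i) y < 2 * 100 ^ i := fun y => by
    obtain ⟨t, ht, ht'⟩ := hgap i y
    exact (A.fh_le ht').trans_lt ht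
  have hin : ∀ y, 2 * 100 ^ i ≤ A.fh (upper Cl.D (i + 1)) y →
      A.σ (A.fh (upper Cl.D i) y : ℤ) y ∈ Cl.D i := fun y hy => by
    obtain ⟨j, hj, hj'⟩ := A.fh_spec (hex i y)
    rcases hj.eq_or_lt with rfl | hj
    · exact hj'
    · have h5 : A.fh (upper Cl.D (i + 1)) y ≤ A.fh (upper Cl.D i) y := A.fh_le ⟨j, hj, hj'⟩
      have := hlt y
      omega
  have hpow : (100 : ℤ) ^ (i + 1 - 8) ≤ 100 ^ i := pow_le_pow_right₀ (by norm_num) (by omega)
  have hx := hin x (by omega)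
  have hy := hin (A.σ d x) (by
    have h6 := (abs_lt.1 c2).2
    have h7 : ((3 * 100 ^ i : ℕ) : ℤ) ≤ A.fh (upper Cl.D (i + 1)) x := by exact_mod_cast c3
    have h8 : ((2 * 100 ^ i : ℕ) : ℤ) ≤ A.fh (upper Cl.D (i + 1)) (A.σ d x) := by
      push_cast at h7 ⊢
      linarith
    exact_mod_cast h8)
  set vx : ℤ := ((A.fh (upper Cl.D i) x : ℕ) : ℤ) with hvx
  set vy : ℤ := ((A.fh (upper Cl.D i) (A.σ d x) : ℕ) : ℤ) with hvy
  obtain ⟨m, hm⟩ := Cl.phase i hi (A.σ vx x) (vy + d - vx) hx (by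
    rw [← A.add, sub_add_cancel, A.add]; exact hy)
  have h9 : |((vx - vy : ℤ) : ℝ) * Cl.θ i| ≤ 2 / 100 ^ 8 := by
    rw [abs_mul, abs_of_nonneg (Cl.θ_nonneg i)]
    have h10 : |((vx - vy : ℤ) : ℝ)| ≤ 100 ^ (i - 8) := by exact_mod_cast c1.le
    calc |((vx - vy : ℤ) : ℝ)| * Cl.θ i ≤ 100 ^ (i - 8) * (2 / 100 ^ i) :=
          mul_le_mul h10 (Cl.θ_le i) (Cl.θ_nonneg i) (by positivity)
      _ = 2 / 100 ^ 8 := by
          obtain ⟨n, rfl⟩ : ∃ n, i = n + 8 := ⟨i - 8, by omega⟩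
          rw [Nat.add_sub_cancel, pow_add]
          field_simp
  have h11 := hd m
  have h12 : (d : ℝ) * Cl.θ i - m =
      (((vy + d - vx : ℤ) : ℝ) * Cl.θ i - m) + ((vx - vy : ℤ) : ℝ) * Cl.θ i := by
    push_cast; ring
  rw [h12] at h11
  have h13 := abs_add_le (((vy + d - vx : ℤ) : ℝ) * Cl.θ i - m) (((vx - vy : ℤ) : ℝ) * Cl.θ i)
  have h14 : (3 : ℝ) / 100 ^ 8 = 1 / 100 ^ 8 + 2 / 100 ^ 8 := by ring
  linarith

/-- **Far bound.**  Put `w = 2 ^ s`, `W = Ico (k + w) (k + 2 w)`, `W' = Icc (k + w) (k + 2 w)`,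
`S i m = hit (upper D i) 0 (m * 100^(i-8))`, `At i = hit (upper D (i+1)) 0 (3 * 100 ^ i)`
(`μ (At i) ≤ 9 / 100 ≤ 1 / 4` by `measure_hit_le`, `measure_upper_le`).  For `(x,d)` in the range,
`CodeAt` and `detect` give the pointwise inequality
`w / 4 ≤ 2 ∑_{i ∈ W'} ∑_{1 ≤ m < 2·100^8} 1_{sep (S i m)} (x,d) + |∑_{i ∈ W} (1_{At i} x - μ (At i))|`.
Integrate over the range against `ν` (the `x`-marginal of `ν` is `≤ μ`, so the last term contributes at
most its `L¹(μ)` norm `≤ √(3 K w)`, by `integral_sq_sum_le` applied to the levels `i + 1`).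
By `test_level`, `∑_{i ∈ W'} ν (sep (S i m)) ≤ 3 ∫ u (∑ (1_{S i m} - μ) - ∑ (1_{S' i m} - μ)) + 16 (w+1) / 100^(9 w)`
with `S' i m = hit (upper D i) (-n) 0`, which has the same measure as `S i m`, and each of the two
sums has `L²` norm `≤ √(3 K (w+1))`.  (`K ≥ 0` by `cov` with `i = j`.) -/
theorem Clocks.far_bound {A : Act X μ} (Cl : Clocks A) {f : X → ℝ} (Co : Costs μ Cl.D f) :
    ∃ C : ℝ, ∀ k s : ℕ, 10 ≤ k → Cl.s0 ≤ s → CodeAt Cl.θ (3 / 100 ^ 8) Cl.s0 k →
      ∀ (γ : ℝ) (ν : Measure (X × ℤ)) (u : X → ℝ), γ ≤ Co.c k / 2 → IsFiniteMeasure ν →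
        Measurable u → (∀ x, |u x| ≤ 1) →
        (∀ Z : Set X, MeasurableSet Z → ν {z | z.1 ∈ Z} ≤ μ Z) → A.TestOK f γ ν u →
        ν.real {z | (100 : ℤ) ^ (k + 2 ^ (s + 1)) ≤ |z.2| ∧ |z.2| ≤ 100 ^ (k + 2 ^ (s + 2))}
          ≤ C / √(2 ^ s) := by
  classical
  have hK : 0 ≤ Cl.K := by
    have := (abs_nonneg _).trans (Cl.cov 0 0 le_rfl 0 0 0 0 (by simp) (by simp) (by simp) (by simp))
    simpa using this
  set M : ℕ := 2 * 100 ^ 8 with hM
  refine ⟨4 * (2 * M * (6 * (3 * Cl.K + 1) + 16) + (3 * Cl.K + 1)), ?_⟩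
  intro k s hk hs hcode γ ν u hγ hfin hu hu1 hν hT
  set w : ℕ := 2 ^ s with hw
  have hw1 : 1 ≤ w := Nat.one_le_two_pow
  have hw2 : 2 ^ (s + 1) = 2 * w := by rw [pow_succ]; ring
  set lam : ℝ := √(w : ℝ) with hlam
  have hwR : (1 : ℝ) ≤ w := by exact_mod_cast hw1
  have hlam1 : 1 ≤ lam := Real.one_le_sqrt.2 hwR
  have hlam2 : lam ^ 2 = w := Real.sq_sqrt (by positivity)
  set W : Finset ℕ := Finset.Ico (k + w) (k + 2 * w) with hW
  set W' : Finset ℕ := Finset.Ico (k + w) (k + 2 * w + 1) with hW'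
  have hWc : W.card = w := by simp only [hW, Nat.card_Ico]; omega
  have hWc' : W'.card = w + 1 := by simp only [hW', Nat.card_Ico]; omega
  have hmU := measurableSet_upper Cl.mD
  set S : ℕ → ℕ → Set X := fun i m => A.hit (upper Cl.D i) 0 ((m * 100 ^ (i - 8) : ℕ) : ℤ) with hS
  set S' : ℕ → ℕ → Set X :=
    fun i m => A.hit (upper Cl.D i) (-((m * 100 ^ (i - 8) : ℕ) : ℤ)) 0 with hS'
  set At : ℕ → Set X := fun i => A.hit (upper Cl.D (i + 1)) 0 (3 * 100 ^ i) with hAt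
  have hmS : ∀ i m, MeasurableSet (S i m) := fun i m => A.measurableSet_hit (hmU i) _ _
  have hmS' : ∀ i m, MeasurableSet (S' i m) := fun i m => A.measurableSet_hit (hmU i) _ _
  have hmAt : ∀ i, MeasurableSet (At i) := fun i => A.measurableSet_hit (hmU _) _ _
  have hn : ∀ i ∈ W', ∀ m ∈ Finset.Ico 1 M, m * 100 ^ (i - 8) ≤ 2 * 100 ^ i := by
    intro i hi m hm
    have h1 := (Finset.mem_Ico.1 hi).1
    have h2 := (Finset.mem_Ico.1 hm).2
    have h4 : 2 * 100 ^ i = M * 100 ^ (i - 8) := by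
      rw [hM, mul_assoc, ← pow_add]; congr 2; omega
    rw [h4]
    exact Nat.mul_le_mul_right _ h2.le
  have hnZ : ∀ i ∈ W', ∀ m ∈ Finset.Ico 1 M,
      |((m * 100 ^ (i - 8) : ℕ) : ℤ)| ≤ 2 * 100 ^ i := fun i hi m hm => by
    rw [abs_of_nonneg (by positivity)]
    exact_mod_cast hn i hi m hm
  have h0Z : ∀ i : ℕ, |(0 : ℤ)| ≤ 2 * 100 ^ i := fun i => by simp
  -- the tests
  have htest : ∀ m ∈ Finset.Ico 1 M, ∑ i ∈ W', ν.real (A.sep (S i m)) ≤
      (6 * (3 * Cl.K + 1) + 16) * lam := by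
    intro m hm
    have hcard : (W'.card : ℝ) ≤ 2 * lam ^ 2 := by
      rw [hWc', hlam2]; push_cast; linarith
    have b1 := far_test_le W' (fun i => S i m) (fun i => hmS i m) Cl.K hK
      (fun i hi j hj hij => Cl.cov i j hij _ _ _ _ (h0Z i) (hnZ i hi m hm) (h0Z j) (hnZ j hj m hm))
      (by linarith) hcard hu hu1
    have b2 := far_test_le W' (fun i => S' i m) (fun i => hmS' i m) Cl.K hK
      (fun i hi j hj hij => Cl.cov i j hij _ _ _ _ (by rw [abs_neg]; exact hnZ i hi m hm) (h0Z i)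
        (by rw [abs_neg]; exact hnZ j hj m hm) (h0Z j))
      (by linarith) hcard hu hu1
    have b3 : ∀ i ∈ W', ν.real (A.sep (S i m)) ≤
        3 * (((∫ x in S i m, u x ∂μ) - μ.real (S i m) * ∫ x, u x ∂μ) -
          ((∫ x in S' i m, u x ∂μ) - μ.real (S' i m) * ∫ x, u x ∂μ)) + 16 / ((w : ℝ) + 1) := by
      intro i hi
      have hi1 := (Finset.mem_Ico.1 hi).1
      have t1 := A.test_level Cl.mD Co hu hu1 hT (i := i) (by omega)
        (hγ.trans (by
          have := Co.c_mono (show k ≤ i by omega)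
          linarith)) (hn i hi m hm)
      have t2 : μ.real (S i m) = μ.real (S' i m) := far_hit_shift A (hmU i) _
      have t3 : (16 : ℝ) / 100 ^ (9 * i) ≤ 16 / ((w : ℝ) + 1) := by
        refine div_le_div_of_nonneg_left (by norm_num) (by positivity) ?_
        have h5 : w + 1 ≤ 100 ^ (9 * i) := by
          have h6 : 9 * i < 100 ^ (9 * i) := Nat.lt_pow_self (by norm_num)
          omega
        exact_mod_cast h5
      rw [t2]
      change ν.real (A.sep (S i m)) ≤ 3 * ((∫ x in S i m, u x ∂μ) - ∫ x in S' i m, u x ∂μ) +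
        16 / 100 ^ (9 * i) at t1
      linarith
    refine (Finset.sum_le_sum b3).trans ?_
    rw [Finset.sum_add_distrib, ← Finset.mul_sum, Finset.sum_sub_distrib, Finset.sum_const, hWc',
      nsmul_eq_mul]
    have b4 : ((w + 1 : ℕ) : ℝ) * (16 / ((w : ℝ) + 1)) = 16 := by
      push_cast; field_simp
    rw [b4]
    have := (abs_le.1 b1).2
    have := (abs_le.1 b2).1
    nlinarith
  -- the exceptional events
  set H : X → ℝ := fun x => ∑ i ∈ W, ((At i).indicator (fun _ => (1 : ℝ)) x - μ.real (At i))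
    with hH
  have hHm : Measurable H := Finset.measurable_sum _ fun i _ =>
    (measurable_const.indicator (hmAt i)).sub measurable_const
  have hHint : Integrable H μ := integrable_finsetSum _ fun i _ =>
    (far_ind_int (hmAt i)).sub (integrable_const _)
  have hH1 : ∫ x, |H x| ∂μ ≤ (3 * Cl.K + 1) * lam := by
    refine far_l1_le W At hmAt Cl.K hK (fun i hi j hj hij => ?_) (by linarith) ?_
    · have h3 : ∀ i : ℕ, |(3 * 100 ^ i : ℤ)| ≤ 2 * 100 ^ (i + 1) := fun i => by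
        rw [abs_of_nonneg (by positivity), pow_succ]
        have : (0 : ℤ) ≤ 100 ^ i := by positivity
        linarith
      have := Cl.cov (i + 1) (j + 1) (by omega) 0 (3 * 100 ^ i) 0 (3 * 100 ^ j) (h0Z _) (h3 i)
        (h0Z _) (h3 j)
      rwa [Nat.add_sub_add_right] at this
    · rw [hWc, hlam2]; linarith
  have hle : ν.map Prod.fst ≤ μ := by
    refine Measure.le_iff.2 fun Z hZ => ?_
    rw [Measure.map_apply measurable_fst hZ]
    exact hν Z hZ
  have hHν : Integrable (fun z : X × ℤ => |H z.1|) ν :=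
    (integrable_map_measure (hHm.abs.aestronglyMeasurable) measurable_fst.aemeasurable).1
      (hHint.abs.mono_measure hle)
  have hH2 : ∫ z, |H z.1| ∂ν ≤ (3 * Cl.K + 1) * lam := by
    refine le_trans ?_ hH1
    rw [← integral_map (f := fun x => |H x|) measurable_fst.aemeasurable
      hHm.abs.aestronglyMeasurable]
    exact integral_mono_measure hle (Eventually.of_forall fun x => abs_nonneg _) hHint.abs
  have hAt4 : ∀ i, μ.real (At i) ≤ 1 / 4 := fun i => by
    have h1 := A.measure_hit_le (hmU (i + 1)) (a := 0) (b := 3 * 100 ^ i) (3 * 100 ^ i)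
      (by positivity) (by push_cast; simp)
    have h2 := measure_upper_le Cl.μD (i + 1)
    calc μ.real (At i) ≤ 3 * 100 ^ i * μ.real (upper Cl.D (i + 1)) := h1
      _ ≤ 3 * 100 ^ i * (3 / 100 ^ (i + 1)) := by gcongr
      _ = 9 / 100 := by rw [pow_succ]; field_simp; norm_num
      _ ≤ 1 / 4 := by norm_num
  -- the pointwise inequality
  set R : Set (X × ℤ) :=
    {z | (100 : ℤ) ^ (k + 2 ^ (s + 1)) ≤ |z.2| ∧ |z.2| ≤ 100 ^ (k + 2 ^ (s + 2))} with hR
  have hmR : MeasurableSet R :=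
    measurable_snd (MeasurableSet.of_discrete
      (s := {d : ℤ | (100 : ℤ) ^ (k + 2 ^ (s + 1)) ≤ |d| ∧ |d| ≤ 100 ^ (k + 2 ^ (s + 2))}))
  set Tt : ℕ → X × ℤ → ℝ :=
    fun i z => ∑ m ∈ Finset.Ico 1 M, (A.sep (S i m)).indicator (fun _ => (1 : ℝ)) z with hTt
  have hind0 : ∀ {Y : Type _} (B : Set Y) (y : Y), 0 ≤ B.indicator (fun _ => (1 : ℝ)) y :=
    fun B y => Set.indicator_nonneg (fun _ _ => zero_le_one) y
  have hT0 : ∀ i z, 0 ≤ Tt i z := fun i z => Finset.sum_nonneg fun m _ => hind0 _ _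
  have hT1 : ∀ i z m, 1 ≤ m → m < M → z ∈ A.sep (S i m) → 1 ≤ Tt i z := fun i z m h1 h2 h3 => by
    have := Finset.single_le_sum (f := fun m => (A.sep (S i m)).indicator (fun _ => (1 : ℝ)) z)
      (fun m _ => hind0 _ _) (Finset.mem_Ico.2 ⟨h1, h2⟩)
    rwa [Set.indicator_of_mem h3] at this
  have hpt : ∀ z, (w : ℝ) / 4 * R.indicator (fun _ => (1 : ℝ)) z ≤
      2 * ∑ i ∈ W', Tt i z + |H z.1| := by
    intro z
    have hsum0 : 0 ≤ ∑ i ∈ W', Tt i z := Finset.sum_nonneg fun i _ => hT0 i z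
    by_cases hz : z ∈ R
    swap
    · rw [Set.indicator_of_notMem hz, mul_zero]
      have := abs_nonneg (H z.1)
      linarith
    rw [Set.indicator_of_mem hz, mul_one]
    obtain ⟨x, d⟩ := z
    have hc := hcode s hs d hz.1 hz.2
    rw [hw2] at hc
    change w ≤ 2 * (W.filter _).card at hc
    set G := W.filter (fun i => ∀ m : ℤ, 3 / 100 ^ 8 < |(d : ℝ) * Cl.θ i - (m : ℝ)|) with hG
    have hcG : w ≤ 2 * G.card := by convert hc
    have e1 : (G.card : ℝ) ≤ ∑ i ∈ W, (Tt i (x, d) + Tt (i + 1) (x, d) +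
        (At i).indicator (fun _ => (1 : ℝ)) x) := by
      rw [Finset.card_eq_sum_ones, Nat.cast_sum]
      refine le_trans (Finset.sum_le_sum fun i hi => ?_)
        (Finset.sum_le_sum_of_subset_of_nonneg (Finset.filter_subset _ _) fun i _ _ =>
          add_nonneg (add_nonneg (hT0 _ _) (hT0 _ _)) (hind0 _ _))
      obtain ⟨hi1, hi2⟩ := Finset.mem_filter.1 hi
      have hi3 := (Finset.mem_Ico.1 hi1).1
      have p1 := hT0 i (x, d)
      have p2 := hT0 (i + 1) (x, d)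
      have p3 := hind0 (At i) x
      rcases Cl.detect (i := i) (by omega) x d hi2 with ⟨m, h1, h2, h3⟩ | ⟨m, h1, h2, h3⟩ | h3
      · have := hT1 i (x, d) m h1 h2 h3
        push_cast; linarith
      · have := hT1 (i + 1) (x, d) m h1 h2 h3
        push_cast; linarith
      · rw [Set.indicator_of_mem (s := At i) h3]
        push_cast; linarith
    have e2 : ∑ i ∈ W, Tt i (x, d) ≤ ∑ i ∈ W', Tt i (x, d) :=
      Finset.sum_le_sum_of_subset_of_nonneg (Finset.Ico_subset_Ico_right (by omega))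
        fun i _ _ => hT0 _ _
    have e3 : ∑ i ∈ W, Tt (i + 1) (x, d) ≤ ∑ i ∈ W', Tt i (x, d) := by
      rw [hW, Finset.sum_Ico_add' (fun i => Tt i (x, d)) (k + w) (k + 2 * w) 1]
      exact Finset.sum_le_sum_of_subset_of_nonneg (Finset.Ico_subset_Ico_left (by omega))
        fun i _ _ => hT0 _ _
    have e4 : ∑ i ∈ W, (At i).indicator (fun _ => (1 : ℝ)) x ≤ H x + w / 4 := by
      simp only [hH, Finset.sum_sub_distrib]
      have : ∑ i ∈ W, μ.real (At i) ≤ w / 4 := by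
        refine (Finset.sum_le_card_nsmul _ _ _ fun i _ => hAt4 i).trans_eq ?_
        rw [hWc, nsmul_eq_mul]; ring
      linarith
    rw [Finset.sum_add_distrib, Finset.sum_add_distrib] at e1
    have e5 : (w : ℝ) ≤ 2 * G.card := by exact_mod_cast hcG
    have e6 := le_abs_self (H x)
    change (w : ℝ) / 4 ≤ 2 * ∑ i ∈ W', Tt i (x, d) + |H x|
    linarith
  -- integrate
  have hTint : ∀ i, Integrable (Tt i) ν := fun i => integrable_finsetSum _ fun m _ =>
    far_ind_int (A.measurableSet_sep (hmS i m))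
  have hTsum : Integrable (fun z => ∑ i ∈ W', Tt i z) ν := integrable_finsetSum _ fun i _ => hTint i
  have hmain := integral_mono ((far_ind_int (μ := ν) hmR).const_mul ((w : ℝ) / 4))
    ((hTsum.const_mul 2).add hHν) hpt
  rw [integral_const_mul, far_ind_val hmR] at hmain
  simp only [Pi.add_apply] at hmain
  rw [integral_add (hTsum.const_mul 2) hHν, integral_const_mul,
    integral_finsetSum _ fun i _ => hTint i] at hmain
  have hTval : ∑ i ∈ W', ∫ z, Tt i z ∂ν ≤ M * ((6 * (3 * Cl.K + 1) + 16) * lam) := by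
    have h1 : ∀ i ∈ W', ∫ z, Tt i z ∂ν = ∑ m ∈ Finset.Ico 1 M, ν.real (A.sep (S i m)) := by
      intro i _
      simp only [hTt]
      rw [integral_finsetSum _ fun m _ => far_ind_int (A.measurableSet_sep (hmS i m))]
      exact Finset.sum_congr rfl fun m _ => far_ind_val (A.measurableSet_sep (hmS i m))
    rw [Finset.sum_congr rfl h1, Finset.sum_comm]
    refine (Finset.sum_le_card_nsmul _ _ _ htest).trans ?_
    rw [nsmul_eq_mul, Nat.card_Ico]
    refine mul_le_mul_of_nonneg_right ?_ (by positivity)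
    exact_mod_cast Nat.sub_le _ _
  have hsq : √((2 : ℝ) ^ s) = lam := by rw [hlam, hw]; push_cast; rfl
  rw [hsq, le_div_iff₀ (by linarith)]
  have hfin2 : lam * (ν.real R * lam) ≤
      lam * (4 * (2 * M * (6 * (3 * Cl.K + 1) + 16) + (3 * Cl.K + 1))) := by
    have : lam * (ν.real R * lam) = 4 * ((w : ℝ) / 4 * ν.real R) := by
      rw [← hlam2]; ring
    have h2 : lam * (4 * (2 * M * (6 * (3 * Cl.K + 1) + 16) + (3 * Cl.K + 1))) =
        4 * (2 * (M * ((6 * (3 * Cl.K + 1) + 16) * lam)) + (3 * Cl.K + 1) * lam) := by ring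
    rw [this, h2]
    gcongr
    refine hmain.trans ?_
    gcongr
  exact le_of_mul_le_mul_left hfin2 (by linarith)

end Crest.Agent.R113
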