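import Crest.Agent.R113.LevFar

/-!
# R113 — from the level structure to the design property
-/

set_option autoImplicit false

namespace Crest.Agent.R113

open MeasureTheory Filter

variable {X : Type*} [MeasurableSpace X] {μ : Measure X} [IsProbabilityMeasure μ]

namespace LevMain

theorem abs_setIntegral_le {u : X → ℝ} (hu : Measurable u) (hu1 : ∀ x, |u x| ≤ 1) (S : Set X) :
    |∫ x in S, u x ∂μ| ≤ √(∫ x, u x ^ 2 ∂μ) := by
  have i1 : Integrable (fun x => |u x|) μ :=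
    Integrable.of_bound hu.abs.aestronglyMeasurable 1
      (Eventually.of_forall fun x => by simpa using hu1 x)
  have i2 : Integrable (fun x => u x ^ 2) μ :=
    Integrable.of_bound (hu.pow_const 2).aestronglyMeasurable 1
      (Eventually.of_forall fun x => by
        rw [Real.norm_eq_abs, abs_pow]
        exact pow_le_one₀ (abs_nonneg _) (hu1 x))
  have h1 : |∫ x in S, u x ∂μ| ≤ ∫ x, |u x| ∂μ :=
    abs_integral_le_integral_abs.trans
      (setIntegral_le_integral i1 (Eventually.of_forall fun x => abs_nonneg _))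
  refine h1.trans (Real.le_sqrt_of_sq_le ?_)
  obtain ⟨a, ha⟩ : ∃ a, a = ∫ x, |u x| ∂μ := ⟨_, rfl⟩
  have h2 : 0 ≤ ∫ x, (u x ^ 2 - 2 * a * |u x| + a ^ 2) ∂μ :=
    integral_nonneg fun x => by
      have := sq_nonneg (|u x| - a)
      have h3 := sq_abs (u x)
      simp only [Pi.zero_apply]
      nlinarith
  have i3 : Integrable (fun x => u x ^ 2 - 2 * a * |u x|) μ := i2.sub (i1.const_mul _)
  rw [integral_add i3 (integrable_const _),
    integral_sub i2 (i1.const_mul _), integral_const_mul, ← ha] at h2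
  simp only [integral_const, probReal_univ, smul_eq_mul, one_mul] at h2
  rw [← ha]
  nlinarith

omit [IsProbabilityMeasure μ] in
theorem real_iUnion_le (ν : Measure X) [IsFiniteMeasure ν] (S : ℕ → Set X) {b : ℕ → ℝ} {B : ℝ}
    (hb : ∀ n, ν.real (S n) ≤ b n) (hs : HasSum b B) : ν.real (⋃ n, S n) ≤ B := by
  have h0 : ∀ n, 0 ≤ b n := fun n => measureReal_nonneg.trans (hb n)
  refine ENNReal.toReal_le_of_le_ofReal (hs.nonneg h0) ((measure_iUnion_le _).trans ?_)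
  rw [← hs.tsum_eq, ENNReal.ofReal_tsum_of_nonneg h0 hs.summable]
  refine ENNReal.tsum_le_tsum fun n => ?_
  rw [← ofReal_measureReal (μ := ν) (s := S n)]
  exact ENNReal.ofReal_le_ofReal (hb n)

theorem fh_shift (A : Act X μ) {D : Set X} (hgap : ∀ x, ∃ j : ℕ, A.σ (j : ℤ) x ∈ D) {x : X}
    {L : ℕ} (hx : x ∉ A.hit D (-L) (L + 1)) {d : ℤ} (hd : |d| ≤ L) :
    (A.fh D x : ℤ) - A.fh D (A.σ d x) = d := by
  have hd' := abs_le.1 hd
  have h1 := A.fh_spec (hgap x)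
  have h2 := A.fh_spec (hgap (A.σ d x))
  rw [← A.add] at h2
  have h3 : (L : ℤ) < A.fh D x := by
    by_contra h
    exact hx ⟨_, by omega, by omega, h1⟩
  have h4 : (L : ℤ) < A.fh D (A.σ d x) + d := by
    by_contra h
    exact hx ⟨_, by omega, by omega, h2⟩
  have h5 : A.fh D (A.σ d x) ≤ ((A.fh D x : ℤ) - d).toNat := by
    refine A.fh_le ?_
    rw [Int.toNat_of_nonneg (by omega), ← A.add, sub_add_cancel]
    exact h1
  have h6 : A.fh D x ≤ ((A.fh D (A.σ d x) : ℤ) + d).toNat := by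
    refine A.fh_le ?_
    rw [Int.toNat_of_nonneg (by omega)]
    exact h2
  omega

theorem exists_range (k s₁ : ℕ) {d : ℤ} (hd : (100 : ℤ) ^ (k + 2 ^ (s₁ + 1)) ≤ |d|) :
    ∃ s : ℕ, (100 : ℤ) ^ (k + 2 ^ (s₁ + s + 1)) ≤ |d| ∧ |d| ≤ 100 ^ (k + 2 ^ (s₁ + s + 2)) := by
  have hex : ∃ s : ℕ, |d| ≤ 100 ^ (k + 2 ^ (s₁ + s + 2)) := by
    refine ⟨d.natAbs, ?_⟩
    have h1 : d.natAbs < 2 ^ d.natAbs := Nat.lt_two_pow_self
    have h2 : 2 ^ d.natAbs ≤ 2 ^ (s₁ + d.natAbs + 2) := Nat.pow_le_pow_right (by norm_num) (by omega)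
    have h3 : k + 2 ^ (s₁ + d.natAbs + 2) < 100 ^ (k + 2 ^ (s₁ + d.natAbs + 2)) :=
      Nat.lt_pow_self (by norm_num)
    have h4 : d.natAbs ≤ 100 ^ (k + 2 ^ (s₁ + d.natAbs + 2)) := by omega
    rw [Int.abs_eq_natAbs]
    exact_mod_cast h4
  classical
  have h1 := Nat.find_spec hex
  have h2 := fun m => Nat.find_min hex (m := m)
  generalize Nat.find hex = s at h1 h2
  refine ⟨s, ?_, h1⟩
  cases s with
  | zero => exact hd
  | succ s => exact (not_le.1 (h2 s (Nat.lt_succ_self s))).le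

theorem div_sqrt_le (C : ℝ) (s : ℕ) : C / √(2 ^ s) ≤ |C| * (3 / 4) ^ s := by
  have h1 : ((4 : ℝ) / 3) ^ s ≤ √(2 ^ s) := by
    refine Real.le_sqrt_of_sq_le ?_
    rw [← pow_mul, mul_comm, pow_mul]
    exact pow_le_pow_left₀ (by norm_num) (by norm_num) s
  calc C / √(2 ^ s) ≤ |C| / (4 / 3) ^ s :=
        div_le_div₀ (abs_nonneg _) (le_abs_self _) (by positivity) h1
    _ = |C| * (3 / 4) ^ s := by
        rw [div_eq_mul_inv, ← inv_pow]; norm_num

end LevMain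

/-- **Near bound** (one level `l`, grid `g`).  If the orbit of `x` does not visit `upper D l` at times
in `[-L, L]` and `g ≤ |d| ≤ L`, then `fh (upper D l) (σ d x) = fh (upper D l) x - d`, so
`exists_sep_of_fh` applies.  There are at most `2 * 100 ^ l / g` tests, and by `test_level` each has
`ν (sep) ≤ 6 ‖u‖₁ + 16 / 100^(9 l) ≤ 6 ‖u‖₂ + 16 / 100^(9 l)`. -/
theorem Clocks.near_bound {A : Act X μ} (Cl : Clocks A) {f : X → ℝ} (Co : Costs μ Cl.D f)
    {l g L : ℕ} (hl : 1 ≤ l) (hg : 0 < g) {γ : ℝ} {ν : Measure (X × ℤ)} {u : X → ℝ}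
    (hγ : γ ≤ Co.c l / 2) [IsFiniteMeasure ν] (hu : Measurable u) (hu1 : ∀ x, |u x| ≤ 1)
    (hν : ∀ Z : Set X, MeasurableSet Z → ν {z | z.1 ∈ Z} ≤ μ Z) (hT : A.TestOK f γ ν u) :
    ν.real {z | (g : ℤ) ≤ |z.2| ∧ |z.2| ≤ L} ≤ (2 * L + 1) * (3 / 100 ^ l) +
      (2 * 100 ^ l / g) * (6 * √(∫ x, u x ^ 2 ∂μ) + 16 / 100 ^ (9 * l)) := by
  have hgap : ∀ x, ∃ j : ℕ, j < 2 * 100 ^ l ∧ A.σ (j : ℤ) x ∈ upper Cl.D l := fun x => by
    obtain ⟨j, h1, h2⟩ := Cl.gap l x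
    exact ⟨j, h1, l, le_rfl, h2⟩
  have hmU := measurableSet_upper Cl.mD l
  have hsub : {z : X × ℤ | (g : ℤ) ≤ |z.2| ∧ |z.2| ≤ L} ⊆
      {z | z.1 ∈ A.hit (upper Cl.D l) (-L) (L + 1)} ∪
        ⋃ m ∈ Finset.Icc 1 (2 * 100 ^ l / g),
          A.sep (A.hit (upper Cl.D l) 0 ((m * g : ℕ) : ℤ)) := by
    rintro ⟨x, d⟩ ⟨h1, h2⟩
    by_cases hx : x ∈ A.hit (upper Cl.D l) (-L) (L + 1)
    · exact Or.inl hx
    · right
      obtain ⟨m, g1, g2, g3⟩ := A.exists_sep_of_fh hgap hg x d (by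
        rw [LevMain.fh_shift A (fun x => (hgap x).imp fun _ h => h.2) hx h2]; exact h1)
      exact Set.mem_biUnion (Finset.mem_coe.2 (Finset.mem_Icc.2
        ⟨g1, (Nat.le_div_iff_mul_le hg).2 g2.le⟩)) g3
  refine (measureReal_mono hsub).trans ((measureReal_union_le _ _).trans (add_le_add ?_ ?_))
  · have h1 : ν.real {z | z.1 ∈ A.hit (upper Cl.D l) (-L) (L + 1)} ≤
        μ.real (A.hit (upper Cl.D l) (-L) (L + 1)) :=
      ENNReal.toReal_mono (measure_ne_top _ _) (hν _ (A.measurableSet_hit hmU _ _))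
    refine h1.trans ((A.measure_hit_le hmU (2 * L + 1) (by positivity)
      (by push_cast; linarith)).trans ?_)
    exact mul_le_mul_of_nonneg_left (measure_upper_le Cl.μD l) (by positivity)
  · refine (measureReal_biUnion_finset_le _ _).trans ((Finset.sum_le_card_nsmul _ _
      (6 * √(∫ x, u x ^ 2 ∂μ) + 16 / 100 ^ (9 * l)) fun m hm => ?_).trans ?_)
    · have h1 : m * g ≤ 2 * 100 ^ l := (Nat.le_div_iff_mul_le hg).1 (Finset.mem_Icc.1 hm).2
      refine (A.test_level Cl.mD Co hu hu1 hT hl hγ h1).trans ?_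
      have h2 := abs_le.1 (LevMain.abs_setIntegral_le (μ := μ) hu hu1
        (A.hit (upper Cl.D l) 0 ((m * g : ℕ) : ℤ)))
      have h3 := abs_le.1 (LevMain.abs_setIntegral_le (μ := μ) hu hu1
        (A.hit (upper Cl.D l) (-((m * g : ℕ) : ℤ)) 0))
      linarith [h2.2, h3.1]
    · rw [nsmul_eq_mul, Nat.card_Icc, Nat.add_sub_cancel]
      refine mul_le_mul_of_nonneg_right (Nat.cast_div_le.trans (le_of_eq ?_)) (by positivity)
      push_cast; ring

/-- Given `δ`, choose `s₁ ≥ s0` with `∑_{s ≥ s₁} C / √(2^s) ≤ 4 |C| / √(2^s₁) ≤ δ / 3`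
(`far_bound`), `J = 2 ^ (s₁ + 1)`, `j` with `9 / 100 ^ j ≤ δ / 3` (so also `1 / 100 ^ j ≤ 2 δ`), and
`C' = 12 * 100 ^ (J + 2 j)`.  Given `N`, take a large good `k` (`Cl.code`; `k ≥ 10`, `k ≥ j`, `k ≥ 9 N`, ...),
`P = 2 * 100 ^ k`, `W = upper D k`, `E = E k`, `low k`, `G k`, `c k`.  A displacement with
`|d| ≥ δ P ≥ g := 100 ^ (k - j)` is either in `[g, L]` with `L = 100 ^ (k + J)` (`near_bound` with
`l = k + J + j`; the term `2 * 100^(J+2j) * 16 / 100^(9 l)` is `≤ δ / 3` for large `k`) or in one of the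
far ranges `s ≥ s₁`. -/
theorem design_of_levels {A : Act X μ} (Cl : Clocks A) {f : X → ℝ} (Co : Costs μ Cl.D f) :
    A.Design f := by
  intro δ hδ
  obtain ⟨C0, hC0⟩ := Cl.far_bound Co
  obtain ⟨s₁, hs1, hs2⟩ : ∃ s₁ : ℕ, Cl.s0 ≤ s₁ ∧ |C0| * (3 / 4) ^ s₁ * 4 ≤ δ / 3 := by
    have h := ((tendsto_pow_atTop_nhds_zero_of_lt_one (show (0 : ℝ) ≤ 3 / 4 by norm_num)
      (by norm_num)).const_mul |C0|).mul_const 4
    rw [mul_zero, zero_mul] at h
    exact ((eventually_ge_atTop Cl.s0).and (h.eventually (ge_mem_nhds (by positivity)))).exists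
  obtain ⟨j, hj⟩ : ∃ j : ℕ, 27 / δ < 100 ^ j := pow_unbounded_of_one_lt _ (by norm_num)
  rw [div_lt_iff₀ hδ] at hj
  obtain ⟨J, hJ⟩ : ∃ J, J = 2 ^ (s₁ + 1) := ⟨_, rfl⟩
  refine ⟨12 * 100 ^ (J + 2 * j), fun N => ?_⟩
  obtain ⟨k, hcode, hk⟩ := (Cl.code.and_eventually (eventually_ge_atTop (10 + j + 9 * N))).exists
  obtain ⟨k', rfl⟩ : ∃ k', k = j + k' := ⟨k - j, by omega⟩
  obtain ⟨k, hk'⟩ : ∃ k, k = j + k' := ⟨_, rfl⟩
  rw [← hk'] at hcode hk
  have hk100 : k < 100 ^ k := Nat.lt_pow_self (by norm_num)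
  have hp : (0 : ℝ) < 100 ^ k := by positivity
  have hp1 : (1 : ℝ) ≤ 100 ^ k := one_le_pow₀ (by norm_num)
  have hNk : (9 * N : ℝ) ≤ k := by exact_mod_cast (by omega : 9 * N ≤ k)
  have hN0 : (0 : ℝ) ≤ N := Nat.cast_nonneg _
  refine ⟨2 * 100 ^ k, upper Cl.D k, Co.E k, Co.low k, Co.G k, Co.c k, by omega, by positivity,
    measurableSet_upper Cl.mD k, Co.mE k, Co.mlow k, Co.G_nonneg k, Co.low_bd k, fun x => ?_,
    ?_, ?_, ?_, Co.f_low k, Co.f_high k, fun ν u hνf hu hu1 hν hT => ?_⟩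
  · obtain ⟨i, h1, h2⟩ := Cl.gap k x
    exact ⟨i, h1, k, le_rfl, h2⟩
  · push_cast
    refine (mul_le_mul_of_nonneg_left (measure_upper_le Cl.μD k) (by positivity)).trans
      (le_of_eq ?_)
    field_simp
    norm_num
  · push_cast
    have h1 : (k : ℝ) ≤ 100 ^ k := by exact_mod_cast hk100.le
    have h2 : (100 : ℝ) ^ k * 100 ^ k ≤ 100 ^ (10 * k) := by
      rw [← pow_add]; exact pow_le_pow_right₀ (by norm_num) (by omega)
    calc (N : ℝ) * (2 * 100 ^ k * μ.real (Co.E k))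
        ≤ N * (2 * 100 ^ k * (1 / 100 ^ (10 * k))) := by gcongr; exact Co.μE k
      _ = (2 * N) * 100 ^ k / 100 ^ (10 * k) := by ring
      _ ≤ 1 := by
        rw [div_le_one (by positivity)]
        exact (mul_le_mul_of_nonneg_right (by linarith) hp.le).trans h2
  · push_cast
    refine le_trans ?_ (Co.c_ge k)
    have hG := Co.G_nonneg k
    calc (N : ℝ) * (2 * 100 ^ k + Co.G k + 1) ^ 2 ≤ N * (3 * (100 ^ k + Co.G k)) ^ 2 := by
          gcongr; linarith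
      _ = (9 * N) * (100 ^ k + Co.G k) ^ 2 := by ring
      _ ≤ _ := by gcongr
  · have hsub : {z : X × ℤ | δ * ((2 * 100 ^ k : ℕ) : ℝ) ≤ |(z.2 : ℝ)|} ⊆
        {z | ((100 ^ k' : ℕ) : ℤ) ≤ |z.2| ∧ |z.2| ≤ (100 ^ (k + J) : ℕ)} ∪
          ⋃ s : ℕ, {z | (100 : ℤ) ^ (k + 2 ^ (s₁ + s + 1)) ≤ |z.2| ∧
            |z.2| ≤ 100 ^ (k + 2 ^ (s₁ + s + 2))} := by
      rintro ⟨x, d⟩ hd
      rcases le_total |d| (100 ^ (k + J)) with h | h
      · refine Or.inl ⟨?_, by exact_mod_cast h⟩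
        have h1 : ((100 ^ k' : ℕ) : ℝ) ≤ |(d : ℝ)| := by
          refine le_trans ?_ hd
          push_cast
          rw [hk', pow_add]
          have : (0 : ℝ) < 100 ^ k' := by positivity
          nlinarith
        exact_mod_cast h1
      · rw [hJ] at h
        exact Or.inr (Set.mem_iUnion.2 (LevMain.exists_range k s₁ h))
    refine (measureReal_mono hsub).trans ((measureReal_union_le _ _).trans ?_)
    have h1 := Cl.near_bound Co (l := k + J + j) (g := 100 ^ k') (L := 100 ^ (k + J)) (by omega)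
      (by positivity) (γ := Co.c k / 2) (ν := ν) (u := u)
      (by have := Co.c_mono (show k ≤ k + J + j by omega); linarith) hu hu1 hν hT
    have h2 := LevMain.real_iUnion_le ν (fun s : ℕ =>
        {z : X × ℤ | (100 : ℤ) ^ (k + 2 ^ (s₁ + s + 1)) ≤ |z.2| ∧
          |z.2| ≤ 100 ^ (k + 2 ^ (s₁ + s + 2))})
      (b := fun s => |C0| * (3 / 4) ^ s₁ * (3 / 4) ^ s) (B := |C0| * (3 / 4) ^ s₁ * 4)
      (fun s => by
        refine (hC0 k (s₁ + s) (by omega) (by omega) hcode _ ν u le_rfl hνf hu hu1 hν hT).trans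
          ((LevMain.div_sqrt_le _ _).trans (le_of_eq ?_))
        rw [pow_add, mul_assoc])
      (by
        have := (hasSum_geometric_of_lt_one (show (0 : ℝ) ≤ 3 / 4 by norm_num)
          (by norm_num)).mul_left (|C0| * (3 / 4) ^ s₁)
        norm_num at this ⊢
        exact this)
    have hpj : (0 : ℝ) < 100 ^ j := by positivity
    have h0 : (9 : ℝ) / 100 ^ j ≤ δ / 3 := by
      rw [div_le_iff₀ hpj]; linarith
    have h3 : (2 * ((100 ^ (k + J) : ℕ) : ℝ) + 1) * (3 / 100 ^ (k + J + j)) ≤ δ / 3 := by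
      refine le_trans ?_ h0
      push_cast
      have h4 : (1 : ℝ) ≤ 100 ^ (k + J) := one_le_pow₀ (by norm_num)
      calc (2 * (100 : ℝ) ^ (k + J) + 1) * (3 / 100 ^ (k + J + j))
          ≤ (3 * 100 ^ (k + J)) * (3 / 100 ^ (k + J + j)) := by gcongr; linarith
        _ = 9 / 100 ^ j := by rw [pow_add _ (k + J) j]; field_simp; norm_num
    have h4 : (2 * (100 : ℝ) ^ (k + J + j) / ((100 ^ k' : ℕ) : ℝ)) = 2 * 100 ^ (J + 2 * j) := by
      push_cast
      rw [show k + J + j = (J + 2 * j) + k' by omega, pow_add]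
      field_simp
    have h5 : 2 * (100 : ℝ) ^ (J + 2 * j) * (16 / 100 ^ (9 * (k + J + j))) ≤ δ / 3 := by
      refine le_trans ?_ h0
      have h6 : (100 : ℝ) ^ (J + 2 * j) * (100 ^ j * 100) ≤ 100 ^ (9 * (k + J + j)) := by
        rw [← pow_succ, ← pow_add]; exact pow_le_pow_right₀ (by norm_num) (by omega)
      calc 2 * (100 : ℝ) ^ (J + 2 * j) * (16 / 100 ^ (9 * (k + J + j)))
          ≤ 2 * 100 ^ (J + 2 * j) * (16 / (100 ^ (J + 2 * j) * (100 ^ j * 100))) := by gcongr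
        _ = (32 / 100) / 100 ^ j := by field_simp; norm_num
        _ ≤ 9 / 100 ^ j := by gcongr; norm_num
    rw [h4] at h1
    linarith

end Crest.Agent.R113
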