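import Mathlib

/-!
# R113 — trace-vector algebra: the calculus-free comparison lemma ("Lemma A")

`M` is a star subalgebra of `H →L[ℂ] H`, closed under inverses, and `Ω` is a trace vector for `M`.
-/

set_option autoImplicit false

namespace Crest.Agent.R113

open scoped InnerProductSpace

variable {H : Type*} [NormedAddCommGroup H] [InnerProductSpace ℂ H] [CompleteSpace H]

/-- A star subalgebra closed under inverses together with a trace vector. -/
structure TrAlg (H : Type*) [NormedAddCommGroup H] [InnerProductSpace ℂ H] [CompleteSpace H] where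
  M : StarSubalgebra ℂ (H →L[ℂ] H)
  Ω : H
  inv_mem : ∀ a ∈ M, ∀ b : H →L[ℂ] H, a * b = 1 → b * a = 1 → b ∈ M
  trace : ∀ a ∈ M, ∀ b ∈ M, ⟪Ω, (a * b) Ω⟫_ℂ = ⟪Ω, (b * a) Ω⟫_ℂ

namespace TrAlg

variable (A : TrAlg H)

/-- real part of the trace -/
noncomputable def τ (a : H →L[ℂ] H) : ℝ := RCLike.re ⟪A.Ω, a A.Ω⟫_ℂ

theorem τ_add (a b : H →L[ℂ] H) : A.τ (a + b) = A.τ a + A.τ b := by
  simp [τ]

theorem τ_sub (a b : H →L[ℂ] H) : A.τ (a - b) = A.τ a - A.τ b := by
  simp [τ]

theorem τ_smul (c : ℝ) (a : H →L[ℂ] H) : A.τ ((c : ℂ) • a) = c * A.τ a := by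
  simp [τ]

theorem τ_comm {a b : H →L[ℂ] H} (ha : a ∈ A.M) (hb : b ∈ A.M) : A.τ (a * b) = A.τ (b * a) := by
  simp only [τ, A.trace a ha b hb]

theorem τ_star_mul (w x : H →L[ℂ] H) :
    A.τ (star w * x) = RCLike.re ⟪w A.Ω, x A.Ω⟫_ℂ := by
  simp only [τ, mul_apply_eq_comp, ContinuousLinearMap.star_eq_adjoint,
    ContinuousLinearMap.adjoint_inner_right]

theorem τ_star_mul_self (w : H →L[ℂ] H) : A.τ (star w * w) = ‖w A.Ω‖ ^ 2 := by
  rw [τ_star_mul, inner_self_eq_norm_sq]

theorem τ_star (a : H →L[ℂ] H) : A.τ (star a) = A.τ a := by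
  have := A.τ_star_mul a 1
  rw [mul_one] at this
  rw [this, ← inner_conj_symm, RCLike.conj_re]
  simp [τ]

theorem τ_nonneg {a : H →L[ℂ] H} (ha : 0 ≤ a) : 0 ≤ A.τ a :=
  ((ContinuousLinearMap.nonneg_iff_isPositive a).1 ha).re_inner_nonneg_right _

theorem τ_mono {a b : H →L[ℂ] H} (h : a ≤ b) : A.τ a ≤ A.τ b := by
  have := A.τ_nonneg (sub_nonneg.2 h)
  rw [τ_sub] at this; linarith

theorem norm_star {a : H →L[ℂ] H} (ha : a ∈ A.M) : ‖star a A.Ω‖ = ‖a A.Ω‖ := by
  have h1 := A.τ_star_mul_self a
  have h2 := A.τ_star_mul_self (star a)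
  rw [star_star, A.τ_comm ha (star_mem ha), h1] at h2
  exact (pow_left_inj₀ (norm_nonneg _) (norm_nonneg _) two_ne_zero).1 h2.symm

/-- `τ (x * y) ≥ 0` for positive `x` (any operator) and `y = w * star w`, all in `M`. -/
theorem τ_mul_le {x x' w : H →L[ℂ] H} (hx : x ∈ A.M) (hx' : x' ∈ A.M) (hw : w ∈ A.M)
    (h : x ≤ x') : A.τ (x * (w * star w)) ≤ A.τ (x' * (w * star w)) := by
  have e : ∀ y ∈ A.M, A.τ (y * (w * star w)) = A.τ (star w * y * w) := fun y hy => by
    rw [← mul_assoc, A.τ_comm (mul_mem hy hw) (star_mem hw), mul_assoc]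
  rw [e x hx, e x' hx']
  exact A.τ_mono (star_left_conjugate_le_conjugate h w)

end TrAlg

theorem exists_inv_of_le {c : H →L[ℂ] H} {η : ℝ} (hη : 0 < η) (hc : (η : ℂ) • (1 : H →L[ℂ] H) ≤ c) :
    ∃ d : H →L[ℂ] H, c * d = 1 ∧ d * c = 1 ∧ star d = d := by
  have h0 : (0 : H →L[ℂ] H) ≤ (η : ℂ) • (1 : H →L[ℂ] H) := by
    have : ((η : ℂ) • (1 : H →L[ℂ] H)) = η • (1 : H →L[ℂ] H) := by
      rw [← Complex.coe_smul]
    rw [this]; exact smul_nonneg hη.le zero_le_one
  have hu : IsUnit ((η : ℂ) • (1 : H →L[ℂ] H)) := by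
    refine IsUnit.smul (Units.mk0 (η : ℂ) (by exact_mod_cast hη.ne')) isUnit_one
  have hcu : IsUnit c := CStarAlgebra.isUnit_of_le (A := H →L[ℂ] H) _ hc ⟨h0, hu⟩
  obtain ⟨u, rfl⟩ := hcu
  have hsa : star (u : H →L[ℂ] H) = u := (IsSelfAdjoint.of_nonneg (h0.trans hc)).star_eq
  refine ⟨↑u⁻¹, u.mul_inv, u.inv_mul, ?_⟩
  have h1 : star (↑u⁻¹ : H →L[ℂ] H) * u = 1 := by
    rw [← hsa, ← star_mul, u.mul_inv, star_one]
  calc star (↑u⁻¹ : H →L[ℂ] H) = star (↑u⁻¹ : H →L[ℂ] H) * u * ↑u⁻¹ := by
        rw [mul_assoc, u.mul_inv, mul_one]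
    _ = ↑u⁻¹ := by rw [h1, one_mul]

/-- variational inequality: `z* w + w* z - z* c z ≤ w* c⁻¹ w` -/
theorem var_le {c d : H →L[ℂ] H} (hc : 0 ≤ c) (hcd : c * d = 1) (hdc : d * c = 1)
    (hd : star d = d) (w z : H →L[ℂ] H) :
    star z * w + star w * z - star z * c * z ≤ star w * d * w := by
  have h := star_left_conjugate_nonneg hc (d * w - z)
  have e : star (d * w - z) * c * (d * w - z)
      = star w * d * w - (star z * w + star w * z - star z * c * z) := by
    rw [star_sub, star_mul, hd]
    have e1 : star w * d * c * (d * w) = star w * d * w := by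
      rw [mul_assoc (star w) d c, hdc, mul_one, mul_assoc]
    have e2 : star w * d * c * z = star w * z := by
      rw [mul_assoc (star w) d c, hdc, mul_one]
    have e3 : star z * c * (d * w) = star z * w := by
      rw [mul_assoc, ← mul_assoc c, hcd, one_mul]
    simp only [sub_mul, mul_sub, e1, e2, e3]
    abel
  rw [e] at h
  exact sub_nonneg.1 h

theorem inv_anti {c d c' d' : H →L[ℂ] H} (hc : 0 ≤ c) (hcc : c ≤ c') (hcd : c * d = 1)
    (hdc : d * c = 1) (hd : star d = d) (hdc' : d' * c' = 1) (hd' : star d' = d') : d' ≤ d := by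
  have h := var_le hc hcd hdc hd 1 d'
  simp only [star_one, one_mul, mul_one, hd'] at h
  have h2 : d' * c * d' ≤ d' * c' * d' := by
    have := star_left_conjugate_le_conjugate hcc d'
    rwa [hd'] at this
  rw [hdc', one_mul] at h2
  calc d' = d' + d' - d' := by abel
    _ ≤ d' + d' - d' * c * d' := by gcongr
    _ ≤ d := h

namespace TrAlg

variable (A : TrAlg H)

/-- **Lemma A.**  `q, q'` projections, `k` self-adjoint with `(1-q') k q = 0`; `e, r` projections,
`g` (think `√(1_F - κ 1_L)`), `l` (think `√κ 1_L`), with `k e` self-adjoint,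
`r ≤ (k e)²`, `k² ≤ (k e)² + g g*`, `g g* + r + l* l ≤ 1`.
Then `τ (q' e) ≥ τ (q r) + ‖l q r Ω‖²`. -/
theorem lemmaA {q q' k e r g l : H →L[ℂ] H} (hq : q ∈ A.M) (hq' : q' ∈ A.M) (hk : k ∈ A.M)
    (he : e ∈ A.M) (hr : r ∈ A.M) (hg : g ∈ A.M)
    (pq : IsStarProjection q) (pq' : IsStarProjection q') (pe : IsStarProjection e)
    (pr : IsStarProjection r) (sk : star k = k) (hke : k * e = e * k)
    (hinv : q' * (k * q) = k * q)
    (h1 : r ≤ (k * e) * (k * e)) (h2 : k * k ≤ (k * e) * (k * e) + g * star g)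
    (h3 : g * star g + r + star l * l ≤ 1) :
    A.τ (q * r) + ‖(l * q * r) A.Ω‖ ^ 2 ≤ A.τ (q' * e) := by
  have sq : star q = q := pq.isSelfAdjoint.star_eq
  have sq' : star q' = q' := pq'.isSelfAdjoint.star_eq
  have se : star e = e := pe.isSelfAdjoint.star_eq
  have sr : star r = r := pr.isSelfAdjoint.star_eq
  have qq : q * q = q := pq.isIdempotentElem
  have qq' : q' * q' = q' := pq'.isIdempotentElem
  have ee : e * e = e := pe.isIdempotentElem
  have rr : r * r = r := pr.isIdempotentElem
  have ske : star (k * e) = k * e := by rw [star_mul, sk, se, hke]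
  have hτr : 0 ≤ A.τ (q * r) := by
    have : A.τ (q * r) = A.τ (star (q * r) * (q * r)) := by
      rw [star_mul, sq, sr, mul_assoc, ← mul_assoc q q, qq, A.τ_comm hr (mul_mem hq hr),
        mul_assoc, rr]
    rw [this, τ_star_mul_self]; positivity
  have key : ∀ η : ℝ, 0 < η →
      (1 - η) * A.τ (q * r) + ‖(l * q * r) A.Ω‖ ^ 2 ≤ A.τ (q' * e) := by
    intro η hη
    set E : H →L[ℂ] H := (η : ℂ) • 1 with hE
    have hEM : E ∈ A.M := A.M.smul_mem (one_mem _) _
    set s : H →L[ℂ] H := ((Real.sqrt η : ℝ) : ℂ) • 1 with hs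
    have hsM : s ∈ A.M := A.M.smul_mem (one_mem _) _
    have hsE : s * star s = E := by
      rw [hs, hE, star_smul, star_one, smul_mul_smul_comm, mul_one]
      congr 1
      rw [Complex.star_def, Complex.conj_ofReal, ← Complex.ofReal_mul, Real.mul_self_sqrt hη.le]
    have hE0 : 0 ≤ E := hsE ▸ mul_star_self_nonneg s
    set W := q * (k * e) with hW
    set w := q * r with hw
    set v := q * g with hv
    have hWM : W ∈ A.M := mul_mem hq (mul_mem hk he)
    have hwM : w ∈ A.M := mul_mem hq hr
    have hvM : v ∈ A.M := mul_mem hq hg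
    have eB : W * star W = star q * ((k * e) * (k * e)) * q := by
      rw [hW, star_mul, ske, sq]; simp only [mul_assoc]
    have eb : w * star w = star q * r * q := by
      rw [hw, star_mul, sr, sq, mul_assoc q r, ← mul_assoc r r, rr, mul_assoc]
    have ea : v * star v = star q * (g * star g) * q := by
      rw [hv, star_mul, sq]; simp only [mul_assoc]
    set a := v * star v + s * star s with ha
    have ha0 : 0 ≤ a := add_nonneg (mul_star_self_nonneg _) (mul_star_self_nonneg _)
    have hEa : E ≤ a := by rw [ha, hsE]; exact le_add_of_nonneg_left (mul_star_self_nonneg _)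
    have hbB : w * star w ≤ W * star W := by
      rw [eB, eb]; exact star_left_conjugate_le_conjugate h1 q
    set c' := a + W * star W with hc'
    set c := a + w * star w with hc
    have hcE : E ≤ c := hEa.trans (le_add_of_nonneg_right (mul_star_self_nonneg _))
    have hcc : c ≤ c' := by rw [hc, hc']; gcongr
    have hc0 : 0 ≤ c := hE0.trans hcE
    obtain ⟨d, hcd, hdc, hd⟩ := exists_inv_of_le hη hcE
    obtain ⟨d', hcd', hdc', hd'⟩ := exists_inv_of_le hη (hcE.trans hcc)
    have haM : a ∈ A.M := add_mem (mul_mem hvM (star_mem hvM)) (mul_mem hsM (star_mem hsM))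
    have hcM : c ∈ A.M := add_mem haM (mul_mem hwM (star_mem hwM))
    have hc'M : c' ∈ A.M := add_mem haM (mul_mem hWM (star_mem hWM))
    have hdM : d ∈ A.M := A.inv_mem c hcM d hcd hdc
    have hd'M : d' ∈ A.M := A.inv_mem c' hc'M d' hcd' hdc'
    have hdd : d' ≤ d := inv_anti hc0 hcc hcd hdc hd hdc' hd'
    -- step 1
    have s1 : A.τ (star W * d' * W) ≤ A.τ (q' * e) := by
      set X := k * q * (d' * W) with hX
      have hqX : q' * X = X := by rw [hX, ← mul_assoc, hinv]
      have h0 := A.τ_nonneg (star_mul_self_nonneg (q' * e - X))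
      have eX : e * X = star W * d' * W := by
        rw [hX, hW, star_mul, ske, sq, hke]; simp only [mul_assoc]
      have e1 : star (q' * e) * X = star W * d' * W := by
        rw [star_mul, sq', se, mul_assoc, hqX, eX]
      have e2 : A.τ (star X * (q' * e)) = A.τ (star W * d' * W) := by
        rw [← A.τ_star, star_mul, star_star, e1]
      have e3 : A.τ (star (q' * e) * (q' * e)) = A.τ (q' * e) := by
        rw [star_mul, sq', se, mul_assoc, ← mul_assoc q' q', qq', A.τ_comm he (mul_mem hq' he),
          mul_assoc, ee]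
      have e4 : star X * X ≤ star W * d' * W := by
        have hk2 : star q * (k * k) * q ≤ c' := by
          refine (star_left_conjugate_le_conjugate h2 q).trans ?_
          rw [mul_add, add_mul, ← eB, ← ea, hc', ha, add_comm (W * star W)]
          gcongr
          exact le_add_of_nonneg_right (mul_star_self_nonneg _)
        have := star_left_conjugate_le_conjugate hk2 (d' * W)
        have f1 : star (d' * W) * (star q * (k * k) * q) * (d' * W) = star X * X := by
          rw [hX]; simp only [star_mul, sk, mul_assoc]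
        have f2 : star (d' * W) * c' * (d' * W) = star W * d' * W := by
          rw [star_mul, hd', mul_assoc (star W) d' c', hdc', mul_one, mul_assoc]
        rwa [f1, f2] at this
      have e5 := A.τ_mono e4
      rw [star_sub, sub_mul, mul_sub, mul_sub, A.τ_sub, A.τ_sub, A.τ_sub, e1, e2, e3] at h0
      linarith
    -- step 2
    have s2 : A.τ (star w * d * w) ≤ A.τ (star W * d' * W) := by
      have f1 : A.τ (star W * d' * W) = A.τ (d' * (W * star W)) := by
        rw [mul_assoc, A.τ_comm (star_mem hWM) (mul_mem hd'M hWM), mul_assoc]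
      have f2 : A.τ (star w * d * w) = A.τ (d * (w * star w)) := by
        rw [mul_assoc, A.τ_comm (star_mem hwM) (mul_mem hdM hwM), mul_assoc]
      have f3 : A.τ (d' * a) + A.τ (d' * (W * star W)) = A.τ 1 := by
        rw [← A.τ_add, ← mul_add, hdc']
      have f4 : A.τ (d * a) + A.τ (d * (w * star w)) = A.τ 1 := by
        rw [← A.τ_add, ← mul_add, hdc]
      have f5 : A.τ (d' * a) ≤ A.τ (d * a) := by
        rw [ha, mul_add, mul_add, A.τ_add, A.τ_add]
        exact add_le_add (A.τ_mul_le hd'M hdM hvM hdd) (A.τ_mul_le hd'M hdM hsM hdd)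
      linarith
    -- step 3
    have s3 : (1 - η) * A.τ (q * r) + ‖(l * q * r) A.Ω‖ ^ 2 ≤ A.τ (star w * d * w) := by
      have h := A.τ_mono (var_le hc0 hcd hdc hd w w)
      have qw : q * w = w := by rw [hw, ← mul_assoc, qq]
      have f0 : A.τ (star w * w) = A.τ (q * r) := by
        rw [hw, star_mul, sq, sr, mul_assoc, ← mul_assoc q q, qq, A.τ_comm hr (mul_mem hq hr),
          mul_assoc, rr]
      have f1 : star w * c * w + star (l * q * r) * (l * q * r)
          ≤ star w * w + (η : ℂ) • (star w * w) := by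
        have h4 := star_left_conjugate_le_conjugate h3 w
        have wq : star w * q = star w := by rw [← sq, ← star_mul, qw]
        have g1 : star w * c * w + star (l * q * r) * (l * q * r)
            = star w * (g * star g + r + star l * l) * w + (η : ℂ) • (star w * w) := by
          have g2 : star (l * q * r) * (l * q * r) = star w * (star l * l) * w := by
            rw [mul_assoc l, ← hw, star_mul]; simp only [mul_assoc]
          have g0 : ∀ y : H →L[ℂ] H, star w * (q * y * q) * w = star w * y * w := fun y => by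
            calc star w * (q * y * q) * w = (star w * q) * y * (q * w) := by
                  simp only [mul_assoc]
              _ = star w * y * w := by rw [wq, qw]
          have g3 : star w * (v * star v) * w = star w * (g * star g) * w := by
            rw [ea, sq, g0]
          have g4 : star w * (w * star w) * w = star w * r * w := by
            rw [eb, sq, g0]
          have g5 : star w * (s * star s) * w = (η : ℂ) • (star w * w) := by
            rw [hsE, hE, mul_smul_comm, mul_one, smul_mul_assoc]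
          rw [hc, ha, g2]
          simp only [mul_add, add_mul]
          rw [g3, g4, g5]; abel
        rw [g1]
        rw [mul_one] at h4
        gcongr
      have f2 := A.τ_mono f1
      rw [A.τ_add, A.τ_add, A.τ_smul, A.τ_star_mul_self (l * q * r), f0] at f2
      rw [A.τ_sub, A.τ_add, f0] at h
      linarith
    linarith
  refine le_of_forall_pos_le_add fun ε hε => ?_
  have := key (ε / (A.τ (q * r) + 1)) (by positivity)
  have h5 : ε / (A.τ (q * r) + 1) * A.τ (q * r) ≤ ε := by
    rw [div_mul_eq_mul_div, div_le_iff₀ (by positivity)]; nlinarith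
  nlinarith

end TrAlg

end Crest.Agent.R113
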