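import Crest.Agent.R113.OpFam

/-!
# R113 — blocks between walls and block averages
-/

set_option autoImplicit false
set_option linter.unusedSectionVars false

namespace Crest.Agent.R113

open MeasureTheory

variable {X : Type*} [MeasurableSpace X] {μ : Measure X} [IsProbabilityMeasure μ]

/-- PROOF. `b x = Nat.find (∃ j, σ j x ∈ W)`, `a x = Nat.find (∃ j, σ (-(j+1)) x ∈ W)` (existence:
apply the gap hypothesis at `σ (-P) x`), `measurable_find`, `Nat.le_find_iff`.  `a + b < P`: apply the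
gap hypothesis at `σ (-(a x)) x`: some `σ (j - a x) x ∈ W`, `j < P`; `j < a x` is impossible, so
`b x ≤ j - a x`. -/
theorem exists_blocks (A : Act X μ) {W : Set X} (hW : MeasurableSet W) {P : ℕ}
    (hgap : ∀ x, ∃ j : ℕ, j < P ∧ A.σ (j : ℤ) x ∈ W) : Nonempty (Blocks A W P) := by
  classical
  have hb : ∀ x, ∃ j : ℕ, A.σ (j : ℤ) x ∈ W := fun x => (hgap x).imp fun _ h => h.2
  have ha : ∀ x, ∃ j : ℕ, A.σ (-((j : ℤ) + 1)) x ∈ W := fun x => by
    obtain ⟨j, hj, h⟩ := hgap (A.σ (-(P : ℤ)) x)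
    refine ⟨P - j - 1, ?_⟩
    rw [← A.add] at h
    convert h using 2
    omega
  refine ⟨⟨fun x => Nat.find (ha x), fun x => Nat.find (hb x),
    measurable_find ha fun j => A.measurable _ hW, measurable_find hb fun j => A.measurable _ hW,
    fun x => ?_, fun x m => Nat.le_find_iff _ _, fun x m => Nat.le_find_iff _ _⟩⟩
  obtain ⟨j, hj, h⟩ := hgap (A.σ (-(Nat.find (ha x) : ℤ)) x)
  rw [← A.add] at h
  have h1 : Nat.find (ha x) ≤ j := by
    by_contra hlt
    refine Nat.find_min (ha x) (m := Nat.find (ha x) - j - 1) (by omega) ?_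
    convert h using 2
    omega
  have h2 : Nat.find (hb x) ≤ j - Nat.find (ha x) := by
    refine Nat.find_min' _ ?_
    convert h using 2
    omega
  omega

namespace Blocks

variable {A : Act X μ} {W : Set X} {P : ℕ} (B : Blocks A W P)

theorem wall_b (x : X) : A.σ (B.b x : ℤ) x ∈ W := by
  by_contra h
  have := (B.le_b x (B.b x + 1)).2 fun j hj => by
    rcases Nat.lt_succ_iff_lt_or_eq.1 hj with hj | rfl
    · exact (B.le_b x _).1 le_rfl j hj
    · exact h
  omega

theorem wall_a (x : X) : A.σ (-((B.a x : ℤ) + 1)) x ∈ W := by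
  by_contra h
  have := (B.le_a x (B.a x + 1)).2 fun j hj => by
    rcases Nat.lt_succ_iff_lt_or_eq.1 hj with hj | rfl
    · exact (B.le_a x _).1 le_rfl j hj
    · exact h
  omega

theorem mem_disp {x : X} {i : ℤ} : i ∈ B.disp x ↔ -(B.a x : ℤ) ≤ i ∧ i ≤ B.b x :=
  Finset.mem_Icc

theorem not_wall (x : X) {k : ℤ} (h1 : -(B.a x : ℤ) ≤ k) (h2 : k < B.b x) : A.σ k x ∉ W := by
  rcases le_or_gt 0 k with hk | hk
  · have := (B.le_b x _).1 le_rfl k.toNat (by omega)
    rwa [Int.toNat_of_nonneg hk] at this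
  · have := (B.le_a x _).1 le_rfl (-k - 1).toNat (by omega)
    rwa [show -((((-k - 1).toNat : ℕ) : ℤ) + 1) = k by omega] at this

/-- moving inside a block -/
theorem a_shift (x : X) {i : ℤ} (hi : i ∈ B.disp x) : (B.a (A.σ i x) : ℤ) = B.a x + i := by
  obtain ⟨h1, h2⟩ := B.mem_disp.1 hi
  have h3 : (B.a x + i).toNat ≤ B.a (A.σ i x) := (B.le_a _ _).2 fun j hj => by
    rw [← A.add]
    exact B.not_wall x (by omega) (by omega)
  have h4 : ¬ (B.a x + i).toNat + 1 ≤ B.a (A.σ i x) := fun h => by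
    have := (B.le_a _ _).1 h (B.a x + i).toNat (Nat.lt_succ_self _)
    rw [← A.add, show -((((B.a x + i).toNat : ℕ) : ℤ) + 1) + i = -((B.a x : ℤ) + 1) by omega] at this
    exact this (B.wall_a x)
  omega

theorem b_shift (x : X) {i : ℤ} (hi : i ∈ B.disp x) : (B.b (A.σ i x) : ℤ) = B.b x - i := by
  obtain ⟨h1, h2⟩ := B.mem_disp.1 hi
  have h3 : (B.b x - i).toNat ≤ B.b (A.σ i x) := (B.le_b _ _).2 fun j hj => by
    rw [← A.add]
    exact B.not_wall x (by omega) (by omega)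
  have h4 : ¬ (B.b x - i).toNat + 1 ≤ B.b (A.σ i x) := fun h => by
    have := (B.le_b _ _).1 h (B.b x - i).toNat (Nat.lt_succ_self _)
    rw [← A.add, show (((B.b x - i).toNat : ℕ) : ℤ) + i = B.b x by omega] at this
    exact this (B.wall_b x)
  omega

theorem one_mem_disp {x : X} (hx : x ∉ W) : (1 : ℤ) ∈ B.disp x := by
  have : 1 ≤ B.b x := (B.le_b x 1).2 fun j hj => by
    obtain rfl : j = 0 := by omega
    rwa [Nat.cast_zero, A.zero]
  exact B.mem_disp.2 ⟨by omega, by omega⟩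

theorem pos_shift (x : X) {i : ℤ} (hi : i ∈ B.disp x) : B.pos (A.σ i x) = B.pos x + 2 * i := by
  have h1 : (B.a (A.σ i x) : ℝ) = B.a x + i := by exact_mod_cast B.a_shift x hi
  have h2 : (B.b (A.σ i x) : ℝ) = B.b x - i := by exact_mod_cast B.b_shift x hi
  rw [pos, pos, h1, h2]
  ring

theorem len_shift (x : X) {i : ℤ} (hi : i ∈ B.disp x) : B.len (A.σ i x) = B.len x := by
  have h1 : (B.a (A.σ i x) : ℝ) = B.a x + i := by exact_mod_cast B.a_shift x hi
  have h2 : (B.b (A.σ i x) : ℝ) = B.b x - i := by exact_mod_cast B.b_shift x hi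
  rw [len, len, h1, h2]
  ring

theorem neg_mem_disp {x : X} {i : ℤ} : -i ∈ B.disp (A.σ i x) ↔ i ∈ B.disp x := by
  have key : ∀ (x : X) (i : ℤ), i ∈ B.disp x → -i ∈ B.disp (A.σ i x) := fun x i hi => by
    rw [B.mem_disp, B.a_shift x hi, B.b_shift x hi]
    omega
  refine ⟨fun h => ?_, key x i⟩
  have := key _ _ h
  rwa [neg_neg, ← A.add, neg_add_cancel, A.zero] at this

theorem card_disp (x : X) : ((B.disp x).card : ℝ) = B.len x := by
  have : (B.disp x).card = B.a x + B.b x + 1 := by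
    rw [disp, Int.card_Icc]
    omega
  rw [this, len]
  push_cast
  ring

theorem one_le_len (x : X) : 1 ≤ B.len x := by
  have h1 : (0 : ℝ) ≤ B.a x := Nat.cast_nonneg _
  have h2 : (0 : ℝ) ≤ B.b x := Nat.cast_nonneg _
  rw [len]
  linarith

theorem len_pos (x : X) : 0 < B.len x := lt_of_lt_of_le one_pos (B.one_le_len x)

theorem abs_pos_le (x : X) : |B.pos x| ≤ P := by
  have h1 : (0 : ℝ) ≤ B.a x := Nat.cast_nonneg _
  have h2 : (0 : ℝ) ≤ B.b x := Nat.cast_nonneg _
  have h3 : (B.a x : ℝ) + B.b x < P := by exact_mod_cast B.lt x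
  rw [pos, abs_le]
  constructor <;> linarith

theorem meas_a' : Measurable fun x => (B.a x : ℝ) := measurable_from_top.comp B.meas_a

theorem meas_b' : Measurable fun x => (B.b x : ℝ) := measurable_from_top.comp B.meas_b

theorem meas_len : Measurable B.len := (B.meas_a'.add B.meas_b').add_const 1

theorem bm_len : BM B.len :=
  BM.of_abs_le B.meas_len (C := P + 1) fun x => by
    have h3 : (B.a x : ℝ) + B.b x < P := by exact_mod_cast B.lt x
    rw [abs_of_pos (B.len_pos x), len]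
    linarith

theorem bm_len_inv : BM fun x => (B.len x)⁻¹ :=
  BM.of_abs_le B.meas_len.inv (C := 1) fun x => by
    rw [abs_of_pos (inv_pos.2 (B.len_pos x))]
    exact inv_le_one_of_one_le₀ (B.one_le_len x)

theorem bm_pos : BM B.pos := by
  exact BM.of_abs_le (B.meas_a'.sub B.meas_b') B.abs_pos_le

theorem meas_disp : MeasurableSet {z : X × ℤ | z.2 ∈ B.disp z.1} := by
  have ha : Measurable fun z : X × ℤ => -(B.a z.1 : ℤ) :=
    ((measurable_from_top (f := fun n : ℕ => -(n : ℤ))).comp B.meas_a).comp measurable_fst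
  have hb : Measurable fun z : X × ℤ => (B.b z.1 : ℤ) :=
    ((measurable_from_top (f := fun n : ℕ => (n : ℤ))).comp B.meas_b).comp measurable_fst
  simp only [B.mem_disp]
  exact (measurableSet_le ha measurable_snd).inter (measurableSet_le measurable_snd hb)

/-- indicator of `i ∈ disp x` -/
noncomputable def ind (i : ℤ) (x : X) : ℝ := if i ∈ B.disp x then 1 else 0

theorem bm_ind (i : ℤ) : BM (B.ind i) := by
  refine BM.of_abs_le (C := 1) (Measurable.ite ?_ measurable_const measurable_const) fun x => ?_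
  · exact (measurable_id.prodMk measurable_const) B.meas_disp
  · rw [ind]
    split_ifs <;> simp

theorem ind_shift (i : ℤ) (x : X) : B.ind (-i) (A.σ i x) = B.ind i x := by
  simp only [ind, B.neg_mem_disp]

theorem sum_disp (x : X) (h : ℤ → ℝ) :
    ∑ i ∈ B.disp x, h i = ∑ i ∈ Finset.Icc (-(P : ℤ)) P, B.ind i x * h i := by
  have hsub : B.disp x ⊆ Finset.Icc (-(P : ℤ)) P := fun i hi => by
    have := B.lt x
    rw [B.mem_disp] at hi
    rw [Finset.mem_Icc]
    omega
  rw [← Finset.sum_subset hsub fun i _ hi => by simp [ind, hi]]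
  exact Finset.sum_congr rfl fun i hi => by simp [ind, hi]

theorem sum_Icc_symm (f : ℤ → ℝ) (N : ℕ) :
    ∑ i ∈ Finset.Icc (-(N : ℤ)) N, f i = f 0 + ∑ m ∈ Finset.Icc 1 N, (f m + f (-(m : ℤ))) := by
  induction N with
  | zero => simp
  | succ N ih =>
    have : Finset.Icc (-((N + 1 : ℕ) : ℤ)) ((N + 1 : ℕ) : ℤ) =
        insert (-((N + 1 : ℕ) : ℤ)) (insert ((N + 1 : ℕ) : ℤ) (Finset.Icc (-(N : ℤ)) N)) := by
      ext i
      simp only [Finset.mem_insert, Finset.mem_Icc]
      omega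
    rw [this, Finset.sum_insert, Finset.sum_insert, ih, Finset.sum_Icc_succ_top (by omega)]
    · ring
    · simp only [Finset.mem_Icc]; omega
    · simp only [Finset.mem_insert, Finset.mem_Icc]; omega

omit [IsProbabilityMeasure μ] in
theorem integral_shift (A : Act X μ) (i : ℤ) {g : X → ℝ} (hg : Measurable g) :
    ∫ x, g (A.σ i x) ∂μ = ∫ x, g x ∂μ := by
  rw [← integral_map (A.measurable i).aemeasurable hg.aestronglyMeasurable, (A.mp i).map_eq]

theorem integral_ind_shift (i : ℤ) {g : X → ℝ} (hg : Measurable g) :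
    ∫ x, B.ind i x * g (A.σ i x) ∂μ = ∫ x, B.ind (-i) x * g x ∂μ := by
  rw [← integral_shift A i (g := fun x => B.ind (-i) x * g x) ((B.bm_ind (-i)).measurable.mul hg)]
  simp only [B.ind_shift]

theorem setIntegral_b (m : ℕ) (g : X → ℝ) :
    ∫ x in {x | m ≤ B.b x}, g x ∂μ = ∫ x, B.ind m x * g x ∂μ := by
  have hm : MeasurableSet {x | m ≤ B.b x} :=
    B.meas_b (MeasurableSet.of_discrete (s := {k | m ≤ k}))
  rw [← integral_indicator hm]
  refine integral_congr_ae (Filter.Eventually.of_forall fun x => ?_)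
  have : (m : ℤ) ∈ B.disp x ↔ m ≤ B.b x := by rw [B.mem_disp]; omega
  by_cases h : m ≤ B.b x
  · simp [ind, this, h, Set.indicator_of_mem]
  · simp [ind, this, h, Set.indicator_of_notMem]

/-- leaving the block means crossing a wall -/
theorem exists_wall {x : X} {d : ℤ} (hd : d ∉ B.disp x) :
    ∃ k : ℤ, |k| ≤ |d| ∧ A.σ k x ∈ W := by
  rw [B.mem_disp, not_and_or, not_le, not_le] at hd
  rcases hd with h | h
  · exact ⟨_, by rw [abs_le]; constructor <;> cases abs_cases d <;> omega, B.wall_a x⟩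
  · exact ⟨_, by rw [abs_le]; constructor <;> cases abs_cases d <;> omega, B.wall_b x⟩

theorem abs_avg_le {φ : X → ℝ} {C : ℝ} (h : ∀ x, |φ x| ≤ C) (x : X) : |B.avg φ x| ≤ C := by
  rw [avg, abs_div, abs_of_pos (B.len_pos x), div_le_iff₀ (B.len_pos x), ← B.card_disp, mul_comm,
    ← nsmul_eq_mul]
  exact (Finset.abs_sum_le_sum_abs _ _).trans (Finset.sum_le_card_nsmul _ _ _ fun i _ => h _)

theorem bm_avg {φ : X → ℝ} (h : BM φ) : BM (B.avg φ) := by
  have : B.avg φ = fun x =>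
      (∑ i ∈ Finset.Icc (-(P : ℤ)) P, B.ind i x * φ (A.σ i x)) * (B.len x)⁻¹ := by
    ext x
    rw [avg, B.sum_disp, div_eq_mul_inv]
  rw [this]
  exact (BM.sum _ fun i _ => (B.bm_ind i).mul (h.comp (A.measurable i))).mul B.bm_len_inv

theorem const_avg (φ : X → ℝ) : B.Const (B.avg φ) := by
  intro x i hi
  rw [avg, avg, B.len_shift x hi]
  congr 1
  refine Finset.sum_nbij' (· + i) (· - i) (fun j hj => ?_) (fun j hj => ?_) (by simp) (by simp)
    fun j _ => by rw [← A.add]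
  · rw [B.mem_disp, B.a_shift x hi, B.b_shift x hi] at hj
    rw [B.mem_disp]
    omega
  · rw [B.mem_disp] at hj
    rw [B.mem_disp, B.a_shift x hi, B.b_shift x hi]
    omega

theorem avg_of_const {β : X → ℝ} (h : B.Const β) (x : X) : B.avg β x = β x := by
  rw [avg, Finset.sum_congr rfl (h x), Finset.sum_const, nsmul_eq_mul, B.card_disp,
    mul_div_cancel_left₀ _ (B.len_pos x).ne']

theorem avg_add (φ χ : X → ℝ) (x : X) :
    B.avg (fun y => φ y + χ y) x = B.avg φ x + B.avg χ x := by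
  simp only [avg, Finset.sum_add_distrib, add_div]

theorem avg_sub (φ χ : X → ℝ) (x : X) :
    B.avg (fun y => φ y - χ y) x = B.avg φ x - B.avg χ x := by
  simp only [avg, Finset.sum_sub_distrib, sub_div]

/-- Mass transport.  PROOF: write `avg φ x * β x = ∑ i ∈ Icc (-P) P, 1[i ∈ disp x] φ(σ i x) β x / len x`,
substitute `x = σ (-i) y` in the `i`-th integral (`MeasurePreserving.integral_comp'` or
`integral_map`), use `i ∈ disp (σ (-i) y) ↔ -i ∈ disp y`, `len`, `β` constant on blocks; the sum of the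
indicators is `len y`. -/
theorem integral_avg_mul {φ β : X → ℝ} (hφ : BM φ) (hβ : BM β) (hc : B.Const β) :
    ∫ x, B.avg φ x * β x ∂μ = ∫ x, φ x * β x ∂μ := by
  have hg : BM fun y => φ y * β y * (B.len y)⁻¹ := (hφ.mul hβ).mul B.bm_len_inv
  have h1 : ∀ x, B.avg φ x * β x = ∑ i ∈ Finset.Icc (-(P : ℤ)) P,
      B.ind i x * (φ (A.σ i x) * β (A.σ i x) * (B.len (A.σ i x))⁻¹) := fun x => by
    rw [← B.sum_disp, avg, div_eq_mul_inv, Finset.sum_mul, Finset.sum_mul]
    refine Finset.sum_congr rfl fun i hi => ?_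
    rw [hc x i hi, B.len_shift x hi]
    ring
  have h2 : ∀ x, φ x * β x = ∑ i ∈ Finset.Icc (-(P : ℤ)) P,
      B.ind (-i) x * (φ x * β x * (B.len x)⁻¹) := fun x => by
    have : ∑ i ∈ Finset.Icc (-(P : ℤ)) P, B.ind (-i) x = B.len x := by
      have h3 := B.sum_disp x fun _ => 1
      simp only [Finset.sum_const, nsmul_eq_mul, mul_one, B.card_disp] at h3
      rw [h3, sum_Icc_symm, sum_Icc_symm]
      simp only [neg_zero, neg_neg, add_comm]
    rw [← Finset.sum_mul, this]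
    have := (B.len_pos x).ne'
    field_simp
  simp only [h1]
  rw [integral_finsetSum _ fun i _ =>
    ((B.bm_ind i).mul (hg.comp (A.measurable i))).integrable μ]
  simp only [B.integral_ind_shift _ hg.measurable]
  rw [← integral_finsetSum _ fun i _ => ((B.bm_ind (-i)).mul hg).integrable μ]
  simp only [← h2]

/-- PROOF: `0 ≤ ∫ (φ - avg φ)²` and `∫ φ * avg φ = ∫ (avg φ)²`. -/
theorem integral_avg_sq_le {φ : X → ℝ} (hφ : BM φ) :
    ∫ x, B.avg φ x ^ 2 ∂μ ≤ ∫ x, φ x ^ 2 ∂μ := by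
  have ha := B.bm_avg hφ
  have h1 := B.integral_avg_mul hφ ha (B.const_avg φ)
  have h2 : 0 ≤ ∫ x, (φ x - B.avg φ x) ^ 2 ∂μ := integral_nonneg fun x => sq_nonneg _
  have h3 : ∀ x, (φ x - B.avg φ x) ^ 2 = (φ x ^ 2 + B.avg φ x ^ 2) - 2 * (φ x * B.avg φ x) :=
    fun x => by ring
  simp only [h3] at h2
  rw [integral_sub (((hφ.pow 2).add (ha.pow 2)).integrable μ)
    (((hφ.mul ha).integrable μ).const_mul 2),
    integral_add ((hφ.pow 2).integrable μ) ((ha.pow 2).integrable μ), integral_const_mul,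
    ← h1] at h2
  simp only [← sq] at h2
  linarith

/-- PROOF: `m ≤ a (σ m x) ↔ m ≤ b x` (from `le_a`, `le_b`), so `∫_{m ≤ b} φ ∘ σ m = ∫_{m ≤ a} φ`, and
`∑_{m ∈ Icc 1 P} 1[m ≤ a x] = a x`. -/
theorem sum_integral_shift {φ : X → ℝ} (hφ : BM φ) :
    ∑ m ∈ Finset.Icc 1 P, ∫ x in {x | m ≤ B.b x}, (φ (A.σ (m : ℤ) x) - φ x) ∂μ
      = ∫ x, φ x * B.pos x ∂μ := by
  have h1 : ∀ m : ℕ, ∫ x in {x | m ≤ B.b x}, (φ (A.σ (m : ℤ) x) - φ x) ∂μ =
      ∫ x, (B.ind (-(m : ℤ)) x - B.ind m x) * φ x ∂μ := fun m => by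
    simp only [B.setIntegral_b, mul_sub, sub_mul]
    rw [integral_sub (((B.bm_ind _).mul (hφ.comp (A.measurable _))).integrable μ)
      (((B.bm_ind _).mul hφ).integrable μ), integral_sub (((B.bm_ind _).mul hφ).integrable μ)
      (((B.bm_ind _).mul hφ).integrable μ), B.integral_ind_shift _ hφ.measurable]
  have h2 : ∀ k : ℕ, k ≤ P → ∑ m ∈ Finset.Icc 1 P, (if m ≤ k then (1 : ℝ) else 0) = k := by
    intro k hk
    rw [← Finset.sum_filter, Finset.sum_const, nsmul_eq_mul, mul_one]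
    have : (Finset.Icc 1 P).filter (· ≤ k) = Finset.Icc 1 k := by
      ext m
      simp only [Finset.mem_filter, Finset.mem_Icc]
      omega
    simp [this]
  simp only [h1]
  rw [← integral_finsetSum _ fun m _ => (((B.bm_ind _).sub (B.bm_ind _)).mul hφ).integrable μ]
  refine integral_congr_ae (Filter.Eventually.of_forall fun x => ?_)
  have := B.lt x
  have e1 : ∀ m : ℕ, -(m : ℤ) ∈ B.disp x ↔ m ≤ B.a x := fun m => by rw [B.mem_disp]; omega
  have e2 : ∀ m : ℕ, (m : ℤ) ∈ B.disp x ↔ m ≤ B.b x := fun m => by rw [B.mem_disp]; omega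
  simp only [← Finset.sum_mul, Finset.sum_sub_distrib, ind, e1, e2]
  rw [h2 _ (by omega), h2 _ (by omega), pos, mul_comm]

theorem integral_pos : ∫ x, B.pos x ∂μ = 0 := by
  have := B.sum_integral_shift (BM.const (1 : ℝ))
  simpa using this.symm

/-- PROOF: pointwise Cauchy–Schwarz `len x * (φ x - avg φ x)² ≤ ∑ i ∈ disp x, (φ (σ i x) - φ x)²`; the
terms `i = m > 0` give `1[m ≤ b x] (φ (σ m x) - φ x)²`, the terms `i = -m` give the same integrals after
the substitution `x = σ m y`. -/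
theorem integral_var_le {φ : X → ℝ} (hφ : BM φ) :
    ∫ x, B.len x * (φ x - B.avg φ x) ^ 2 ∂μ
      ≤ 2 * ∑ m ∈ Finset.Icc 1 P, ∫ x in {x | m ≤ B.b x}, (φ (A.σ (m : ℤ) x) - φ x) ^ 2 ∂μ := by
  have hg : ∀ i : ℤ, BM fun x => (φ (A.σ i x) - φ x) ^ 2 := fun i =>
    ((hφ.comp (A.measurable i)).sub hφ).pow 2
  have h1 : ∀ x, B.len x * (φ x - B.avg φ x) ^ 2 ≤
      ∑ i ∈ Finset.Icc (-(P : ℤ)) P, B.ind i x * (φ (A.σ i x) - φ x) ^ 2 := fun x => by
    have hl := B.len_pos x
    have e : φ x - B.avg φ x = -(∑ i ∈ B.disp x, (φ (A.σ i x) - φ x)) / B.len x := by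
      rw [avg, Finset.sum_sub_distrib, Finset.sum_const, nsmul_eq_mul, B.card_disp]
      field_simp
      ring
    have h2 := sq_sum_le_card_mul_sum_sq (s := B.disp x) (f := fun i => φ (A.σ i x) - φ x)
    rw [B.card_disp] at h2
    rw [← B.sum_disp, e, div_pow, neg_sq, sq (B.len x), ← div_div, mul_div_cancel₀ _ hl.ne',
      div_le_iff₀ hl, mul_comm]
    exact h2
  have h3 : ∀ i : ℤ, ∫ x, B.ind (-i) x * (φ (A.σ (-i) x) - φ x) ^ 2 ∂μ =
      ∫ x, B.ind i x * (φ (A.σ i x) - φ x) ^ 2 ∂μ := fun i => by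
    rw [← B.integral_ind_shift i (hg (-i)).measurable]
    refine integral_congr_ae (Filter.Eventually.of_forall fun x => ?_)
    simp only [← A.add, neg_add_cancel, A.zero]
    ring
  refine (integral_mono ((B.bm_len.mul ((hφ.sub (B.bm_avg hφ)).pow 2)).integrable μ)
    ((BM.sum _ fun i _ => (B.bm_ind i).mul (hg i)).integrable μ) h1).trans (le_of_eq ?_)
  rw [integral_finsetSum _ fun i _ => ((B.bm_ind i).mul (hg i)).integrable μ, sum_Icc_symm]
  simp only [h3, B.setIntegral_b, A.zero, sub_self, Finset.mul_sum, two_mul]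
  simp

/-- telescoping -/
theorem abs_avg_cob_le {φ : X → ℝ} {C : ℝ} (h : ∀ x, |φ x| ≤ C) (x : X) :
    |B.avg (fun y => φ y - φ (A.σ 1 y)) x| ≤ 2 * C / B.len x := by
  have tele : ∀ (f : ℤ → ℝ) (lo : ℤ) (n : ℕ),
      ∑ i ∈ Finset.Icc lo (lo + n), (f i - f (1 + i)) = f lo - f (1 + (lo + n)) := by
    intro f lo n
    induction n with
    | zero => simp
    | succ n ih =>
      have : Finset.Icc lo (lo + ((n + 1 : ℕ) : ℤ)) =
          insert (lo + ((n + 1 : ℕ) : ℤ)) (Finset.Icc lo (lo + n)) := by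
        ext i
        simp only [Finset.mem_insert, Finset.mem_Icc]
        omega
      rw [this, Finset.sum_insert (by simp only [Finset.mem_Icc]; omega), ih,
        show 1 + (lo + (n : ℤ)) = lo + ((n + 1 : ℕ) : ℤ) by push_cast; ring]
      ring
  have e : B.disp x = Finset.Icc (-(B.a x : ℤ)) (-(B.a x : ℤ) + (B.a x + B.b x : ℕ)) := by
    rw [disp]
    congr 1
    omega
  rw [avg, abs_div, abs_of_pos (B.len_pos x)]
  refine div_le_div_of_nonneg_right ?_ (B.len_pos x).le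
  simp only [← A.add]
  rw [e, tele fun i => φ (A.σ i x)]
  refine (abs_sub _ _).trans ?_
  linarith [h (A.σ (-(B.a x : ℤ)) x), h (A.σ (1 + (-(B.a x : ℤ) + (B.a x + B.b x : ℕ))) x)]

/-- PROOF: `∫ φ pos = ∫ φ(σ 1 x) pos(σ 1 x)`, `pos (σ 1 x) - pos x = 2` off `W`, `≤ 2 P` in absolute
value on `W`. -/
theorem integral_cob_pos_le (hW : MeasurableSet W) {φ : X → ℝ} (hφ : Measurable φ) {C : ℝ}
    (h : ∀ x, |φ x| ≤ C) :
    ∫ x, (φ x - φ (A.σ 1 x)) * B.pos x ∂μ ≤ C * (2 + 2 * P * μ.real W) := by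
  have hb : BM φ := BM.of_abs_le hφ h
  have hb1 : BM fun x => φ (A.σ 1 x) := hb.comp (A.measurable 1)
  have hp1 : BM fun x => B.pos (A.σ 1 x) := B.bm_pos.comp (A.measurable 1)
  have hi : BM (W.indicator fun _ => (1 : ℝ)) := (BM.const 1).indicator hW
  have e1 : ∫ x, (φ x - φ (A.σ 1 x)) * B.pos x ∂μ =
      ∫ x, φ (A.σ 1 x) * (B.pos (A.σ 1 x) - B.pos x) ∂μ := by
    simp only [sub_mul, mul_sub]
    rw [integral_sub ((hb.mul B.bm_pos).integrable μ) ((hb1.mul B.bm_pos).integrable μ),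
      integral_sub ((hb1.mul hp1).integrable μ) ((hb1.mul B.bm_pos).integrable μ),
      integral_shift A 1 (hb.mul B.bm_pos).measurable]
  have e2 : ∫ x, C * (2 + 2 * P * W.indicator (fun _ => (1 : ℝ)) x) ∂μ =
      C * (2 + 2 * P * μ.real W) := by
    rw [integral_const_mul, integral_add (integrable_const _) ((hi.integrable μ).const_mul _),
      integral_const_mul, integral_indicator hW]
    simp
  rw [e1, ← e2]
  refine integral_mono ((hb1.mul (hp1.sub B.bm_pos)).integrable μ)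
    (((integrable_const _).add ((hi.integrable μ).const_mul _)).const_mul _) fun x => ?_
  refine (le_abs_self _).trans ?_
  rw [abs_mul]
  refine mul_le_mul (h _) ?_ (abs_nonneg _) ((abs_nonneg _).trans (h x))
  by_cases hx : x ∈ W
  · rw [Set.indicator_of_mem hx]
    refine (abs_sub _ _).trans ?_
    linarith [B.abs_pos_le x, B.abs_pos_le (A.σ 1 x)]
  · rw [Set.indicator_of_notMem hx, B.pos_shift x (B.one_mem_disp hx)]
    norm_num

/-- union bound: `b x < t` forces `σ j x ∈ W` for some `j < t` -/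
theorem measure_b_lt (hW : MeasurableSet W) {t : ℝ} (ht : 0 ≤ t) :
    μ.real {x | (B.b x : ℝ) < t} ≤ (t + 1) * μ.real W := by
  have hsub : {x | (B.b x : ℝ) < t} ⊆ ⋃ j ∈ Finset.range ⌈t⌉₊, A.σ (j : ℤ) ⁻¹' W := fun x hx =>
    Set.mem_biUnion (Finset.mem_coe.2 (Finset.mem_range.2 (Nat.lt_ceil.2 hx))) (B.wall_b x)
  refine (measureReal_mono hsub (measure_ne_top _ _)).trans ((measureReal_biUnion_finset_le _ _).trans ?_)
  simp only [(A.mp _).measureReal_preimage hW.nullMeasurableSet, Finset.sum_const,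
    Finset.card_range, nsmul_eq_mul]
  exact mul_le_mul_of_nonneg_right (Nat.ceil_lt_add_one ht).le measureReal_nonneg

end Blocks

/-- union bound -/
theorem measure_near_le (A : Act X μ) {W : Set X} (hW : MeasurableSet W) {t : ℝ} (ht : 0 ≤ t) :
    μ.real {x | ∃ k : ℤ, |(k : ℝ)| ≤ t ∧ A.σ k x ∈ W} ≤ (2 * t + 1) * μ.real W := by
  have hsub : {x | ∃ k : ℤ, |(k : ℝ)| ≤ t ∧ A.σ k x ∈ W} ⊆
      ⋃ k ∈ Finset.Icc (-(⌊t⌋₊ : ℤ)) ⌊t⌋₊, A.σ k ⁻¹' W := by
    rintro x ⟨k, hk, hx⟩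
    refine Set.mem_biUnion (Finset.mem_coe.2 ?_) hx
    have : k.natAbs ≤ ⌊t⌋₊ := Nat.le_floor (by rwa [Nat.cast_natAbs, Int.cast_abs])
    rw [Finset.mem_Icc]
    omega
  refine (measureReal_mono hsub (measure_ne_top _ _)).trans ((measureReal_biUnion_finset_le _ _).trans ?_)
  simp only [(A.mp _).measureReal_preimage hW.nullMeasurableSet, Finset.sum_const, nsmul_eq_mul]
  refine mul_le_mul_of_nonneg_right ?_ measureReal_nonneg
  have : (Finset.Icc (-(⌊t⌋₊ : ℤ)) ⌊t⌋₊).card = 2 * ⌊t⌋₊ + 1 := by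
    rw [Int.card_Icc]
    omega
  rw [this]
  push_cast
  linarith [Nat.floor_le ht]

theorem measurableSet_near (A : Act X μ) {W : Set X} (hW : MeasurableSet W) (t : ℝ) :
    MeasurableSet {x | ∃ k : ℤ, |(k : ℝ)| ≤ t ∧ A.σ k x ∈ W} := by
  simp only [Set.ofPred_exists]
  refine MeasurableSet.iUnion fun k => ?_
  by_cases h : |(k : ℝ)| ≤ t
  · simp only [h, true_and]
    exact A.measurable k hW
  · simp [h]

end Crest.Agent.R113
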