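import Mathlib

/-!
# R113 — multiplication and composition operators on `L²(m)`
-/

set_option autoImplicit false

namespace Crest.Agent.R113

open MeasureTheory
open scoped InnerProductSpace ENNReal ComplexConjugate

/-- bounded and measurable -/
def BM {Y E : Type*} [MeasurableSpace Y] [MeasurableSpace E] [Norm E] (F : Y → E) : Prop :=
  Measurable F ∧ ∃ C : ℝ, ∀ z, ‖F z‖ ≤ C

namespace BM

variable {Y Y' 𝕜 : Type*} [MeasurableSpace Y] [MeasurableSpace Y'] [RCLike 𝕜] {F G : Y → 𝕜}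

theorem measurable (h : BM F) : Measurable F := h.1

theorem const (c : 𝕜) : BM (fun _ : Y => c) := ⟨measurable_const, ‖c‖, fun _ => le_rfl⟩

theorem add (hF : BM F) (hG : BM G) : BM (fun z => F z + G z) := by
  obtain ⟨h1, C, hC⟩ := hF
  obtain ⟨h2, D, hD⟩ := hG
  exact ⟨h1.add h2, C + D, fun z => (norm_add_le _ _).trans (add_le_add (hC z) (hD z))⟩

theorem neg (hF : BM F) : BM (fun z => - F z) := by
  obtain ⟨h1, C, hC⟩ := hF
  exact ⟨h1.neg, C, fun z => by simpa using hC z⟩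

theorem sub (hF : BM F) (hG : BM G) : BM (fun z => F z - G z) := by
  simpa [sub_eq_add_neg] using hF.add hG.neg

theorem mul (hF : BM F) (hG : BM G) : BM (fun z => F z * G z) := by
  obtain ⟨h1, C, hC⟩ := hF
  obtain ⟨h2, D, hD⟩ := hG
  refine ⟨h1.mul h2, C * D, fun z => ?_⟩
  rw [norm_mul]
  exact mul_le_mul (hC z) (hD z) (norm_nonneg _) ((norm_nonneg _).trans (hC z))

theorem pow (hF : BM F) (n : ℕ) : BM (fun z => F z ^ n) := by
  induction n with
  | zero => simpa using const (Y := Y) (1 : 𝕜)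
  | succ n ih => simpa [pow_succ] using ih.mul hF

theorem comp (hF : BM F) {κ : Y' → Y} (hκ : Measurable κ) : BM (fun z => F (κ z)) := by
  obtain ⟨h1, C, hC⟩ := hF
  exact ⟨h1.comp hκ, C, fun z => hC _⟩

theorem sum {ι : Type*} (s : Finset ι) {F : ι → Y → 𝕜} (h : ∀ i ∈ s, BM (F i)) :
    BM (fun z => ∑ i ∈ s, F i z) := by
  classical
  induction s using Finset.induction_on with
  | empty => simpa using const (Y := Y) (0 : 𝕜)
  | insert a s ha ih =>
    simp only [Finset.sum_insert ha]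
    exact (h a (Finset.mem_insert_self _ _)).add (ih fun i hi => h i (Finset.mem_insert_of_mem hi))

theorem prod {ι : Type*} (s : Finset ι) {F : ι → Y → 𝕜} (h : ∀ i ∈ s, BM (F i)) :
    BM (fun z => ∏ i ∈ s, F i z) := by
  classical
  induction s using Finset.induction_on with
  | empty => simpa using const (Y := Y) (1 : 𝕜)
  | insert a s ha ih =>
    simp only [Finset.prod_insert ha]
    exact (h a (Finset.mem_insert_self _ _)).mul (ih fun i hi => h i (Finset.mem_insert_of_mem hi))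

theorem indicator (hF : BM F) {s : Set Y} (hs : MeasurableSet s) : BM (s.indicator F) := by
  obtain ⟨h1, C, hC⟩ := hF
  refine ⟨h1.indicator hs, max C 0, fun z => ?_⟩
  by_cases h : z ∈ s
  · rw [Set.indicator_of_mem h]; exact (hC z).trans (le_max_left _ _)
  · rw [Set.indicator_of_notMem h, norm_zero]; exact le_max_right _ _

theorem cj {F : Y → ℂ} (hF : BM F) : BM (fun z => conj (F z)) := by
  obtain ⟨h1, C, hC⟩ := hF
  exact ⟨Complex.continuous_conj.measurable.comp h1, C, fun z => by simpa using hC z⟩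

theorem ofReal {F : Y → ℝ} (hF : BM F) : BM (fun z => (F z : ℂ)) := by
  obtain ⟨h1, C, hC⟩ := hF
  exact ⟨Complex.measurable_ofReal.comp h1, C, fun z => by simpa using hC z⟩

theorem exp {F : Y → ℝ} (hF : BM F) : BM (fun z => Real.exp (F z)) := by
  obtain ⟨h1, C, hC⟩ := hF
  refine ⟨h1.exp, Real.exp C, fun z => ?_⟩
  rw [Real.norm_eq_abs, abs_of_pos (Real.exp_pos _)]
  exact Real.exp_le_exp.2 ((le_abs_self _).trans (hC z))

theorem sqrt {F : Y → ℝ} (hF : BM F) : BM (fun z => Real.sqrt (F z)) := by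
  obtain ⟨h1, C, hC⟩ := hF
  refine ⟨h1.sqrt, Real.sqrt C, fun z => ?_⟩
  rw [Real.norm_eq_abs, abs_of_nonneg (Real.sqrt_nonneg _)]
  exact Real.sqrt_le_sqrt ((le_abs_self _).trans (hC z))

theorem of_abs_le {F : Y → ℝ} (h : Measurable F) {C : ℝ} (hC : ∀ z, |F z| ≤ C) : BM F :=
  ⟨h, C, hC⟩

theorem memLp_top (hF : BM F) (m : Measure Y) : MemLp F ∞ m := by
  obtain ⟨h1, C, hC⟩ := hF
  exact memLp_top_of_bound h1.aestronglyMeasurable C (Filter.Eventually.of_forall hC)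

theorem integrable (hF : BM F) (m : Measure Y) [IsFiniteMeasure m] : Integrable F m := by
  obtain ⟨h1, C, hC⟩ := hF
  exact Integrable.of_bound h1.aestronglyMeasurable C (Filter.Eventually.of_forall hC)

end BM

variable {Y : Type*} [MeasurableSpace Y] (m : Measure Y)

open Classical in
/-- multiplication by a bounded measurable function on `L²(m)` (zero for other functions) -/
noncomputable def mulOp (F : Y → ℂ) : Lp ℂ 2 m →L[ℂ] Lp ℂ 2 m :=
  if h : BM F then (ContinuousLinearMap.mul ℂ ℂ).holderL m ∞ 2 2 ((h.memLp_top m).toLp F) else 0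

variable {m} {F G : Y → ℂ}

theorem mulOp_ae (hF : BM F) (ξ : Lp ℂ 2 m) : mulOp m F ξ =ᵐ[m] fun z => F z * ξ z := by
  rw [mulOp, dif_pos hF, ContinuousLinearMap.holderL_apply_apply]
  filter_upwards [ContinuousLinearMap.coeFn_holder (r := 2) (ContinuousLinearMap.mul ℂ ℂ)
    ((hF.memLp_top m).toLp F) ξ, (hF.memLp_top m).coeFn_toLp] with z h1 h2
  rw [h1, h2]; rfl

theorem mulOp_ext {a : Lp ℂ 2 m →L[ℂ] Lp ℂ 2 m} (hF : BM F)
    (h : ∀ ξ, a ξ =ᵐ[m] fun z => F z * ξ z) : a = mulOp m F := by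
  ext1 ξ
  exact Lp.ext ((h ξ).trans (mulOp_ae hF ξ).symm)

theorem mulOp_congr_ae (hF : BM F) (hG : BM G) (h : F =ᵐ[m] G) : mulOp m F = mulOp m G := by
  refine mulOp_ext hG fun ξ => ?_
  filter_upwards [mulOp_ae hF ξ, h] with z h1 h2
  rw [h1, h2]

theorem mulOp_mul (hF : BM F) (hG : BM G) :
    mulOp m F * mulOp m G = mulOp m (fun z => F z * G z) := by
  refine mulOp_ext (hF.mul hG) fun ξ => ?_
  filter_upwards [mulOp_ae hF (mulOp m G ξ), mulOp_ae hG ξ] with z h1 h2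
  rw [mul_apply_eq_comp, h1, h2, mul_assoc]

theorem mulOp_comm (hF : BM F) (hG : BM G) :
    mulOp m F * mulOp m G = mulOp m G * mulOp m F := by
  rw [mulOp_mul hF hG, mulOp_mul hG hF]; simp only [mul_comm]

theorem mulOp_add (hF : BM F) (hG : BM G) :
    mulOp m F + mulOp m G = mulOp m (fun z => F z + G z) := by
  refine mulOp_ext (hF.add hG) fun ξ => ?_
  filter_upwards [mulOp_ae hF ξ, mulOp_ae hG ξ, Lp.coeFn_add (mulOp m F ξ) (mulOp m G ξ)]
    with z h1 h2 h3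
  rw [add_apply, h3, Pi.add_apply, h1, h2, add_mul]

theorem mulOp_sub (hF : BM F) (hG : BM G) :
    mulOp m F - mulOp m G = mulOp m (fun z => F z - G z) := by
  refine mulOp_ext (hF.sub hG) fun ξ => ?_
  filter_upwards [mulOp_ae hF ξ, mulOp_ae hG ξ, Lp.coeFn_sub (mulOp m F ξ) (mulOp m G ξ)]
    with z h1 h2 h3
  rw [sub_apply, h3, Pi.sub_apply, h1, h2, sub_mul]

theorem mulOp_const (c : ℂ) : mulOp m (fun _ => c) = c • 1 := by
  symm
  refine mulOp_ext (BM.const c) fun ξ => ?_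
  filter_upwards [Lp.coeFn_smul c ξ] with z h1
  simpa using h1

theorem mulOp_one : mulOp m (fun _ => 1) = 1 := by rw [mulOp_const, one_smul]

theorem star_mulOp (hF : BM F) : star (mulOp m F) = mulOp m (fun z => conj (F z)) := by
  rw [ContinuousLinearMap.star_eq_adjoint]
  symm
  rw [ContinuousLinearMap.eq_adjoint_iff]
  intro ξ η
  rw [L2.inner_def, L2.inner_def]
  refine integral_congr_ae ?_
  filter_upwards [mulOp_ae hF η, mulOp_ae hF.cj ξ] with z h1 h2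
  rw [h1, h2]; simp; ring

theorem norm_mulOp_apply_le (hF : BM F) {C : ℝ} (hC : ∀ᵐ z ∂m, ‖F z‖ ≤ C)
    (ξ : Lp ℂ 2 m) : ‖mulOp m F ξ‖ ≤ C * ‖ξ‖ := by
  refine Lp.norm_le_mul_norm_of_ae_le_mul ?_
  filter_upwards [mulOp_ae hF ξ, hC] with z h1 h2
  rw [h1, norm_mul]; gcongr

theorem norm_mulOp_le (hF : BM F) {C : ℝ} (hC : ∀ᵐ z ∂m, ‖F z‖ ≤ C) (hC0 : 0 ≤ C) :
    ‖mulOp m F‖ ≤ C :=
  ContinuousLinearMap.opNorm_le_bound _ hC0 (norm_mulOp_apply_le hF hC)

theorem mulOp_nonneg {f : Y → ℝ} (hf : BM f) (h0 : ∀ z, 0 ≤ f z) :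
    0 ≤ mulOp m (fun z => (f z : ℂ)) := by
  have := star_mul_self_nonneg (mulOp m (fun z => (Real.sqrt (f z) : ℂ)))
  rw [star_mulOp hf.sqrt.ofReal, mulOp_mul hf.sqrt.ofReal.cj hf.sqrt.ofReal] at this
  convert this using 3 with z
  rw [Complex.conj_ofReal, ← Complex.ofReal_mul, Real.mul_self_sqrt (h0 z)]

theorem mulOp_le {f g : Y → ℝ} (hf : BM f) (hg : BM g) (h : ∀ z, f z ≤ g z) :
    mulOp m (fun z => (f z : ℂ)) ≤ mulOp m (fun z => (g z : ℂ)) := by
  rw [← sub_nonneg, mulOp_sub hg.ofReal hf.ofReal]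
  have := mulOp_nonneg (m := m) (hg.sub hf) fun z => sub_nonneg.2 (h z)
  simpa using this

/-- composition with a measure preserving map -/
noncomputable def compOp (κ : Y → Y) (hκ : MeasurePreserving κ m m) : Lp ℂ 2 m →L[ℂ] Lp ℂ 2 m :=
  (Lp.compMeasurePreservingₗᵢ ℂ κ hκ).toContinuousLinearMap

theorem compOp_ae {κ : Y → Y} (hκ : MeasurePreserving κ m m) (ξ : Lp ℂ 2 m) :
    compOp κ hκ ξ =ᵐ[m] fun z => ξ (κ z) :=
  Lp.coeFn_compMeasurePreserving ξ hκ

theorem norm_compOp_apply {κ : Y → Y} (hκ : MeasurePreserving κ m m) (ξ : Lp ℂ 2 m) :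
    ‖compOp κ hκ ξ‖ = ‖ξ‖ :=
  (Lp.compMeasurePreservingₗᵢ ℂ κ hκ).norm_map ξ

theorem compOp_mul {κ κ' κ'' : Y → Y} (hκ : MeasurePreserving κ m m)
    (hκ' : MeasurePreserving κ' m m) (hκ'' : MeasurePreserving κ'' m m)
    (h : ∀ z, κ'' z = κ' (κ z)) : compOp κ hκ * compOp κ' hκ' = compOp κ'' hκ'' := by
  ext1 ξ
  refine Lp.ext ?_
  filter_upwards [compOp_ae hκ (compOp κ' hκ' ξ), compOp_ae hκ'' ξ,
    hκ.quasiMeasurePreserving.ae (compOp_ae hκ' ξ)] with z h1 h2 h3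
  rw [mul_apply_eq_comp, h1, h2, h3, h]

theorem compOp_id {κ : Y → Y} (hκ : MeasurePreserving κ m m) (h : ∀ z, κ z = z) :
    compOp κ hκ = 1 := by
  ext1 ξ
  refine Lp.ext ?_
  filter_upwards [compOp_ae hκ ξ] with z h1
  rw [h1, h]; rfl

theorem compOp_mulOp {κ : Y → Y} (hκ : MeasurePreserving κ m m) (hF : BM F) :
    compOp κ hκ * mulOp m F = mulOp m (fun z => F (κ z)) * compOp κ hκ := by
  ext1 ξ
  refine Lp.ext ?_
  filter_upwards [compOp_ae hκ (mulOp m F ξ), compOp_ae hκ ξ,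
    hκ.quasiMeasurePreserving.ae (mulOp_ae hF ξ),
    mulOp_ae (hF.comp hκ.measurable) (compOp κ hκ ξ)] with z h1 h2 h3 h4
  rw [mul_apply_eq_comp, mul_apply_eq_comp, h1, h3, h4, h2]

theorem inner_compOp {κ : Y → Y} (hκ : MeasurePreserving κ m m) (ξ η : Lp ℂ 2 m) :
    ⟪compOp κ hκ ξ, compOp κ hκ η⟫_ℂ = ⟪ξ, η⟫_ℂ :=
  LinearIsometry.inner_map_map (𝕜 := ℂ) (E := Lp ℂ 2 m) (E' := Lp ℂ 2 m)
    ⟨(compOp κ hκ).toLinearMap, norm_compOp_apply hκ⟩ ξ η

theorem star_compOp {κ κ' : Y → Y} (hκ : MeasurePreserving κ m m)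
    (hκ' : MeasurePreserving κ' m m) (h : compOp κ hκ * compOp κ' hκ' = 1) :
    star (compOp κ hκ) = compOp κ' hκ' := by
  rw [ContinuousLinearMap.star_eq_adjoint]
  symm
  rw [ContinuousLinearMap.eq_adjoint_iff]
  intro ξ η
  have h1 : ξ = compOp κ hκ (compOp κ' hκ' ξ) := by
    rw [← mul_apply_eq_comp, h]; rfl
  conv_rhs => rw [h1]
  exact (inner_compOp hκ _ _).symm

theorem norm_sq_eq_integral (ξ : Lp ℂ 2 m) : ‖ξ‖ ^ 2 = ∫ z, ‖ξ z‖ ^ 2 ∂m := by
  rw [← inner_self_eq_norm_sq (𝕜 := ℂ), L2.inner_def, ← integral_re (L2.integrable_inner ξ ξ)]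
  simp only [inner_self_eq_norm_sq]

theorem integrable_norm_sq (ξ : Lp ℂ 2 m) : Integrable (fun z => ‖ξ z‖ ^ 2) m :=
  (Lp.memLp ξ).integrable_norm_pow two_ne_zero

end Crest.Agent.R113
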