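import Crest.Agent.R113.Defs
import Crest.Agent.R113.OpMul

/-!
# R113 — measure theoretic interfaces of the operator side (DO NOT EDIT, owner helper90)

* `TiltFam A f r`: the densities `ρ ψ` and the squared kernels `ν ψ` of the tilts `[e^ψ p]` of an
  invariant projection `p` of trace `r`, with all the inequalities the final argument needs.
* `Blocks A W P`: orbit intervals between consecutive visits to a wall set `W`.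
-/

set_option autoImplicit false

namespace Crest.Agent.R113

open MeasureTheory

variable {X : Type*} [MeasurableSpace X] {μ : Measure X}

/-- the weight of `n` steps between the tilts `ψ₁` and `ψ₂` -/
noncomputable def Act.kk (A : Act X μ) (f ψ₁ ψ₂ : X → ℝ) (n : ℕ) (x : X) : ℝ :=
  A.fprod f n x * Real.exp (ψ₂ (A.σ (n : ℤ) x) - ψ₁ x)

/-- densities and kernels of the tilts of an invariant projection -/
structure TiltFam (A : Act X μ) (f : X → ℝ) (r : ℝ) where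
  ρ : (X → ℝ) → X → ℝ
  ν : (X → ℝ) → Measure (X × ℤ)
  meas : ∀ ψ, Measurable (ρ ψ)
  nonneg : ∀ ψ x, 0 ≤ ρ ψ x
  le_one : ∀ ψ x, ρ ψ x ≤ 1
  fin : ∀ ψ, IsFiniteMeasure (ν ψ)
  mean : ∀ ψ, BM ψ → ∫ x, ρ ψ x ∂μ = r
  marg : ∀ ψ, BM ψ → ∀ Z, MeasurableSet Z → ν ψ {z | z.1 ∈ Z} ≤ μ Z
  symm : ∀ ψ, BM ψ → ∀ R L, MeasurableSet R → MeasurableSet L →
    (ν ψ).real {z | z.1 ∈ R ∧ A.σ z.2 z.1 ∈ L} = (ν ψ).real {z | z.1 ∈ L ∧ A.σ z.2 z.1 ∈ R}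
  off : ∀ ψ, BM ψ → (ν ψ).real {z | z.2 ≠ 0} = r - ∫ x, ρ ψ x ^ 2 ∂μ
  cmp : ∀ ψ₁ ψ₂, BM ψ₁ → BM ψ₂ → ∀ (n : ℕ) (R E L : Set X) (t : ℝ), MeasurableSet R →
    MeasurableSet E → MeasurableSet L → 0 < t → (∀ x ∈ L, x ∉ R ∧ x ∉ E) →
    (∀ x ∈ R, t ≤ A.kk f ψ₁ ψ₂ n x) → (∀ x, x ∉ R → x ∉ E → A.kk f ψ₁ ψ₂ n x ≤ t) →
    (∀ x ∈ L, A.kk f ψ₁ ψ₂ n x ≤ t / 2) →
    3 / 4 * (ν ψ₁).real {z | z.1 ∈ R ∧ A.σ z.2 z.1 ∈ L}
      ≤ ∫ x in R ∪ E, ρ ψ₂ (A.σ (n : ℤ) x) ∂μ - ∫ x in R, ρ ψ₁ x ∂μ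
  lip : ∀ ψ₁ ψ₂, BM ψ₁ → BM ψ₂ →
    ∫ x, (ρ ψ₂ x - ρ ψ₁ x) ^ 2 ∂μ ≤ 2 * ∫ x, (1 - Real.exp (ψ₂ x - ψ₁ x)) ^ 2 ∂μ
  sqE : ∀ ψ, BM ψ → ∀ (n : ℕ) (B Z : Set X) (t ε : ℝ), MeasurableSet B → MeasurableSet Z →
    0 ≤ ε → ε ≤ 1 →
    (∀ x, x ∉ Z → |t * A.kk f ψ ψ n x - B.indicator 1 x| ≤ ε) →
    ∫ x in B, (ρ ψ (A.σ (n : ℤ) x) - ρ ψ x) ^ 2 ∂μ
      ≤ ∫ x in B, (ρ ψ (A.σ (n : ℤ) x) - ρ ψ x) ∂μ + 4 * ε ^ 2 + 16 * μ.real Z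

theorem TiltFam.bm {A : Act X μ} {f : X → ℝ} {r : ℝ} (F : TiltFam A f r) (ψ : X → ℝ) :
    BM (F.ρ ψ) :=
  BM.of_abs_le (F.meas ψ) (C := 1) fun x => by
    rw [abs_of_nonneg (F.nonneg ψ x)]; exact F.le_one ψ x

/-- The block of `x` is `{σ i x | -a x ≤ i ≤ b x}`; its last point `σ (b x) x` is in `W`. -/
structure Blocks (A : Act X μ) (W : Set X) (P : ℕ) where
  a : X → ℕ
  b : X → ℕ
  meas_a : Measurable a
  meas_b : Measurable b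
  lt : ∀ x, a x + b x < P
  le_a : ∀ x (m : ℕ), m ≤ a x ↔ ∀ j : ℕ, j < m → A.σ (-((j : ℤ) + 1)) x ∉ W
  le_b : ∀ x (m : ℕ), m ≤ b x ↔ ∀ j : ℕ, j < m → A.σ (j : ℤ) x ∉ W

namespace Blocks

variable {A : Act X μ} {W : Set X} {P : ℕ} (B : Blocks A W P)

/-- the displacements staying in the block of `x` -/
noncomputable def disp (x : X) : Finset ℤ := Finset.Icc (-(B.a x : ℤ)) (B.b x : ℤ)

/-- length of the block -/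
def len (x : X) : ℝ := (B.a x : ℝ) + B.b x + 1

/-- twice the centred position in the block -/
def pos (x : X) : ℝ := (B.a x : ℝ) - B.b x

/-- block average -/
noncomputable def avg (φ : X → ℝ) (x : X) : ℝ := (∑ i ∈ B.disp x, φ (A.σ i x)) / B.len x

/-- constant on blocks -/
def Const (β : X → ℝ) : Prop := ∀ x, ∀ i ∈ B.disp x, β (A.σ i x) = β x

end Blocks

end Crest.Agent.R113
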