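import Crest.Agent.R113.OpRho
import Crest.Agent.R113.OpFam

/-!
# R113 — the tilts of an invariant projection form a `TiltFam`
-/

set_option autoImplicit false
set_option linter.unusedSectionVars false

namespace Crest.Agent.R113

open MeasureTheory
open scoped InnerProductSpace ENNReal ComplexConjugate

variable {X : Type*} [MeasurableSpace X] {μ : Measure X} [IsProbabilityMeasure μ]

namespace Act

variable (A : Act X μ)

section pair

variable {q q' : HS μ →L[ℂ] HS μ} {k : X → ℝ}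

theorem cmp_pair (hq : q ∈ A.M) (hq' : q' ∈ A.M) (pq : IsStarProjection q)
    (pq' : IsStarProjection q') (hk : BM k) (hk0 : ∀ x, 0 ≤ k x)
    (hinv : q' * (A.Lr k * q) = A.Lr k * q) {R E L : Set X} {t : ℝ} (hR : MeasurableSet R)
    (hE : MeasurableSet E) (hL : MeasurableSet L) (ht : 0 < t) (hd : ∀ x ∈ L, x ∉ R ∧ x ∉ E)
    (h1 : ∀ x ∈ R, t ≤ k x) (h2 : ∀ x, x ∉ R → x ∉ E → k x ≤ t) (h3 : ∀ x ∈ L, k x ≤ t / 2) :
    3 / 4 * (nu q).real {z | z.1 ∈ R ∧ A.σ z.2 z.1 ∈ L}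
      ≤ ∫ x in R ∪ E, rho q' x ∂μ - ∫ x in R, rho q x ∂μ := by
  have hRE := hR.union hE
  set k' : X → ℝ := fun x => t⁻¹ * k x with hk'
  have bk' : BM k' := (BM.const t⁻¹).mul hk
  have k'0 : ∀ x, 0 ≤ k' x := fun x => mul_nonneg (inv_pos.2 ht).le (hk0 x)
  have ek' : A.Lr k' = ((t⁻¹ : ℝ) : ℂ) • A.Lr k := by
    rw [hk', ← A.Lr_mul (BM.const t⁻¹) hk, A.Lr_const, smul_mul_assoc, one_mul]
  set g2 : X → ℝ := fun x => (R ∪ E)ᶜ.indicator 1 x - 3 / 4 * L.indicator 1 x with hg2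
  have bg2 : BM g2 := (bm_ind hRE.compl).sub ((BM.const _).mul (bm_ind hL))
  have g20 : ∀ x, 0 ≤ g2 x := fun x => by
    by_cases h : x ∈ L
    · have := hd x h
      simp [hg2, h, this.1, this.2]; norm_num
    · simp only [hg2, Set.indicator_of_notMem h, mul_zero, sub_zero]
      exact Set.indicator_nonneg (fun _ _ => zero_le_one) x
  have eg : A.Lr (fun x => √(g2 x)) * star (A.Lr fun x => √(g2 x)) = A.Lr g2 := by
    rw [A.star_Lr bg2.sqrt, A.Lr_mul bg2.sqrt bg2.sqrt]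
    simp only [Real.mul_self_sqrt (g20 _)]
  set l : HS μ →L[ℂ] HS μ := ((√(3 / 4) : ℝ) : ℂ) • A.Lr (L.indicator 1) with hl
  have el : star l * l = A.Lr fun x => 3 / 4 * L.indicator 1 x := by
    rw [hl, star_smul, A.star_Lr (bm_ind hL), smul_mul_smul_comm, (A.Lr_proj hL).isIdempotentElem.eq,
      ← A.Lr_mul (BM.const _) (bm_ind hL), A.Lr_const, smul_mul_assoc, one_mul]
    congr 1
    rw [Complex.star_def, Complex.conj_ofReal, ← Complex.ofReal_mul,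
      Real.mul_self_sqrt (by norm_num)]
  have bke : BM fun x => k' x * (R ∪ E).indicator 1 x := bk'.mul (bm_ind hRE)
  have key := A.trAlg.lemmaA (l := l) hq hq' (A.Lr_mem bk') (A.Lr_mem (bm_ind hRE))
    (A.Lr_mem (bm_ind hR)) (A.Lr_mem bg2.sqrt) pq pq' (A.Lr_proj hRE) (A.Lr_proj hR)
    (A.star_Lr bk')
    (by rw [A.Lr_mul bk' (bm_ind hRE), A.Lr_mul (bm_ind hRE) bk']; simp only [mul_comm])
    (by rw [ek', smul_mul_assoc, mul_smul_comm, hinv])
    (by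
      rw [A.Lr_mul bk' (bm_ind hRE), A.Lr_mul bke bke]
      refine A.Lr_le (bm_ind hR) (bke.mul bke) fun x => ?_
      by_cases h : x ∈ R
      · have : 1 ≤ k' x := by
          simp only [hk']; rw [← div_eq_inv_mul, le_div_iff₀ ht, one_mul]; exact h1 x h
        simp only [h, Set.indicator_of_mem, Set.mem_union, true_or, Pi.one_apply, mul_one]
        nlinarith
      · rw [Set.indicator_of_notMem h]; exact mul_self_nonneg _)
    (by
      rw [eg, A.Lr_mul bk' (bm_ind hRE), A.Lr_mul bke bke, A.Lr_mul bk' bk',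
        A.Lr_add (bke.mul bke) bg2]
      refine A.Lr_le (bk'.mul bk') ((bke.mul bke).add bg2) fun x => ?_
      by_cases h : x ∈ R ∪ E
      · simp only [Set.indicator_of_mem h, Pi.one_apply, mul_one]
        linarith [g20 x]
      · have h' := h
        rw [Set.mem_union, not_or] at h'
        have b1 : k' x ≤ 1 := by
          simp only [hk']; rw [← div_eq_inv_mul, div_le_one ht]; exact h2 x h'.1 h'.2
        have := k'0 x
        by_cases hx : x ∈ L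
        · have b2 : k' x ≤ 1 / 2 := by
            simp only [hk']; rw [← div_eq_inv_mul, div_le_iff₀ ht]; linarith [h3 x hx]
          simp only [hg2, Set.indicator_of_notMem h, Set.indicator_of_mem hx,
            Set.indicator_of_mem (Set.mem_compl h), Pi.one_apply]
          nlinarith
        · simp only [hg2, Set.indicator_of_notMem h, Set.indicator_of_notMem hx,
            Set.indicator_of_mem (Set.mem_compl h), Pi.one_apply]
          nlinarith)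
    (by
      have b3 : BM fun x => 3 / 4 * L.indicator (1 : X → ℝ) x := (BM.const _).mul (bm_ind hL)
      rw [eg, el, A.Lr_add bg2 (bm_ind hR), A.Lr_add (bg2.add (bm_ind hR)) b3, ← A.Lr_one]
      refine A.Lr_le ((bg2.add (bm_ind hR)).add b3) (BM.const _) fun x => ?_
      by_cases h : x ∈ R
      · simp [hg2, h]
      · by_cases h' : x ∈ E <;> simp [hg2, h, h'])
  rw [A.τ_mul_ind hq pq hR, A.τ_mul_ind hq' pq' hRE, hl, smul_mul_assoc, smul_mul_assoc,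
    smul_apply, norm_smul, mul_pow, Complex.norm_real, Real.norm_eq_abs, sq_abs,
    Real.sq_sqrt (by norm_num)] at key
  rw [A.nu_pair hq hR hL]
  have e : A.trAlg.Ω = Om μ := rfl
  rw [e] at key
  linarith

theorem τ_le_pair (hq : q ∈ A.M) (hq' : q' ∈ A.M) (pq : IsStarProjection q)
    (pq' : IsStarProjection q') {ψ : X → ℝ} (hψ : BM ψ)
    (hinv : q' * (A.Lr (fun x => Real.exp (ψ x)) * q) = A.Lr (fun x => Real.exp (ψ x)) * q) :
    A.trAlg.τ q ≤ A.trAlg.τ q' := by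
  obtain ⟨C, hC⟩ := hψ.2
  have := A.cmp_pair hq hq' pq pq' hψ.exp (fun x => (Real.exp_pos _).le) hinv
    (R := Set.univ) (E := ∅) (L := ∅) (t := Real.exp (-C)) .univ .empty .empty (Real.exp_pos _)
    (by simp) (fun x _ => Real.exp_le_exp.2 (neg_le_of_abs_le (hC x))) (by simp) (by simp)
  rw [A.τ_proj hq pq, A.τ_proj hq' pq']
  simpa using this

theorem sq_pair (hq : q ∈ A.M) (hq' : q' ∈ A.M) (pq : IsStarProjection q)
    (pq' : IsStarProjection q') {B : Set X} (hB : MeasurableSet B) :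
    ∫ x in B, (rho q' x - rho q x) ^ 2 ∂μ ≤ ∫ x in B, (rho q' x - rho q x) ∂μ
      + 2 * ‖((1 - q') * A.Lr (B.indicator 1) * q) (Om μ)‖ ^ 2 := by
  have h := A.trAlg.norm_comm_sq hq hq' (A.Lr_mem (bm_ind hB)) pq pq' (A.Lr_proj hB)
  rw [A.τ_mul_ind hq pq hB, A.τ_mul_ind hq' pq' hB,
    ← integral_sub ((bm_rho q').integrable _) ((bm_rho q).integrable _)] at h
  have e : A.trAlg.Ω = Om μ := rfl
  rw [e] at h
  rw [← h]
  refine le_trans (le_of_eq ?_) (slice_sq_le _)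
  rw [← integral_indicator hB]
  refine integral_congr_ae ?_
  filter_upwards [ae_pm_iff.1 (A.slice_mul_Lr hq' (bm_ind hB)) 0,
    ae_pm_iff.1 (A.slice_Lr_mul q (bm_ind hB)) 0, A.rho_ae hq pq, A.rho_ae hq' pq',
    ae_pm_iff.1 (Lp.coeFn_sub ((q' * A.Lr (B.indicator 1)) (Om μ))
      ((A.Lr (B.indicator 1) * q) (Om μ))) 0] with x h1 h2 h3 h4 h5
  rw [sub_apply, h5, Pi.sub_apply, h1, h2, h3, h4, A.zero]
  by_cases hx : x ∈ B
  · simp only [Set.indicator_of_mem hx, Pi.one_apply, Complex.ofReal_one, one_mul]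
    rw [← Complex.ofReal_sub, Complex.norm_real, Real.norm_eq_abs, sq_abs]
  · simp [hx]

theorem compl_mul_eq (hk : BM k) (hinv : q' * (A.Lr k * q) = A.Lr k * q) {φ : X → ℝ} (hφ : BM φ) :
    (1 - q') * A.Lr φ * q = (1 - q') * A.Lr (fun x => φ x - k x) * q := by
  have : (1 - q') * A.Lr k * q = 0 := by rw [mul_assoc, sub_mul, hinv, one_mul, sub_self]
  rw [← A.Lr_sub hφ hk, mul_sub (1 - q'), sub_mul _ _ q, this, sub_zero]

theorem lip_pair (hq : q ∈ A.M) (hq' : q' ∈ A.M) (pq : IsStarProjection q)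
    (pq' : IsStarProjection q') (hk : BM k) (hinv : q' * (A.Lr k * q) = A.Lr k * q)
    (hτ : A.trAlg.τ q' = A.trAlg.τ q) :
    ∫ x, (rho q' x - rho q x) ^ 2 ∂μ ≤ 2 * ∫ x, (1 - k x) ^ 2 ∂μ := by
  have h := A.sq_pair hq hq' pq pq' MeasurableSet.univ
  rw [Measure.restrict_univ, integral_sub ((bm_rho q').integrable _) ((bm_rho q).integrable _),
    ← A.τ_proj hq pq, ← A.τ_proj hq' pq', hτ, sub_self, zero_add,
    A.compl_mul_eq hk hinv (bm_ind .univ)] at h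
  simp only [Set.indicator_univ, Pi.one_apply] at h
  refine h.trans ?_
  have b : BM fun x => 1 - k x := (BM.const _).sub hk
  rw [← A.norm_Lr_Om b]
  gcongr
  rw [mul_assoc, mul_apply_eq_comp]
  refine (norm_proj_apply_le pq'.one_sub _).trans ?_
  have := A.trAlg.norm_star (mul_mem (A.Lr_mem b) hq)
  rw [star_mul, A.star_Lr b, pq.isSelfAdjoint.star_eq] at this
  refine (le_of_eq this.symm).trans ?_
  exact norm_proj_apply_le pq _

theorem sqE_pair (hq : q ∈ A.M) (hq' : q' ∈ A.M) (pq : IsStarProjection q)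
    (pq' : IsStarProjection q') (hk : BM k) (hinv : q' * (A.Lr k * q) = A.Lr k * q)
    {B Z : Set X} (hB : MeasurableSet B) (hZ : MeasurableSet Z) {ε : ℝ} (h0 : 0 ≤ ε) (h1 : ε ≤ 1)
    (h : ∀ x, x ∉ Z → |k x - B.indicator 1 x| ≤ ε) :
    ∫ x in B, (rho q' x - rho q x) ^ 2 ∂μ ≤ ∫ x in B, (rho q' x - rho q x) ∂μ
      + 4 * ε ^ 2 + 16 * μ.real Z := by
  have hs := A.sq_pair hq hq' pq pq' hB
  set D : X → ℝ := fun x => B.indicator 1 x - k x with hD
  have bD : BM D := (bm_ind hB).sub hk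
  have bD' : BM fun x => D x * Zᶜ.indicator 1 x := bD.mul (bm_ind hZ.compl)
  set N := (1 - q') * A.Lr (B.indicator 1) * q with hN
  set N₁ := (1 - q') * A.Lr (fun x => D x * Zᶜ.indicator 1 x) * q with hN₁
  set N₂ := (1 - q') * A.Lr D * A.Lr (Z.indicator 1) * q with hN₂
  have split : N = N₁ + N₂ := by
    rw [hN, A.compl_mul_eq hk hinv (bm_ind hB), hN₁, hN₂, mul_assoc (1 - q') (A.Lr D) (A.Lr (Z.indicator 1)),
      A.Lr_mul bD (bm_ind hZ), ← add_mul, ← mul_add, A.Lr_add bD' (bD.mul (bm_ind hZ))]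
    congr 3
    funext x
    by_cases hx : x ∈ Z <;> simp [hx, hD]
  have nb : ∀ (a : HS μ →L[ℂ] HS μ) (C : ℝ), ‖a‖ ≤ C → ‖(1 - q') * a * q‖ ≤ C := fun a C ha => by
    have := norm_nonneg a
    calc ‖(1 - q') * a * q‖ ≤ ‖1 - q'‖ * ‖a‖ * ‖q‖ :=
          (norm_mul_le _ _).trans (by gcongr; exact norm_mul_le _ _)
      _ ≤ 1 * C * 1 := by
          gcongr
          · linarith
          · exact pq'.one_sub.norm_le
          · exact pq.norm_le
      _ = C := by ring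
  have n0 : ‖N‖ ≤ 1 := nb _ _ (A.Lr_proj hB).norm_le
  have n1 : ‖N₁‖ ≤ ε := nb _ _ (A.norm_Lr_le bD' (fun x => by
    by_cases hx : x ∈ Z
    · simpa [hx] using h0
    · simpa [hx, hD, abs_sub_comm] using h x hx) h0)
  have n2 : ‖N₂‖ ≤ 2 := by
    have : N₂ = N - N₁ := by rw [split]; abel
    rw [this]
    exact (norm_sub_le _ _).trans (by linarith)
  have r2 := A.trAlg.rank_le (A.Lr_mem (bm_ind hZ)) hq (A.Lr_proj hZ) n2
  rw [A.τ_ind hZ] at r2
  change ‖N₂ (Om μ)‖ ^ 2 ≤ _ at r2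
  have r1 : ‖N₁ (Om μ)‖ ≤ ε := by
    have := N₁.le_opNorm (Om μ)
    rw [norm_Om, mul_one] at this
    exact this.trans n1
  have r3 : ‖N (Om μ)‖ ≤ ‖N₁ (Om μ)‖ + ‖N₂ (Om μ)‖ := by
    rw [split]; exact norm_add_le _ _
  have := norm_nonneg (N (Om μ))
  have := norm_nonneg (N₁ (Om μ))
  have := norm_nonneg (N₂ (Om μ))
  have r4 : ‖N (Om μ)‖ ^ 2 ≤ (ε + ‖N₂ (Om μ)‖) ^ 2 := by gcongr; linarith
  nlinarith [sq_nonneg (ε - ‖N₂ (Om μ)‖)]

end pair

theorem bm_fprod {f : X → ℝ} (hf : BM f) (n : ℕ) : BM (A.fprod f n) :=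
  BM.prod _ fun j _ => hf.comp (A.measurable j)

theorem fprod_nonneg {f : X → ℝ} (hf : ∀ x, 0 ≤ f x) (n : ℕ) (x : X) : 0 ≤ A.fprod f n x :=
  Finset.prod_nonneg fun _ _ => hf _

theorem shift_pow {f : X → ℝ} (hf : BM f) (n : ℕ) :
    (Ush μ 1 * A.Lr f) ^ n = Ush μ n * A.Lr (A.fprod f n) := by
  induction n with
  | zero =>
    have : A.fprod f 0 = fun _ => 1 := by funext x; simp [fprod]
    simp [this, A.Lr_one, Ush_zero]
  | succ n ih =>
    rw [pow_succ', ih, mul_assoc, ← mul_assoc (A.Lr f), A.Lr_Ush hf, mul_assoc,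
      A.Lr_mul (hf.comp (A.measurable _)) (A.bm_fprod hf n), ← mul_assoc, Ush_add]
    congr 2
    · push_cast; ring
    · funext x
      rw [fprod, fprod, Finset.prod_range_succ, mul_comm]

theorem bm_kk {f ψ₁ ψ₂ : X → ℝ} (hf : BM f) (h₁ : BM ψ₁) (h₂ : BM ψ₂) (n : ℕ) :
    BM (A.kk f ψ₁ ψ₂ n) :=
  (A.bm_fprod hf n).mul ((h₂.comp (A.measurable _)).sub h₁).exp

theorem exp_mul_exp {ψ : X → ℝ} (h : BM ψ) :
    A.Lr (fun x => Real.exp (ψ x)) * A.Lr (fun x => Real.exp (-ψ x)) = 1 := by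
  rw [A.Lr_mul h.exp h.neg.exp, ← A.Lr_one]
  simp only [← Real.exp_add, add_neg_cancel, Real.exp_zero]

theorem exp_mul_exp' {ψ : X → ℝ} (h : BM ψ) :
    A.Lr (fun x => Real.exp (-ψ x)) * A.Lr (fun x => Real.exp (ψ x)) = 1 := by
  rw [A.Lr_mul h.neg.exp h.exp, ← A.Lr_one]
  simp only [← Real.exp_add, neg_add_cancel, Real.exp_zero]

theorem exists_tilt {p} (hp : p ∈ A.M) (pp : IsStarProjection p) (ψ : X → ℝ) :
    ∃ q : HS μ →L[ℂ] HS μ, BM ψ → q ∈ A.M ∧ IsStarProjection q ∧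
      q * (A.Lr (fun x => Real.exp (ψ x)) * p) = A.Lr (fun x => Real.exp (ψ x)) * p ∧
      p * (A.Lr (fun x => Real.exp (-ψ x)) * q) = A.Lr (fun x => Real.exp (-ψ x)) * q := by
  by_cases h : BM ψ
  swap
  · exact ⟨0, fun h' => absurd h' h⟩
  set a := A.Lr (fun x => Real.exp (ψ x))
  set a' := A.Lr (fun x => Real.exp (-ψ x))
  have h1 : a * a' = 1 := A.exp_mul_exp h
  have h2 : a' * a = 1 := A.exp_mul_exp' h
  have he : (a * p * a') * (a * p * a') = a * p * a' := by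
    calc _ = a * p * (a' * a) * p * a' := by simp only [mul_assoc]
      _ = _ := by rw [h2, mul_one, mul_assoc a p p, pp.isIdempotentElem.eq]
  have heM : a * p * a' ∈ A.M := mul_mem (mul_mem (A.Lr_mem h.exp) hp) (A.Lr_mem h.neg.exp)
  obtain ⟨q, pq, e1, e2⟩ := exists_range_proj he
  refine ⟨q, fun _ => ⟨?_, pq, ?_, ?_⟩⟩
  · rw [mem_M]
    intro s hs
    exact comm_of_range_proj pq e1 e2 (A.mem_M.1 heM s hs) (A.mem_M.1 heM _ (A.star_mem_gens hs))
  · have : a * p = a * p * a' * a := by rw [mul_assoc _ a', h2, mul_one]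
    rw [this, ← mul_assoc, e1]
  · calc p * (a' * q) = a' * (a * p * a' * q) := by
          simp only [← mul_assoc]; rw [h2, one_mul]
      _ = a' * q := by rw [e2]

theorem exists_tiltFam {f : X → ℝ} (hf : BM f) (hf0 : ∀ x, 0 ≤ f x) {p} (hp : p ∈ A.M)
    (pp : IsStarProjection p) (hinv : (1 - p) * (Ush μ 1 * A.Lr f) * p = 0) :
    Nonempty (TiltFam A f (A.trAlg.τ p)) := by
  choose q hq using A.exists_tilt hp pp
  have hT : ∀ n : ℕ, p * ((Ush μ 1 * A.Lr f) ^ n * p) = (Ush μ 1 * A.Lr f) ^ n * p := by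
    have h1 : p * (Ush μ 1 * A.Lr f * p) = Ush μ 1 * A.Lr f * p := by
      rw [sub_mul, sub_mul, one_mul, sub_eq_zero, mul_assoc p] at hinv
      exact hinv.symm
    intro n
    induction n with
    | zero => simp [pp.isIdempotentElem.eq]
    | succ n ih =>
      rw [pow_succ', mul_assoc _ _ p, ← ih, ← mul_assoc _ p, ← mul_assoc p, h1]
  have hτ : ∀ ψ, BM ψ → A.trAlg.τ (q ψ) = A.trAlg.τ p := fun ψ h => by
    obtain ⟨m, pq, e1, e2⟩ := hq ψ h
    exact le_antisymm (A.τ_le_pair m hp pq pp h.neg e2) (A.τ_le_pair hp m pp pq h e1)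
  have hkey : ∀ ψ₁ ψ₂, BM ψ₁ → BM ψ₂ → ∀ n : ℕ,
      (Ush μ (-n) * q ψ₂ * Ush μ n) * (A.Lr (A.kk f ψ₁ ψ₂ n) * q ψ₁)
        = A.Lr (A.kk f ψ₁ ψ₂ n) * q ψ₁ := fun ψ₁ ψ₂ h₁ h₂ n => by
    obtain ⟨-, -, -, e2⟩ := hq ψ₁ h₁
    obtain ⟨-, -, e1, -⟩ := hq ψ₂ h₂
    have eY : Ush μ n * A.Lr (A.kk f ψ₁ ψ₂ n) = A.Lr (fun x => Real.exp (ψ₂ x))
        * (Ush μ 1 * A.Lr f) ^ n * A.Lr (fun x => Real.exp (-ψ₁ x)) := by
      have b2 : BM fun x => Real.exp (ψ₂ (A.σ n x)) := (h₂.comp (A.measurable _)).exp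
      rw [A.shift_pow hf, ← mul_assoc, A.Lr_Ush h₂.exp, mul_assoc, mul_assoc,
        A.Lr_mul (A.bm_fprod hf n) h₁.neg.exp, A.Lr_mul b2 ((A.bm_fprod hf n).mul h₁.neg.exp)]
      congr 2
      funext x
      rw [kk, sub_eq_add_neg, Real.exp_add]; ring
    have e3 : q ψ₂ * (Ush μ n * A.Lr (A.kk f ψ₁ ψ₂ n) * q ψ₁)
        = Ush μ n * A.Lr (A.kk f ψ₁ ψ₂ n) * q ψ₁ := by
      rw [eY, mul_assoc _ _ (q ψ₁), ← e2, mul_assoc _ (_ ^ n), ← mul_assoc (_ ^ n) p, ← hT n,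
        mul_assoc p, ← mul_assoc _ p, ← mul_assoc (q ψ₂), e1]
    calc _ = Ush μ (-n) * (q ψ₂ * (Ush μ n * A.Lr (A.kk f ψ₁ ψ₂ n) * q ψ₁)) := by
          simp only [mul_assoc]
      _ = _ := by
          rw [e3, mul_assoc, ← mul_assoc (Ush μ (-n)), Ush_add, neg_add_cancel, Ush_zero, one_mul]
  refine ⟨{
    ρ := fun ψ => rho (q ψ)
    ν := fun ψ => nu (q ψ)
    meas := fun ψ => measurable_rho _
    nonneg := fun ψ => rho_nonneg _
    le_one := fun ψ => rho_le_one _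
    fin := fun ψ => inferInstance
    mean := fun ψ h => by rw [← A.τ_proj (hq ψ h).1 (hq ψ h).2.1, hτ ψ h]
    marg := fun ψ h Z hZ => A.nu_marg (hq ψ h).1 (hq ψ h).2.1 hZ
    symm := fun ψ h R L hR hL => A.nu_symm (hq ψ h).1 (hq ψ h).2.1 hR hL
    off := fun ψ h => by rw [A.nu_off (hq ψ h).1 (hq ψ h).2.1, hτ ψ h]
    cmp := fun ψ₁ ψ₂ h₁ h₂ n R E L t hR hE hL ht hd a1 a2 a3 => ?_
    lip := fun ψ₁ ψ₂ h₁ h₂ => ?_
    sqE := fun ψ h n B Z t ε hB hZ h0 h1 a => ?_ }⟩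
  · have := A.cmp_pair (hq ψ₁ h₁).1 (A.conj_mem (hq ψ₂ h₂).1 n) (hq ψ₁ h₁).2.1
      (conj_proj (hq ψ₂ h₂).2.1 n) (A.bm_kk hf h₁ h₂ n)
      (fun x => mul_nonneg (A.fprod_nonneg hf0 n x) (Real.exp_pos _).le)
      (hkey ψ₁ ψ₂ h₁ h₂ n) hR hE hL ht hd a1 a2 a3
    rwa [integral_congr_ae (ae_restrict_of_ae (A.rho_conj (hq ψ₂ h₂).1 n))] at this
  · have h := hkey ψ₁ ψ₂ h₁ h₂ 0
    have e : A.kk f ψ₁ ψ₂ 0 = fun x => Real.exp (ψ₂ x - ψ₁ x) := by
      funext x; simp [kk, fprod, A.zero]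
    rw [e, Nat.cast_zero, neg_zero, Ush_zero, one_mul, mul_one] at h
    exact A.lip_pair (hq ψ₁ h₁).1 (hq ψ₂ h₂).1 (hq ψ₁ h₁).2.1 (hq ψ₂ h₂).2.1 (h₂.sub h₁).exp h
      (by rw [hτ ψ₁ h₁, hτ ψ₂ h₂])
  · have bk := A.bm_kk hf h h n
    have ek : A.Lr (fun x => t * A.kk f ψ ψ n x) = (t : ℂ) • A.Lr (A.kk f ψ ψ n) := by
      rw [← A.Lr_mul (BM.const t) bk, A.Lr_const, smul_mul_assoc, one_mul]
    have := A.sqE_pair (hq ψ h).1 (A.conj_mem (hq ψ h).1 n) (hq ψ h).2.1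
      (conj_proj (hq ψ h).2.1 n) ((BM.const t).mul bk)
      (by rw [ek, smul_mul_assoc, mul_smul_comm, hkey ψ ψ h h n]) hB hZ h0 h1 a
    have c := ae_restrict_of_ae (s := B) (A.rho_conj (hq ψ h).1 n)
    rwa [integral_congr_ae (g := fun x => (rho (q ψ) (A.σ n x) - rho (q ψ) x) ^ 2)
      (by filter_upwards [c] with x hx; rw [hx]),
      integral_congr_ae (f := fun x => rho (Ush μ (-n) * q ψ * Ush μ n) x - rho (q ψ) x)
      (g := fun x => rho (q ψ) (A.σ n x) - rho (q ψ) x)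
      (by filter_upwards [c] with x hx; rw [hx])] at this

end Act

end Crest.Agent.R113
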