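import Crest.Agent.R113.OpMono
import Crest.Agent.R113.OpTilt

/-!
# R113 — ingredients of the final argument: tests, flattening, balanced tilts
-/

set_option autoImplicit false
set_option linter.unusedSectionVars false

namespace Crest.Agent.R113

open MeasureTheory

variable {X : Type*} [MeasurableSpace X] {μ : Measure X} [IsProbabilityMeasure μ]
  {A : Act X μ} {f : X → ℝ} {r : ℝ}

theorem int_le {g h : X → ℝ} (hg : BM g) (hh : BM h) (hle : ∀ x, g x ≤ h x) :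
    ∫ x, g x ∂μ ≤ ∫ x, h x ∂μ :=
  integral_mono (hg.integrable μ) (hh.integrable μ) hle

theorem int_add {g h : X → ℝ} (hg : BM g) (hh : BM h) :
    ∫ x, (g x + h x) ∂μ = ∫ x, g x ∂μ + ∫ x, h x ∂μ :=
  integral_add (hg.integrable μ) (hh.integrable μ)

theorem int_sub {g h : X → ℝ} (hg : BM g) (hh : BM h) :
    ∫ x, (g x - h x) ∂μ = ∫ x, g x ∂μ - ∫ x, h x ∂μ :=
  integral_sub (hg.integrable μ) (hh.integrable μ)

theorem int_le_const {g : X → ℝ} (hg : BM g) {C : ℝ} (hle : ∀ x, g x ≤ C) : ∫ x, g x ∂μ ≤ C := by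
  simpa using int_le (μ := μ) hg (BM.const C) hle

namespace TiltFam

variable (F : TiltFam A f r)

theorem setInt_union_le (ψ : X → ℝ) {κ : X → X} (hκ : Measurable κ) {S Z : Set X}
    (hS : MeasurableSet S) (hZ : MeasurableSet Z) :
    ∫ x in S ∪ Z, F.ρ ψ (κ x) ∂μ ≤ ∫ x in S, F.ρ ψ (κ x) ∂μ + μ.real Z := by
  have b := (F.bm ψ).comp hκ
  rw [← integral_indicator (hS.union hZ), ← integral_indicator hS, ← integral_indicator_one hZ,
    ← int_add (b.indicator hS) (bm_ind hZ)]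
  refine int_le (b.indicator (hS.union hZ)) ((b.indicator hS).add (bm_ind hZ)) fun x => ?_
  have := F.nonneg ψ (κ x)
  have := F.le_one ψ (κ x)
  by_cases h1 : x ∈ S <;> by_cases h2 : x ∈ Z <;> simp [h1, h2] <;> linarith

theorem testOK {Ψ : X → ℝ} (hΨ : BM Ψ) {M γ : ℝ} (hM : ∀ x, |Ψ x| ≤ M) (hγ : 4 * M + 1 ≤ γ) :
    A.TestOK f γ (F.ν Ψ) (fun x => F.ρ Ψ x - r) := by
  intro S Z n t hS hZ ht h1 h2
  have := F.fin Ψ
  have hb : ∀ x, -(2 * M) ≤ Ψ (A.σ n x) - Ψ x ∧ Ψ (A.σ n x) - Ψ x ≤ 2 * M := fun x => by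
    have a1 := abs_le.1 (hM (A.σ n x))
    have a2 := abs_le.1 (hM x)
    constructor <;> linarith
  have hL : ∀ x ∈ S \ Z, A.kk f Ψ Ψ n x ≤ t * Real.exp (-(2 * M)) / 2 := fun x hx => by
    calc A.kk f Ψ Ψ n x ≤ t * Real.exp (-γ) * Real.exp (2 * M) :=
          mul_le_mul (h1 x hx.1 hx.2) (Real.exp_le_exp.2 (hb x).2) (Real.exp_pos _).le
            (by positivity)
      _ ≤ t * (Real.exp (-(2 * M)) * Real.exp (-1)) := by
          rw [mul_assoc, ← Real.exp_add, ← Real.exp_add]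
          exact mul_le_mul_of_nonneg_left (Real.exp_le_exp.2 (by linarith)) ht.le
      _ ≤ t * (Real.exp (-(2 * M)) * (1 / 2)) := by
          gcongr
          rw [Real.exp_neg, inv_eq_one_div]
          exact one_div_le_one_div_of_le two_pos (by linarith [Real.add_one_le_exp (1 : ℝ)])
      _ = _ := by ring
  have key := F.cmp Ψ Ψ hΨ hΨ n (Sᶜ \ Z) Z (S \ Z) (t * Real.exp (-(2 * M))) (hS.compl.diff hZ) hZ
    (hS.diff hZ) (by positivity) (fun x hx => ⟨fun h => h.1 hx.1, hx.2⟩)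
    (fun x hx => mul_le_mul (h2 x hx.1 hx.2) (Real.exp_le_exp.2 (hb x).1) (Real.exp_pos _).le
      (ht.le.trans (h2 x hx.1 hx.2)))
    (fun x hx hx' => by
      have : x ∈ S \ Z := ⟨by by_contra h; exact hx ⟨h, hx'⟩, hx'⟩
      have h3 := hL x this
      have : 0 < t * Real.exp (-(2 * M)) := by positivity
      linarith) hL
  have sy := F.symm Ψ hΨ _ _ (hS.compl.diff hZ) (hS.diff hZ)
  have bσ := (F.bm Ψ).comp (A.measurable n)
  have u1 : ∫ x in Sᶜ \ Z ∪ Z, F.ρ Ψ (A.σ n x) ∂μ ≤ ∫ x in Sᶜ, F.ρ Ψ (A.σ n x) ∂μ + μ.real Z := by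
    rw [Set.sdiff_union_self]; exact F.setInt_union_le Ψ (A.measurable n) hS.compl hZ
  have u2 : ∫ x in Sᶜ, F.ρ Ψ x ∂μ ≤ ∫ x in Sᶜ \ Z, F.ρ Ψ x ∂μ + μ.real Z := by
    refine le_trans ?_ (F.setInt_union_le Ψ measurable_id (hS.compl.diff hZ) hZ)
    rw [Set.sdiff_union_self]
    exact setIntegral_mono_set ((F.bm Ψ).integrable _)
      (Filter.Eventually.of_forall (F.nonneg Ψ)) (Set.subset_union_left).eventuallyLE
  have e1 := integral_add_compl hS (bσ.integrable μ)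
  have e2 := integral_add_compl hS ((F.bm Ψ).integrable μ)
  have e3 : ∫ x, F.ρ Ψ (A.σ n x) ∂μ = ∫ x, F.ρ Ψ x ∂μ := Blocks.integral_shift A n (F.meas Ψ)
  have e4 : ∫ x in S, (F.ρ Ψ x - r - (F.ρ Ψ (A.σ n x) - r)) ∂μ
      = ∫ x in S, F.ρ Ψ x ∂μ - ∫ x in S, F.ρ Ψ (A.σ n x) ∂μ := by
    rw [← integral_sub ((F.bm Ψ).integrable _) (bσ.integrable _)]
    congr 1; funext x; ring
  have m1 : (F.ν Ψ).real {z | z.1 ∈ Z} ≤ μ.real Z :=
    ENNReal.toReal_mono (measure_ne_top _ _) (F.marg Ψ hΨ Z hZ)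
  have m2 : (F.ν Ψ).real {z | A.σ z.2 z.1 ∈ Z} ≤ μ.real Z := by
    have := F.symm Ψ hΨ _ _ MeasurableSet.univ hZ
    simp only [Set.mem_univ, true_and, and_true] at this
    rw [this]; exact m1
  have cov : (F.ν Ψ).real (A.sep S) ≤ (F.ν Ψ).real {z | z.1 ∈ Sᶜ \ Z ∧ A.σ z.2 z.1 ∈ S \ Z}
      + (F.ν Ψ).real {z | z.1 ∈ S \ Z ∧ A.σ z.2 z.1 ∈ Sᶜ \ Z}
      + (F.ν Ψ).real {z | z.1 ∈ Z} + (F.ν Ψ).real {z | A.σ z.2 z.1 ∈ Z} := by
    refine le_trans (measureReal_mono (s₂ := {z | z.1 ∈ Sᶜ \ Z ∧ A.σ z.2 z.1 ∈ S \ Z}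
      ∪ {z | z.1 ∈ S \ Z ∧ A.σ z.2 z.1 ∈ Sᶜ \ Z} ∪ {z | z.1 ∈ Z} ∪ {z | A.σ z.2 z.1 ∈ Z}) ?_) ?_
    · intro z hz
      simp only [Act.sep, Set.mem_ofPred_eq, Set.mem_union, Set.mem_sdiff, Set.mem_compl_iff] at hz ⊢
      tauto
    · refine (measureReal_union_le _ _).trans ?_
      gcongr
      refine (measureReal_union_le _ _).trans ?_
      gcongr
      exact measureReal_union_le _ _
  have n0 : 0 ≤ (F.ν Ψ).real {z | z.1 ∈ Sᶜ \ Z ∧ A.σ z.2 z.1 ∈ S \ Z} := measureReal_nonneg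
  simp only
  rw [e4]
  linarith

/-- flattening: inside the blocks the tilted shift is a multiple of an isometry -/
theorem flat {W E : Set X} {P : ℕ} (B : Blocks A W P) (hE : MeasurableSet E) (hf0 : ∀ x, 0 ≤ f x)
    {Ψ : X → ℝ} (hΨ : BM Ψ) {s ε : ℝ} (h0 : 0 ≤ ε) (h1 : ε ≤ 1)
    (hin : ∀ y, y ∉ E → y ∉ W → Real.exp s * (f y * Real.exp (Ψ (A.σ 1 y) - Ψ y)) = 1)
    (hwall : ∀ y, y ∉ E → y ∈ W → Real.exp s * (f y * Real.exp (Ψ (A.σ 1 y) - Ψ y)) ≤ ε) :
    ∫ x, B.len x * (F.ρ Ψ x - B.avg (F.ρ Ψ) x) ^ 2 ∂μ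
      ≤ 2 * (∫ x, F.ρ Ψ x * B.pos x ∂μ + P * (4 * ε ^ 2 + 16 * (P * μ.real E))) := by
  have om : ∀ (m : ℕ) x, (∀ i : ℕ, i < m → A.σ i x ∉ E) →
      0 ≤ Real.exp (s * m) * A.kk f Ψ Ψ m x ∧ Real.exp (s * m) * A.kk f Ψ Ψ m x ≤ 1 ∧
      (m ≤ B.b x → Real.exp (s * m) * A.kk f Ψ Ψ m x = 1) ∧
      (B.b x < m → Real.exp (s * m) * A.kk f Ψ Ψ m x ≤ ε) := by
    intro m x
    induction m with
    | zero => intro _; simp [Act.kk, Act.fprod, A.zero]
    | succ m ih =>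
      intro h
      obtain ⟨i0, i1, i2, i3⟩ := ih fun i hi => h i (hi.trans (Nat.lt_succ_self m))
      have hy := h m (Nat.lt_succ_self m)
      have e : Real.exp (s * (m + 1 : ℕ)) * A.kk f Ψ Ψ (m + 1) x
          = Real.exp (s * m) * A.kk f Ψ Ψ m x * (Real.exp s * (f (A.σ m x)
            * Real.exp (Ψ (A.σ 1 (A.σ m x)) - Ψ (A.σ m x)))) := by
        have e1 : A.σ ((m + 1 : ℕ) : ℤ) x = A.σ 1 (A.σ m x) := by
          rw [← A.add]; congr 1; push_cast; ring
        have e2 : Ψ (A.σ 1 (A.σ m x)) - Ψ x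
            = (Ψ (A.σ m x) - Ψ x) + (Ψ (A.σ 1 (A.σ m x)) - Ψ (A.σ m x)) := by ring
        rw [Act.kk, Act.kk, Act.fprod, Act.fprod, Finset.prod_range_succ, e1, e2, Real.exp_add]
        push_cast
        rw [mul_add, mul_one, Real.exp_add]; ring
      rw [e]
      have p0 : 0 ≤ Real.exp s * (f (A.σ m x) * Real.exp (Ψ (A.σ 1 (A.σ m x)) - Ψ (A.σ m x))) := by
        have := hf0 (A.σ m x); positivity
      by_cases hw : A.σ m x ∈ W
      · have h2 := hwall _ hy hw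
        refine ⟨mul_nonneg i0 p0, mul_le_one₀ i1 p0 (h2.trans h1), fun hm => ?_, fun _ => ?_⟩
        · exact absurd hw ((B.le_b x _).1 hm m (Nat.lt_succ_self m))
        · nlinarith
      · rw [hin _ hy hw, mul_one]
        refine ⟨i0, i1, fun hm => i2 (by omega), fun hm => i3 ?_⟩
        rcases Nat.lt_succ_iff_lt_or_eq.1 hm with h' | h'
        · exact h'
        · exact absurd (h' ▸ B.wall_b x) hw
  refine (B.integral_var_le (F.bm Ψ)).trans ?_
  rw [← B.sum_integral_shift (F.bm Ψ)]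
  gcongr
  have : (P : ℝ) * (4 * ε ^ 2 + 16 * (P * μ.real E))
      = ∑ _m ∈ Finset.Icc 1 P, (4 * ε ^ 2 + 16 * (P * μ.real E)) := by simp [mul_add]
  rw [this, ← Finset.sum_add_distrib]
  refine Finset.sum_le_sum fun m hm => ?_
  have hB : MeasurableSet {x | m ≤ B.b x} := measurableSet_le measurable_const B.meas_b
  have hZ : MeasurableSet (⋃ i ∈ Finset.range m, A.σ (i : ℕ) ⁻¹' E) :=
    Finset.measurableSet_biUnion _ fun i _ => A.measurable _ hE
  have key := F.sqE Ψ hΨ m _ _ (Real.exp (s * m)) ε hB hZ h0 h1 fun x hx => by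
    simp only [Finset.mem_range, Set.mem_iUnion, Set.mem_preimage, not_exists] at hx
    obtain ⟨i0, -, i2, i3⟩ := om m x hx
    by_cases h : m ≤ B.b x
    · rw [i2 h, Set.indicator_of_mem (by exact h)]; simpa using h0
    · rw [Set.indicator_of_notMem (by exact h), sub_zero, abs_of_nonneg i0]
      exact i3 (not_le.1 h)
  have hμ : μ.real (⋃ i ∈ Finset.range m, A.σ (i : ℕ) ⁻¹' E) ≤ P * μ.real E := by
    refine (measureReal_biUnion_finset_le _ _).trans ?_
    rw [Finset.sum_congr rfl fun i _ => (A.mp _).measureReal_preimage hE.nullMeasurableSet]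
    simp only [Finset.sum_const, Finset.card_range, nsmul_eq_mul]
    gcongr
    exact (Finset.mem_Icc.1 hm).2
  linarith

end TiltFam

namespace Blocks

variable {W : Set X} {P : ℕ} (B : Blocks A W P)

/-- accumulated low cost since the beginning of the block -/
noncomputable def acc (low : X → ℝ) (x : X) : ℝ :=
  ∑ j ∈ Finset.range (B.a x), low (A.σ (-((j : ℤ) + 1)) x)

theorem meas_acc {low : X → ℝ} (h : Measurable low) : Measurable (B.acc low) := by
  have : Measurable fun z : X × ℕ => ∑ j ∈ Finset.range z.2, low (A.σ (-((j : ℤ) + 1)) z.1) :=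
    measurable_from_prod_countable_left fun n =>
      Finset.measurable_sum (Finset.range n) fun j _ => h.comp (A.measurable _)
  exact this.comp (measurable_id.prodMk B.meas_a)

theorem acc_bounds {low : X → ℝ} {G : ℝ} (h : ∀ x, 0 ≤ low x ∧ low x ≤ G) (x : X) :
    0 ≤ B.acc low x ∧ B.acc low x ≤ P * G := by
  refine ⟨Finset.sum_nonneg fun _ _ => (h _).1, ?_⟩
  refine (Finset.sum_le_sum fun j _ => (h _).2).trans ?_
  simp only [Finset.sum_const, Finset.card_range, nsmul_eq_mul]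
  have := B.lt x
  have hG := (h x).1.trans (h x).2
  gcongr
  omega

theorem acc_shift (low : X → ℝ) {x : X} (hx : x ∉ W) :
    B.acc low (A.σ 1 x) = B.acc low x + low x := by
  have h : B.a (A.σ 1 x) = B.a x + 1 := by
    have := B.a_shift x (B.one_mem_disp hx)
    omega
  rw [acc, acc, h, Finset.sum_range_succ']
  congr 1
  · refine Finset.sum_congr rfl fun j _ => ?_
    rw [← A.add]; congr 2
  · rw [← A.add]; simp [A.zero]

/-- short blocks are rare -/
theorem integral_le_of_len (hW : MeasurableSet W) {g : X → ℝ} (hg : BM g) (h1 : ∀ x, g x ≤ 1)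
    (h0 : ∀ x, 0 ≤ g x) {t : ℝ} (ht : 0 < t) :
    ∫ x, g x ∂μ ≤ (t + 1) * μ.real W + t⁻¹ * ∫ x, B.len x * g x ∂μ := by
  have hS : MeasurableSet {x | (B.b x : ℝ) < t} := measurableSet_lt B.meas_b' measurable_const
  refine le_trans ?_ (add_le_add_left (B.measure_b_lt hW ht.le) _)
  rw [← integral_indicator_one hS, ← integral_const_mul,
    ← int_add (R113.bm_ind hS) ((BM.const _).mul (B.bm_len.mul hg))]
  refine int_le hg ((R113.bm_ind hS).add ((BM.const _).mul (B.bm_len.mul hg))) fun x => ?_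
  have := B.one_le_len x
  have := h0 x
  by_cases h : (B.b x : ℝ) < t
  · rw [Set.indicator_of_mem (by exact h), Pi.one_apply]
    have : 0 ≤ t⁻¹ * (B.len x * g x) := by positivity
    linarith [h1 x]
  · rw [Set.indicator_of_notMem (by exact h), zero_add, ← mul_assoc]
    refine le_mul_of_one_le_left (h0 x) ?_
    rw [← div_eq_inv_mul, le_div_iff₀ ht, len]
    have : (0 : ℝ) ≤ B.a x := by positivity
    linarith [not_lt.1 h]

end Blocks

/-- `β` balances the block averages of the tilt `ψ + β` against the untilted density -/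
structure Bal (F : TiltFam A f r) {W : Set X} {P : ℕ} (B : Blocks A W P) (T η : ℝ)
    (ψ β : X → ℝ) : Prop where
  bψ : BM ψ
  bβ : BM β
  const : B.Const β
  small : ∫ x, (β x + T * B.avg (fun y => F.ρ (fun w => ψ w + β w) y - F.ρ (fun _ => 0) y) x) ^ 2 ∂μ
    ≤ η

namespace Bal

variable {F : TiltFam A f r} {W : Set X} {P : ℕ} {B : Blocks A W P} {T η : ℝ}
  {ψ β ψ' β' : X → ℝ}

theorem vs_zero (h : Bal F B T η ψ β) (hT : 1 ≤ T) :
    T / 2 * ∫ x, (B.avg (fun y => F.ρ (fun w => ψ w + β w) y - F.ρ (fun _ => 0) y) x) ^ 2 ∂μ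
      ≤ ∫ x, (F.ρ (fun w => ψ w + β w) x - F.ρ (fun _ => 0) x) * ψ x ∂μ + η := by
  set D : X → ℝ := fun y => F.ρ (fun w => ψ w + β w) y - F.ρ (fun _ => 0) y with hD
  have bD : BM D := (F.bm _).sub (F.bm _)
  have bG := B.bm_avg bD
  have m := F.mono (BM.const (0 : ℝ)) (h.bψ.add h.bβ)
  have e1 : ∫ x, (F.ρ (fun w => ψ w + β w) x - F.ρ (fun _ => 0) x) * (ψ x + β x - 0) ∂μ
      = ∫ x, D x * ψ x ∂μ + ∫ x, B.avg D x * β x ∂μ := by
    rw [B.integral_avg_mul bD h.bβ h.const, ← int_add (bD.mul h.bψ) (bD.mul h.bβ)]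
    congr 1; funext x; simp only [hD]; ring
  have be : BM fun x => (β x + T * B.avg D x) ^ 2 := (h.bβ.add ((BM.const T).mul bG)).pow 2
  have e2 : ∫ x, B.avg D x * β x ∂μ + T / 2 * ∫ x, B.avg D x ^ 2 ∂μ
      ≤ ∫ x, (β x + T * B.avg D x) ^ 2 ∂μ := by
    rw [← integral_const_mul, ← int_add (bG.mul h.bβ) ((BM.const _).mul (bG.pow 2))]
    refine int_le ((bG.mul h.bβ).add ((BM.const _).mul (bG.pow 2))) be fun x => ?_
    set e := β x + T * B.avg D x with he
    have : β x = e - T * B.avg D x := by rw [he]; ring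
    rw [this]
    nlinarith [sq_nonneg (e - B.avg D x), sq_nonneg e, sq_nonneg (B.avg D x),
      mul_nonneg (sub_nonneg.2 hT) (sq_nonneg (B.avg D x))]
  have := h.small
  linarith

theorem two (h : Bal F B T η ψ β) (h' : Bal F B T η ψ' β') (hT : 1 ≤ T) :
    ∫ x, (F.ρ (fun w => ψ' w + β' w) x - F.ρ (fun w => ψ w + β w) x)
        * ((ψ' x + β' x) - (ψ x + β x)) ∂μ
      ≤ ∫ x, (F.ρ (fun w => ψ' w + β' w) x - F.ρ (fun w => ψ w + β w) x) * (ψ' x - ψ x) ∂μ
        + η := by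
  set D : X → ℝ := fun y => F.ρ (fun w => ψ w + β w) y - F.ρ (fun _ => 0) y with hD
  set D' : X → ℝ := fun y => F.ρ (fun w => ψ' w + β' w) y - F.ρ (fun _ => 0) y with hD'
  have bD : BM D := (F.bm _).sub (F.bm _)
  have bD' : BM D' := (F.bm _).sub (F.bm _)
  have bG := B.bm_avg bD
  have bG' := B.bm_avg bD'
  have bb := h'.bβ.sub h.bβ
  have cb : B.Const fun x => β' x - β x := fun x i hi => by
    simp only [h.const x i hi, h'.const x i hi]
  have e0 := B.integral_avg_mul (bD'.sub bD) bb cb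
  have e1 : ∫ x, (F.ρ (fun w => ψ' w + β' w) x - F.ρ (fun w => ψ w + β w) x)
        * ((ψ' x + β' x) - (ψ x + β x)) ∂μ
      = ∫ x, (F.ρ (fun w => ψ' w + β' w) x - F.ρ (fun w => ψ w + β w) x) * (ψ' x - ψ x) ∂μ
        + ∫ x, (D' x - D x) * (β' x - β x) ∂μ := by
    rw [← int_add (((F.bm _).sub (F.bm _)).mul (h'.bψ.sub h.bψ)) ((bD'.sub bD).mul bb)]
    congr 1; funext x; simp only [hD, hD']; ring
  have be : BM fun x => (β x + T * B.avg D x) ^ 2 := (h.bβ.add ((BM.const T).mul bG)).pow 2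
  have be' : BM fun x => (β' x + T * B.avg D' x) ^ 2 := (h'.bβ.add ((BM.const T).mul bG')).pow 2
  have e2 : 2 * ∫ x, B.avg (fun y => D' y - D y) x * (β' x - β x) ∂μ
      ≤ ∫ x, (β x + T * B.avg D x) ^ 2 ∂μ + ∫ x, (β' x + T * B.avg D' x) ^ 2 ∂μ := by
    rw [← integral_const_mul, ← int_add be be']
    refine int_le ((BM.const _).mul ((B.bm_avg (bD'.sub bD)).mul bb)) (be.add be') fun x => ?_
    rw [B.avg_sub]
    set e := β x + T * B.avg D x with he
    set e' := β' x + T * B.avg D' x with he'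
    set g := B.avg D' x - B.avg D x with hg
    have : β' x - β x = (e' - e) - T * g := by rw [he, he', hg]; ring
    rw [this]
    nlinarith [sq_nonneg (e' - e - 2 * g), sq_nonneg (e + e'),
      mul_nonneg (sub_nonneg.2 hT) (sq_nonneg g)]
  have := h.small
  have := h'.small
  linarith

end Bal

end Crest.Agent.R113
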