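import Crest.Agent.R113.OpFam

/-!
# R113 — bounded functions of mean zero are `L²`-approximately coboundaries
-/

set_option autoImplicit false

namespace Crest.Agent.R113

open MeasureTheory

variable {X : Type*} [MeasurableSpace X] {μ : Measure X} [IsProbabilityMeasure μ]

theorem erg_memLp {u : X → ℝ} (hu : BM u) : MemLp u 2 μ :=
  (hu.memLp_top μ).mono_exponent le_top

theorem erg_norm_sq {u : X → ℝ} (hu : BM u) :
    ‖(erg_memLp (μ := μ) hu).toLp u‖ ^ 2 = ∫ x, u x ^ 2 ∂μ := by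
  rw [← real_inner_self_eq_norm_sq, L2.inner_def]
  refine integral_congr_ae ?_
  filter_upwards [(erg_memLp (μ := μ) hu).coeFn_toLp] with x hx
  rw [hx]; simp [sq]

theorem erg_tendsto (A : Act X μ) (herg : Ergodic (A.σ 1) μ) {u : X → ℝ} (hu : BM u)
    (h0 : ∫ x, u x ∂μ = 0) : Filter.Tendsto (fun n : ℕ =>
      ∫ x, ((n : ℝ)⁻¹ * ∑ k ∈ Finset.range n, u (A.σ (k : ℤ) x)) ^ 2 ∂μ) Filter.atTop (nhds 0) := by
  let K : Lp ℝ 2 μ →L[ℝ] Lp ℝ 2 μ :=
    (Lp.compMeasurePreservingₗᵢ ℝ (A.σ 1) (A.mp 1)).toContinuousLinearMap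
  have hK : ∀ g : Lp ℝ 2 μ, K g =ᵐ[μ] g ∘ A.σ 1 := fun g =>
    Lp.coeFn_compMeasurePreserving g (A.mp 1)
  have hK1 : ‖K‖ ≤ 1 := LinearIsometry.norm_toContinuousLinearMap_le _
  have hb : ∀ k : ℕ, BM fun x => u (A.σ (k : ℤ) x) := fun k => hu.comp (A.measurable _)
  have hit : ∀ k : ℕ, K^[k] ((erg_memLp hu).toLp u) = (erg_memLp (hb k)).toLp _ := by
    intro k
    induction k with
    | zero => exact MemLp.toLp_congr _ _ (Filter.Eventually.of_forall fun x => by simp [A.zero])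
    | succ k ih =>
      rw [Function.iterate_succ_apply', ih]
      exact (Lp.toLp_compMeasurePreserving (erg_memLp (hb k)) (A.mp 1)).trans
        (MemLp.toLp_congr _ _ (Filter.Eventually.of_forall fun x => by
          simp [A.add]))
  have hproj : (K.eqLocus (1 : Lp ℝ 2 μ →L[ℝ] Lp ℝ 2 μ)).orthogonalProjectionOnto
      ((erg_memLp hu).toLp u) = 0 := by
    refine Submodule.orthogonalProjectionOnto_eq_zero_iff.2 ?_
    rw [Submodule.mem_orthogonal]
    intro g hg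
    have hg' : K g = g := hg
    obtain ⟨c, hc⟩ := herg.ae_eq_const_of_ae_eq_comp_ae (g := g) (Lp.aestronglyMeasurable g)
      (by have := hK g; rw [hg'] at this; exact this.symm)
    rw [L2.inner_def]
    have : ∫ x, c * u x ∂μ = 0 := by rw [integral_const_mul, h0, mul_zero]
    rw [← this]
    refine integral_congr_ae ?_
    filter_upwards [(erg_memLp (μ := μ) hu).coeFn_toLp, hc] with x hx hx'
    rw [hx, hx']; simp [mul_comm]
  have h1 := K.tendsto_birkhoffAverage_orthogonalProjection hK1 ((erg_memLp hu).toLp u)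
  rw [hproj] at h1
  have h2 := (h1.norm.pow 2)
  simp only [ZeroMemClass.coe_zero, norm_zero, ne_eq, OfNat.ofNat_ne_zero, not_false_eq_true,
    zero_pow] at h2
  refine h2.congr fun n => ?_
  have hb' : BM fun x => (n : ℝ)⁻¹ * ∑ k ∈ Finset.range n, u (A.σ (k : ℤ) x) :=
    (BM.const _).mul (BM.sum _ fun k _ => hb k)
  rw [← erg_norm_sq hb']
  congr 2
  rw [birkhoffAverage, birkhoffSum]
  simp only [id, hit]
  refine Lp.ext ?_
  have h3 : ∀ s : Finset ℕ, ((∑ k ∈ s, (erg_memLp (μ := μ) (hb k)).toLp _ : Lp ℝ 2 μ) : X → ℝ)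
      =ᵐ[μ] fun x => ∑ k ∈ s, u (A.σ (k : ℤ) x) := by
    intro s
    induction s using Finset.induction_on with
    | empty => simp only [Finset.sum_empty]; exact Lp.coeFn_zero ℝ 2 μ
    | insert k s hk ih =>
      simp only [Finset.sum_insert hk]
      filter_upwards [Lp.coeFn_add ((erg_memLp (μ := μ) (hb k)).toLp _)
        (∑ k ∈ s, (erg_memLp (μ := μ) (hb k)).toLp _), ih, (erg_memLp (μ := μ) (hb k)).coeFn_toLp]
        with x h1 h2 h3
      rw [h1, Pi.add_apply, h2, h3]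
  filter_upwards [Lp.coeFn_smul ((n : ℝ)⁻¹)
    (∑ k ∈ Finset.range n, (erg_memLp (μ := μ) (hb k)).toLp _ : Lp ℝ 2 μ), h3 (Finset.range n),
    (erg_memLp (μ := μ) hb').coeFn_toLp] with x h1 h2 h3
  rw [h1, h3, Pi.smul_apply, h2, smul_eq_mul]

/-- PROOF.  Koopman isometry `K g = g ∘ σ 1` on `Lp ℝ 2 μ` (`Lp.compMeasurePreservingₗᵢ`), mean
ergodic theorem `ContinuousLinearMap.tendsto_birkhoffAverage_orthogonalProjection`; a fixed vector is
a.e. constant (`Ergodic.ae_eq_const_of_ae_eq_comp_ae` or similar), orthogonal projection of `u` onto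
the fixed space is `0` because `⟪u, const⟫ = 0`.  So `A_n u = n⁻¹ ∑_{k<n} u ∘ σ k → 0` in `L²`.
Take `φ = n⁻¹ ∑_{k<n} ∑_{i<k} u ∘ σ i`, then `u - (φ - φ ∘ σ 1) = A_n u` pointwise (telescoping,
`A.add`, `A.zero`). -/
theorem exists_coboundary (A : Act X μ) (herg : Ergodic (A.σ 1) μ) {u : X → ℝ} (hu : BM u)
    (h0 : ∫ x, u x ∂μ = 0) {ε : ℝ} (hε : 0 < ε) :
    ∃ φ : X → ℝ, BM φ ∧ ∫ x, (u x - (φ x - φ (A.σ 1 x))) ^ 2 ∂μ ≤ ε := by
  obtain ⟨n, hn1, hn2⟩ := (((erg_tendsto A herg hu h0).eventually (ge_mem_nhds hε)).and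
    (Filter.eventually_gt_atTop 0)).exists
  have hb : ∀ k : ℕ, BM fun x => u (A.σ (k : ℤ) x) := fun k => hu.comp (A.measurable _)
  refine ⟨fun x => (n : ℝ)⁻¹ * ∑ k ∈ Finset.range n, ∑ i ∈ Finset.range k, u (A.σ (i : ℤ) x),
    (BM.const _).mul (BM.sum _ fun k _ => BM.sum _ fun i _ => hb i), le_trans (le_of_eq ?_) hn1⟩
  congr 1
  funext x
  congr 1
  have h1 : ∀ k : ℕ, ∑ i ∈ Finset.range k, u (A.σ (i : ℤ) x) -
      ∑ i ∈ Finset.range k, u (A.σ (i : ℤ) (A.σ 1 x)) = u x - u (A.σ (k : ℤ) x) := by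
    intro k
    induction k with
    | zero => simp [A.zero]
    | succ k ih =>
      rw [Finset.sum_range_succ, Finset.sum_range_succ, ← A.add, Nat.cast_succ]
      linarith
  have hn : (n : ℝ) ≠ 0 := Nat.cast_ne_zero.2 hn2.ne'
  rw [← mul_sub, ← Finset.sum_sub_distrib]
  simp only [h1, Finset.sum_sub_distrib, Finset.sum_const, Finset.card_range, nsmul_eq_mul]
  field_simp
  ring

end Crest.Agent.R113
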