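import Crest.Agent.R113.OpCore
import Crest.Agent.R113.OpErg

/-!
# R113 — the final argument: the design property forces `r (1 - r) ≤ 0`
-/

set_option autoImplicit false
set_option linter.unusedSectionVars false

namespace Crest.Agent.R113

open MeasureTheory

variable {X : Type*} [MeasurableSpace X] {μ : Measure X} [IsProbabilityMeasure μ]
  {A : Act X μ} {f : X → ℝ} {r : ℝ} {W E : Set X} {P : ℕ}

namespace Blocks

variable (B : Blocks A W P)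

theorem len_le (x : X) : B.len x ≤ P := by
  have : B.a x + B.b x + 1 ≤ P := B.lt x
  rw [len]; exact_mod_cast this

/-- the sloped tilt -/
noncomputable def sl (low : X → ℝ) (s : ℝ) (x : X) : ℝ := B.acc low x - s * B.pos x

theorem bm_acc {low : X → ℝ} {G : ℝ} (hl : Measurable low) (h : ∀ x, 0 ≤ low x ∧ low x ≤ G) :
    BM (B.acc low) :=
  BM.of_abs_le (B.meas_acc hl) (C := P * G) fun x => by
    rw [abs_of_nonneg (B.acc_bounds h x).1]; exact (B.acc_bounds h x).2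

theorem bm_sl {low : X → ℝ} {G : ℝ} (hl : Measurable low) (h : ∀ x, 0 ≤ low x ∧ low x ≤ G)
    (s : ℝ) : BM (B.sl low s) :=
  (B.bm_acc hl h).sub ((BM.const s).mul B.bm_pos)

theorem abs_sl_le {low : X → ℝ} {G s : ℝ} (h : ∀ x, 0 ≤ low x ∧ low x ≤ G) (hs : 0 ≤ s) (x : X) :
    |B.sl low s x| ≤ P * G + s * P := by
  refine (abs_sub _ _).trans (add_le_add ?_ ?_)
  · rw [abs_of_nonneg (B.acc_bounds h x).1]; exact (B.acc_bounds h x).2
  · rw [abs_mul, abs_of_nonneg hs]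
    exact mul_le_mul_of_nonneg_left (B.abs_pos_le x) hs

theorem small_of_len (hW : MeasurableSet W) (hw : P * μ.real W ≤ 6) {g : X → ℝ} (hg : BM g)
    (h1 : ∀ x, g x ≤ 1) (h0 : ∀ x, 0 ≤ g x) {k D : ℝ} (hk : 0 < k) (hkP : k ≤ P)
    (h : ∫ x, B.len x * g x ∂μ ≤ D * P / k ^ 2) : ∫ x, g x ∂μ ≤ (12 + D) / k := by
  have hP : (0 : ℝ) < P := hk.trans_le hkP
  have hw0 : 0 ≤ μ.real W := measureReal_nonneg
  have a1 := B.integral_le_of_len hW hg h1 h0 (t := P / k) (by positivity)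
  have a2 : (P / k)⁻¹ * ∫ x, B.len x * g x ∂μ ≤ D / k := by
    refine (mul_le_mul_of_nonneg_left h (by positivity)).trans (le_of_eq ?_)
    field_simp
  have a3 : (P / k + 1) * μ.real W ≤ 12 / k := by
    rw [le_div_iff₀ hk]
    have : (P / k + 1) * μ.real W * k = P * μ.real W + k * μ.real W := by field_simp
    rw [this]
    nlinarith
  rw [add_div]
  linarith

theorem cob_pos (hW : MeasurableSet W) (hw : P * μ.real W ≤ 6) {u φ : X → ℝ} (hu : BM u)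
    (hφ : Measurable φ) {Φ n : ℝ} (hΦ : ∀ x, |φ x| ≤ Φ) (hΦ0 : 0 ≤ Φ) (hn : 0 < n) (hP : 0 < P)
    (h : ∫ x, (u x - (φ x - φ (A.σ 1 x))) ^ 2 ∂μ ≤ 1 / n ^ 2) :
    ∫ x, u x * B.pos x ∂μ ≤ P / n + 14 * Φ := by
  have hP' : (0 : ℝ) < P := by exact_mod_cast hP
  have bφ : BM φ := BM.of_abs_le hφ hΦ
  have bc : BM fun x => φ x - φ (A.σ 1 x) := bφ.sub (bφ.comp (A.measurable 1))
  have bv := (hu.sub bc).pow 2
  have a1 := B.integral_cob_pos_le hW hφ hΦ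
  have a2 : ∫ x, u x * B.pos x ∂μ ≤ ∫ x, ((φ x - φ (A.σ 1 x)) * B.pos x
      + (n * P / 2 * (u x - (φ x - φ (A.σ 1 x))) ^ 2 + P / (2 * n))) ∂μ := by
    refine int_le (hu.mul B.bm_pos) ((bc.mul B.bm_pos).add (((BM.const _).mul bv).add (BM.const _)))
      fun x => ?_
    set v := u x - (φ x - φ (A.σ 1 x)) with hv
    have e : u x = (φ x - φ (A.σ 1 x)) + v := by rw [hv]; ring
    have hp : B.pos x ^ 2 ≤ P ^ 2 := by
      rw [← sq_abs]; exact pow_le_pow_left₀ (abs_nonneg _) (B.abs_pos_le x) 2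
    have key : v * B.pos x ≤ n * P / 2 * v ^ 2 + P / (2 * n) := by
      have e2 : n * P / 2 * v ^ 2 + P / (2 * n) - v * B.pos x
          = ((n * P * v - B.pos x) ^ 2 + (P ^ 2 - B.pos x ^ 2)) / (2 * n * P) := by
        field_simp; ring
      have : 0 ≤ ((n * P * v - B.pos x) ^ 2 + (P ^ 2 - B.pos x ^ 2)) / (2 * n * P) :=
        div_nonneg (by nlinarith [sq_nonneg (n * P * v - B.pos x)]) (by positivity)
      linarith
    rw [e]
    nlinarith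
  rw [int_add (bc.mul B.bm_pos) (((BM.const _).mul bv).add (BM.const _)),
    int_add ((BM.const _).mul bv) (BM.const _), integral_const_mul] at a2
  simp only [integral_const, probReal_univ, smul_eq_mul, one_mul] at a2
  have a3 : n * P / 2 * ∫ x, (u x - (φ x - φ (A.σ 1 x))) ^ 2 ∂μ ≤ P / (2 * n) := by
    refine (mul_le_mul_of_nonneg_left h (by positivity)).trans (le_of_eq ?_)
    field_simp
  have a4 : (P : ℝ) / n = P / (2 * n) + P / (2 * n) := by field_simp; ring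
  nlinarith

theorem cob_avg (hW : MeasurableSet W) (hw : P * μ.real W ≤ 6) {u φ : X → ℝ} (hu : BM u)
    (hu1 : ∀ x, |u x| ≤ 1) (hφ : Measurable φ) {Φ k : ℝ} (hΦ : ∀ x, |φ x| ≤ Φ) (hk : 0 < k)
    (hkP : k ≤ P) (hP : 8 * Φ ^ 2 * k ^ 2 ≤ P)
    (h : ∫ x, (u x - (φ x - φ (A.σ 1 x))) ^ 2 ∂μ ≤ 1 / k ^ 2) :
    ∫ x, B.avg u x ^ 2 ∂μ ≤ 15 / k := by
  have hP' : (0 : ℝ) < P := hk.trans_le hkP
  have bφ : BM φ := BM.of_abs_le hφ hΦ
  have bc : BM fun x => φ x - φ (A.σ 1 x) := bφ.sub (bφ.comp (A.measurable 1))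
  have bv := hu.sub bc
  have ba := (B.bm_avg bv).pow 2
  have := B.small_of_len hW hw ((B.bm_avg hu).pow 2) (fun x => by
    rw [← sq_abs]; exact pow_le_one₀ (abs_nonneg _) (B.abs_avg_le hu1 x)) (fun x => sq_nonneg _)
    hk hkP (D := 3) ?_
  · norm_num at this; exact this
  have a1 : ∫ x, B.len x * B.avg u x ^ 2 ∂μ
      ≤ ∫ x, (2 * P * B.avg (fun y => u y - (φ y - φ (A.σ 1 y))) x ^ 2 + 8 * Φ ^ 2) ∂μ := by
    refine int_le (B.bm_len.mul ((B.bm_avg hu).pow 2)) (((BM.const _).mul ba).add (BM.const _))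
      fun x => ?_
    have e : B.avg u x = B.avg (fun y => u y - (φ y - φ (A.σ 1 y))) x
        + B.avg (fun y => φ y - φ (A.σ 1 y)) x := by rw [B.avg_sub]; ring
    have h1 := B.abs_avg_cob_le hΦ x
    have h2 := B.one_le_len x
    have h3 := B.len_le x
    set a := B.avg (fun y => u y - (φ y - φ (A.σ 1 y))) x
    set b := B.avg (fun y => φ y - φ (A.σ 1 y)) x
    set l := B.len x
    rw [le_div_iff₀ (by linarith)] at h1
    have h4 : (|b| * l) ^ 2 ≤ (2 * Φ) ^ 2 := pow_le_pow_left₀ (by positivity) h1 2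
    rw [mul_pow, sq_abs] at h4
    have h5 : l * b ^ 2 ≤ 4 * Φ ^ 2 := by nlinarith [sq_nonneg b, mul_nonneg (sq_nonneg b) (sub_nonneg.2 h2)]
    have h6 : l * a ^ 2 ≤ P * a ^ 2 := mul_le_mul_of_nonneg_right h3 (sq_nonneg a)
    rw [e]
    nlinarith [mul_nonneg (by linarith : (0 : ℝ) ≤ l) (sq_nonneg (a - b))]
  rw [int_add ((BM.const _).mul ba) (BM.const _), integral_const_mul] at a1
  simp only [integral_const, probReal_univ, smul_eq_mul, one_mul] at a1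
  have a2 := (B.integral_avg_sq_le bv).trans h
  have a3 : 8 * Φ ^ 2 ≤ P / k ^ 2 := by rw [le_div_iff₀ (by positivity)]; exact hP
  have a4 : 3 * (P : ℝ) / k ^ 2 = 2 * P * (1 / k ^ 2) + P / k ^ 2 := by ring
  have a5 := mul_le_mul_of_nonneg_left a2 (by positivity : (0 : ℝ) ≤ 2 * P)
  linarith

end Blocks

namespace Bal

variable {F : TiltFam A f r} {B : Blocks A W P} {low : X → ℝ} {G : ℝ}

theorem bounds {n Γ η s : ℝ} {β : X → ℝ} (h : Bal F B (n * Γ) η (B.sl low s) β)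
    (hl : Measurable low) (hlow : ∀ x, 0 ≤ low x ∧ low x ≤ G) (hG : 0 ≤ G) (hn : 1 ≤ n)
    (hs : n * (G + 1) ≤ s) (hη : η ≤ 1) (hP : 0 < P) (hΓ : P * G + s * P + 1 ≤ Γ) :
    ∫ x, (B.avg (fun y => F.ρ (fun w => B.sl low s w + β w) y - F.ρ (fun _ => 0) y) x) ^ 2 ∂μ
      ≤ 2 / n ∧
    ∫ x, (F.ρ (fun w => B.sl low s w + β w) x - F.ρ (fun _ => 0) x) * B.pos x ∂μ ≤ P / n := by
  have hP' : (1 : ℝ) ≤ P := by exact_mod_cast hP
  have hs0 : 0 ≤ s := le_trans (by positivity) hs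
  have hΓ1 : 1 ≤ Γ := le_trans (by nlinarith [mul_nonneg hs0 (zero_le_one.trans hP')]) hΓ
  have v := h.vs_zero (by nlinarith)
  set D : X → ℝ := fun y => F.ρ (fun w => B.sl low s w + β w) y - F.ρ (fun _ => 0) y with hD
  have bD : BM D := (F.bm _).sub (F.bm _)
  have hD1 : ∀ x, |D x| ≤ 1 := fun x => by
    have := F.nonneg (fun w => B.sl low s w + β w) x
    have := F.le_one (fun w => B.sl low s w + β w) x
    have := F.nonneg (fun _ => 0) x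
    have := F.le_one (fun _ => 0) x
    rw [abs_le]; constructor <;> simp only [hD] <;> linarith
  have bacc := B.bm_acc hl hlow
  have e1 : ∫ x, D x * B.sl low s x ∂μ
      = ∫ x, D x * B.acc low x ∂μ - s * ∫ x, D x * B.pos x ∂μ := by
    rw [← integral_const_mul, ← int_sub (bD.mul bacc) ((BM.const s).mul (bD.mul B.bm_pos))]
    congr 1; funext x; rw [Blocks.sl]; ring
  have e2 : ∫ x, D x * B.acc low x ∂μ ≤ P * G := int_le_const (bD.mul bacc) fun x => by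
    have := B.acc_bounds hlow x
    have := abs_le.1 (hD1 x)
    nlinarith
  have e3 : -(P : ℝ) ≤ ∫ x, D x * B.pos x ∂μ := by
    have := int_le_const (μ := μ) (bD.mul B.bm_pos).neg (C := P) fun x =>
      (neg_le_abs _).trans (by
        rw [abs_mul]
        exact (mul_le_mul (hD1 x) (B.abs_pos_le x) (abs_nonneg _) zero_le_one).trans_eq (one_mul _))
    rw [integral_neg] at this
    linarith
  have i0 : 0 ≤ ∫ x, (B.avg D x) ^ 2 ∂μ := integral_nonneg fun x => sq_nonneg _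
  change n * Γ / 2 * ∫ x, (B.avg D x) ^ 2 ∂μ ≤ ∫ x, D x * B.sl low s x ∂μ + η at v
  change ∫ x, (B.avg D x) ^ 2 ∂μ ≤ 2 / n ∧ ∫ x, D x * B.pos x ∂μ ≤ P / n
  set I := ∫ x, (B.avg D x) ^ 2 ∂μ
  set J := ∫ x, D x * B.pos x ∂μ
  have hn0 : 0 < n := by linarith
  rw [le_div_iff₀ hn0, le_div_iff₀ hn0]
  constructor
  · have : Γ * (I * n) ≤ Γ * 2 := by nlinarith [mul_le_mul_of_nonneg_left e3 hs0]
    exact le_of_mul_le_mul_left this (by linarith)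
  · have p1 : 0 ≤ n * Γ / 2 * I := by positivity
    have p2 : s * J ≤ P * (G + 1) := by nlinarith
    rcases le_total J 0 with hJ | hJ
    · nlinarith
    · have : (G + 1) * (J * n) ≤ (G + 1) * P := by nlinarith [mul_le_mul_of_nonneg_right hs hJ]
      exact le_of_mul_le_mul_left this (by linarith)

theorem u_small {k Γ η s M c : ℝ} {β : X → ℝ} (h : Bal F B (k ^ 2 * Γ) η (B.sl low s) β)
    (hW : MeasurableSet W) (hE : MeasurableSet E) (hf0 : ∀ x, 0 ≤ f x)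
    (hl : Measurable low) (hlow : ∀ x, 0 ≤ low x ∧ low x ≤ G) (hG : 0 ≤ G) (hk : 1 ≤ k)
    (hs : k ^ 2 * (G + 1) ≤ s) (hη : η ≤ 1) (hkP : k ≤ P) (hΓ : P * G + s * P + 1 ≤ Γ)
    (hw : P * μ.real W ≤ 6) (he : k ^ 2 * (P * μ.real E) ≤ 1)
    (hin : ∀ x, x ∉ E → x ∉ W → f x = Real.exp (-low x))
    (hwall : ∀ x, x ∉ E → x ∈ W → f x ≤ Real.exp (-c))
    (hM : ∀ x, |B.sl low s x + β x| ≤ M) (hc : 2 * s + 2 * M + k ^ 2 ≤ c)
    (J0 : ∫ x, (F.ρ (fun _ => 0) x - r) * B.pos x ∂μ ≤ 2 * P / k ^ 2)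
    (hav : ∫ x, B.avg (fun y => F.ρ (fun _ => 0) y - r) x ^ 2 ∂μ ≤ 15 / k) :
    ∫ x, (F.ρ (fun w => B.sl low s w + β w) x - r) ^ 2 ∂μ ≤ 225 / k := by
  have hk0 : 0 < k := by linarith
  have hP' : (0 : ℝ) < P := hk0.trans_le hkP
  have hn : 1 ≤ k ^ 2 := one_le_pow₀ hk
  obtain ⟨b1, b2⟩ := h.bounds hl hlow hG hn hs hη (by exact_mod_cast hP') hΓ
  set Ψ : X → ℝ := fun w => B.sl low s w + β w with hΨ
  have bΨ : BM Ψ := h.bψ.add h.bβ
  have fl := F.flat B hE hf0 bΨ (s := 2 * s) (ε := 1 / k ^ 2) (by positivity)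
    (by rw [div_le_one (by positivity)]; exact hn) (fun y hy hw => by
      have e1 := B.acc_shift low hw
      have e2 := B.pos_shift y (B.one_mem_disp hw)
      have e3 := h.const y 1 (B.one_mem_disp hw)
      rw [hin y hy hw, ← Real.exp_add, ← Real.exp_add, Real.exp_eq_one_iff]
      simp only [hΨ, Blocks.sl, e1, e2, e3]
      push_cast; ring) (fun y hy hw => by
      have a1 := abs_le.1 (hM (A.σ 1 y))
      have a2 := abs_le.1 (hM y)
      calc Real.exp (2 * s) * (f y * Real.exp (Ψ (A.σ 1 y) - Ψ y))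
          ≤ Real.exp (2 * s) * (Real.exp (-c) * Real.exp (Ψ (A.σ 1 y) - Ψ y)) := by
            gcongr; exact hwall y hy hw
        _ ≤ Real.exp (-k ^ 2) := by
            rw [← Real.exp_add, ← Real.exp_add]
            refine Real.exp_le_exp.2 ?_
            simp only [hΨ]; linarith
        _ ≤ 1 / k ^ 2 := by
            rw [Real.exp_neg, inv_eq_one_div]
            exact one_div_le_one_div_of_le (by positivity)
              (by linarith [Real.add_one_le_exp (k ^ 2)]))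
  have bρ := F.bm Ψ
  have b0 := F.bm fun _ => 0
  have eJ : ∫ x, F.ρ Ψ x * B.pos x ∂μ = ∫ x, (F.ρ Ψ x - F.ρ (fun _ => 0) x) * B.pos x ∂μ
      + ∫ x, (F.ρ (fun _ => 0) x - r) * B.pos x ∂μ := by
    rw [← int_add ((bρ.sub b0).mul B.bm_pos) ((b0.sub (BM.const r)).mul B.bm_pos)]
    have : ∫ x, F.ρ Ψ x * B.pos x ∂μ = ∫ x, F.ρ Ψ x * B.pos x ∂μ - r * ∫ x, B.pos x ∂μ := by
      rw [B.integral_pos]; ring
    rw [this, ← integral_const_mul, ← int_sub (bρ.mul B.bm_pos) ((BM.const r).mul B.bm_pos)]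
    congr 1; funext x; ring
  have bv := (bρ.sub (B.bm_avg bρ)).pow 2
  have c1 := B.small_of_len hW hw bv (fun x => by
    have := F.nonneg Ψ x
    have := F.le_one Ψ x
    have a1 := abs_le.1 (B.abs_avg_le (φ := fun y => F.ρ Ψ y - 1 / 2) (C := 1 / 2) (fun y => by
      have := F.nonneg Ψ y
      have := F.le_one Ψ y
      rw [abs_le]; constructor <;> linarith) x)
    rw [B.avg_sub, B.avg_of_const (β := fun _ => 1 / 2) (fun _ _ _ => rfl)] at a1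
    nlinarith) (fun x => sq_nonneg _) hk0 hkP (D := 46) (fl.trans (by
      have t1 : P * μ.real E ≤ 1 / k ^ 2 := by rw [le_div_iff₀ (by positivity)]; linarith
      have t2 : (1 / k ^ 2) ^ 2 ≤ 1 / k ^ 2 := by
        rw [sq]; exact mul_le_of_le_one_left (by positivity)
          (by rw [div_le_one (by positivity)]; exact hn)
      have t3 : (P : ℝ) * (4 * (1 / k ^ 2) ^ 2 + 16 * (P * μ.real E)) ≤ P * (20 * (1 / k ^ 2)) := by
        gcongr; linarith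
      have t4 : 46 * (P : ℝ) / k ^ 2 = 2 * (P / k ^ 2 + 2 * P / k ^ 2 + P * (20 * (1 / k ^ 2))) := by
        ring
      rw [t4, eJ]
      linarith))
  have bG := (B.bm_avg (bρ.sub b0)).pow 2
  have bH := (B.bm_avg (b0.sub (BM.const r))).pow 2
  have c2 : ∫ x, (F.ρ Ψ x - r) ^ 2 ∂μ ≤ ∫ x, 3 * ((F.ρ Ψ x - B.avg (F.ρ Ψ) x) ^ 2
      + B.avg (fun y => F.ρ Ψ y - F.ρ (fun _ => 0) y) x ^ 2
      + B.avg (fun y => F.ρ (fun _ => 0) y - r) x ^ 2) ∂μ := by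
    refine int_le ((bρ.sub (BM.const r)).pow 2) ((BM.const _).mul ((bv.add bG).add bH)) fun x => ?_
    rw [B.avg_sub, B.avg_sub, B.avg_of_const (β := fun _ => r) (fun _ _ _ => rfl)]
    set a := F.ρ Ψ x - B.avg (F.ρ Ψ) x with ha
    set b := B.avg (F.ρ Ψ) x - B.avg (F.ρ fun _ => 0) x with hb
    set d := B.avg (F.ρ fun _ => 0) x - r with hd
    have : F.ρ Ψ x - r = a + b + d := by rw [ha, hb, hd]; ring
    rw [this]
    nlinarith [sq_nonneg (a - b), sq_nonneg (a - d), sq_nonneg (b - d)]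
  rw [integral_const_mul, int_add (bv.add bG) bH, int_add bv bG] at c2
  have t5 : 2 / k ^ 2 ≤ 2 / k := div_le_div_of_nonneg_left zero_le_two hk0 (by nlinarith)
  have t6 : 225 / k = 3 * ((12 + 46) / k + 2 / k + 15 / k) := by ring
  rw [t6]
  linarith

theorem intra {T η s : ℝ} {β₀ β₁ β₂ : X → ℝ} (h₀ : Bal F B T η (B.sl low s) β₀)
    (h₁ : Bal F B T η (B.sl low (s + 1)) β₁) (h₂ : Bal F B T η (B.sl low (s + 2)) β₂)
    (hT : 1 ≤ T) :
    3 / 4 * (F.ν fun w => B.sl low (s + 1) w + β₁ w).real {z | z.2 ≠ 0 ∧ z.2 ∈ B.disp z.1}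
      ≤ ∫ x, F.ρ (fun w => B.sl low s w + β₀ w) x * B.pos x ∂μ
        - ∫ x, F.ρ (fun w => B.sl low (s + 2) w + β₂ w) x * B.pos x ∂μ + 2 * η := by
  have m0 := (F.mono_quant (h₁.bψ.add h₁.bβ) (h₀.bψ.add h₀.bβ)).trans (h₁.two h₀ hT)
  have m2 := (F.mono_quant (h₁.bψ.add h₁.bβ) (h₂.bψ.add h₂.bβ)).trans (h₁.two h₂ hT)
  set Ψ₀ : X → ℝ := fun w => B.sl low s w + β₀ w with hΨ₀
  set Ψ₁ : X → ℝ := fun w => B.sl low (s + 1) w + β₁ w with hΨ₁
  set Ψ₂ : X → ℝ := fun w => B.sl low (s + 2) w + β₂ w with hΨ₂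
  have e0 : ∫ x, (F.ρ Ψ₀ x - F.ρ Ψ₁ x) * (B.sl low s x - B.sl low (s + 1) x) ∂μ
      = ∫ x, F.ρ Ψ₀ x * B.pos x ∂μ - ∫ x, F.ρ Ψ₁ x * B.pos x ∂μ := by
    rw [← int_sub ((F.bm _).mul B.bm_pos) ((F.bm _).mul B.bm_pos)]
    congr 1; funext x; simp only [Blocks.sl]; ring
  have e2 : ∫ x, (F.ρ Ψ₂ x - F.ρ Ψ₁ x) * (B.sl low (s + 2) x - B.sl low (s + 1) x) ∂μ
      = ∫ x, F.ρ Ψ₁ x * B.pos x ∂μ - ∫ x, F.ρ Ψ₂ x * B.pos x ∂μ := by
    rw [← int_sub ((F.bm _).mul B.bm_pos) ((F.bm _).mul B.bm_pos)]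
    congr 1; funext x; simp only [Blocks.sl]; ring
  have := F.fin Ψ₁
  have cov : (F.ν Ψ₁).real {z | z.2 ≠ 0 ∧ z.2 ∈ B.disp z.1}
      ≤ (F.ν Ψ₁).real {z | Ψ₀ (A.σ z.2 z.1) - Ψ₁ (A.σ z.2 z.1) + 2 ≤ Ψ₀ z.1 - Ψ₁ z.1}
        + (F.ν Ψ₁).real {z | Ψ₂ (A.σ z.2 z.1) - Ψ₁ (A.σ z.2 z.1) + 2 ≤ Ψ₂ z.1 - Ψ₁ z.1} := by
    refine le_trans (measureReal_mono ?_) (measureReal_union_le _ _)
    rintro ⟨x, d⟩ ⟨h0, hd⟩
    have p := B.pos_shift x hd
    have c0 := h₀.const x d hd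
    have c1 := h₁.const x d hd
    have c2 := h₂.const x d hd
    simp only [Set.mem_union, Set.mem_ofPred_eq, hΨ₀, hΨ₁, hΨ₂, Blocks.sl, p, c0, c1, c2]
    rcases lt_or_gt_of_ne h0 with h | h
    · have : (d : ℝ) ≤ -1 := by exact_mod_cast (by omega : d ≤ -1)
      left; nlinarith
    · have : (1 : ℝ) ≤ d := by exact_mod_cast (by omega : 1 ≤ d)
      right; nlinarith
  rw [e0] at m0
  rw [e2] at m2
  linarith

end Bal

namespace TiltFam

variable (F : TiltFam A f r)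

theorem scale (B : Blocks A W P) (hW : MeasurableSet W) (hE : MeasurableSet E)
    (hf0 : ∀ x, 0 ≤ f x) {low φ : X → ℝ} {G c Φ : ℝ} {k : ℕ} (hk : 1 ≤ k) (hl : Measurable low)
    (hlow : ∀ x, 0 ≤ low x ∧ low x ≤ G) (hG : 0 ≤ G) (hw : P * μ.real W ≤ 6)
    (he : (k : ℝ) ^ 2 * (P * μ.real E) ≤ 1) (hc : 50 * (k : ℝ) ^ 4 * ((P : ℝ) + G + 1) ^ 2 ≤ c)
    (hin : ∀ x, x ∉ E → x ∉ W → f x = Real.exp (-low x))
    (hwall : ∀ x, x ∉ E → x ∈ W → f x ≤ Real.exp (-c))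
    (hφ : Measurable φ) (hΦ : ∀ x, |φ x| ≤ Φ) (hΦ0 : 0 ≤ Φ)
    (hcob : ∫ x, (F.ρ (fun _ => 0) x - r - (φ x - φ (A.σ 1 x))) ^ 2 ∂μ ≤ 1 / ((k : ℝ) ^ 2) ^ 2)
    (hr : ∀ x, |F.ρ (fun _ => 0) x - r| ≤ 1)
    (hP1 : (k : ℝ) ≤ P) (hP2 : 14 * Φ * k ^ 2 ≤ P) (hP3 : 8 * Φ ^ 2 * k ^ 2 ≤ P) :
    ∃ (Ψ : X → ℝ) (M : ℝ), BM Ψ ∧ (∀ x, |Ψ x| ≤ M) ∧ 4 * M + 1 ≤ c / 2 ∧
      ∫ x, (F.ρ Ψ x - r) ^ 2 ∂μ ≤ 225 / k ∧
      (F.ν Ψ).real {z | z.2 ≠ 0 ∧ z.2 ∈ B.disp z.1} ≤ 6 / k := by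
  have hk' : (1 : ℝ) ≤ k := by exact_mod_cast hk
  have hk0 : (0 : ℝ) < k := by linarith
  have hP' : (1 : ℝ) ≤ P := hk'.trans hP1
  have hP0 : 0 < P := by exact_mod_cast (by linarith : (0 : ℝ) < P)
  have b0 := (F.bm fun _ => 0).sub (BM.const r)
  obtain ⟨n, hn⟩ : ∃ n : ℝ, n = (k : ℝ) ^ 2 := ⟨_, rfl⟩
  have hn1 : 1 ≤ n := hn ▸ one_le_pow₀ hk'
  have hkn : (k : ℝ) ≤ n := by rw [hn]; nlinarith
  have J0 : ∫ x, (F.ρ (fun _ => 0) x - r) * B.pos x ∂μ ≤ 2 * P / k ^ 2 := by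
    refine (B.cob_pos hW hw b0 hφ hΦ hΦ0 (by positivity) hP0 hcob).trans ?_
    have : 14 * Φ ≤ P / k ^ 2 := by rw [le_div_iff₀ (by positivity)]; exact hP2
    rw [mul_div_assoc]; linarith
  have hav := B.cob_avg hW hw b0 hr hφ hΦ hk0 hP1 hP3 (hcob.trans
    (one_div_le_one_div_of_le (by positivity) (by rw [← hn]; nlinarith)))
  obtain ⟨R, hR⟩ : ∃ R : ℝ, R = P + G + 1 := ⟨_, rfl⟩
  have hR1 : 1 ≤ R := by rw [hR]; linarith
  have hQ : P * G + 1 ≤ R ^ 2 := by rw [hR]; nlinarith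
  have hPR : (P : ℝ) ≤ R := by rw [hR]; linarith
  rw [← hR, show (k : ℝ) ^ 4 = n ^ 2 by rw [hn]; ring] at hc
  obtain ⟨Γ, hΓ⟩ : ∃ Γ : ℝ, Γ = 3 * n * R ^ 2 := ⟨_, rfl⟩
  have hΓ1 : 1 ≤ Γ := by rw [hΓ]; nlinarith [one_le_pow₀ hR1 (n := 2)]
  have hT : 1 ≤ (k : ℝ) ^ 2 * Γ := by rw [← hn]; nlinarith
  choose β hβ using fun s : ℝ => F.exists_balance B (B.bm_sl hl hlow s) (T := k ^ 2 * Γ)
    (η := 1 / n) (by linarith) (by positivity)
  have bal : ∀ s, Bal F B (k ^ 2 * Γ) (1 / n) (B.sl low s) (β s) := fun s =>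
    ⟨B.bm_sl hl hlow s, BM.of_abs_le (hβ s).1 (hβ s).2.1, (hβ s).2.2.1, (hβ s).2.2.2⟩
  set J : ℕ → ℝ := fun i => ∫ x, F.ρ (fun w => B.sl low (n * (G + 1) + 2 * i) w
    + β (n * (G + 1) + 2 * i) w) x * B.pos x ∂μ with hJ
  have hJP : ∀ i, |J i| ≤ P := fun i => by
    have := norm_integral_le_of_norm_le_const (μ := μ) (f := fun x => F.ρ (fun w =>
      B.sl low (n * (G + 1) + 2 * i) w + β (n * (G + 1) + 2 * i) w) x * B.pos x) (C := P)
      (Filter.Eventually.of_forall fun x => by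
        rw [Real.norm_eq_abs, abs_mul, abs_of_nonneg (F.nonneg _ _)]
        exact (mul_le_mul (F.le_one _ _) (B.abs_pos_le x) (abs_nonneg _) zero_le_one).trans_eq
          (one_mul _))
    simpa using this
  obtain ⟨i, hi, hJi⟩ : ∃ i ∈ Finset.range (k ^ 2 * P), J i - J (i + 1) ≤ 2 / n := by
    refine Finset.exists_le_of_sum_le ⟨0, Finset.mem_range.2 (by positivity)⟩ ?_
    rw [Finset.sum_range_sub', Finset.sum_const, Finset.card_range, nsmul_eq_mul]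
    have a1 := abs_le.1 (hJP 0)
    have a2 := abs_le.1 (hJP (k ^ 2 * P))
    have : ((k ^ 2 * P : ℕ) : ℝ) * (2 / n) = 2 * P := by
      push_cast; rw [← hn]; field_simp
    linarith
  have hi' : (i : ℝ) + 1 ≤ n * P := by
    rw [hn]; exact_mod_cast Finset.mem_range.1 hi
  have hi0 : (0 : ℝ) ≤ i := Nat.cast_nonneg i
  obtain ⟨s, hs⟩ : ∃ s : ℝ, s = n * (G + 1) + 2 * i := ⟨_, rfl⟩
  have hs1 : n * (G + 1) ≤ s + 1 := by linarith
  have hs0 : 0 ≤ s + 1 := le_trans (by positivity) hs1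
  have hs2 : s + 1 ≤ 2 * n * R := by rw [hR]; nlinarith
  have hΓ' : P * G + (s + 1) * P + 1 ≤ Γ := by
    have : (s + 1) * P ≤ 2 * n * R * R := mul_le_mul hs2 hPR (by linarith) (by positivity)
    rw [hΓ]; nlinarith [one_le_pow₀ hR1 (n := 2)]
  have hM : ∀ x, |B.sl low (s + 1) x + β (s + 1) x| ≤ 6 * n ^ 2 * R ^ 2 := fun x => by
    have a1 := B.abs_sl_le hlow hs0 x
    have a2 := (hβ (s + 1)).2.1 x
    have a3 : Γ ≤ n * Γ := le_mul_of_one_le_left (by linarith) hn1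
    have a4 : n * Γ = 3 * n ^ 2 * R ^ 2 := by rw [hΓ]; ring
    rw [← hn] at a2
    linarith [abs_add_le (B.sl low (s + 1) x) (β (s + 1) x)]
  have q1 : n ≤ n ^ 2 * R ^ 2 := by nlinarith [one_le_pow₀ hR1 (n := 2), one_le_pow₀ hn1 (n := 2)]
  have q2 : n * R ≤ n ^ 2 * R ^ 2 := by
    have : 1 ≤ n * R := by nlinarith
    nlinarith
  refine ⟨_, _, (bal (s + 1)).bψ.add (bal (s + 1)).bβ, hM, by linarith, ?_, ?_⟩
  · exact (bal (s + 1)).u_small hW hE hf0 hl hlow hG hk' (hn ▸ hs1)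
      (by rw [div_le_one (by linarith)]; exact hn1) hP1 hΓ' hw he hin hwall hM
      (by rw [← hn]; linarith) J0 hav
  · have m := (bal s).intra (bal (s + 1)) (bal (s + 2)) hT
    have e : s + 2 = n * (G + 1) + 2 * ((i + 1 : ℕ) : ℝ) := by rw [hs]; push_cast; ring
    simp only [hJ] at hJi
    rw [← hs, ← e] at hJi
    have t1 : 1 / n ≤ 1 / k := one_div_le_one_div_of_le hk0 hkn
    have t2 : 2 / n = 2 * (1 / n) := by ring
    have t3 : (6 : ℝ) / k = 6 * (1 / k) := by ring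
    have t4 : 0 ≤ 1 / (k : ℝ) := by positivity
    linarith

include F in
theorem r_mem : 0 ≤ r ∧ r ≤ 1 := by
  rw [← F.mean _ (BM.const (0 : ℝ))]
  exact ⟨integral_nonneg (F.nonneg _), int_le_const (F.bm _) (F.le_one _)⟩

include F in
theorem triv (herg : Ergodic (A.σ 1) μ) (hf0 : ∀ x, 0 ≤ f x) (hD : A.Design f) :
    r - r ^ 2 ≤ 0 := by
  obtain ⟨r0, r1⟩ := F.r_mem
  have hr : ∀ ψ x, |F.ρ ψ x - r| ≤ 1 := fun ψ x => by
    have := F.nonneg ψ x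
    have := F.le_one ψ x
    rw [abs_le]; constructor <;> linarith
  have b0 := (F.bm fun _ => 0).sub (BM.const r)
  refine le_of_forall_pos_le_add fun δ' hδ' => ?_
  obtain ⟨δ, rfl⟩ : ∃ δ, δ' = 13 * δ := ⟨δ' / 13, by ring⟩
  have hδ : 0 < δ := by linarith
  obtain ⟨C, hC⟩ := hD δ hδ
  have main : ∀ k : ℕ, 1 ≤ k → r - r ^ 2 ≤ 13 * δ + (237 / k + |C| * √(225 / k)) := by
    intro k hk
    have hk' : (1 : ℝ) ≤ k := by exact_mod_cast hk
    obtain ⟨φ, bφ, hcob⟩ := exists_coboundary A herg b0 (by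
      rw [int_sub (F.bm _) (BM.const r), F.mean _ (BM.const _)]; simp)
      (ε := 1 / ((k : ℝ) ^ 2) ^ 2) (by positivity)
    obtain ⟨Φ', hΦ'⟩ := bφ.2
    have hΦ : ∀ x, |φ x| ≤ |Φ'| := fun x => (hΦ' x).trans (le_abs_self _)
    have hΦ0 := abs_nonneg Φ'
    set Φ := |Φ'|
    obtain ⟨N, hN⟩ := exists_nat_ge (50 * (k : ℝ) ^ 4 + 14 * Φ * k ^ 2 + 8 * Φ ^ 2 * k ^ 2)
    obtain ⟨P, W, E, low, G, c, hNP, hP, hW, hE, hl, hG, hlow, hgap, hw, he, hc, hin, hwall, hT⟩ :=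
      hC N
    obtain ⟨B⟩ := exists_blocks A hW hgap
    have hNP' : (N : ℝ) ≤ P := by exact_mod_cast hNP
    have p1 : 0 ≤ 14 * Φ * k ^ 2 := by positivity
    have p2 : 0 ≤ 8 * Φ ^ 2 * k ^ 2 := by positivity
    have p3 : (k : ℝ) ^ 2 ≤ k ^ 4 := pow_le_pow_right₀ hk' (by norm_num)
    have p4 : (k : ℝ) ≤ k ^ 2 := by nlinarith
    have hkP : (k : ℝ) ≤ P := by linarith
    obtain ⟨Ψ, M, bΨ, hM, hMc, hu, hν⟩ := F.scale B hW hE hf0 hk hl hlow hG hw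
      (le_trans (mul_le_mul_of_nonneg_right (by linarith) (by positivity)) he)
      (le_trans (mul_le_mul_of_nonneg_right (by linarith) (by positivity)) hc)
      hin hwall bφ.1 hΦ hΦ0 hcob (hr _) hkP (by linarith) (by linarith)
    have := F.fin Ψ
    have far := hT (F.ν Ψ) _ (F.fin Ψ) ((F.meas Ψ).sub_const r) (hr Ψ) (F.marg Ψ bΨ)
      (F.testOK bΨ hM hMc)
    have off := F.off Ψ bΨ
    have var : ∫ x, (F.ρ Ψ x - r) ^ 2 ∂μ = ∫ x, F.ρ Ψ x ^ 2 ∂μ - r ^ 2 := by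
      have : ∀ x, (F.ρ Ψ x - r) ^ 2 = F.ρ Ψ x ^ 2 - (2 * r * F.ρ Ψ x - r ^ 2) := fun x => by ring
      simp only [this]
      rw [int_sub ((F.bm _).pow 2) (((BM.const _).mul (F.bm _)).sub (BM.const _)),
        int_sub ((BM.const _).mul (F.bm _)) (BM.const _), integral_const_mul, F.mean _ bΨ]
      simp; ring
    have hδP : 0 ≤ δ * P := by positivity
    have near : (F.ν Ψ).real {z | z.1 ∈ {x | ∃ j : ℤ, |(j : ℝ)| ≤ δ * P ∧ A.σ j x ∈ W}}
        ≤ 12 * δ + 6 / k := by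
      refine (ENNReal.toReal_mono (measure_ne_top _ _)
        (F.marg Ψ bΨ _ (measurableSet_near A hW _))).trans
        ((measure_near_le A hW hδP).trans ?_)
      have w0 : 0 ≤ μ.real W := measureReal_nonneg
      have : μ.real W ≤ 6 / k := by rw [le_div_iff₀ (by linarith)]; nlinarith
      nlinarith
    have cov : (F.ν Ψ).real {z | z.2 ≠ 0} ≤ (F.ν Ψ).real {z | z.2 ≠ 0 ∧ z.2 ∈ B.disp z.1}
        + (F.ν Ψ).real {z | z.1 ∈ {x | ∃ j : ℤ, |(j : ℝ)| ≤ δ * P ∧ A.σ j x ∈ W}}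
        + (F.ν Ψ).real {z | δ * (P : ℝ) ≤ |(z.2 : ℝ)|} := by
      refine le_trans (measureReal_mono ?_) ((measureReal_union_le _ _).trans
        (add_le_add_left (measureReal_union_le _ _) _))
      rintro ⟨x, d⟩ h0
      by_cases h1 : d ∈ B.disp x
      · exact Or.inl (Or.inl ⟨h0, h1⟩)
      · by_cases h2 : δ * (P : ℝ) ≤ |(d : ℝ)|
        · exact Or.inr h2
        · obtain ⟨j, hj, hjW⟩ := B.exists_wall h1
          refine Or.inl (Or.inr ⟨j, le_trans ?_ (not_le.1 h2).le, hjW⟩)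
          exact_mod_cast hj
    have sq : C * √(∫ x, (F.ρ Ψ x - r) ^ 2 ∂μ) ≤ |C| * √(225 / k) :=
      mul_le_mul (le_abs_self C) (Real.sqrt_le_sqrt hu) (Real.sqrt_nonneg _) (abs_nonneg _)
    have t : (237 : ℝ) / k = 225 / k + 6 / k + 6 / k := by ring
    linarith
  have lim : Filter.Tendsto (fun k : ℕ => 13 * δ + (237 / (k : ℝ) + |C| * √(225 / k)))
      Filter.atTop (nhds (13 * δ + (0 + |C| * √0))) :=
    tendsto_const_nhds.add ((tendsto_const_div_atTop_nhds_zero_nat _).add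
      ((tendsto_const_div_atTop_nhds_zero_nat _).sqrt.const_mul _))
  have := ge_of_tendsto lim (Filter.eventually_atTop.2 ⟨1, main⟩)
  simpa using this

end TiltFam

end Crest.Agent.R113
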