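import Crest.Agent.R113.Defs
import Crest.Agent.R113.OpAlg
import Crest.Agent.R113.OpFinal

/-!
# R113 — operator side of S0149 (owner helper90)
-/

set_option autoImplicit false

namespace Crest.Agent.R113

open MeasureTheory

/-- **Main operator theorem.**  If the weight `f` has the design property then the weighted shift
`T = U M_f` has no non-trivial invariant projection in the crossed product. -/
theorem main_op {X : Type*} [MeasurableSpace X] {μ : Measure X} [IsProbabilityMeasure μ]
    (A : Act X μ) (herg : Ergodic (A.σ 1) μ) (f : X → ℝ) (hf : Measurable f)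
    (hf01 : ∀ x, 0 ≤ f x ∧ f x ≤ 1) (hD : A.Design f)
    (T : HS μ →L[ℂ] HS μ) (hT : A.IsShift f T)
    (p : HS μ →L[ℂ] HS μ) (hpN : A.InN p) (hp : IsStarProjection p)
    (hinv : (1 - p) * T * p = 0) : p = 0 ∨ p = 1 := by
  have bf : BM f := BM.of_abs_le hf (C := 1) fun x => by
    rw [abs_of_nonneg (hf01 x).1]; exact (hf01 x).2
  have hpM := A.mem_M_of_InN hpN
  rw [A.eq_of_isShift bf hT] at hinv
  obtain ⟨F⟩ := A.exists_tiltFam bf (fun x => (hf01 x).1) hpM hp hinv
  have h := F.triv herg (fun x => (hf01 x).1) hD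
  obtain ⟨r0, r1⟩ := F.r_mem
  have key : ∀ q ∈ A.M, IsStarProjection q → A.trAlg.τ q = 0 → q = 0 := fun q hq pq h0 => by
    have := A.trAlg.τ_star_mul_self q
    rw [pq.isSelfAdjoint.star_eq, pq.isIdempotentElem.eq, h0] at this
    exact A.faithful hq (norm_eq_zero.1 (pow_eq_zero_iff two_ne_zero |>.1 this.symm))
  have t1 : A.trAlg.τ 1 = 1 := by
    have := A.trAlg.τ_star_mul_self 1
    rw [star_one, mul_one] at this
    rw [this]
    change ‖Om μ‖ ^ 2 = 1
    rw [norm_Om, one_pow]
  have : A.trAlg.τ p * (1 - A.trAlg.τ p) = 0 :=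
    le_antisymm (by nlinarith) (mul_nonneg r0 (sub_nonneg.2 r1))
  rcases mul_eq_zero.1 this with h0 | h0
  · exact Or.inl (key p hpM hp h0)
  · refine Or.inr (sub_eq_zero.1 (key _ (sub_mem (one_mem _) hpM) hp.one_sub ?_)).symm
    rw [A.trAlg.τ_sub, t1, h0]

end Crest.Agent.R113
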