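import Crest.Agent.R113.OpBlock

/-!
# R113 — monotonicity of the density in the tilt, and the balancing block potential
-/

set_option autoImplicit false

namespace Crest.Agent.R113

open MeasureTheory

variable {X : Type*} [MeasurableSpace X] {μ : Measure X} [IsProbabilityMeasure μ]
  {A : Act X μ} {f : X → ℝ} {r : ℝ}

theorem mono_layer {Y : Type*} [MeasurableSpace Y] (m : Measure Y) [IsFiniteMeasure m]
    {a b D : Y → ℝ} (ha : Measurable a) (hb : Measurable b) (hD : BM D) {M : ℝ}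
    (h1 : ∀ y, -M ≤ a y) (h2 : ∀ y, b y ≤ M) :
    IntegrableOn (fun t => ∫ y in {y | a y ≤ t ∧ t < b y}, D y ∂m) (Set.Icc (-M) M) ∧
    ∫ t in Set.Icc (-M) M, ∫ y in {y | a y ≤ t ∧ t < b y}, D y ∂m =
      ∫ y, D y * max (b y - a y) 0 ∂m := by
  have hS : MeasurableSet {p : ℝ × Y | a p.2 ≤ p.1 ∧ p.1 < b p.2} :=
    (measurableSet_le (ha.comp measurable_snd) measurable_fst).inter
      (measurableSet_lt measurable_fst (hb.comp measurable_snd))
  have hF : BM ({p : ℝ × Y | a p.2 ≤ p.1 ∧ p.1 < b p.2}.indicator fun p => D p.2) :=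
    (hD.comp measurable_snd).indicator hS
  have hint := hF.integrable ((volume.restrict (Set.Icc (-M) M)).prod m)
  have e1 : ∀ t, ∫ y in {y | a y ≤ t ∧ t < b y}, D y ∂m =
      ∫ y, ({p : ℝ × Y | a p.2 ≤ p.1 ∧ p.1 < b p.2}.indicator fun p => D p.2) (t, y) ∂m := by
    intro t
    have hm : MeasurableSet {y | a y ≤ t ∧ t < b y} := (measurableSet_le ha measurable_const).inter
      (measurableSet_lt measurable_const hb)
    rw [← integral_indicator hm]
    rfl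
  simp only [e1]
  refine ⟨hint.integral_prod_left, ?_⟩
  rw [integral_integral_swap (f := fun t y =>
    ({p : ℝ × Y | a p.2 ≤ p.1 ∧ p.1 < b p.2}.indicator fun p => D p.2) (t, y)) hint]
  refine integral_congr_ae (Filter.Eventually.of_forall fun y => ?_)
  have e2 : (fun t => ({p : ℝ × Y | a p.2 ≤ p.1 ∧ p.1 < b p.2}.indicator fun p => D p.2) (t, y)) =
      (Set.Ico (a y) (b y)).indicator fun _ => D y := rfl
  simp only [e2]
  have hsub : Set.Ico (a y) (b y) ⊆ Set.Icc (-M) M :=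
    fun t ht => ⟨(h1 y).trans ht.1, ht.2.le.trans (h2 y)⟩
  rw [integral_indicator measurableSet_Ico, Measure.restrict_restrict measurableSet_Ico,
    Set.inter_eq_left.2 hsub, setIntegral_const,
    Real.volume_real_Ico, smul_eq_mul, mul_comm]

theorem mono_abs_one_sub_exp (x : ℝ) : |1 - Real.exp x| ≤ Real.exp |x| * |x| := by
  have h1 := Real.add_one_le_exp x
  have h2 := Real.add_one_le_exp (-x)
  have h3 : Real.exp x * Real.exp (-x) = 1 := by rw [← Real.exp_add]; simp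
  have h4 := Real.exp_pos x
  rcases le_total 0 x with h | h
  · rw [abs_of_nonneg h, abs_of_nonpos (by linarith)]
    nlinarith
  · rw [abs_of_nonpos h, abs_of_nonneg (by
      have := Real.exp_le_one_iff.2 h; linarith)]
    nlinarith

namespace TiltFam

variable (F : TiltFam A f r)

/-- **Quantitative monotonicity** (layer cake).  PROOF: `χ = ψ₂ - ψ₁`, `|χ| ≤ M`.  For real `t` use
`F.cmp` with `n = 0` (`kk = exp χ`), `R = {t < χ}`, `E = ∅`, `L = {χ ≤ t - 1}`, threshold `exp t`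
(`exp (-1) ≤ 1/2`).  Integrate over `t ∈ [-M, M]` (`integral_integral_swap`, bounded measurable
integrands, `BM.integrable`): the right side gives `∫ (ρ₂ - ρ₁)(χ + M) = ∫ (ρ₂ - ρ₁) χ` (`F.mean`), on the
left every `z` with `χ(σ z.2 z.1) + 2 ≤ χ z.1` is counted for all `t ∈ [χ(σ z.2 z.1) + 1, χ z.1)`, an
interval of length `≥ 1` inside `[-M, M]`. -/
theorem mono_quant {ψ₁ ψ₂ : X → ℝ} (h₁ : BM ψ₁) (h₂ : BM ψ₂) :
    3 / 4 * (F.ν ψ₁).real
        {z | ψ₂ (A.σ z.2 z.1) - ψ₁ (A.σ z.2 z.1) + 2 ≤ ψ₂ z.1 - ψ₁ z.1}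
      ≤ ∫ x, (F.ρ ψ₂ x - F.ρ ψ₁ x) * (ψ₂ x - ψ₁ x) ∂μ := by
  have hχ := h₂.sub h₁
  set χ : X → ℝ := fun x => ψ₂ x - ψ₁ x with hχd
  obtain ⟨M, hM⟩ := hχ.2
  have hM' : ∀ x, -M ≤ χ x ∧ χ x ≤ M := fun x => abs_le.1 (hM x)
  have := F.fin ψ₁
  have hσ : Measurable fun z : X × ℤ => A.σ z.2 z.1 :=
    measurable_from_prod_countable_left fun d => A.measurable d
  have hD : BM fun x => F.ρ ψ₂ x - F.ρ ψ₁ x := (F.bm ψ₂).sub (F.bm ψ₁)
  obtain ⟨i1, e1⟩ := mono_layer (F.ν ψ₁) (a := fun z => χ (A.σ z.2 z.1) + 1)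
    (b := fun z => χ z.1) (D := fun _ => 1) ((hχ.1.comp hσ).add_const 1)
    (hχ.1.comp measurable_fst) (BM.const 1) (M := M) (fun z => by linarith [(hM' (A.σ z.2 z.1)).1])
    (fun z => (hM' _).2)
  obtain ⟨i2, e2⟩ := mono_layer μ (a := fun _ => -M) (b := χ) measurable_const hχ.1 hD (M := M)
    (fun _ => le_rfl) (fun x => (hM' x).2)
  have hk : ∀ x, A.kk f ψ₁ ψ₂ 0 x = Real.exp (χ x) := fun x => by
    simp [Act.kk, Act.fprod, A.zero, hχd]
  have hcmp : ∀ t ∈ Set.Icc (-M) M,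
      3 / 4 * ∫ z in {z : X × ℤ | χ (A.σ z.2 z.1) + 1 ≤ t ∧ t < χ z.1}, (1 : ℝ) ∂(F.ν ψ₁) ≤
      ∫ x in {x | -M ≤ t ∧ t < χ x}, (F.ρ ψ₂ x - F.ρ ψ₁ x) ∂μ := by
    intro t ht
    have h3 := F.cmp ψ₁ ψ₂ h₁ h₂ 0 {x | t < χ x} ∅ {x | χ x + 1 ≤ t} (Real.exp t)
      (measurableSet_lt measurable_const hχ.1) MeasurableSet.empty
      (measurableSet_le (hχ.1.add_const 1) measurable_const) (Real.exp_pos t)
      (fun x hx => ⟨fun h => by
        have h5 : χ x + 1 ≤ t := hx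
        have h6 : t < χ x := h
        linarith, Set.notMem_empty x⟩)
      (fun x hx => by rw [hk]; exact Real.exp_le_exp.2 (le_of_lt hx))
      (fun x hx _ => by rw [hk]; exact Real.exp_le_exp.2 (not_lt.1 hx))
      (fun x hx => by
        have h5 : χ x + 1 ≤ t := hx
        have h6 := Real.exp_le_exp.2 h5
        rw [Real.exp_add] at h6
        have h7 := Real.add_one_le_exp 1
        have h8 := Real.exp_pos (χ x)
        rw [hk]; nlinarith)
    simp only [Set.union_empty, Nat.cast_zero, A.zero] at h3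
    have e3 : {x | -M ≤ t ∧ t < χ x} = {x | t < χ x} := by
      ext x; simp [ht.1]
    rw [e3, integral_sub ((F.bm ψ₂).integrable _) ((F.bm ψ₁).integrable _), setIntegral_const,
      smul_eq_mul, mul_one]
    refine le_trans (le_of_eq ?_) h3
    congr 2
    ext z
    simp [and_comm]
  have h4 := setIntegral_mono_on (i1.const_mul (3 / 4)) i2 measurableSet_Icc hcmp
  rw [integral_const_mul, e1, e2] at h4
  have e5 : ∫ y, (F.ρ ψ₂ y - F.ρ ψ₁ y) * max (χ y - -M) 0 ∂μ =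
      ∫ y, (F.ρ ψ₂ y - F.ρ ψ₁ y) * χ y ∂μ := by
    have : ∀ y, (F.ρ ψ₂ y - F.ρ ψ₁ y) * max (χ y - -M) 0 =
        (F.ρ ψ₂ y - F.ρ ψ₁ y) * χ y + M * (F.ρ ψ₂ y - F.ρ ψ₁ y) := fun y => by
      rw [max_eq_left (by linarith [(hM' y).1])]; ring
    simp only [this]
    rw [integral_add ((hD.mul hχ).integrable _) (((BM.const M).mul hD).integrable _),
      integral_const_mul, integral_sub ((F.bm ψ₂).integrable _) ((F.bm ψ₁).integrable _),
      F.mean _ h₂, F.mean _ h₁]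
    ring
  rw [e5] at h4
  refine le_trans (mul_le_mul_of_nonneg_left ?_ (by norm_num)) h4
  have hS : MeasurableSet {z : X × ℤ | χ (A.σ z.2 z.1) + 2 ≤ χ z.1} :=
    measurableSet_le ((hχ.1.comp hσ).add_const 2) (hχ.1.comp measurable_fst)
  rw [← integral_indicator_one hS]
  refine integral_mono (((BM.const (1 : ℝ)).indicator hS).integrable _) ?_ fun z => ?_
  · refine BM.integrable (BM.of_abs_le ?_ (C := 2 * M + 1) fun z => ?_) _
    · exact measurable_const.mul (((hχ.1.comp measurable_fst).sub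
        ((hχ.1.comp hσ).add_const 1)).max measurable_const)
    · have h5 := hM' z.1
      have h6 := hM' (A.σ z.2 z.1)
      rw [one_mul, abs_of_nonneg (le_max_right _ _)]
      exact max_le (by linarith) (by linarith)
  · by_cases hz : z ∈ {z : X × ℤ | χ (A.σ z.2 z.1) + 2 ≤ χ z.1}
    · rw [Set.indicator_of_mem hz]
      have h5 : χ (A.σ z.2 z.1) + 2 ≤ χ z.1 := hz
      simp only [Pi.one_apply, one_mul]
      exact le_max_of_le_left (by linarith)
    · rw [Set.indicator_of_notMem hz]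
      simp only [one_mul]
      exact le_max_right _ _

theorem mono {ψ₁ ψ₂ : X → ℝ} (h₁ : BM ψ₁) (h₂ : BM ψ₂) :
    0 ≤ ∫ x, (F.ρ ψ₂ x - F.ρ ψ₁ x) * (ψ₂ x - ψ₁ x) ∂μ :=
  le_trans (by positivity) (F.mono_quant h₁ h₂)

theorem balance_step {W : Set X} {P : ℕ} (B : Blocks A W P) {ψ : X → ℝ} (hψ : BM ψ) {T h : ℝ}
    (hT : 0 < T) (h0 : 0 ≤ h) (h1 : h ≤ 1) {β : X → ℝ} (hβ : Measurable β) (hβT : ∀ x, |β x| ≤ T)
    (hc : B.Const β) :
    ∃ β' : X → ℝ, Measurable β' ∧ (∀ x, |β' x| ≤ T) ∧ B.Const β' ∧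
      ∫ x, (β' x + T * B.avg (fun y => F.ρ (fun w => ψ w + β' w) y - F.ρ (fun _ => 0) y) x) ^ 2 ∂μ
        ≤ ((1 - h) ^ 2 + h ^ 2 * (2 * T ^ 2 * Real.exp (4 * T))) *
      ∫ x, (β x + T * B.avg (fun y => F.ρ (fun w => ψ w + β w) y - F.ρ (fun _ => 0) y) x) ^ 2 ∂μ := by
  have hbβ : BM β := BM.of_abs_le hβ hβT
  set G : X → ℝ := B.avg (fun y => F.ρ (fun w => ψ w + β w) y - F.ρ (fun _ => 0) y) with hG
  have hGb : BM G := B.bm_avg ((F.bm _).sub (F.bm _))
  have hG1 : ∀ x, |G x| ≤ 1 := B.abs_avg_le fun y => by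
    have := F.nonneg (fun w => ψ w + β w) y
    have := F.le_one (fun w => ψ w + β w) y
    have := F.nonneg (fun _ => 0) y
    have := F.le_one (fun _ => 0) y
    rw [abs_le]; constructor <;> linarith
  have hGc : B.Const G := B.const_avg _
  set E : X → ℝ := fun x => β x + T * G x with hE
  have hEb : BM E := hbβ.add ((BM.const T).mul hGb)
  have hEc : B.Const E := fun x i hi => by simp only [hE, hc x i hi, hGc x i hi]
  have hE2 : ∀ x, |E x| ≤ 2 * T := fun x => by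
    refine (abs_add_le _ _).trans ?_
    rw [abs_mul, abs_of_pos hT]
    nlinarith [hβT x, hG1 x]
  set β' : X → ℝ := fun x => β x - h * E x with hβ'
  have hβ'b : BM β' := hbβ.sub ((BM.const h).mul hEb)
  refine ⟨β', hβ'b.1, fun x => ?_, fun x i hi => by simp only [hβ', hc x i hi, hEc x i hi], ?_⟩
  · have e : β' x = (1 - h) * β x - h * T * G x := by simp only [hβ', hE]; ring
    rw [e]
    refine (abs_sub _ _).trans ?_
    rw [abs_mul, abs_mul, abs_mul, abs_of_nonneg h0, abs_of_pos hT, abs_of_nonneg (sub_nonneg.2 h1)]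
    nlinarith [mul_le_mul_of_nonneg_left (hβT x) (sub_nonneg.2 h1),
      mul_le_mul_of_nonneg_left (hG1 x) (mul_nonneg h0 hT.le)]
  set Δ : X → ℝ := fun y => F.ρ (fun w => ψ w + β' w) y - F.ρ (fun w => ψ w + β w) y with hΔ
  have hΔb : BM Δ := (F.bm _).sub (F.bm _)
  have hΔa : BM (B.avg Δ) := B.bm_avg hΔb
  have e1 : ∀ x, β' x + T * B.avg (fun y => F.ρ (fun w => ψ w + β' w) y - F.ρ (fun _ => 0) y) x =
      (1 - h) * E x + T * B.avg Δ x := fun x => by
    have : (fun y => F.ρ (fun w => ψ w + β' w) y - F.ρ (fun _ => 0) y) = fun y =>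
        (F.ρ (fun w => ψ w + β w) y - F.ρ (fun _ => 0) y) + Δ y := by
      funext y; simp only [hΔ]; ring
    rw [this, B.avg_add, ← hG]
    simp only [hβ', hE]; ring
  have hd : ∀ x, ψ x + β' x - (ψ x + β x) = -h * E x := fun x => by simp only [hβ']; ring
  have hmono := F.mono (hψ.add hbβ) (hψ.add hβ'b)
  have hlip := F.lip _ _ (hψ.add hbβ) (hψ.add hβ'b)
  simp only [hd] at hmono hlip
  have hcross : h * ∫ x, B.avg Δ x * E x ∂μ ≤ 0 := by
    rw [B.integral_avg_mul hΔb hEb hEc, ← integral_const_mul]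
    have : ∫ x, h * (Δ x * E x) ∂μ = -∫ x, Δ x * (-h * E x) ∂μ := by
      rw [← integral_neg]; congr 1; funext x; ring
    rw [this]; linarith
  have hsq : ∫ x, B.avg Δ x ^ 2 ∂μ ≤ 2 * (h ^ 2 * Real.exp (4 * T) * ∫ x, E x ^ 2 ∂μ) := by
    refine (B.integral_avg_sq_le hΔb).trans (hlip.trans ?_)
    refine mul_le_mul_of_nonneg_left ?_ zero_le_two
    rw [← integral_const_mul]
    refine integral_mono ((((BM.const 1).sub ((BM.const (-h)).mul hEb).exp).pow 2).integrable _)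
      (((BM.const _).mul (hEb.pow 2)).integrable _) fun x => ?_
    have h3 := mono_abs_one_sub_exp (-h * E x)
    have h4 : |-h * E x| ≤ 2 * T := by
      rw [abs_mul, abs_neg, abs_of_nonneg h0]
      nlinarith [hE2 x, abs_nonneg (E x)]
    have h5 : Real.exp |-h * E x| ≤ Real.exp (2 * T) := Real.exp_le_exp.2 h4
    have h6 : Real.exp (4 * T) = Real.exp (2 * T) ^ 2 := by rw [← Real.exp_nat_mul]; congr 1; ring
    have h7 : |1 - Real.exp (-h * E x)| ≤ Real.exp (2 * T) * |-h * E x| :=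
      h3.trans (mul_le_mul_of_nonneg_right h5 (abs_nonneg _))
    have h8 := pow_le_pow_left₀ (abs_nonneg _) h7 2
    rw [sq_abs, mul_pow, sq_abs] at h8
    show (1 - Real.exp (-h * E x)) ^ 2 ≤ h ^ 2 * Real.exp (4 * T) * E x ^ 2
    rw [h6]; nlinarith
  simp only [e1]
  have e2 : ∫ x, ((1 - h) * E x + T * B.avg Δ x) ^ 2 ∂μ = (1 - h) ^ 2 * ∫ x, E x ^ 2 ∂μ +
      2 * (1 - h) * T * ∫ x, B.avg Δ x * E x ∂μ + T ^ 2 * ∫ x, B.avg Δ x ^ 2 ∂μ := by
    rw [← integral_const_mul, ← integral_const_mul, ← integral_const_mul,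
      ← integral_add (((BM.const _).mul (hEb.pow 2)).integrable _)
        (((BM.const _).mul (hΔa.mul hEb)).integrable _),
      ← integral_add ((((BM.const _).mul (hEb.pow 2)).add
        ((BM.const _).mul (hΔa.mul hEb))).integrable _) (((BM.const _).mul (hΔa.pow 2)).integrable _)]
    congr 1; funext x; ring
  rw [e2]
  have hcross' : ∫ x, B.avg Δ x * E x ∂μ ≤ 0 ∨ h = 0 := by
    rcases h0.eq_or_lt with h2 | h2
    · exact Or.inr h2.symm
    · exact Or.inl (by by_contra hc'; push Not at hc'; nlinarith [mul_pos h2 hc'])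
  have h9 := mul_le_mul_of_nonneg_left hsq (sq_nonneg T)
  rcases hcross' with h2 | h2
  · have h10 : 2 * (1 - h) * T * ∫ x, B.avg Δ x * E x ∂μ ≤ 0 :=
      mul_nonpos_of_nonneg_of_nonpos (by have := sub_nonneg.2 h1; positivity) h2
    nlinarith
  · have : Δ = fun _ => 0 := by funext y; simp [hΔ, hβ', h2]
    have h11 : ∀ x, B.avg Δ x = 0 := fun x => by simp [this, Blocks.avg]
    simp [h11, h2, hE]

/-- **Approximate resolvent.**  PROOF: `G β = avg (ρ (ψ + β) - ρ 0)`, `|G β| ≤ 1`.  Iterate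
`β₀ = 0`, `β_{k+1} = (1 - h) β_k - h T G β_k` with `h = 1 / (1 + L)`, `L = 2 T² exp (4 T)`; all `β_k` are
bounded by `T`, measurable and constant on blocks.  `D_k = β_{k+1} - β_k = -h (β_k + T G β_k)`,
`D_{k+1} = (1 - h) D_k - h T (G β_{k+1} - G β_k)`; `∫ (G β_{k+1} - G β_k) D_k ≥ 0` (`integral_avg_mul`,
`avg_sub`, `mono`), `∫ (G β_{k+1} - G β_k)² ≤ 2 exp (4 T) ∫ D_k²` (`integral_avg_sq_le`, `F.lip`,
`|1 - exp x| ≤ exp |x| * |x|`, `|D_k| ≤ 2 T`), hence `∫ D_{k+1}² ≤ ((1-h)² + h² L) ∫ D_k² = (1 - h) ∫ D_k²`. -/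
theorem exists_balance {W : Set X} {P : ℕ} (B : Blocks A W P) {ψ : X → ℝ} (hψ : BM ψ) {T η : ℝ}
    (hT : 0 < T) (hη : 0 < η) :
    ∃ β : X → ℝ, Measurable β ∧ (∀ x, |β x| ≤ T) ∧ B.Const β ∧
      ∫ x, (β x + T * B.avg (fun y => F.ρ (fun w => ψ w + β w) y - F.ρ (fun _ => 0) y) x) ^ 2 ∂μ
        ≤ η := by
  set L := 2 * T ^ 2 * Real.exp (4 * T) with hL
  have hL0 : 0 < L := by positivity
  set h := (1 + L)⁻¹ with hh
  have h0 : 0 < h := by positivity
  have h1 : h < 1 := inv_lt_one_of_one_lt₀ (by linarith)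
  have hq : (1 - h) ^ 2 + h ^ 2 * L = 1 - h := by rw [hh]; field_simp; ring
  set I0 := ∫ x, ((0 : ℝ) + T * B.avg (fun y => F.ρ (fun w => ψ w + 0) y -
    F.ρ (fun _ => 0) y) x) ^ 2 ∂μ
  have hk : ∀ k : ℕ, ∃ β : X → ℝ, Measurable β ∧ (∀ x, |β x| ≤ T) ∧ B.Const β ∧
      ∫ x, (β x + T * B.avg (fun y => F.ρ (fun w => ψ w + β w) y - F.ρ (fun _ => 0) y) x) ^ 2 ∂μ
        ≤ (1 - h) ^ k * I0 := by
    intro k
    induction k with
    | zero => exact ⟨fun _ => 0, measurable_const, fun _ => by simpa using hT.le,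
        fun _ _ _ => rfl, by simp [I0]⟩
    | succ k ih =>
      obtain ⟨β, b1, b2, b3, b4⟩ := ih
      obtain ⟨β', c1, c2, c3, c4⟩ := F.balance_step B hψ hT h0.le h1.le b1 b2 b3
      refine ⟨β', c1, c2, c3, c4.trans ?_⟩
      rw [← hL, hq, pow_succ', mul_assoc]
      exact mul_le_mul_of_nonneg_left b4 (by linarith)
  have ht := (tendsto_pow_atTop_nhds_zero_of_lt_one (r := 1 - h) (by linarith)
    (by linarith)).mul_const I0
  rw [zero_mul] at ht
  obtain ⟨k, hk'⟩ := (ht.eventually (ge_mem_nhds hη)).exists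
  obtain ⟨β, b1, b2, b3, b4⟩ := hk k
  exact ⟨β, b1, b2, b3, b4.trans hk'⟩

end TiltFam

end Crest.Agent.R113
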