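import Crest.Agent.R113.OpSys

/-!
# R113 — rank lemma, range projections, densities and squared kernels of projections
-/

set_option autoImplicit false
set_option linter.unusedSectionVars false

namespace Crest.Agent.R113

open MeasureTheory
open scoped InnerProductSpace ENNReal ComplexConjugate

section alg

variable {H : Type*} [NormedAddCommGroup H] [InnerProductSpace ℂ H] [CompleteSpace H]

theorem exists_range_proj {e : H →L[ℂ] H} (he : e * e = e) :
    ∃ q : H →L[ℂ] H, IsStarProjection q ∧ q * e = e ∧ e * q = q := by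
  let K : Submodule ℂ H := LinearMap.ker (1 - e : H →L[ℂ] H).toLinearMap
  have hK : IsClosed (K : Set H) := (1 - e : H →L[ℂ] H).isClosed_ker
  have : CompleteSpace K := hK.completeSpace_coe
  have hmem : ∀ v, v ∈ K ↔ e v = v := fun v => by
    simp only [K, LinearMap.mem_ker, ContinuousLinearMap.coe_coe, sub_apply, one_apply_eq_self,
      sub_eq_zero]
    exact eq_comm
  refine ⟨K.starProjection, isStarProjection_starProjection, ?_, ?_⟩
  · ext v
    rw [mul_apply_eq_comp, Submodule.starProjection_eq_self_iff, hmem, ← mul_apply_eq_comp, he]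
  · ext v
    rw [mul_apply_eq_comp, ← hmem]
    exact K.starProjection_apply_mem v

theorem comm_of_range_proj {e q s : H →L[ℂ] H} (pq : IsStarProjection q) (h1 : q * e = e)
    (h2 : e * q = q) (hs : s * e = e * s) (hs' : star s * e = e * star s) : s * q = q * s := by
  have k : ∀ s : H →L[ℂ] H, s * e = e * s → q * s * q = s * q := fun s hs => by
    calc q * s * q = q * (s * e) * q := by rw [mul_assoc q (s * e), mul_assoc s, h2, mul_assoc]
      _ = s * e * q := by rw [hs, ← mul_assoc, h1]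
      _ = s * q := by rw [mul_assoc, h2]
  have := congrArg star (k _ hs')
  simp only [star_mul, star_star, pq.isSelfAdjoint.star_eq] at this
  exact ((k s hs).symm.trans (mul_assoc _ _ _)).trans this

theorem norm_proj_apply_le {q : H →L[ℂ] H} (pq : IsStarProjection q) (v : H) : ‖q v‖ ≤ ‖v‖ :=
  (q.le_opNorm v).trans (mul_le_of_le_one_left (norm_nonneg _) pq.norm_le)

namespace TrAlg

variable (A : TrAlg H)

theorem τ_proj_mul {q e : H →L[ℂ] H} (hq : q ∈ A.M) (he : e ∈ A.M) (pq : IsStarProjection q)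
    (pe : IsStarProjection e) : A.τ (q * e) = ‖(q * e) A.Ω‖ ^ 2 := by
  rw [← τ_star_mul_self, star_mul, pq.isSelfAdjoint.star_eq, pe.isSelfAdjoint.star_eq, mul_assoc,
    ← mul_assoc q q, pq.isIdempotentElem.eq, A.τ_comm he (mul_mem hq he), mul_assoc,
    pe.isIdempotentElem.eq]

/-- **rank lemma** -/
theorem rank_le {a e b : H →L[ℂ] H} (he : e ∈ A.M) (hb : b ∈ A.M)
    (pe : IsStarProjection e) {C : ℝ} (hC : ‖a * e * b‖ ≤ C) :
    ‖(a * e * b) A.Ω‖ ^ 2 ≤ C ^ 2 * A.τ e := by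
  have se : star e = e := pe.isSelfAdjoint.star_eq
  have ee : e * e = e := pe.isIdempotentElem
  have hC0 : 0 ≤ C := (norm_nonneg _).trans hC
  have hτ : 0 ≤ A.τ e := A.τ_nonneg pe.nonneg
  set w := e * b with hw
  have hwM : w ∈ A.M := mul_mem he hb
  have key : ∀ η : ℝ, 0 < η →
      ‖(a * e * b) A.Ω‖ ≤ (C + ‖a‖ * η) * √(A.τ e) := by
    intro η hη
    set E : H →L[ℂ] H := ((η ^ 2 : ℝ) : ℂ) • 1 with hE
    have hEM : E ∈ A.M := A.M.smul_mem (one_mem _) _
    set c := w * star w + E with hc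
    have hcE : E ≤ c := le_add_of_nonneg_left (mul_star_self_nonneg _)
    have hE0 : 0 ≤ E := by
      have : E = (η ^ 2 : ℝ) • (1 : H →L[ℂ] H) := by rw [hE, ← Complex.coe_smul]
      rw [this]; exact smul_nonneg (sq_nonneg _) zero_le_one
    obtain ⟨d, hcd, hdc, hd⟩ := exists_inv_of_le (pow_pos hη 2) hcE
    have hcM : c ∈ A.M := add_mem (mul_mem hwM (star_mem hwM)) hEM
    have hdM : d ∈ A.M := A.inv_mem c hcM d hcd hdc
    have dcd : star d * c * d = d := by rw [hd, hdc, one_mul]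
    have hd0 : 0 ≤ d := dcd ▸ star_left_conjugate_nonneg (hE0.trans hcE) d
    have t1 : A.τ (star w * d * w) ≤ A.τ e := by
      have e1 : d * (w * star w) = 1 - ((η ^ 2 : ℝ) : ℂ) • d := by
        rw [← hdc, hc, mul_add, hE, mul_smul_comm, mul_one]; abel
      have e2 : star w * e = star w := by rw [hw, star_mul, se, mul_assoc, ee]
      have e3 : A.τ (star w * d * w) = A.τ (d * (w * star w) * e) := by
        rw [mul_assoc, A.τ_comm (star_mem hwM) (mul_mem hdM hwM), mul_assoc d, mul_assoc d,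
          mul_assoc w, e2]
      have e4 : 0 ≤ A.τ (d * e) := by
        have : A.τ (d * e) = A.τ (star e * d * e) := by
          rw [se, mul_assoc, A.τ_comm he (mul_mem hdM he), mul_assoc, ee]
        rw [this]; exact A.τ_nonneg (star_left_conjugate_nonneg hd0 e)
      rw [e3, e1, sub_mul, one_mul, smul_mul_assoc, A.τ_sub, A.τ_smul]
      nlinarith [sq_nonneg η]
    have t2 : ‖(star w * d * w) A.Ω‖ ^ 2 ≤ A.τ e := by
      refine le_trans ?_ t1
      rw [← A.τ_star_mul_self]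
      refine A.τ_mono ?_
      have h := star_left_conjugate_le_conjugate
        (le_add_of_nonneg_right hE0 : w * star w ≤ c) (d * w)
      have f1 : star (d * w) * (w * star w) * (d * w)
          = star (star w * d * w) * (star w * d * w) := by
        simp only [star_mul, star_star, hd, mul_assoc]
      have f2 : star (d * w) * c * (d * w) = star w * d * w := by
        rw [star_mul, hd, mul_assoc (star w) d c, hdc, mul_one, mul_assoc]
      rwa [f1, f2] at h
    have t3 : η ^ 2 * ‖(d * w) A.Ω‖ ^ 2 ≤ A.τ e := by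
      refine le_trans ?_ t1
      rw [← A.τ_star_mul_self, ← A.τ_smul]
      refine A.τ_mono ?_
      have h := star_left_conjugate_le_conjugate hcE (d * w)
      have f1 : star (d * w) * E * (d * w) = ((η ^ 2 : ℝ) : ℂ) • (star (d * w) * (d * w)) := by
        rw [hE, mul_smul_comm, mul_one, smul_mul_assoc]
      have f2 : star (d * w) * c * (d * w) = star w * d * w := by
        rw [star_mul, hd, mul_assoc (star w) d c, hdc, mul_one, mul_assoc]
      rwa [f1, f2] at h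
    have split : a * e * b = a * e * b * (star w * d * w) + ((η ^ 2 : ℝ) : ℂ) • (a * (d * w)) := by
      have : w = w * (star w * d * w) + ((η ^ 2 : ℝ) : ℂ) • (d * w) := by
        calc w = c * d * w := by rw [hcd, one_mul]
          _ = _ := by
            rw [hc, add_mul, add_mul, hE, smul_mul_assoc, one_mul, smul_mul_assoc]
            simp only [mul_assoc]
      rw [mul_assoc a e b, ← hw]
      calc a * w = a * (w * (star w * d * w) + ((η ^ 2 : ℝ) : ℂ) • (d * w)) := by rw [← this]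
        _ = _ := by rw [mul_add, mul_smul_comm, ← mul_assoc a w]
    have b1 : ‖(star w * d * w) A.Ω‖ ≤ √(A.τ e) := Real.le_sqrt_of_sq_le t2
    have b2 : η * ‖(d * w) A.Ω‖ ≤ √(A.τ e) := Real.le_sqrt_of_sq_le (by rw [mul_pow]; exact t3)
    calc ‖(a * e * b) A.Ω‖
        = ‖(a * e * b) ((star w * d * w) A.Ω) + ((η ^ 2 : ℝ) : ℂ) • a ((d * w) A.Ω)‖ := by
          conv_lhs => rw [split]
          rfl
      _ ≤ ‖a * e * b‖ * ‖(star w * d * w) A.Ω‖ + η ^ 2 * (‖a‖ * ‖(d * w) A.Ω‖) := by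
          refine (norm_add_le _ _).trans (add_le_add (ContinuousLinearMap.le_opNorm _ _) ?_)
          rw [norm_smul, Complex.norm_real, Real.norm_of_nonneg (sq_nonneg _)]
          gcongr
          exact a.le_opNorm _
      _ ≤ C * √(A.τ e) + ‖a‖ * η * √(A.τ e) := by
          refine add_le_add (by gcongr) ?_
          calc η ^ 2 * (‖a‖ * ‖(d * w) A.Ω‖) = ‖a‖ * η * (η * ‖(d * w) A.Ω‖) := by ring
            _ ≤ _ := by gcongr
      _ = _ := by ring
  have key2 : ‖(a * e * b) A.Ω‖ ≤ C * √(A.τ e) := by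
    refine le_of_forall_pos_le_add fun ε hε => ?_
    have h := key (ε / (‖a‖ * √(A.τ e) + 1)) (by positivity)
    have h5 : ‖a‖ * (ε / (‖a‖ * √(A.τ e) + 1)) * √(A.τ e) ≤ ε := by
      have : ‖a‖ * (ε / (‖a‖ * √(A.τ e) + 1)) * √(A.τ e)
          = ε * (‖a‖ * √(A.τ e)) / (‖a‖ * √(A.τ e) + 1) := by ring
      rw [this, div_le_iff₀ (by positivity)]
      nlinarith
    linarith
  calc _ ≤ (C * √(A.τ e)) ^ 2 := by gcongr
    _ = _ := by rw [mul_pow, Real.sq_sqrt hτ]

/-- `‖q' B - B q‖₂² = τ(q' B) - τ(q B) + 2 ‖(1 - q') B q‖₂²` -/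
theorem norm_comm_sq {q q' B : H →L[ℂ] H} (hq : q ∈ A.M) (hq' : q' ∈ A.M) (hB : B ∈ A.M)
    (pq : IsStarProjection q) (pq' : IsStarProjection q') (pB : IsStarProjection B) :
    ‖(q' * B - B * q) A.Ω‖ ^ 2
      = A.τ (q' * B) - A.τ (q * B) + 2 * ‖((1 - q') * B * q) A.Ω‖ ^ 2 := by
  have sq : star q = q := pq.isSelfAdjoint.star_eq
  have sq' : star q' = q' := pq'.isSelfAdjoint.star_eq
  have sB : star B = B := pB.isSelfAdjoint.star_eq
  have qq : q * q = q := pq.isIdempotentElem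
  have qq' : q' * q' = q' := pq'.isIdempotentElem
  have BB : B * B = B := pB.isIdempotentElem
  have h1 : A.τ (star (q' * B) * (q' * B)) = A.τ (q' * B) := by
    rw [τ_star_mul_self, A.τ_proj_mul hq' hB pq' pB]
  have h2 : A.τ (star (B * q) * (B * q)) = A.τ (q * B) := by
    rw [τ_star_mul_self, ← A.τ_proj_mul hB hq pB pq, A.τ_comm hB hq]
  have h3 : A.τ (star (B * q) * (q' * B)) = A.τ (star (q' * B) * (B * q)) := by
    rw [← A.τ_star, star_mul, star_star]
  have h4 : A.τ (star (q' * B) * (B * q)) = A.τ (q * B * q' * B * q) := by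
    rw [star_mul, sq', sB]
    have : q * B * q' * B * q = q * (B * q' * B * q) := by simp only [mul_assoc]
    rw [this, A.τ_comm hq (mul_mem (mul_mem (mul_mem hB hq') hB) hq), mul_assoc _ q q, qq]
    simp only [mul_assoc]
  have h5 : star ((1 - q') * B * q) * ((1 - q') * B * q)
      = star (B * q) * (B * q) - q * B * q' * B * q := by
    have : (1 - q') * (1 - q') = 1 - q' := by
      rw [sub_mul, one_mul, mul_sub, mul_one, qq']; abel
    simp only [star_mul, star_sub, star_one, sq, sq', sB]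
    calc q * (B * (1 - q')) * ((1 - q') * B * q) = q * B * ((1 - q') * (1 - q')) * B * q := by
          simp only [mul_assoc]
      _ = _ := by rw [this]; simp only [mul_sub, sub_mul, mul_one, mul_assoc]
  rw [← τ_star_mul_self, ← τ_star_mul_self, h5, star_sub, sub_mul, mul_sub, mul_sub, A.τ_sub,
    A.τ_sub, A.τ_sub, A.τ_sub, h1, h2, h3, h4]
  ring

end TrAlg

end alg

variable {X : Type*} [MeasurableSpace X] {μ : Measure X} [IsProbabilityMeasure μ]

/-- the density `E(q)` of a projection, clipped to `[0,1]` -/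
noncomputable def rho (q : HS μ →L[ℂ] HS μ) (x : X) : ℝ := max 0 (min 1 (q (Om μ) (x, 0)).re)

/-- the squared kernel -/
noncomputable def nu (q : HS μ →L[ℂ] HS μ) : Measure (X × ℤ) :=
  (pm μ).withDensity fun z => ENNReal.ofReal (‖q (Om μ) z‖ ^ 2)

theorem measurable_rho (q : HS μ →L[ℂ] HS μ) : Measurable (rho q) :=
  measurable_const.max (measurable_const.min (Complex.measurable_re.comp (measurable_slice _ 0)))

theorem rho_nonneg (q : HS μ →L[ℂ] HS μ) (x : X) : 0 ≤ rho q x := le_max_left _ _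

theorem rho_le_one (q : HS μ →L[ℂ] HS μ) (x : X) : rho q x ≤ 1 :=
  max_le zero_le_one (min_le_left _ _)

theorem bm_rho (q : HS μ →L[ℂ] HS μ) : BM (rho q) :=
  BM.of_abs_le (measurable_rho q) (C := 1) fun x => by
    rw [abs_of_nonneg (rho_nonneg q x)]; exact rho_le_one q x

instance nu_finite (q : HS μ →L[ℂ] HS μ) : IsFiniteMeasure (nu q) :=
  isFiniteMeasure_withDensity_ofReal (integrable_norm_sq (q (Om μ))).2

theorem nu_real (q : HS μ →L[ℂ] HS μ) {S : Set (X × ℤ)} (hS : MeasurableSet S) :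
    (nu q).real S = ∫ z in S, ‖q (Om μ) z‖ ^ 2 ∂(pm μ) := by
  rw [Measure.real, nu, withDensity_apply _ hS,
    ← ofReal_integral_eq_lintegral_ofReal (integrable_norm_sq (q (Om μ))).integrableOn
      (Filter.Eventually.of_forall fun z => by positivity),
    ENNReal.toReal_ofReal (integral_nonneg fun z => by positivity)]

theorem slice_sq_le (ζ : HS μ) : ∫ x, ‖ζ (x, 0)‖ ^ 2 ∂μ ≤ ‖ζ‖ ^ 2 := by
  rw [norm_sq_eq_integral, ← setIntegral_slice 0 fun z => ‖ζ z‖ ^ 2]
  exact setIntegral_le_integral (integrable_norm_sq ζ)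
    (Filter.Eventually.of_forall fun z => by positivity)

theorem bm_ind {Y : Type*} [MeasurableSpace Y] {S : Set Y} (hS : MeasurableSet S) :
    BM (S.indicator (1 : Y → ℝ)) := (BM.const (1 : ℝ)).indicator hS

namespace Act

variable (A : Act X μ)

/-- left multiplication by a real function -/
noncomputable def Lr (φ : X → ℝ) : HS μ →L[ℂ] HS μ := A.Lf fun x => (φ x : ℂ)

variable {φ χ : X → ℝ}

theorem Lr_mem (h : BM φ) : A.Lr φ ∈ A.M := A.Lf_mem h.ofReal

theorem Lr_mul (h : BM φ) (h' : BM χ) : A.Lr φ * A.Lr χ = A.Lr fun x => φ x * χ x := by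
  rw [Lr, Lr, A.Lf_mul h.ofReal h'.ofReal, Lr]; simp only [Complex.ofReal_mul]

theorem Lr_add (h : BM φ) (h' : BM χ) : A.Lr φ + A.Lr χ = A.Lr fun x => φ x + χ x := by
  rw [Lr, Lr, A.Lf_add h.ofReal h'.ofReal, Lr]; simp only [Complex.ofReal_add]

theorem Lr_sub (h : BM φ) (h' : BM χ) : A.Lr φ - A.Lr χ = A.Lr fun x => φ x - χ x := by
  rw [Lr, Lr, A.Lf_sub h.ofReal h'.ofReal, Lr]; simp only [Complex.ofReal_sub]

theorem Lr_one : A.Lr (fun _ => 1) = 1 := A.Lf_one

theorem Lr_const (c : ℝ) : A.Lr (fun _ => c) = (c : ℂ) • 1 := A.Lf_const c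

theorem star_Lr (h : BM φ) : star (A.Lr φ) = A.Lr φ := A.star_Lf_real h

theorem Lr_le (h : BM φ) (h' : BM χ) (hle : ∀ x, φ x ≤ χ x) : A.Lr φ ≤ A.Lr χ := A.Lf_le h h' hle

theorem norm_Lr_le (h : BM φ) {C : ℝ} (hC : ∀ x, |φ x| ≤ C) (hC0 : 0 ≤ C) : ‖A.Lr φ‖ ≤ C :=
  norm_mulOp_le (A.bmL h.ofReal) (Filter.Eventually.of_forall fun z => by simpa using hC _) hC0

theorem Lr_Ush (h : BM φ) (n : ℤ) : A.Lr φ * Ush μ n = Ush μ n * A.Lr fun x => φ (A.σ n x) :=
  A.Lf_Ush h.ofReal n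

theorem Lr_proj {S : Set X} (hS : MeasurableSet S) : IsStarProjection (A.Lr (S.indicator 1)) := by
  refine ⟨?_, A.star_Lr (bm_ind hS)⟩
  rw [IsIdempotentElem, A.Lr_mul (bm_ind hS) (bm_ind hS)]
  congr 1
  funext x
  by_cases h : x ∈ S <;> simp [h]

theorem τ_eq (a : HS μ →L[ℂ] HS μ) : A.trAlg.τ a = ∫ x, (a (Om μ) (x, 0)).re ∂μ := by
  have := integral_re ((memLp_slice (a (Om μ)) 0).integrable one_le_two)
  rw [TrAlg.τ]
  change RCLike.re ⟪Om μ, a (Om μ)⟫_ℂ = _
  rw [inner_Om, ← this]; rfl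

theorem slice_mul_Lr {a} (ha : a ∈ A.M) (h : BM φ) :
    ∀ᵐ z ∂(pm μ), (a * A.Lr φ) (Om μ) z = φ z.1 * a (Om μ) z := by
  rw [mul_apply_eq_comp, Lr, A.Lf_Om h.ofReal, ← mul_apply_eq_comp, ← A.Rf_comm ha h.ofReal,
    mul_apply_eq_comp]
  exact mulOp_ae (h.ofReal.comp measurable_fst) _

theorem slice_Lr_mul (a : HS μ →L[ℂ] HS μ) (h : BM φ) :
    ∀ᵐ z ∂(pm μ), (A.Lr φ * a) (Om μ) z = φ (A.σ z.2 z.1) * a (Om μ) z :=
  mulOp_ae (A.bmL h.ofReal) _

theorem τ_mul_Lr' {a} (ha : a ∈ A.M) (h : BM φ) :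
    A.trAlg.τ (a * A.Lr φ) = ∫ x, (a (Om μ) (x, 0)).re * φ x ∂μ := by
  rw [τ_eq]
  refine integral_congr_ae ?_
  filter_upwards [ae_pm_iff.1 (A.slice_mul_Lr ha h) 0] with x hx
  rw [hx]; simp [mul_comm]

theorem τ_Lr (h : BM φ) : A.trAlg.τ (A.Lr φ) = ∫ x, φ x ∂μ := by
  have := A.τ_mul_Lr' (one_mem A.M) h
  rw [one_mul] at this
  rw [this]
  refine integral_congr_ae ?_
  filter_upwards [ae_pm_iff.1 (Om_ae (μ := μ)) 0] with x hx
  simp [hx]

theorem norm_Lr_Om (h : BM φ) : ‖A.Lr φ (Om μ)‖ ^ 2 = ∫ x, φ x ^ 2 ∂μ := by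
  have := A.trAlg.τ_star_mul_self (A.Lr φ)
  rw [A.star_Lr h, A.Lr_mul h h, A.τ_Lr (h.mul h)] at this
  exact this.symm.trans (by simp only [sq])

theorem τ_ind {S : Set X} (hS : MeasurableSet S) :
    A.trAlg.τ (A.Lr (S.indicator 1)) = μ.real S := by
  rw [A.τ_Lr (bm_ind hS), integral_indicator_one hS]

theorem τ_mul_ind_le {q} (hq : q ∈ A.M) (pq : IsStarProjection q) {S : Set X}
    (hS : MeasurableSet S) : A.trAlg.τ (q * A.Lr (S.indicator 1)) ≤ μ.real S := by
  rw [A.trAlg.τ_proj_mul hq (A.Lr_mem (bm_ind hS)) pq (A.Lr_proj hS), ← A.τ_ind hS]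
  have h1 := A.trAlg.τ_proj_mul (one_mem _) (A.Lr_mem (bm_ind hS)) (.one _) (A.Lr_proj hS)
  rw [one_mul] at h1
  rw [h1, mul_apply_eq_comp]
  gcongr
  exact norm_proj_apply_le pq _

theorem rho_ae {q} (hq : q ∈ A.M) (pq : IsStarProjection q) :
    ∀ᵐ x ∂μ, q (Om μ) (x, 0) = (rho q x : ℂ) := by
  have hi : Integrable (fun x => (q (Om μ) (x, 0)).re) μ :=
    ((memLp_slice (q (Om μ)) 0).integrable one_le_two).re
  have e : ∀ S, MeasurableSet S → ∫ x in S, (q (Om μ) (x, 0)).re ∂μ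
      = A.trAlg.τ (q * A.Lr (S.indicator 1)) := fun S hS => by
    rw [A.τ_mul_Lr' hq (bm_ind hS), ← integral_indicator hS]
    congr 1
    funext x
    by_cases h : x ∈ S <;> simp [h]
  have h0 := ae_nonneg_of_forall_setIntegral_nonneg hi fun S hS _ => by
    rw [e S hS, A.trAlg.τ_proj_mul hq (A.Lr_mem (bm_ind hS)) pq (A.Lr_proj hS)]; positivity
  have h1 := ae_le_of_forall_setIntegral_le hi (integrable_const (1 : ℝ)) fun S hS _ => by
    rw [e S hS]; simpa using A.τ_mul_ind_le hq pq hS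
  filter_upwards [h0, h1, ae_pm_iff.1 (A.star_Om_ae hq) 0] with x h0 h1 h2
  rw [pq.isSelfAdjoint.star_eq, A.zero, neg_zero] at h2
  rw [rho, min_eq_right h1, max_eq_right (show (0 : ℝ) ≤ _ from h0)]
  exact (Complex.conj_eq_iff_re.1 h2.symm).symm

theorem τ_mul_Lr {q} (hq : q ∈ A.M) (pq : IsStarProjection q) (h : BM φ) :
    A.trAlg.τ (q * A.Lr φ) = ∫ x, rho q x * φ x ∂μ := by
  rw [A.τ_mul_Lr' hq h]
  refine integral_congr_ae ?_
  filter_upwards [A.rho_ae hq pq] with x hx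
  simp [hx]

theorem τ_mul_ind {q} (hq : q ∈ A.M) (pq : IsStarProjection q) {S : Set X}
    (hS : MeasurableSet S) : A.trAlg.τ (q * A.Lr (S.indicator 1)) = ∫ x in S, rho q x ∂μ := by
  rw [A.τ_mul_Lr hq pq (bm_ind hS), ← integral_indicator hS]
  congr 1
  funext x
  by_cases h : x ∈ S <;> simp [h]

theorem τ_proj {q} (hq : q ∈ A.M) (pq : IsStarProjection q) :
    A.trAlg.τ q = ∫ x, rho q x ∂μ := by
  have := A.τ_mul_Lr hq pq (BM.const (1 : ℝ))
  simpa [A.Lr_one] using this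

theorem meas_pair {R L : Set X} (hR : MeasurableSet R) (hL : MeasurableSet L) :
    MeasurableSet {z : X × ℤ | z.1 ∈ R ∧ A.σ z.2 z.1 ∈ L} :=
  (measurable_fst hR).inter (A.meas_pos hL)

theorem nu_pair {q} (hq : q ∈ A.M) {R L : Set X} (hR : MeasurableSet R) (hL : MeasurableSet L) :
    (nu q).real {z | z.1 ∈ R ∧ A.σ z.2 z.1 ∈ L}
      = ‖(A.Lr (L.indicator 1) * q * A.Lr (R.indicator 1)) (Om μ)‖ ^ 2 := by
  rw [nu_real q (A.meas_pair hR hL), norm_sq_eq_integral, ← integral_indicator (A.meas_pair hR hL),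
    mul_assoc]
  refine integral_congr_ae ?_
  filter_upwards [A.slice_Lr_mul (q * A.Lr (R.indicator 1)) (bm_ind hL),
    A.slice_mul_Lr hq (bm_ind hR)] with z h1 h2
  rw [h1, h2]
  by_cases h : z.1 ∈ R <;> by_cases h' : A.σ z.2 z.1 ∈ L <;> simp [h, h']

theorem nu_symm {q} (hq : q ∈ A.M) (pq : IsStarProjection q) {R L : Set X} (hR : MeasurableSet R)
    (hL : MeasurableSet L) : (nu q).real {z | z.1 ∈ R ∧ A.σ z.2 z.1 ∈ L}
      = (nu q).real {z | z.1 ∈ L ∧ A.σ z.2 z.1 ∈ R} := by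
  rw [A.nu_pair hq hR hL, A.nu_pair hq hL hR]
  have := A.trAlg.norm_star (mul_mem (mul_mem (A.Lr_mem (bm_ind hL)) hq) (A.Lr_mem (bm_ind hR)))
  rw [star_mul, star_mul, A.star_Lr (bm_ind hL), A.star_Lr (bm_ind hR), pq.isSelfAdjoint.star_eq,
    ← mul_assoc] at this
  exact congrArg (· ^ 2) this.symm

theorem nu_marg {q} (hq : q ∈ A.M) (pq : IsStarProjection q) {Z : Set X} (hZ : MeasurableSet Z) :
    nu q {z | z.1 ∈ Z} ≤ μ Z := by
  have h := A.nu_pair hq hZ MeasurableSet.univ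
  simp only [Set.mem_univ, and_true, Set.indicator_univ] at h
  have h1 : A.Lr 1 = 1 := A.Lr_one
  rw [h1, one_mul] at h
  have h2 := A.trAlg.τ_proj_mul hq (A.Lr_mem (bm_ind hZ)) pq (A.Lr_proj hZ)
  have h3 := A.τ_mul_ind_le hq pq hZ
  rw [← ENNReal.toReal_le_toReal (measure_ne_top _ _) (measure_ne_top _ _)]
  change (nu q).real _ ≤ μ.real Z
  rw [h]
  exact h2.symm.le.trans h3

theorem nu_off {q} (hq : q ∈ A.M) (pq : IsStarProjection q) :
    (nu q).real {z | z.2 ≠ 0} = A.trAlg.τ q - ∫ x, rho q x ^ 2 ∂μ := by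
  have h1 := A.trAlg.τ_proj_mul hq (one_mem _) pq (.one _)
  rw [mul_one] at h1
  have h2 := integral_add_compl (meas_slice (X := X) 0) (integrable_norm_sq (q (Om μ)))
  have h3 : ∫ z in {z : X × ℤ | z.2 = 0}, ‖q (Om μ) z‖ ^ 2 ∂(pm μ) = ∫ x, rho q x ^ 2 ∂μ := by
    rw [setIntegral_slice]
    refine integral_congr_ae ?_
    filter_upwards [A.rho_ae hq pq] with x hx
    simp [hx]
  change (nu q).real {z | z.2 = 0}ᶜ = _
  rw [h1, nu_real q (meas_slice 0).compl]
  change _ = ‖q (Om μ)‖ ^ 2 - _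
  rw [norm_sq_eq_integral, ← h2, h3]
  simp only [add_sub_cancel_left]

theorem conj_mem {q} (hq : q ∈ A.M) (n : ℤ) : Ush μ (-n) * q * Ush μ n ∈ A.M :=
  mul_mem (mul_mem (A.Ush_mem _) hq) (A.Ush_mem _)

theorem conj_proj {q : HS μ →L[ℂ] HS μ} (pq : IsStarProjection q) (n : ℤ) :
    IsStarProjection (Ush μ (-n) * q * Ush μ n) := by
  refine ⟨?_, ?_⟩
  · rw [IsIdempotentElem]
    calc Ush μ (-n) * q * Ush μ n * (Ush μ (-n) * q * Ush μ n)
        = Ush μ (-n) * q * (Ush μ n * Ush μ (-n)) * q * Ush μ n := by simp only [mul_assoc]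
      _ = _ := by
        rw [Ush_add, add_neg_cancel, Ush_zero, mul_one, mul_assoc _ q q, pq.isIdempotentElem.eq]
  · rw [IsSelfAdjoint, star_mul, star_mul, star_Ush, star_Ush, neg_neg, pq.isSelfAdjoint.star_eq,
      mul_assoc]

theorem rho_conj {q} (hq : q ∈ A.M) (n : ℤ) :
    ∀ᵐ x ∂μ, rho (Ush μ (-n) * q * Ush μ n) x = rho q (A.σ n x) := by
  have e : (Ush μ (-n) * q * Ush μ n) (Om μ) = Ush μ (-n) (A.Ur n (q (Om μ))) := by
    rw [mul_apply_eq_comp, mul_apply_eq_comp, A.Ush_Om, ← mul_apply_eq_comp q, ← A.Ur_comm hq,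
      mul_apply_eq_comp]
  filter_upwards [ae_pm_iff.1 (compOp_ae (mpU (μ := μ) (-n)) (A.Ur n (q (Om μ)))) 0,
    ae_pm_iff.1 (compOp_ae (A.mpU' n) (q (Om μ))) n] with x h1 h2
  rw [rho, rho, e, Ush, h1]
  simp only [zero_sub, neg_neg]
  rw [Ur, h2]
  simp

end Act

end Crest.Agent.R113
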