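import Crest.Agent.R113.Defs
import Crest.Agent.R113.OpMul
import Crest.Agent.R113.OpAlg

/-!
# R113 — the crossed product `L^∞(X) ⋊ ℤ` on `L²(X × ℤ)` with its trace vector
-/

set_option autoImplicit false
set_option linter.unusedSectionVars false

namespace Crest.Agent.R113

open MeasureTheory
open scoped InnerProductSpace ENNReal ComplexConjugate

variable {X : Type*} [MeasurableSpace X]

section slices

variable {μ : Measure X} [SFinite μ]

theorem pm_eq_sum : pm μ = Measure.sum fun d : ℤ => μ.map (fun x => (x, d)) := by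
  rw [pm, Measure.count, Measure.prod_sum_right]
  simp only [Measure.prod_dirac]

theorem emb (d : ℤ) : MeasurableEmbedding (fun x : X => (x, d)) :=
  measurableEmbedding_prod_mk_right d

theorem ae_pm_iff {P : X × ℤ → Prop} : (∀ᵐ z ∂(pm μ), P z) ↔ ∀ d, ∀ᵐ x ∂μ, P (x, d) := by
  rw [pm_eq_sum, Measure.ae_sum_iff]
  exact forall_congr' fun d => (emb d).ae_map_iff

theorem meas_slice (d : ℤ) : MeasurableSet {z : X × ℤ | z.2 = d} :=
  measurable_snd (measurableSet_singleton d)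

theorem restrict_slice (d : ℤ) :
    (pm μ).restrict {z | z.2 = d} = μ.map (fun x => (x, d)) := by
  have : {z : X × ℤ | z.2 = d} = Set.univ ×ˢ {d} := by ext z; simp
  rw [this, pm, ← Measure.prod_restrict, Measure.restrict_univ, Measure.restrict_singleton,
    Measure.count_singleton, one_smul, Measure.prod_dirac]

theorem setIntegral_slice {E : Type*} [NormedAddCommGroup E] [NormedSpace ℝ E] (d : ℤ)
    (G : X × ℤ → E) : ∫ z in {z | z.2 = d}, G z ∂(pm μ) = ∫ x, G (x, d) ∂μ := by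
  rw [restrict_slice, (emb d).integral_map]

theorem mp_slice (d : ℤ) :
    MeasurePreserving (fun x : X => (x, d)) μ ((pm μ).restrict {z | z.2 = d}) :=
  ⟨(emb d).measurable, (restrict_slice d).symm⟩

theorem memLp_slice (ξ : Lp ℂ 2 (pm μ)) (d : ℤ) : MemLp (fun x => ξ (x, d)) 2 μ :=
  ((Lp.memLp ξ).restrict _).comp_measurePreserving (mp_slice d)

theorem measurable_slice (ξ : Lp ℂ 2 (pm μ)) (d : ℤ) : Measurable (fun x => ξ (x, d)) :=
  (Lp.stronglyMeasurable ξ).measurable.comp (emb d).measurable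

/-- a map `(x, d) ↦ (s d x, e d)` with `e` a bijection of `ℤ` preserves `pm μ` -/
theorem mp_skew (s : ℤ → X → X) (hs : ∀ d, MeasurePreserving (s d) μ μ) (e : ℤ ≃ ℤ) :
    MeasurePreserving (fun z : X × ℤ => (s z.2 z.1, e z.2)) (pm μ) (pm μ) := by
  have hm : Measurable (fun z : X × ℤ => (s z.2 z.1, e z.2)) :=
    measurable_from_prod_countable_left fun d =>
      (hs d).measurable.prodMk (measurable_const (a := e d))
  refine ⟨hm, ?_⟩
  conv_lhs => rw [pm_eq_sum, Measure.map_sum hm.aemeasurable]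
  conv_rhs => rw [pm_eq_sum, ← Measure.sum_comp_equiv e]
  congr 1
  funext d
  rw [Measure.map_map hm (emb d).measurable, Function.comp_apply]
  conv_rhs => rw [← (hs d).map_eq, Measure.map_map (emb _).measurable (hs d).measurable]
  rfl

end slices

variable {μ : Measure X} [IsProbabilityMeasure μ]

/-- the trace vector `1_{d = 0}` -/
noncomputable def Om (μ : Measure X) [IsProbabilityMeasure μ] : Lp ℂ 2 (pm μ) :=
  indicatorConstLp 2 (meas_slice 0)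
    (by rw [← Measure.restrict_apply_self, restrict_slice,
          Measure.map_apply (emb 0).measurable (meas_slice 0)]
        exact measure_ne_top _ _) (1 : ℂ)

theorem Om_ae : ∀ᵐ z ∂(pm μ), Om μ z = if z.2 = 0 then 1 else 0 := by
  filter_upwards [indicatorConstLp_coeFn (p := 2) (μ := pm μ) (hs := meas_slice 0) (c := (1 : ℂ))
    (hμs := by
        rw [← Measure.restrict_apply_self, restrict_slice,
          Measure.map_apply (emb 0).measurable (meas_slice 0)]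
        exact measure_ne_top _ _)] with z hz
  rw [Om, hz]
  by_cases h : z.2 = 0 <;> simp [h]

theorem inner_Om (ζ : Lp ℂ 2 (pm μ)) : ⟪Om μ, ζ⟫_ℂ = ∫ x, ζ (x, 0) ∂μ := by
  rw [Om, L2.inner_indicatorConstLp_one, setIntegral_slice]

theorem norm_Om : ‖Om μ‖ = 1 := by
  have h := inner_Om (μ := μ) (Om μ)
  have h2 : ∫ x, Om μ (x, 0) ∂μ = 1 := by
    rw [integral_congr_ae (g := fun _ => (1 : ℂ))]
    · simp
    · filter_upwards [ae_pm_iff.1 (Om_ae (μ := μ)) 0] with x hx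
      simpa using hx
  rw [h2, inner_self_eq_norm_sq_to_K] at h
  have h3 : ‖Om μ‖ ^ 2 = 1 := by
    apply Complex.ofReal_injective
    push_cast
    exact h
  exact (pow_eq_one_iff_of_nonneg (norm_nonneg _) two_ne_zero).1 h3

theorem eq_zero_of_slices (ζ : Lp ℂ 2 (pm μ))
    (h : ∀ d A, MeasurableSet A → ∫ x in A, ζ (x, d) ∂μ = 0) : ζ = 0 := by
  refine Lp.ext ?_
  filter_upwards [(ae_pm_iff (P := fun z => ζ z = 0)).2 fun d =>
    ((memLp_slice ζ d).integrable one_le_two).ae_eq_zero_of_forall_setIntegral_eq_zero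
      fun A hA _ => h d A hA, Lp.coeFn_zero ℂ 2 (pm μ)] with z h1 h2
  rw [h1, h2]; rfl

/-- right multiplication by a function -/
noncomputable def Rf (μ : Measure X) (φ : X → ℂ) : Lp ℂ 2 (pm μ) →L[ℂ] Lp ℂ 2 (pm μ) :=
  mulOp (pm μ) fun z => φ z.1

namespace Act

variable (S : Act X μ)

theorem meas_pos : Measurable fun z : X × ℤ => S.σ z.2 z.1 :=
  measurable_from_prod_countable_left fun d => (S.mp d).measurable

theorem neg_cancel (a : ℤ) (x : X) : S.σ (-a) (S.σ a x) = x := by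
  rw [← S.add, neg_add_cancel, S.zero]

theorem cancel_neg (a : ℤ) (x : X) : S.σ a (S.σ (-a) x) = x := by
  rw [← S.add, add_neg_cancel, S.zero]

theorem mpU (n : ℤ) : MeasurePreserving (fun z : X × ℤ => (z.1, z.2 - n)) (pm μ) (pm μ) :=
  mp_skew (fun _ x => x) (fun _ => MeasurePreserving.id μ) (Equiv.subRight n)

theorem mpU' (n : ℤ) :
    MeasurePreserving (fun z : X × ℤ => (S.σ n z.1, z.2 - n)) (pm μ) (pm μ) :=
  mp_skew (fun _ => S.σ n) (fun _ => S.mp n) (Equiv.subRight n)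

theorem mpJ : MeasurePreserving (fun z : X × ℤ => (S.σ z.2 z.1, -z.2)) (pm μ) (pm μ) :=
  mp_skew S.σ S.mp (Equiv.neg ℤ)

end Act

/-- the shift `Uⁿ` -/
noncomputable def Ush (μ : Measure X) [IsProbabilityMeasure μ] (n : ℤ) :
    Lp ℂ 2 (pm μ) →L[ℂ] Lp ℂ 2 (pm μ) :=
  compOp _ (Act.mpU n)

theorem Ush_add (a b : ℤ) : Ush μ a * Ush μ b = Ush μ (a + b) :=
  compOp_mul _ _ _ fun z => by simp [sub_sub]

theorem Ush_zero : Ush μ 0 = 1 := compOp_id _ fun z => by simp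

theorem star_Ush (a : ℤ) : star (Ush μ a) = Ush μ (-a) :=
  star_compOp _ _ (by
    have := Ush_add (μ := μ) a (-a)
    rwa [add_neg_cancel, Ush_zero] at this)

namespace Act

variable (S : Act X μ)

/-- left multiplication by a function -/
noncomputable def Lf (φ : X → ℂ) : Lp ℂ 2 (pm μ) →L[ℂ] Lp ℂ 2 (pm μ) :=
  mulOp (pm μ) fun z => φ (S.σ z.2 z.1)

/-- the right shift -/
noncomputable def Ur (n : ℤ) : Lp ℂ 2 (pm μ) →L[ℂ] Lp ℂ 2 (pm μ) := compOp _ (S.mpU' n)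

theorem Ur_add (a b : ℤ) : S.Ur a * S.Ur b = S.Ur (a + b) :=
  compOp_mul _ _ _ fun z => by simp [sub_sub, ← S.add, add_comm]

theorem Ur_zero : S.Ur 0 = 1 := compOp_id _ fun z => by simp [S.zero]

theorem star_Ur (a : ℤ) : star (S.Ur a) = S.Ur (-a) :=
  star_compOp _ _ (by
    have := S.Ur_add a (-a)
    rwa [add_neg_cancel, Ur_zero] at this)

theorem Ush_Ur (a b : ℤ) : Ush μ a * S.Ur b = S.Ur b * Ush μ a := by
  have h : MeasurePreserving (fun z : X × ℤ => (S.σ b z.1, z.2 - (a + b))) (pm μ) (pm μ) :=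
    mp_skew (fun _ => S.σ b) (fun _ => S.mp b) (Equiv.subRight (a + b))
  rw [Ush, Ur, compOp_mul _ _ h fun z => by simp [sub_sub],
    compOp_mul _ _ h fun z => by simp [sub_sub, add_comm]]

/-- generators of the commutant -/
def gens : Set (Lp ℂ 2 (pm μ) →L[ℂ] Lp ℂ 2 (pm μ)) :=
  {s | (∃ φ : X → ℂ, BM φ ∧ s = Rf μ φ) ∨ ∃ n, s = S.Ur n}

theorem star_Rf {φ : X → ℂ} (h : BM φ) : star (Rf μ φ) = Rf μ fun x => conj (φ x) :=
  star_mulOp (h.comp measurable_fst)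

theorem star_mem_gens {s} (h : s ∈ S.gens) : star s ∈ S.gens := by
  rcases h with ⟨φ, hφ, rfl⟩ | ⟨n, rfl⟩
  · exact Or.inl ⟨_, hφ.cj, star_Rf hφ⟩
  · exact Or.inr ⟨_, S.star_Ur n⟩

/-- the crossed product von Neumann algebra -/
noncomputable def M : StarSubalgebra ℂ (Lp ℂ 2 (pm μ) →L[ℂ] Lp ℂ 2 (pm μ)) :=
  StarSubalgebra.centralizer ℂ S.gens

theorem mem_M {a} : a ∈ S.M ↔ ∀ s ∈ S.gens, s * a = a * s := by
  rw [M, StarSubalgebra.mem_centralizer_iff]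
  exact ⟨fun h s hs => (h s hs).1, fun h s hs => ⟨h s hs, h _ (S.star_mem_gens hs)⟩⟩

theorem Rf_comm {a} (ha : a ∈ S.M) {φ : X → ℂ} (h : BM φ) : Rf μ φ * a = a * Rf μ φ :=
  S.mem_M.1 ha _ (Or.inl ⟨φ, h, rfl⟩)

theorem Ur_comm {a} (ha : a ∈ S.M) (n : ℤ) : S.Ur n * a = a * S.Ur n :=
  S.mem_M.1 ha _ (Or.inr ⟨n, rfl⟩)

theorem bmL {φ : X → ℂ} (h : BM φ) : BM fun z : X × ℤ => φ (S.σ z.2 z.1) := h.comp S.meas_pos

theorem Lf_mem {φ : X → ℂ} (h : BM φ) : S.Lf φ ∈ S.M := by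
  rw [mem_M]
  rintro s (⟨ψ, hψ, rfl⟩ | ⟨n, rfl⟩)
  · exact mulOp_comm (hψ.comp measurable_fst) (S.bmL h)
  · rw [Ur, Lf, compOp_mulOp _ (S.bmL h)]
    simp only [← S.add, sub_add_cancel]

theorem Ush_mem (n : ℤ) : Ush μ n ∈ S.M := by
  rw [mem_M]
  rintro s (⟨ψ, hψ, rfl⟩ | ⟨k, rfl⟩)
  · rw [Ush, Rf, compOp_mulOp _ (hψ.comp measurable_fst)]
  · exact (S.Ush_Ur n k).symm

theorem Lf_Ush {φ : X → ℂ} (h : BM φ) (n : ℤ) :
    S.Lf φ * Ush μ n = Ush μ n * S.Lf fun x => φ (S.σ n x) := by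
  rw [Ush, Lf, Lf, compOp_mulOp _ (S.bmL (h.comp (S.mp n).measurable))]
  simp only [← S.add, add_sub_cancel]

theorem Lf_mul {φ ψ : X → ℂ} (h : BM φ) (h' : BM ψ) :
    S.Lf φ * S.Lf ψ = S.Lf fun x => φ x * ψ x := mulOp_mul (S.bmL h) (S.bmL h')

theorem Lf_add {φ ψ : X → ℂ} (h : BM φ) (h' : BM ψ) :
    S.Lf φ + S.Lf ψ = S.Lf fun x => φ x + ψ x := mulOp_add (S.bmL h) (S.bmL h')

theorem Lf_sub {φ ψ : X → ℂ} (h : BM φ) (h' : BM ψ) :
    S.Lf φ - S.Lf ψ = S.Lf fun x => φ x - ψ x := mulOp_sub (S.bmL h) (S.bmL h')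

theorem Lf_one : S.Lf (fun _ => 1) = 1 := mulOp_one

theorem Lf_const (c : ℂ) : S.Lf (fun _ => c) = c • 1 := mulOp_const c

theorem star_Lf {φ : X → ℂ} (h : BM φ) : star (S.Lf φ) = S.Lf fun x => conj (φ x) :=
  star_mulOp (S.bmL h)

theorem star_Lf_real {φ : X → ℝ} (h : BM φ) :
    star (S.Lf fun x => (φ x : ℂ)) = S.Lf fun x => (φ x : ℂ) := by
  rw [S.star_Lf h.ofReal]; simp only [Complex.conj_ofReal]

theorem Lf_le {φ ψ : X → ℝ} (h : BM φ) (h' : BM ψ) (hle : ∀ x, φ x ≤ ψ x) :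
    (S.Lf fun x => (φ x : ℂ)) ≤ S.Lf fun x => (ψ x : ℂ) :=
  mulOp_le (h.comp S.meas_pos) (h'.comp S.meas_pos) fun _ => hle _

theorem Lf_Om {φ : X → ℂ} (h : BM φ) : S.Lf φ (Om μ) = Rf μ φ (Om μ) := by
  refine Lp.ext ?_
  filter_upwards [mulOp_ae (S.bmL h) (Om μ), mulOp_ae (h.comp measurable_fst) (Om μ),
    Om_ae (μ := μ)] with z h1 h2 h3
  rw [Lf, Rf, h1, h2, h3]
  by_cases h0 : z.2 = 0 <;> simp [h0, S.zero]

theorem Ush_Om (n : ℤ) : Ush μ n (Om μ) = S.Ur n (Om μ) := by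
  refine Lp.ext ?_
  filter_upwards [compOp_ae (mpU n) (Om μ), compOp_ae (S.mpU' n) (Om μ),
    (mpU n).quasiMeasurePreserving.ae (Om_ae (μ := μ)),
    (S.mpU' n).quasiMeasurePreserving.ae (Om_ae (μ := μ))] with z h1 h2 h3 h4
  rw [Ush, Ur, h1, h2, h3, h4]

/-- `⟪Ω, R_φ U'_d ζ⟫ = ∫ φ(x) ζ(σ^d x, -d)` -/
theorem inner_Om_Rf_Ur {φ : X → ℂ} (h : BM φ) (d : ℤ) (ζ : Lp ℂ 2 (pm μ)) :
    ⟪Om μ, Rf μ φ (S.Ur d ζ)⟫_ℂ = ∫ x, φ x * ζ (S.σ d x, -d) ∂μ := by
  rw [inner_Om]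
  refine integral_congr_ae ?_
  filter_upwards [ae_pm_iff.1 (mulOp_ae (h.comp measurable_fst) (S.Ur d ζ)) 0,
    ae_pm_iff.1 (compOp_ae (S.mpU' d) ζ) 0] with x h1 h2
  rw [Rf, h1, Ur, h2]; simp

/-- `⟪ζ, R_φ U'_d Ω⟫ = ∫ conj ζ(x, d) φ(x)` -/
theorem inner_Rf_Ur_Om {φ : X → ℂ} (h : BM φ) (d : ℤ) (ζ : Lp ℂ 2 (pm μ)) :
    ⟪ζ, Rf μ φ (S.Ur d (Om μ))⟫_ℂ = ∫ x, φ x * conj (ζ (x, d)) ∂μ := by
  rw [L2.inner_def, ← setIntegral_slice d (fun z => φ z.1 * conj (ζ z)),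
    ← integral_indicator (meas_slice d)]
  refine integral_congr_ae ?_
  filter_upwards [mulOp_ae (h.comp measurable_fst) (S.Ur d (Om μ)), compOp_ae (S.mpU' d) (Om μ),
    (S.mpU' d).quasiMeasurePreserving.ae (Om_ae (μ := μ))] with z h1 h2 h3
  rw [Rf, h1, Ur, h2, h3]
  by_cases h0 : z.2 = d <;> simp [h0, sub_eq_zero]

theorem eq_zero_of_orth (ζ : Lp ℂ 2 (pm μ))
    (h : ∀ φ : X → ℂ, BM φ → ∀ d, ⟪ζ, Rf μ φ (S.Ur d (Om μ))⟫_ℂ = 0) : ζ = 0 := by
  refine eq_zero_of_slices ζ fun d A hA => ?_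
  have := h _ ((BM.const (1 : ℂ)).indicator hA) d
  rw [S.inner_Rf_Ur_Om ((BM.const (1 : ℂ)).indicator hA)] at this
  have h2 : ∫ x, A.indicator (fun _ => (1 : ℂ)) x * conj (ζ (x, d)) ∂μ
      = conj (∫ x in A, ζ (x, d) ∂μ) := by
    rw [← integral_conj, ← integral_indicator hA]
    refine integral_congr_ae (Filter.Eventually.of_forall fun x => ?_)
    by_cases hx : x ∈ A <;> simp [hx]
  rw [h2] at this
  simpa using this

theorem faithful {a} (ha : a ∈ S.M) (h : a (Om μ) = 0) : a = 0 := by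
  rw [← star_eq_zero]
  ext1 ξ
  refine S.eq_zero_of_orth _ fun φ hφ d => ?_
  rw [ContinuousLinearMap.star_eq_adjoint, ContinuousLinearMap.adjoint_inner_left,
    ← mul_apply_eq_comp a, ← S.Rf_comm ha hφ, mul_apply_eq_comp, ← mul_apply_eq_comp a,
    ← S.Ur_comm ha, mul_apply_eq_comp, h]
  simp

theorem star_Om_ae {a} (ha : a ∈ S.M) :
    ∀ᵐ z ∂(pm μ), star a (Om μ) z = conj (a (Om μ) (S.σ z.2 z.1, -z.2)) := by
  rw [ae_pm_iff]
  intro d
  have i1 : Integrable (fun x => conj (star a (Om μ) (x, d))) μ :=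
    (Complex.conjCLE : ℂ →L[ℝ] ℂ).integrable_comp ((memLp_slice _ d).integrable one_le_two)
  have i2 : Integrable (fun x => a (Om μ) (S.σ d x, -d)) μ :=
    ((memLp_slice (a (Om μ)) (-d)).comp_measurePreserving (S.mp d)).integrable one_le_two
  have := Integrable.ae_eq_of_forall_setIntegral_eq _ _ i1 i2 fun A hA _ => by
    have hφ := (BM.const (Y := X) (1 : ℂ)).indicator hA
    have e1 := S.inner_Rf_Ur_Om hφ d (star a (Om μ))
    rw [ContinuousLinearMap.star_eq_adjoint, ContinuousLinearMap.adjoint_inner_left,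
      ← mul_apply_eq_comp a, ← S.Rf_comm ha hφ, mul_apply_eq_comp, ← mul_apply_eq_comp a,
      ← S.Ur_comm ha, mul_apply_eq_comp, S.inner_Om_Rf_Ur hφ,
      ← ContinuousLinearMap.star_eq_adjoint] at e1
    rw [← integral_indicator hA, ← integral_indicator hA]
    convert e1.symm using 2 <;> funext x <;> by_cases hx : x ∈ A <;> simp [hx]
  filter_upwards [this] with x hx
  rw [← hx]; simp

theorem trace {a b} (ha : a ∈ S.M) (hb : b ∈ S.M) :
    ⟪Om μ, (a * b) (Om μ)⟫_ℂ = ⟪Om μ, (b * a) (Om μ)⟫_ℂ := by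
  have e : ∀ a ∈ S.M, ∀ b : Lp ℂ 2 (pm μ) →L[ℂ] Lp ℂ 2 (pm μ), ⟪Om μ, (a * b) (Om μ)⟫_ℂ
      = ∫ z, a (Om μ) (S.σ z.2 z.1, -z.2) * b (Om μ) z ∂(pm μ) := fun a ha b => by
    rw [mul_apply_eq_comp, ← ContinuousLinearMap.adjoint_inner_left,
      ← ContinuousLinearMap.star_eq_adjoint, L2.inner_def]
    refine integral_congr_ae ?_
    filter_upwards [S.star_Om_ae ha] with z hz
    rw [hz]; simp [mul_comm]
  rw [e a ha, e b hb]
  let κ : X × ℤ ≃ᵐ X × ℤ :=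
    { toFun := fun z => (S.σ z.2 z.1, -z.2)
      invFun := fun z => (S.σ z.2 z.1, -z.2)
      left_inv := fun z => by simp [S.neg_cancel]
      right_inv := fun z => by simp [S.neg_cancel]
      measurable_toFun := S.mpJ.measurable
      measurable_invFun := S.mpJ.measurable }
  have hκ : MeasurePreserving κ (pm μ) (pm μ) := S.mpJ
  rw [← hκ.integral_comp' ]
  refine integral_congr_ae (Filter.Eventually.of_forall fun z => ?_)
  simp [κ, S.neg_cancel, mul_comm]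

theorem mem_M_of_InN {p} (hp : S.InN p) : p ∈ S.M := by
  rw [mem_M]
  rintro s (⟨ψ, hψ, rfl⟩ | ⟨n, rfl⟩)
  · exact hp.2 ψ hψ.1 hψ.2 _ fun g => mulOp_ae (hψ.comp measurable_fst) g
  · exact hp.1 n _ fun g => compOp_ae (S.mpU' n) g

theorem InN_of_mem_M {p} (hp : p ∈ S.M) : S.InN p := by
  refine ⟨fun n R hR => ?_, fun ψ h1 h2 R hR => ?_⟩
  · have : R = S.Ur n := by
      ext1 g
      exact Lp.ext ((hR g).trans (compOp_ae (S.mpU' n) g).symm)
    rw [this]; exact S.Ur_comm hp n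
  · have : R = Rf μ ψ := mulOp_ext (BM.comp ⟨h1, h2⟩ measurable_fst) hR
    rw [this]; exact S.Rf_comm hp ⟨h1, h2⟩

theorem eq_of_isShift {f : X → ℝ} (hf : BM f) {T} (hT : S.IsShift f T) :
    T = Ush μ 1 * S.Lf fun x => (f x : ℂ) := by
  ext1 g
  refine Lp.ext ?_
  filter_upwards [hT g, compOp_ae (mpU (μ := μ) 1) (S.Lf (fun x => (f x : ℂ)) g),
    (mpU (μ := μ) 1).quasiMeasurePreserving.ae (mulOp_ae (S.bmL hf.ofReal) g)] with z h1 h2 h3
  rw [h1, mul_apply_eq_comp, Ush, h2, Lf, h3]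

theorem isShift {f : X → ℝ} (hf : BM f) :
    S.IsShift f (Ush μ 1 * S.Lf fun x => (f x : ℂ)) := by
  intro g
  filter_upwards [compOp_ae (mpU (μ := μ) 1) (S.Lf (fun x => (f x : ℂ)) g),
    (mpU (μ := μ) 1).quasiMeasurePreserving.ae (mulOp_ae (S.bmL hf.ofReal) g)] with z h2 h3
  rw [mul_apply_eq_comp, Ush, h2, Lf, h3]

/-- the crossed product as a trace algebra -/
noncomputable def trAlg : TrAlg (Lp ℂ 2 (pm μ)) where
  M := S.M
  Ω := Om μ
  inv_mem a ha b h1 h2 := by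
    rw [mem_M] at ha ⊢
    intro s hs
    calc s * b = b * a * s * b := by rw [h2, one_mul]
      _ = b * s * (a * b) := by rw [mul_assoc b a, ← ha s hs]; simp only [mul_assoc]
      _ = b * s := by rw [h1, mul_one]
  trace a ha b hb := S.trace ha hb

end Act

end Crest.Agent.R113
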