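import Crest.Agent.R113.DefsL
import Crest.Agent.R113.OpCfc
import Crest.Prelude.Def_RotationRep

/-!
# R113 — the rotation algebra on `ℓ²(ℤ × ℤ)` is the crossed product on `L²(𝕋 × ℤ)`
-/

set_option autoImplicit false

namespace Crest.Agent.R113

open MeasureTheory Crest.AnalysisR.RotationRep
open scoped InnerProductSpace ComplexConjugate

namespace Transfer

theorem vol_eq : (volume : Measure UnitAddCircle) = AddCircle.haarAddCircle := by
  rw [AddCircle.volume_eq_smul_haarAddCircle]; simp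

theorem bm_fourier (b : ℤ) : BM fun x : UnitAddCircle => fourier b x :=
  BM.continuousMap_comp (fourier b) measurable_id

/-- the basis vectors `fourier b x * 1_{d = a}` -/
noncomputable def ev (i : ℤ × ℤ) : HS (volume : Measure UnitAddCircle) :=
  Rf volume (fun x => fourier i.2 x) (Ush volume i.1 (Om volume))

theorem ev_ae (i : ℤ × ℤ) : ∀ᵐ z ∂(pm (volume : Measure UnitAddCircle)),
    ev i z = if z.2 = i.1 then fourier i.2 z.1 else 0 := by
  filter_upwards [mulOp_ae ((bm_fourier i.2).comp measurable_fst) (Ush volume i.1 (Om volume)),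
    compOp_ae (Act.mpU (μ := (volume : Measure UnitAddCircle)) i.1) (Om volume),
    (Act.mpU (μ := (volume : Measure UnitAddCircle)) i.1).quasiMeasurePreserving.ae
      (Om_ae (μ := (volume : Measure UnitAddCircle)))] with z h1 h2 h3
  rw [ev, Rf, h1, Ush, h2, h3]
  by_cases h0 : z.2 = i.1 <;> simp only [h0, sub_eq_zero, if_true, if_false, mul_one, mul_zero]

theorem inner_ev (ζ : HS (volume : Measure UnitAddCircle)) (i : ℤ × ℤ) :
    ⟪ζ, ev i⟫_ℂ = ∫ x : UnitAddCircle, fourier i.2 x * conj (ζ (x, i.1)) := by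
  rw [ev, (rot 0).Ush_Om, (rot 0).inner_Rf_Ur_Om (bm_fourier i.2)]

theorem integral_fourier_mul (j k : ℤ) :
    ∫ x : UnitAddCircle, fourier j x * conj (fourier k x) = if k = j then 1 else 0 := by
  have h := orthonormal_iff_ite.1 (orthonormal_fourier (T := 1)) k j
  rw [ContinuousMap.inner_toLp] at h
  rw [vol_eq]
  exact h

theorem orthonormal_ev : Orthonormal ℂ ev := by
  rw [orthonormal_iff_ite]
  intro i j
  rw [inner_ev]
  have h := ae_pm_iff.1 (ev_ae i) j.1
  by_cases h1 : j.1 = i.1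
  · have : ∫ x : UnitAddCircle, fourier j.2 x * conj (ev i (x, j.1))
        = ∫ x : UnitAddCircle, fourier j.2 x * conj (fourier i.2 x) := by
      refine integral_congr_ae ?_
      filter_upwards [h] with x hx
      rw [hx, if_pos h1]
    rw [this, integral_fourier_mul]
    have : i.2 = j.2 ↔ i = j := ⟨fun h2 => Prod.ext h1.symm h2, fun h2 => by rw [h2]⟩
    simp only [this]
  · have : ∫ x : UnitAddCircle, fourier j.2 x * conj (ev i (x, j.1))
        = ∫ _ : UnitAddCircle, (0 : ℂ) := by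
      refine integral_congr_ae ?_
      filter_upwards [h] with x hx
      rw [hx, if_neg h1, map_zero, mul_zero]
    rw [this, integral_zero, if_neg fun h2 => h1 (by rw [h2])]

theorem ae_zero_of_fourier {g : UnitAddCircle → ℂ} (hg : MemLp g 2 volume)
    (h : ∀ b : ℤ, ∫ x : UnitAddCircle, fourier b x * conj (g x) = 0) : g =ᵐ[volume] 0 := by
  rw [vol_eq] at hg h ⊢
  have h0 : hg.toLp g = 0 := by
    have : fourierBasis.repr (hg.toLp g) = 0 := by
      ext b
      rw [fourierBasis_repr, fourierCoeff_congr_ae hg.coeFn_toLp, fourierCoeff]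
      have := congrArg conj (h b)
      rw [← integral_conj, map_zero] at this
      simp only [map_mul, Complex.conj_conj, ← fourier_neg] at this
      exact this
    exact fourierBasis.repr.injective (by rw [this, map_zero])
  have := hg.coeFn_toLp
  rw [h0] at this
  exact this.symm.trans (Lp.coeFn_zero ℂ 2 _)

theorem orth_ev : (Submodule.span ℂ (Set.range ev))ᗮ = ⊥ := by
  rw [eq_bot_iff]
  intro ζ hζ
  rw [Submodule.mem_bot]
  have h : ∀ i, ⟪ζ, ev i⟫_ℂ = 0 := fun i =>
    Submodule.inner_left_of_mem_orthogonal (Submodule.subset_span (Set.mem_range_self i)) hζ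
  refine Lp.ext ?_
  have h2 : ∀ᵐ z ∂(pm (volume : Measure UnitAddCircle)), ζ z = 0 :=
    ae_pm_iff.2 fun d => ae_zero_of_fourier (memLp_slice ζ d) fun b => by
      rw [← h (d, b), inner_ev]
  filter_upwards [h2, Lp.coeFn_zero ℂ 2 (pm (volume : Measure UnitAddCircle))] with z h3 h4
  rw [h3, h4]; rfl

/-- the Hilbert basis of `L²(𝕋 × ℤ)` -/
noncomputable def hb : HilbertBasis (ℤ × ℤ) ℂ (HS (volume : Measure UnitAddCircle)) :=
  HilbertBasis.mkOfOrthogonalEqBot orthonormal_ev orth_ev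

theorem hb_apply (i : ℤ × ℤ) : hb i = ev i := by
  rw [hb, HilbertBasis.coe_mkOfOrthogonalEqBot]

theorem ext_ev {A B : HS (volume : Measure UnitAddCircle) →L[ℂ] HS (volume : Measure UnitAddCircle)}
    (h : ∀ i, A (ev i) = B (ev i)) : A = B := by
  refine ContinuousLinearMap.ext_on (s := Set.range hb) ?_ ?_
  · rw [Submodule.dense_iff_topologicalClosure_eq_top]; exact hb.dense_span
  · rintro _ ⟨i, rfl⟩
    rw [hb_apply]; exact h i

/-- the conjugation -/
noncomputable def Ph : (lp (fun _ : ℤ × ℤ => ℂ) 2 →L[ℂ] lp (fun _ : ℤ × ℤ => ℂ) 2) ≃⋆ₐ[ℂ]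
    (HS (volume : Measure UnitAddCircle) →L[ℂ] HS (volume : Measure UnitAddCircle)) :=
  hb.repr.symm.conjStarAlgEquiv

theorem Ph_ev (A : lp (fun _ : ℤ × ℤ => ℂ) 2 →L[ℂ] lp (fun _ : ℤ × ℤ => ℂ) 2) (i : ℤ × ℤ) :
    Ph A (ev i) = hb.repr.symm (A (lp.single 2 i (1 : ℂ))) := by
  rw [Ph, LinearIsometryEquiv.conjStarAlgEquiv_apply_apply, LinearIsometryEquiv.symm_symm,
    ← hb_apply, hb.repr_self]

theorem Ush_ev (a b : ℤ) : Ush volume 1 (ev (a, b)) = ev (a + 1, b) := by
  refine Lp.ext ?_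
  filter_upwards [compOp_ae (Act.mpU (μ := (volume : Measure UnitAddCircle)) 1) (ev (a, b)),
    (Act.mpU (μ := (volume : Measure UnitAddCircle)) 1).quasiMeasurePreserving.ae (ev_ae (a, b)),
    ev_ae (a + 1, b)] with z h1 h2 h3
  rw [Ush, h1, h2, h3]
  simp only [sub_eq_iff_eq_add]

theorem Lf_ev (θ : ℝ) (a b : ℤ) : (rot θ).Lf (fun x => fourier 1 x) (ev (a, b)) =
    Complex.exp (2 * Real.pi * Complex.I * θ * a) • ev (a, b + 1) := by
  refine Lp.ext ?_
  filter_upwards [mulOp_ae ((rot θ).bmL (bm_fourier 1)) (ev (a, b)), ev_ae (a, b),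
    ev_ae (a, b + 1),
    Lp.coeFn_smul (Complex.exp (2 * Real.pi * Complex.I * θ * a)) (ev (a, b + 1))]
    with z h1 h2 h3 h4
  rw [Act.Lf, h1, h2, h4, Pi.smul_apply, h3]
  by_cases h0 : z.2 = a
  · simp only [h0, if_true, smul_eq_mul, rot_σ]
    have e1 : fourier 1 (z.1 + (((a : ℝ) * θ : ℝ) : UnitAddCircle)) =
        fourier 1 z.1 * fourier 1 (((a : ℝ) * θ : ℝ) : UnitAddCircle) := by
      simp only [fourier_one, AddCircle.toCircle_add, Circle.coe_mul]
    rw [e1, fourier_add, fourier_coe_apply]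
    have e2 : (2 * Real.pi * Complex.I * ((1 : ℤ) : ℂ) * (((a : ℝ) * θ : ℝ) : ℂ) / ((1 : ℝ) : ℂ))
        = 2 * Real.pi * Complex.I * θ * a := by
      push_cast; ring
    rw [e2]; ring
  · simp only [h0, if_false, mul_zero, smul_zero]

end Transfer

open Transfer in
/-- The functions `e (a,b) (x,d) = fourier b x * 1_{d = a}` form a Hilbert basis of `L²(𝕋 × ℤ)`
(orthonormal; complete because if `g ⟂ e (a,b)` for all `b` then `g (·, a) ∈ L²(𝕋)` has vanishing Fourier
coefficients; `volume = haarAddCircle` for `T = 1`).  Let `Wm = (basis.repr).symm` and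
`Φ = Wm.conjStarAlgEquiv`.  On basis vectors (hence everywhere, by density and continuity)
`Φ U` is `g ↦ g (x, d-1)` and `Φ V` is multiplication by `fourier 1 (σ d x)`, because
`exp (2πiθa) * fourier (b+1) x = fourier 1 (x + aθ) * fourier b x`.
For `cfc`: `π : C(𝕋, ℂ) →⋆ₐ B(H)`, `π φ =` multiplication by `φ (σ d x)`, is a continuous star algebra
hom, so `Φ (cfc F V) = cfc F (π (fourier 1)) = π (cfc F (fourier 1)) = π (F ∘ fourier 1)`
(`StarAlgHom.map_cfc`, also for the evaluation characters of `C(𝕋, ℂ)`, and `cfc_algebraMap`).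
An operator `R` with one of the a.e. formulas of `InN` commutes with `Φ U`, `Φ V` and their adjoints
(`Φ U`, `Φ V` are unitary, so commuting with them is enough), so `Φ.symm R` is in the centralizer of
`{U, V} ∪ star '' {U, V}` and commutes with `p`. -/
theorem transfer (θ : ℝ) (F : ℂ → ℝ) (hF : Continuous F)
    (U V : lp (fun _ : ℤ × ℤ => ℂ) 2 →L[ℂ] lp (fun _ : ℤ × ℤ => ℂ) 2) (h : IsRotationPair θ U V) :
    ∃ Φ : (lp (fun _ : ℤ × ℤ => ℂ) 2 →L[ℂ] lp (fun _ : ℤ × ℤ => ℂ) 2) ≃⋆ₐ[ℂ]
        (HS (volume : Measure UnitAddCircle) →L[ℂ] HS (volume : Measure UnitAddCircle)),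
      (rot θ).IsShift (fun x => F (fourier 1 x)) (Φ (U * cfc (fun z : ℂ => (F z : ℂ)) V)) ∧
      ∀ p ∈ vonNeumannGenerated {U, V}, (rot θ).InN (Φ p) := by
  have hU : Ph U = Ush volume 1 := ext_ev fun i => by
    obtain ⟨a, b⟩ := i
    rw [Ph_ev, h.1, hb.repr_symm_single, hb_apply, Ush_ev]
  have hV : Ph V = (rot θ).Lf (fun x => fourier 1 x) := ext_ev fun i => by
    obtain ⟨a, b⟩ := i
    rw [Ph_ev, h.2, map_smul, hb.repr_symm_single, hb_apply, Lf_ev]
  have hn : IsStarNormal (Ph V) := by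
    rw [hV]; exact isStarNormal_mulOp ((rot θ).bmL (bm_fourier 1))
  have hnV : IsStarNormal V := by
    have := hn.star_comm_self
    refine ⟨EquivLike.injective Ph ?_⟩
    rw [map_mul, map_mul, map_star]
    exact this
  have hFc : Continuous fun z : ℂ => (F z : ℂ) := Complex.continuous_ofReal.comp hF
  have hcfc : Ph (cfc (fun z : ℂ => (F z : ℂ)) V) =
      (rot θ).Lf fun x => ((F (fourier 1 x) : ℝ) : ℂ) := by
    have := StarAlgHomClass.map_cfc (R := ℂ) (S := ℂ) Ph (fun z : ℂ => (F z : ℂ)) V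
      hFc.continuousOn (StarAlgEquiv.isometry Ph).continuous hnV hn
    rw [← (rot θ).cfc_Lf (bm_fourier 1) hFc, ← hV]
    exact this
  have hbm : BM fun x : UnitAddCircle => F (fourier 1 x) := by
    obtain ⟨h1, C, hC⟩ := (bm_fourier 1).continuous_comp hFc
    exact ⟨(hF.comp (fourier 1).continuous).measurable, C, fun x => by simpa using hC x⟩
  refine ⟨Ph, ?_, fun p hp => (rot θ).InN_of_mem_M ?_⟩
  · rw [map_mul, hU, hcfc]
    exact (rot θ).isShift hbm
  · rw [Act.mem_M]
    intro s hs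
    have key : ∀ a, Ph a ∈ (rot θ).M → a * Ph.symm s = Ph.symm s * a := fun a ha =>
      EquivLike.injective Ph (by
        rw [map_mul, map_mul, StarAlgEquiv.apply_symm_apply]
        exact ((rot θ).mem_M.1 ha s hs).symm)
    have hUm : Ph U ∈ (rot θ).M := by rw [hU]; exact (rot θ).Ush_mem 1
    have hVm : Ph V ∈ (rot θ).M := by rw [hV]; exact (rot θ).Lf_mem (bm_fourier 1)
    have hc : Ph.symm s ∈ Set.centralizer (({U, V} : Set _) ∪ star '' {U, V}) := by
      rintro a ((rfl | rfl) | ⟨_, rfl | rfl, rfl⟩)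
      · exact key _ hUm
      · exact key _ hVm
      · exact key _ (by rw [map_star]; exact star_mem hUm)
      · exact key _ (by rw [map_star]; exact star_mem hVm)
    have := congrArg Ph (hp _ hc)
    rwa [map_mul, map_mul, StarAlgEquiv.apply_symm_apply] at this

end Crest.Agent.R113
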