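import Crest.Agent.R113.DefsL

/-!
# R113 — the continuous weight
-/

set_option autoImplicit false

namespace Crest.Agent.R113

open MeasureTheory Filter Topology

/-- partial sums of the costs -/
noncomputable def weightS : ℕ → ℝ
  | 0 => 0
  | k + 1 => weightS k + (k + 1) * (100 ^ k + (weightS k + 8 * 100 ^ (10 * k))) ^ 2

/-- the costs -/
noncomputable def weightC (k : ℕ) : ℝ := (k + 1) * (100 ^ k + (weightS k + 8 * 100 ^ (10 * k))) ^ 2

theorem weightC_nonneg (k : ℕ) : 0 ≤ weightC k := by unfold weightC; positivity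

theorem sum_weightC (k : ℕ) : ∑ i ∈ Finset.range k, weightC i = weightS k := by
  induction k with
  | zero => rfl
  | succ k ih => rw [Finset.sum_range_succ, ih]; rfl

theorem weightS_nonneg (k : ℕ) : 0 ≤ weightS k := by
  rw [← sum_weightC]
  exact Finset.sum_nonneg fun i _ => weightC_nonneg i

theorem weightC_mono : Monotone weightC := by
  refine monotone_nat_of_le_succ fun k => ?_
  have h1 : weightS k ≤ weightS (k + 1) := le_add_of_nonneg_right (weightC_nonneg k)
  have h2 := weightS_nonneg k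
  unfold weightC
  push_cast
  gcongr <;> norm_num

theorem weight_bump (D : Set UnitAddCircle) (hD : MeasurableSet D) {δ ε : ℝ} (hε : 0 < ε)
    (hDδ : D ⊆ Metric.ball 0 δ) :
    ∃ (Z : Set UnitAddCircle) (ψ : C(UnitAddCircle, ℝ)), MeasurableSet Z ∧
      volume Z ≤ ENNReal.ofReal ε ∧ (∀ x, ψ x ∈ Set.Icc (0 : ℝ) 1) ∧
      (∀ x, δ ≤ ‖x‖ → ψ x = 0) ∧ (∀ x, x ∉ Z → x ∉ D → ψ x = 0) ∧
      ∀ x, x ∉ Z → x ∈ D → ψ x = 1 := by
  have hε' : ENNReal.ofReal (ε / 2) ≠ 0 := by simpa using hε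
  obtain ⟨U, hDU, hU, -, hU'⟩ := hD.exists_isOpen_sdiff_lt (μ := volume) (measure_ne_top _ _) hε'
  obtain ⟨K, hKD, hK, hK'⟩ := hD.exists_isClosed_sdiff_lt (μ := volume) (measure_ne_top _ _) hε'
  have hO : IsOpen (U ∩ Metric.ball 0 δ) := hU.inter Metric.isOpen_ball
  obtain ⟨ψ, h0, h1, h01⟩ := exists_continuous_zero_one_of_isClosed hO.isClosed_compl hK
    (Set.disjoint_compl_left_iff_subset.2 fun x hx => ⟨hDU (hKD hx), hDδ (hKD hx)⟩)
  refine ⟨(U \ D) ∪ (D \ K), ψ, (hU.measurableSet.diff hD).union (hD.diff hK.measurableSet),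
    ?_, h01, fun x hx => h0 fun h => ?_, fun x hx hxD => h0 fun h => hx (Or.inl ⟨h.1, hxD⟩),
    fun x hx hxD => h1 (by_contra fun h => hx (Or.inr ⟨hxD, h⟩))⟩
  · refine (measure_union_le _ _).trans ((add_le_add hU'.le hK'.le).trans (le_of_eq ?_))
    rw [← ENNReal.ofReal_add (by positivity) (by positivity), add_halves]
  · exact absurd (mem_ball_zero_iff.1 h.2) (not_lt.2 hx)

/-- Let `h k = 8 * 100 ^ (10 k)`, define `c` by recursion: `G k = ∑_{i<k} c i + h k`,
`c k = (k + 1) * (100 ^ k + G k) ^ 2` (monotone).  By regularity choose compact `K i ⊆ D i` and open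
`O i` with `D i ⊆ O i ⊆ ball 0 (δ i)`, `μ (O i \ K i) ≤ 100^(-10 i) / 4`, and by Urysohn a continuous
`ψ i : T → [0,1]`, `= 1` on `K i`, `= 0` off `O i`.  Put `f x = exp (-(∑' i, c i * ψ i x) - 1 / ‖x‖)` for
`x ≠ 0` and `f 0 = 0`.  The sum is locally finite off `0` (`δ → 0`), and `f x ≤ exp (-1 / ‖x‖) → 0` at
`0`.  `E k = ⋃_{i ≥ k} (O i \ K i) ∪ closedBall 0 (1 / h k)` (`AddCircle.volume_closedBall`),
`low k x = ∑_{i<k} c i * ψ i x + min (1 / ‖x‖) (h k)`. -/
theorem exists_costs (D : ℕ → Set UnitAddCircle) (hD : ∀ i, MeasurableSet (D i)) (δ : ℕ → ℝ)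
    (hδ : Tendsto δ atTop (𝓝 0)) (hDδ : ∀ i, D i ⊆ Metric.ball 0 (δ i)) :
    ∃ f : C(UnitAddCircle, ℝ), (∀ x, f x = 0 ↔ x = 0) ∧
      (∀ x, x ≠ 0 → f x ≤ Real.exp (-(1 / ‖x‖))) ∧ Nonempty (Costs volume D f) := by
  classical
  choose Z ψ hZ hZμ h01 hψδ hψ0 hψ1 using fun i : ℕ =>
    weight_bump (D i) (hD i) (ε := (1 / 2) ^ i / 4 / 100 ^ (10 * i)) (by positivity) (hDδ i)
  set g : UnitAddCircle → ℝ := fun x => ∑' i, weightC i * ψ i x with hg
  have hloc : ∀ r : ℝ, 0 < r → ∃ N : ℕ, ∀ x : UnitAddCircle, r ≤ ‖x‖ → ∀ i ∉ Finset.range N,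
      weightC i * ψ i x = 0 := fun r hr => by
    obtain ⟨N, hN⟩ := eventually_atTop.1 (hδ.eventually (ge_mem_nhds hr))
    exact ⟨N, fun x hx i hi => by
      rw [hψδ i x ((hN i (by simpa using hi)).trans hx), mul_zero]⟩
  have hterm : ∀ i x, 0 ≤ weightC i * ψ i x := fun i x => mul_nonneg (weightC_nonneg i) (h01 i x).1
  have hg0 : ∀ x, 0 ≤ g x := fun x => tsum_nonneg fun i => hterm i x
  set f : UnitAddCircle → ℝ := fun x => if x = 0 then 0 else Real.exp (-(g x + 1 / ‖x‖)) with hf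
  have hfle : ∀ x, x ≠ 0 → f x ≤ Real.exp (-(1 / ‖x‖)) := fun x hx => by
    simp only [hf, if_neg hx]
    exact Real.exp_le_exp.2 (by linarith [hg0 x])
  have hf0 : ∀ x, 0 ≤ f x := fun x => by
    simp only [hf]
    split_ifs
    · exact le_rfl
    · exact (Real.exp_pos _).le
  have hfn : ∀ x, f x ≤ ‖x‖ := fun x => by
    by_cases hx : x = 0
    · simp [hf, hx]
    · refine (hfle x hx).trans ?_
      have hp : 0 < ‖x‖ := norm_pos_iff.2 hx
      rw [Real.exp_neg, inv_le_comm₀ (Real.exp_pos _) hp, ← one_div]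
      linarith [Real.add_one_le_exp (1 / ‖x‖)]
  have hcont : Continuous f := by
    rw [continuous_iff_continuousAt]
    intro x₀
    by_cases hx₀ : x₀ = 0
    · subst hx₀
      have : f 0 = 0 := by simp [hf]
      rw [ContinuousAt, this]
      exact squeeze_zero hf0 hfn (by simpa using (continuous_norm.tendsto (0 : UnitAddCircle)))
    · have hp : 0 < ‖x₀‖ := norm_pos_iff.2 hx₀
      obtain ⟨N, hN⟩ := hloc (‖x₀‖ / 2) (by positivity)
      have hev : ∀ᶠ x in 𝓝 x₀, ‖x₀‖ / 2 ≤ ‖x‖ :=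
        continuous_norm.continuousAt.eventually (le_mem_nhds (by linarith))
      have h2 : ContinuousAt (fun x : UnitAddCircle =>
          Real.exp (-(∑ i ∈ Finset.range N, weightC i * ψ i x + 1 / ‖x‖))) x₀ := by
        refine Real.continuous_exp.continuousAt.comp (ContinuousAt.neg (ContinuousAt.add ?_ ?_))
        · exact (continuous_finsetSum _ fun i _ =>
            continuous_const.mul (ψ i).continuous).continuousAt
        · exact continuousAt_const.div continuous_norm.continuousAt hp.ne'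
      refine h2.congr (hev.mono fun x hx => ?_)
      have hx0 : x ≠ 0 := norm_pos_iff.1 (by linarith)
      simp only [hf, if_neg hx0, hg, tsum_eq_sum (hN x hx)]
  have hbig : ∀ (k : ℕ) (x : UnitAddCircle),
      x ∉ Metric.closedBall (0 : UnitAddCircle) (1 / (8 * 100 ^ (10 * k))) →
      x ≠ 0 ∧ 1 / ‖x‖ ≤ 8 * 100 ^ (10 * k) := fun k x hx => by
    rw [mem_closedBall_zero_iff, not_le] at hx
    have hp : 0 < ‖x‖ := lt_trans (by positivity) hx
    exact ⟨norm_pos_iff.1 hp, (one_div_le hp (by positivity)).2 hx.le⟩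
  refine ⟨⟨f, hcont⟩, fun x => ⟨fun h => by_contra fun hx => ?_, fun h => by simp [hf, h]⟩, hfle,
    ⟨⟨fun k => (⋃ i, Z (i + k)) ∪ Metric.closedBall 0 (1 / (8 * 100 ^ (10 * k))),
      fun k x => ∑ i ∈ Finset.range k, weightC i * ψ i x + min (1 / ‖x‖) (8 * 100 ^ (10 * k)),
      fun k => weightS k + 8 * 100 ^ (10 * k), weightC,
      fun k => (MeasurableSet.iUnion fun i => hZ _).union measurableSet_closedBall, fun k => ?_,
      fun k => ?_, fun k => ?_, fun k x => ⟨?_, ?_⟩, weightC_mono, fun k => ?_,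
      fun x => ⟨hf0 x, ?_⟩, fun k x hx hxD => ?_, fun k x hx hxD => ?_⟩⟩⟩
  · simp only [ContinuousMap.coe_mk, hf, if_neg hx] at h
    exact (Real.exp_pos _).ne' h
  · exact (Finset.measurable_sum _ fun i _ => (ψ i).continuous.measurable.const_mul _).add
      ((measurable_const.div measurable_norm).min measurable_const)
  · refine ENNReal.toReal_le_of_le_ofReal (by positivity) ?_
    have h1 : volume (⋃ i, Z (i + k)) ≤ ENNReal.ofReal (1 / 2 / 100 ^ (10 * k)) := by
      have hs : HasSum (fun i : ℕ => (1 / 2 : ℝ) ^ i / 4 / 100 ^ (10 * k))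
          (2 / 4 / 100 ^ (10 * k)) := (hasSum_geometric_two.div_const 4).div_const _
      refine (measure_iUnion_le _).trans ((ENNReal.tsum_le_tsum fun i => (hZμ (i + k)).trans
        (ENNReal.ofReal_le_ofReal (q := (1 / 2 : ℝ) ^ i / 4 / 100 ^ (10 * k)) ?_)).trans ?_)
      · have : (1 / 2 : ℝ) ^ (i + k) ≤ (1 / 2) ^ i :=
          pow_le_pow_of_le_one (by norm_num) (by norm_num) (by omega)
        gcongr
        · norm_num
        · omega
      · rw [← ENNReal.ofReal_tsum_of_nonneg (fun i => by positivity) hs.summable, hs.tsum_eq]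
        exact ENNReal.ofReal_le_ofReal (le_of_eq (by ring))
    refine (measure_union_le _ _).trans ((add_le_add h1 (AddCircle.volume_closedBall 1 _).le).trans ?_)
    rw [← ENNReal.ofReal_add (by positivity) (by positivity)]
    refine ENNReal.ofReal_le_ofReal ((add_le_add le_rfl (min_le_right _ _)).trans ?_)
    have : (0 : ℝ) < 1 / 100 ^ (10 * k) := by positivity
    have e1 : (1 / 2 / 100 ^ (10 * k) : ℝ) = 1 / 2 * (1 / 100 ^ (10 * k)) := by ring
    have e2 : (2 * (1 / (8 * 100 ^ (10 * k))) : ℝ) = 1 / 4 * (1 / 100 ^ (10 * k)) := by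
      field_simp; ring
    linarith
  · have := weightS_nonneg k
    positivity
  · exact add_nonneg (Finset.sum_nonneg fun i _ => hterm i x) (le_min (by positivity) (by positivity))
  · refine add_le_add ?_ (min_le_right _ _)
    rw [← sum_weightC]
    exact Finset.sum_le_sum fun i _ => mul_le_of_le_one_right (weightC_nonneg i) (h01 i x).2
  · unfold weightC
    gcongr
    linarith
  · by_cases hx : x = 0
    · simp [hf, hx]
    · exact (hfle x hx).trans (Real.exp_le_one_iff.2 (neg_nonpos.2 (by positivity)))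
  · rw [Set.mem_union, not_or, Set.mem_iUnion, not_exists] at hx
    obtain ⟨hx0, hx1⟩ := hbig k x hx.2
    simp only [ContinuousMap.coe_mk, hf, if_neg hx0, min_eq_left hx1, hg]
    rw [tsum_eq_sum (s := Finset.range k) fun i hi => ?_]
    have hi' : k ≤ i := by simpa using hi
    have := hx.1 (i - k)
    rw [Nat.sub_add_cancel hi'] at this
    rw [hψ0 i x this fun h => hxD ⟨i, hi', h⟩, mul_zero]
  · rw [Set.mem_union, not_or, Set.mem_iUnion, not_exists] at hx
    obtain ⟨hx0, -⟩ := hbig k x hx.2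
    obtain ⟨i, hi, hxi⟩ := hxD
    have := hx.1 (i - k)
    rw [Nat.sub_add_cancel hi] at this
    obtain ⟨N, hN⟩ := hloc ‖x‖ (norm_pos_iff.2 hx0)
    have hsum : Summable (fun i => weightC i * ψ i x) := summable_of_ne_finset_zero (hN x le_rfl)
    have h1 := hsum.le_tsum i fun j _ => hterm j x
    rw [hψ1 i x this hxi, mul_one] at h1
    simp only [ContinuousMap.coe_mk, hf, if_neg hx0]
    refine Real.exp_le_exp.2 (neg_le_neg ?_)
    have h2 : 0 ≤ 1 / ‖x‖ := by positivity
    linarith [weightC_mono hi]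

end Crest.Agent.R113
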