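import Crest.Agent.R113.LevMain
import Crest.Agent.R113.Circle
import Crest.Agent.R113.Weight
import Crest.Agent.R113.Transfer
import Crest.Agent.R113.OpMain

/-!
# R113 — assembly of S0149
-/

set_option autoImplicit false

namespace Crest.Agent.R113

open MeasureTheory Crest.AnalysisR.RotationRep

theorem fourier_one_eq (x : UnitAddCircle) :
    (fourier 1 x : ℂ) = (AddCircle.toCircle x : ℂ) := by
  rw [fourier_one]

theorem isClosedEmbedding_fourier_one :
    Topology.IsClosedEmbedding (fun x : UnitAddCircle => (fourier 1 x : ℂ)) := by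
  refine Continuous.isClosedEmbedding (fourier 1).continuous ?_
  intro x y h
  simp only [fourier_one_eq] at h
  exact AddCircle.injective_toCircle one_ne_zero (Subtype.ext h)

theorem exists_fourier_one_eq {z : ℂ} (hz : ‖z‖ = 1) : ∃ x : UnitAddCircle, fourier 1 x = z := by
  refine ⟨((Complex.arg z / (2 * Real.pi) : ℝ) : UnitAddCircle), ?_⟩
  rw [fourier_coe_apply]
  have h := Complex.norm_mul_exp_arg_mul_I z
  rw [hz, Complex.ofReal_one, one_mul] at h
  refine Eq.trans ?_ h
  congr 1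
  have : (Real.pi : ℂ) ≠ 0 := by exact_mod_cast Real.pi_ne_zero
  push_cast
  field_simp

theorem fourier_one_coe (t : ℝ) :
    (fourier 1 ((t / (2 * Real.pi) : ℝ) : UnitAddCircle) : ℂ) = Complex.exp ((t : ℂ) * Complex.I) := by
  rw [fourier_coe_apply]
  congr 1
  have : (Real.pi : ℂ) ≠ 0 := by exact_mod_cast Real.pi_ne_zero
  push_cast
  field_simp

theorem lintegral_inv_eq_top :
    ∫⁻ t in Set.Ioc (0 : ℝ) 1, ENNReal.ofReal t⁻¹ = ⊤ := by
  by_contra h
  have hi : IntegrableOn (fun t : ℝ => t⁻¹) (Set.Ioc 0 1) := by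
    refine ⟨measurable_inv.aestronglyMeasurable, ?_⟩
    rw [hasFiniteIntegral_iff_ofReal]
    · exact lt_top_iff_ne_top.2 h
    · filter_upwards [ae_restrict_mem measurableSet_Ioc] with t ht
      exact inv_nonneg.2 ht.1.le
  have := (intervalIntegrable_iff_integrableOn_Ioc_of_le zero_le_one).2 hi
  rw [intervalIntegrable_inv_iff] at this
  simp at this

theorem s0149 (θ : ℝ) (hθ₁ : Irrational θ) :
    ∃ f : ℂ → ℝ, Continuous f ∧ (∀ z : ℂ, ‖z‖ = 1 → 0 ≤ f z ∧ f z ≤ 1) ∧
      (∀ z : ℂ, ‖z‖ = 1 → (f z = 0 ↔ z = 1)) ∧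
      (∫⁻ t in Set.Ioc (0 : ℝ) (2 * Real.pi),
          ENNReal.ofReal (- Real.log (f (Complex.exp ((t : ℂ) * Complex.I)))) = ⊤) ∧
      ∀ U V : lp (fun _ : ℤ × ℤ => ℂ) 2 →L[ℂ] lp (fun _ : ℤ × ℤ => ℂ) 2, IsRotationPair θ U V →
        ∀ p : lp (fun _ : ℤ × ℤ => ℂ) 2 →L[ℂ] lp (fun _ : ℤ × ℤ => ℂ) 2,
          p ∈ vonNeumannGenerated {U, V} → IsStarProjection p →
          (1 - p) * (U * cfc (fun z : ℂ => (f z : ℂ)) V) * p = 0 → p = 0 ∨ p = 1 := by
  obtain ⟨Cl, δ, hδ, hD⟩ := exists_clocks hθ₁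
  obtain ⟨f, hf0, hfle, ⟨Co⟩⟩ := exists_costs Cl.D Cl.mD δ hδ hD
  obtain ⟨F, hF⟩ := ContinuousMap.exists_extension isClosedEmbedding_fourier_one f
  have hFf : ∀ x : UnitAddCircle, F (fourier 1 x) = f x := fun x => by
    have := congrArg (fun g : C(UnitAddCircle, ℝ) => g x) hF
    simpa using this
  have h1 : (fourier 1 (0 : UnitAddCircle) : ℂ) = 1 := fourier_eval_zero 1
  refine ⟨F, F.continuous, fun z hz => ?_, fun z hz => ?_, ?_, fun U V hUV p hp hpp hinv => ?_⟩
  · obtain ⟨x, rfl⟩ := exists_fourier_one_eq hz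
    rw [hFf]; exact Co.f01 x
  · obtain ⟨x, rfl⟩ := exists_fourier_one_eq hz
    rw [hFf, hf0]
    constructor
    · rintro rfl; exact h1
    · intro h
      exact isClosedEmbedding_fourier_one.injective (h.trans h1.symm)
  · rw [eq_top_iff, ← lintegral_inv_eq_top]
    have hpi := Real.pi_gt_three
    calc ∫⁻ t in Set.Ioc (0 : ℝ) 1, ENNReal.ofReal t⁻¹
        ≤ ∫⁻ t in Set.Ioc (0 : ℝ) 1,
          ENNReal.ofReal (- Real.log (F (Complex.exp ((t : ℂ) * Complex.I)))) := by
          refine setLIntegral_mono' measurableSet_Ioc fun t ht => ENNReal.ofReal_le_ofReal ?_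
          rw [← fourier_one_coe, hFf]
          set s : ℝ := t / (2 * Real.pi) with hs
          have hs0 : 0 < s := div_pos ht.1 (by positivity)
          have hst : s ≤ t := div_le_self ht.1.le (by linarith)
          have hs1 : s ≤ 1 / 2 := by
            rw [hs, div_le_iff₀ (by positivity)]; linarith [ht.2]
          have hn : ‖(s : UnitAddCircle)‖ = s := by
            rw [(AddCircle.norm_coe_eq_abs_iff (1 : ℝ) one_ne_zero).2, abs_of_pos hs0]
            rw [abs_of_pos hs0, abs_one]; exact hs1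
          have hne : (s : UnitAddCircle) ≠ 0 := by
            intro h; rw [h, norm_zero] at hn; exact hs0.ne hn
          have hpos : 0 < f s := lt_of_le_of_ne (Co.f01 _).1 fun h => hne ((hf0 _).1 h.symm)
          have h2 := Real.log_le_log hpos (hfle _ hne)
          rw [Real.log_exp, hn] at h2
          have h3 : t⁻¹ ≤ 1 / s := by rw [one_div]; exact inv_anti₀ hs0 hst
          linarith
      _ ≤ _ := lintegral_mono_set (Set.Ioc_subset_Ioc_right (by linarith))
  · obtain ⟨Φ, hT, hN⟩ := transfer θ F F.continuous U V hUV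
    have hfe : (fun x : UnitAddCircle => F (fourier 1 x)) = f := funext hFf
    rw [hfe] at hT
    have hp' : IsStarProjection (Φ p) := hpp.map Φ
    have hinv' : (1 - Φ p) * Φ (U * cfc (fun z : ℂ => (F z : ℂ)) V) * Φ p = 0 := by
      rw [← map_one Φ, ← map_sub, ← map_mul, ← map_mul, hinv, map_zero]
    rcases main_op (rot θ) (ergodic_rot hθ₁) f f.continuous.measurable Co.f01
      (design_of_levels Cl Co) _ hT (Φ p) (hN p hp) hp' hinv' with h | h
    · left; exact Φ.injective (h.trans (map_zero Φ).symm)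
    · right; exact Φ.injective (h.trans (map_one Φ).symm)

end Crest.Agent.R113
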